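import Mathlib

/-!
# Row 114, part A (S0152): definitions and blueprint

Under CH we build a Banach space `X` without separable infinite-dimensional quotient.

* `Γ` is a well-order of type `ω₁`; `Coh Γ` is a coherent family of finite sets (a `ρ`-function),
  `Par` are the numerical parameters, `Setup Γ` bundles both.
* `KK S` is the norming set (rational finitely supported functionals): `KK S (some j) g` means
  "`g` has weight `j`", `KK S none h` means "`h` is in the norming set".  Operations: the weighted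
  operation `(1/m j) ∑_{c<d} λ_c E_c h_c`, `d ≤ n j`, and the `D`-operation
  `(1/2) ∑_{q<N} λ_q s_q` on segments `s_q` of special chains with pairwise disjoint weights `≥ N`.
* `nrm S x = sup |h (E x)|` on `Γ →₀ 𝕜`; `Mdl S 𝕜 W` says that `W` is a completion.
* Files `Basic1`, `Basic2`, `Blocks`, `Hoeff`, `Pattern`, `RIS`, `StepB`, `Pair` prove: in every block
  source (`Src`) and for every weight `j ≥ 1` there are far-out pairs `(u, g)` with `nrm u ≤ 8`,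
  `g` of weight `j` supported in the range of `u`, `re g(u) ≥ 1/3`.
* Files `Space`, `Reduce`, `Tail`, `Stage`, `Dual`, `Final` run a recursion of length `ω₁` producing
  functionals `xx η = e_η* + ∑ n, G^η n` on `W`; `X` is their closed span, `X* = W`, and every
  infinite-dimensional subspace of `W` contains a bounded sequence that is null on the `xx ζ`, `ζ < η`,
  but not on `xx η`.
-/

set_option autoImplicit false

open Filter Topology Finset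

namespace Crest.Agent.R114

/-- A coherent family of finite sets (`F p β = {α ≤ β | ρ(α, β) ≤ p}`). -/
structure Coh (Γ : Type) [LinearOrder Γ] where
  F : ℕ → Γ → Finset Γ
  self : ∀ p β, β ∈ F p β
  le : ∀ p β α, α ∈ F p β → α ≤ β
  mono : ∀ p q β, p ≤ q → F p β ⊆ F q β
  ex : ∀ α β, α ≤ β → ∃ p, α ∈ F p β
  coh : ∀ p α β, α ∈ F p β → ∀ ξ, ξ ∈ F p α ↔ ξ ∈ F p β ∧ ξ ≤ α

/-- Numerical parameters. -/
structure Par where
  m : ℕ → ℕ
  k : ℕ → ℕ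
  n : ℕ → ℕ
  n_eq : ∀ j, n j = k j ^ (m j + 2)
  m0 : 64 ≤ m 0
  msucc : ∀ i, (i + 2) ^ 2 * m i ≤ m (i + 1)
  kn : ∀ j, n j ≤ k (j + 1)
  k12 : ∀ j, 12 * m (j + 1) ≤ k j
  hB : ∀ j, m (j + 1) * (2 * (n j + 2) ^ m (j + 1)) ≤ n (j + 1)
  hH : ∀ j, (4 * (4 * (m (j + 1) : ℝ) * n j + 1) * ((n j : ℝ) + 1) ^ 2) <
    Real.exp ((k j : ℝ) / (2 * (m (j + 1) : ℝ) ^ 2))

structure Setup (Γ : Type) [LinearOrder Γ] extends Coh Γ, Par

section
variable {Γ : Type} [LinearOrder Γ]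

open Classical in
/-- restriction of a finitely supported function to a set -/
noncomputable def res {R : Type} [Zero R] (E : Set Γ) (x : Γ →₀ R) : Γ →₀ R :=
  x.filter (· ∈ E)

/-- position of `α` in the tree order `F p` -/
def pos (S : Setup Γ) (p : ℕ) (α : Γ) : ℕ := (S.F p α).card

/-- all pairs of `A` have `ρ ≤ p` -/
def CohOn (S : Setup Γ) (p : ℕ) (A : Set Γ) : Prop :=
  ∀ α ∈ A, ∀ β ∈ A, α ≤ β → α ∈ S.F p β

/-- an injective coding of histories -/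
noncomputable def enc : List ((ℕ →₀ ℚ) × ℕ) → ℕ :=
  Classical.choose (exists_injective_nat (List ((ℕ →₀ ℚ) × ℕ)))

theorem enc_injective : Function.Injective enc :=
  Classical.choose_spec (exists_injective_nat (List ((ℕ →₀ ℚ) × ℕ)))

/-- the special weight attached to `p` and a history -/
noncomputable def code (p : ℕ) (L : List ((ℕ →₀ ℚ) × ℕ)) : ℕ := 2 * Nat.pair p (enc L) + 2

/-- raw chain data: functionals, weights, `ρ`-levels -/
structure Chn (Γ : Type) where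
  g : ℕ → Γ →₀ ℚ
  w : ℕ → ℕ
  p : ℕ → ℕ

/-- the history coded by the `n`-th weight -/
noncomputable def Chn.hist (S : Setup Γ) (c : Chn Γ) (n : ℕ) : List ((ℕ →₀ ℚ) × ℕ) :=
  (List.range n).map fun i => ((c.g i).mapDomain (pos S (c.p n)), c.w i)

/-- the special-chain condition at position `n` -/
def Chn.At (S : Setup Γ) (c : Chn Γ) (n : ℕ) : Prop :=
  c.w n = code (c.p n) (c.hist S n) ∧ (∀ i < n, c.w i ≤ c.p n) ∧
    CohOn S (c.p n) {α | ∃ i < n, α ∈ (c.g i).support}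

/-- the segment `∑_{a ≤ n < b} g n` -/
noncomputable def Chn.seg (c : Chn Γ) (a b : ℕ) : Γ →₀ ℚ := ∑ n ∈ Ico a b, c.g n

/-- `E 0 < E 1 < … < E (d-1)` are successive intervals -/
def SuccInt (E : ℕ → Set Γ) (d : ℕ) : Prop :=
  (∀ c < d, (E c).OrdConnected) ∧ ∀ c c', c < c' → c' < d → ∀ α ∈ E c, ∀ β ∈ E c', α < β

/-- The norming set. -/
inductive KK (S : Setup Γ) : Option ℕ → (Γ →₀ ℚ) → Prop
  | unit (γ : Γ) : KK S none (Finsupp.single γ 1)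
  | wop (j d : ℕ) (E : ℕ → Set Γ) (h : ℕ → Γ →₀ ℚ) (lam : ℕ → ℚ) (hd : d ≤ S.n j)
      (hE : SuccInt E d) (hl : ∀ c < d, |lam c| ≤ 1) (hh : ∀ c < d, KK S none (h c)) :
      KK S (some j) ((S.m j : ℚ)⁻¹ • ∑ c ∈ range d, lam c • res (E c) (h c))
  | up (j : ℕ) (h : Γ →₀ ℚ) (hh : KK S (some j) h) : KK S none h
  | dop (N : ℕ) (c : ℕ → Chn Γ) (a b : ℕ → ℕ) (lam : ℕ → ℚ)
      (hc : ∀ q < N, ∀ n < b q, (c q).At S n)
      (hk : ∀ q < N, ∀ n < b q, KK S (some ((c q).w n)) ((c q).g n))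
      (hN : ∀ q < N, ∀ n ∈ Ico (a q) (b q), N ≤ (c q).w n)
      (hd : ∀ q < N, ∀ q' < N, q ≠ q' → ∀ n ∈ Ico (a q) (b q), ∀ n' ∈ Ico (a q') (b q'),
        (c q).w n ≠ (c q').w n')
      (hl : ∀ q < N, |lam q| ≤ 1) :
      KK S none ((2 : ℚ)⁻¹ • ∑ q ∈ range N, lam q • (c q).seg (a q) (b q))

/-- the first `b` terms of `c` form a special chain of weighted functionals -/
def Valid (S : Setup Γ) (c : Chn Γ) (b : ℕ) : Prop :=
  ∀ n < b, c.At S n ∧ KK S (some (c.w n)) (c.g n)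

variable {𝕜 : Type} [RCLike 𝕜]

/-- action of a rational functional -/
noncomputable def act (h : Γ →₀ ℚ) (x : Γ →₀ 𝕜) : 𝕜 := h.sum fun γ q => (q : 𝕜) * x γ

/-- the `ℓ₁` norm -/
noncomputable def l1 (x : Γ →₀ 𝕜) : ℝ := x.sum fun _ z => ‖z‖

/-- the norm -/
noncomputable def nrm (S : Setup Γ) (x : Γ →₀ 𝕜) : ℝ :=
  sSup {r : ℝ | ∃ (h : Γ →₀ ℚ) (E : Set Γ), KK S none h ∧ E.OrdConnected ∧ r = ‖act h (res E x)‖}

/-- `supp x < supp y` -/
def Blt (x y : Γ →₀ 𝕜) : Prop := ∀ α ∈ x.support, ∀ β ∈ y.support, α < β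

/-- successive blocks -/
def Succ (x : ℕ → Γ →₀ 𝕜) : Prop := ∀ i j, i < j → Blt (x i) (x j)

/-- the range (order-convex hull of the support) -/
def rng (x : Γ →₀ 𝕜) : Set Γ := {γ | ∃ α ∈ x.support, ∃ β ∈ x.support, α ≤ γ ∧ γ ≤ β}

open Classical in
/-- number of `r < n` such that `E` meets the support of `x r` -/
noncomputable def cnt (x : ℕ → Γ →₀ 𝕜) (n : ℕ) (E : Set Γ) : ℕ :=
  ((range n).filter fun r => ∃ α ∈ (x r).support, α ∈ E).card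

/-- A source of far-out blocks (the tails of the span of a block sequence). -/
structure Src (Γ : Type) [LinearOrder Γ] (𝕜 : Type) [RCLike 𝕜] where
  B : ℕ → Submodule 𝕜 (Γ →₀ 𝕜)
  anti : Antitone B
  ne : ∀ n, ∃ v ∈ B n, v ≠ 0
  far : ∀ v ∈ B 0, ∃ n, ∀ u ∈ B n, Blt v u

/-- functionals of weight `j ≤ t` act on `x` by at most `2 / m j` -/
def R1 (S : Setup Γ) (t : ℕ) (x : Γ →₀ 𝕜) : Prop :=
  ∀ j ≤ t, ∀ g, KK S (some j) g → ∀ E : Set Γ, E.OrdConnected →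
    ‖act g (res E x)‖ ≤ 2 / (S.m j : ℝ)

/-- segments with all weights `> t` act on `x` by at most `η` -/
def R2 (S : Setup Γ) (t : ℕ) (x : Γ →₀ 𝕜) (η : ℝ) : Prop :=
  ∀ (c : Chn Γ) (a b : ℕ), Valid S c b → (∀ n ∈ Ico a b, t < c.w n) →
    ∀ E : Set Γ, E.OrdConnected → ‖act (c.seg a b) (res E x)‖ ≤ η

/-- The system of vectors to which random signs are applied (`M = m (t+2)`, `δ = 1/M`). -/
structure Sys (S : Setup Γ) (t : ℕ) (v : ℕ → Γ →₀ 𝕜) (j : ℕ → ℕ) : Prop where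
  succ : Succ v
  lo : ∀ l, 1 / 2 ≤ nrm S (v l)
  hi : ∀ l, nrm S (v l) ≤ 1
  r1 : ∀ l, R1 S (j l) (v l)
  mono : StrictMono j
  j0 : 4 * S.m (t + 2) ≤ j 0
  coh : ∀ l, CohOn S (j l) {α | ∃ l' < l, α ∈ (v l').support}
  l1 : ∀ l, 2 * l1 (v l) / (S.m (j (l + 1)) : ℝ) ≤ 1 / (S.m (t + 2) : ℝ)

/-- the part of the segment `[a, b)` with weights in the `l`-th window `(j l, j (l+1)]` -/
noncomputable def win (c : Chn Γ) (j : ℕ → ℕ) (a b l : ℕ) : Γ →₀ ℚ :=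
  ∑ n ∈ (Ico a b).filter (fun n => j l < c.w n ∧ c.w n ≤ j (l + 1)), c.g n

/-- `W` is a completion of `(Γ →₀ 𝕜, nrm S)`, with interval projections and coordinates. -/
structure Mdl (S : Setup Γ) (𝕜 : Type) [RCLike 𝕜] (W : Type) [NormedAddCommGroup W]
    [NormedSpace 𝕜 W] where
  emb : (Γ →₀ 𝕜) →ₗ[𝕜] W
  norm_emb : ∀ x, ‖emb x‖ = nrm S x
  dense : DenseRange emb
  P : Set Γ → W →L[𝕜] W
  P_emb : ∀ E : Set Γ, E.OrdConnected → ∀ x, P E (emb x) = emb (res E x)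
  ev : Γ → StrongDual 𝕜 W
  ev_emb : ∀ γ x, ev γ (emb x) = x γ

variable {S : Setup Γ} {W : Type} [NormedAddCommGroup W] [NormedSpace 𝕜 W]

/-- a rational functional as an element of `W*` -/
noncomputable def Mdl.actW (M : Mdl S 𝕜 W) (h : Γ →₀ ℚ) : StrongDual 𝕜 W :=
  ∑ γ ∈ h.support, ((h γ : ℚ) : 𝕜) • M.ev γ

/-- data chosen at one stage of the recursion: a chain, tail starts, tail functionals -/
structure Dat (Γ : Type) (𝕜 : Type) [RCLike 𝕜] (W : Type) [NormedAddCommGroup W]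
    [NormedSpace 𝕜 W] where
  c : Chn Γ
  κ : ℕ → ℕ
  T : ℕ → StrongDual 𝕜 W

/-- the `K`-tails of the branches `ζ ∈ Z` have pairwise disjoint weights, all `≥ #Z` -/
def Adm (f : Γ → Dat Γ 𝕜 W) (Z : Finset Γ) (K : ℕ) : Prop :=
  (∀ ζ ∈ Z, ∀ n, K ≤ n → Z.card ≤ (f ζ).c.w n) ∧
  ∀ ζ ∈ Z, ∀ ζ' ∈ Z, ζ ≠ ζ' → ∀ n n', K ≤ n → K ≤ n' → (f ζ).c.w n ≠ (f ζ').c.w n'

/-- the correction term `∑_ζ g(ζ) T_ζ^{(K)}` -/
noncomputable def corr (f : Γ → Dat Γ 𝕜 W) (g : Γ →₀ ℚ) (K : ℕ) : StrongDual 𝕜 W :=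
  ∑ ζ ∈ g.support, ((g ζ : ℚ) : 𝕜) • (f ζ).T K

/-- the `n`-th term of the branch -/
noncomputable def GG (M : Mdl S 𝕜 W) (f : Γ → Dat Γ 𝕜 W) (c : Chn Γ) (κ : ℕ → ℕ) (n : ℕ) :
    StrongDual 𝕜 W :=
  M.actW (c.g n) + corr f (c.g n) (κ n)

/-- the combinatorial invariants of stage `η` -/
structure Pre (S : Setup Γ) (f : Γ → Dat Γ 𝕜 W) (η : Γ) (c : Chn Γ) (κ : ℕ → ℕ) : Prop where
  valid : ∀ b, Valid S c b
  supp : ∀ n, ∀ γ ∈ (c.g n).support, γ < η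
  ptfin : ∀ γ, {n | γ ∈ (c.g n).support}.Finite
  sep : ∀ ζ < η, ∀ᶠ n in atTop, c.p n ≠ (f ζ).c.p n
  adm : ∀ n, Adm f (c.g n).support (κ n)

/-- all invariants of stage `η` -/
structure Inv (M : Mdl S 𝕜 W) (f : Γ → Dat Γ 𝕜 W) (η : Γ) (d : Dat Γ 𝕜 W) : Prop where
  pre : Pre S f η d.c d.κ
  spec : ∀ (k : ℕ) (x : Γ →₀ 𝕜),
    HasSum (fun n => GG M f d.c d.κ (n + k) (M.emb x)) (d.T k (M.emb x))

/-- the generators of the space `X` -/
noncomputable def xx (M : Mdl S 𝕜 W) (f : Γ → Dat Γ 𝕜 W) (ζ : Γ) : StrongDual 𝕜 W :=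
  M.ev ζ + (f ζ).T 0

/-- span of the generators indexed by `L` -/
noncomputable def XX (M : Mdl S 𝕜 W) (f : Γ → Dat Γ 𝕜 W) (L : Set Γ) :
    Submodule 𝕜 (StrongDual 𝕜 W) :=
  Submodule.span 𝕜 (xx M f '' L)

/-- the task at stage `η` for the subspace `N` is done -/
def Done (M : Mdl S 𝕜 W) (f : Γ → Dat Γ 𝕜 W) (η : Γ) (d : Dat Γ 𝕜 W) (N : Submodule 𝕜 W) :
    Prop :=
  ∃ (u : ℕ → W) (C : ℝ), (∀ k, u k ∈ N) ∧ (∀ k, ‖u k‖ ≤ C) ∧
    (∀ ζ < η, ∀ᶠ k in atTop, xx M f ζ (u k) = 0) ∧ ∀ k, 1 / 8 ≤ ‖(M.ev η + d.T 0) (u k)‖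

end

end Crest.Agent.R114
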