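import Crest.Agent.R114.Blocks

/-! # R114/AV : `ℓ₁^k`-averages; dependent choice in a block source. -/

set_option autoImplicit false
open Filter Topology Finset

namespace Crest.Agent.R114

variable {Γ : Type} [LinearOrder Γ] {𝕜 : Type} [RCLike 𝕜] {S : Setup Γ}

/-- Averages of `k ≥ n t` blocks (`KK.some_act_le`, `norm_act_sum_le` with `a = 1`, `sum_cnt_le`, `d ≤ n j ≤ n t ≤ k`). -/
theorem R1_of_avg {z : ℕ → Γ →₀ 𝕜} (h : Succ z) (k t : ℕ) (hk : S.n t ≤ k)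
    (hz : ∀ i < k, nrm S (z i) ≤ 1) : R1 S t ((k : 𝕜)⁻¹ • ∑ i ∈ range k, z i) := by
  intro j hj g hg E hE
  obtain ⟨d, E', h', hd, hE', hh, hle⟩ := hg.some_act_le (𝕜 := 𝕜)
  have hk0 : 0 < k := lt_of_lt_of_le (S.toPar.n_pos t) hk
  have hk0' : (0 : ℝ) < k := by exact_mod_cast hk0
  have hdk : d ≤ k := hd.trans ((S.toPar.n_mono hj).trans hk)
  have h1 : ∀ c ∈ range d, ‖act (h' c) (res (E' c ∩ E) ((k : 𝕜)⁻¹ • ∑ i ∈ range k, z i))‖ ≤
      (k : ℝ)⁻¹ * (cnt z k (E' c ∩ E) : ℝ) := fun c hc => by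
    rw [res_smul, act_smul, norm_mul, norm_inv, RCLike.norm_natCast]
    refine mul_le_mul_of_nonneg_left ?_ (by positivity)
    have := norm_act_sum_le (h' c) z k (E' c ∩ E) 1 fun r hr =>
      (act_le_nrm (hh c (mem_range.mp hc)) ((hE'.1 c (mem_range.mp hc)).inter hE) (z r)).trans
        (hz r hr)
    rwa [one_mul] at this
  have h2 : (∑ c ∈ range d, (cnt z k (E' c ∩ E) : ℝ)) ≤ 2 * k := by
    have a1 := sum_cnt_le h k d E' hE' E
    have a2 := cnt_le z k E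
    have a3 : ∑ c ∈ range d, cnt z k (E' c ∩ E) ≤ 2 * k := by omega
    exact_mod_cast a3
  have h3 : ∑ c ∈ range d,
      ‖act (h' c) (res (E' c ∩ E) ((k : 𝕜)⁻¹ • ∑ i ∈ range k, z i))‖ ≤ 2 := by
    refine (sum_le_sum h1).trans ?_
    rw [← mul_sum, inv_mul_le_iff₀ hk0']
    linarith
  have hm := S.toPar.m_pos j
  refine (hle E _).trans ((mul_le_mul_of_nonneg_left h3 (by positivity)).trans (le_of_eq ?_))
  ring

/-- The averaging lemma.  Recipe: `k = k (t+1)`, `d = m (t+1) + 2`, `m = m (t+1)`, `n (t+1) = k^d`, `4 m < 2^d`.  Let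
`A s` be the maximum of `nrm (∑_{Ico (i k^s) ((i+1) k^s)} y)` over `i < k^(d-s)`.  `A 0 ≤ 1`, `A s ≥ k^s / (4m)`
(`Succ.sum_nrm_le`).  If `A (s+1) ≤ (k/2) A s` for all `s < d` then `k^d/(4m) ≤ (k/2)^d`, absurd.  Take such an `s`, a
maximizing interval at level `s+1`, `c = 1/(k A s)`; it splits in `k` intervals of level `s` (`Succ.blocks`,
`R1_of_avg` with `z i = (A s)⁻¹ • ∑ …`, `kn`). -/
theorem av (S : Setup Γ) (t : ℕ) {y : ℕ → Γ →₀ 𝕜} (hs : Succ y) (h1 : ∀ l, 1 / 2 ≤ nrm S (y l))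
    (h2 : ∀ l, nrm S (y l) ≤ 1) :
    ∃ (a b : ℕ) (c : ℝ), a + S.k (t + 1) ≤ b ∧ b ≤ S.n (t + 1) ∧ 0 < c ∧
      c * ((b : ℝ) - a) ≤ 4 * S.m (t + 1) ∧
      1 / 2 ≤ nrm S ((c : 𝕜) • ∑ l ∈ Ico a b, y l) ∧ nrm S ((c : 𝕜) • ∑ l ∈ Ico a b, y l) ≤ 1 ∧
      R1 S t ((c : 𝕜) • ∑ l ∈ Ico a b, y l) := by
  set k := S.k (t + 1) with hk
  set m := S.m (t + 1) with hm
  have hn : S.n (t + 1) = k ^ (m + 2) := S.n_eq (t + 1)
  have hk2 : 2 ≤ k := S.toPar.k_ge (t + 1)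
  have hk0 : (0 : ℝ) < k := by exact_mod_cast (by omega : 0 < k)
  have hm0 : (0 : ℝ) < m := S.toPar.m_pos (t + 1)
  set f : ℕ → ℕ → ℝ := fun s i => nrm S (∑ l ∈ Ico (i * k ^ s) ((i + 1) * k ^ s), y l) with hf
  have hmax : ∀ s : ℕ, ∃ i ∈ range (k ^ (m + 2 - s)), ∀ i' ∈ range (k ^ (m + 2 - s)),
      f s i' ≤ f s i := fun s =>
    exists_max_image _ _ ⟨0, mem_range.mpr (pow_pos (by omega) _)⟩
  choose I hI1 hI2 using hmax
  have hlow : ∀ s ≤ m + 2, ∀ i, (k : ℝ) ^ s ≤ 4 * m * f s i := fun s hs' i => by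
    have e : (i + 1) * k ^ s - i * k ^ s = k ^ s := by rw [add_mul, one_mul, Nat.add_sub_cancel_left]
    have a1 := hs.sum_nrm_le (S := S) (t + 1) (i * k ^ s) ((i + 1) * k ^ s) (by
      rw [e, hn]; exact Nat.pow_le_pow_right (by omega) hs')
    have a2 := card_nsmul_le_sum (Ico (i * k ^ s) ((i + 1) * k ^ s)) (fun l => nrm S (y l)) (1 / 2)
      fun l _ => h1 l
    rw [Nat.card_Ico, e, nsmul_eq_mul] at a2
    push_cast at a2
    have a3 : (k : ℝ) ^ s * (1 / 2) ≤ 2 * m * f s i := a2.trans a1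
    linarith
  have hex : ∃ s < m + 2, (k : ℝ) / 2 * f s (I s) < f (s + 1) (I (s + 1)) := by
    by_contra hc
    push Not at hc
    have a1 : ∀ s ≤ m + 2, f s (I s) ≤ ((k : ℝ) / 2) ^ s := by
      intro s
      induction s with
      | zero =>
        intro _
        simp only [hf, pow_zero, mul_one, Nat.Ico_succ_singleton, sum_singleton]
        exact h2 _
      | succ s ih =>
        intro hs'
        refine (hc s (by omega)).trans ?_
        rw [pow_succ']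
        exact mul_le_mul_of_nonneg_left (ih (by omega)) (by positivity)
    have a2 := (hlow (m + 2) le_rfl (I (m + 2))).trans
      (mul_le_mul_of_nonneg_left (a1 (m + 2) le_rfl) (by positivity))
    rw [div_pow, ← mul_div_assoc, le_div_iff₀ (by positivity), mul_comm] at a2
    have a3 := le_of_mul_le_mul_right a2 (by positivity)
    have a4 : m < 2 ^ m := Nat.lt_two_pow_self
    have a5 : (m : ℝ) < 2 ^ m := by exact_mod_cast a4
    rw [pow_add] at a3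
    linarith
  obtain ⟨s, hs', hlt⟩ := hex
  set A := f s (I s) with hA
  have hA1 : (k : ℝ) ^ s ≤ 4 * m * A := hlow s hs'.le _
  have hA0 : 0 < A := by
    by_contra hc
    have a1 : 4 * m * A ≤ 0 := mul_nonpos_of_nonneg_of_nonpos (by positivity) (not_lt.mp hc)
    have a2 : (0 : ℝ) < (k : ℝ) ^ s := by positivity
    linarith
  set i₀ := I (s + 1) with hi₀
  have hi₀lt : i₀ < k ^ (m + 2 - (s + 1)) := mem_range.mp (hI1 (s + 1))
  set N : ℕ → ℕ := fun i => (i₀ * k + i) * k ^ s with hN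
  have hNm : Monotone N := fun i j hij => Nat.mul_le_mul_right _ (by omega)
  have hN0 : N 0 = i₀ * k ^ (s + 1) := by simp only [hN]; ring
  have hNk : N k = (i₀ + 1) * k ^ (s + 1) := by simp only [hN]; ring
  have hsplit : ∀ r : ℕ, ∑ i ∈ range r, ∑ l ∈ Ico (N i) (N (i + 1)), y l =
      ∑ l ∈ Ico (N 0) (N r), y l := by
    intro r
    induction r with
    | zero => simp
    | succ r ih =>
      rw [sum_range_succ, ih, sum_Ico_consecutive _ (hNm (Nat.zero_le r)) (hNm (Nat.le_succ r))]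
  have hblk : ∀ i < k, nrm S (∑ l ∈ Ico (N i) (N (i + 1)), y l) ≤ A := fun i hi => by
    refine hI2 s (i₀ * k + i) (mem_range.mpr ?_)
    have e : k ^ (m + 2 - s) = k ^ (m + 2 - (s + 1)) * k := by
      rw [← pow_succ]; congr 1; omega
    rw [e]
    calc i₀ * k + i < i₀ * k + k := by omega
      _ = (i₀ + 1) * k := by ring
      _ ≤ _ := Nat.mul_le_mul_right _ hi₀lt
  have hc0 : 0 < 1 / (k * A) := by positivity
  have hnorm : nrm S (((1 / (k * A) : ℝ) : 𝕜) •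
      ∑ l ∈ Ico (i₀ * k ^ (s + 1)) ((i₀ + 1) * k ^ (s + 1)), y l) =
      1 / (k * A) * f (s + 1) i₀ := by
    rw [nrm_smul, RCLike.norm_ofReal, abs_of_pos hc0]
  refine ⟨i₀ * k ^ (s + 1), (i₀ + 1) * k ^ (s + 1), 1 / (k * A), ?_, ?_, hc0, ?_, ?_, ?_, ?_⟩
  · have : k ≤ k ^ (s + 1) := Nat.le_self_pow (by omega) k
    rw [add_mul, one_mul]; omega
  · have e : k ^ (m + 2) = k ^ (m + 2 - (s + 1)) * k ^ (s + 1) := by
      rw [← pow_add]; congr 1; omega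
    rw [hn, e]
    exact Nat.mul_le_mul_right _ hi₀lt
  · push_cast
    have e : 1 / (k * A) * (((i₀ : ℝ) + 1) * k ^ (s + 1) - i₀ * k ^ (s + 1)) = k ^ s / A := by
      field_simp; ring
    rw [e, div_le_iff₀ hA0]
    exact hA1
  · rw [hnorm, one_div_mul_eq_div, le_div_iff₀ (by positivity)]
    linarith
  · rw [hnorm, one_div_mul_eq_div, div_le_one (by positivity)]
    have a1 : f (s + 1) i₀ = nrm S (∑ i ∈ range k, ∑ l ∈ Ico (N i) (N (i + 1)), y l) := by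
      rw [hsplit, hN0, hNk]
    rw [a1]
    refine (nrm_sum_le S _ _).trans ((sum_le_card_nsmul _ _ A fun i hi =>
      hblk i (mem_range.mp hi)).trans (le_of_eq ?_))
    rw [card_range, nsmul_eq_mul]
  · have a1 := R1_of_avg (S := S) ((hs.blocks hNm).smul fun _ => ((A⁻¹ : ℝ) : 𝕜)) k t (S.kn t)
      fun i hi => by
        rw [nrm_smul, RCLike.norm_ofReal, abs_of_pos (inv_pos.mpr hA0), inv_mul_le_iff₀ hA0,
          mul_one]
        exact hblk i hi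
    rw [← smul_sum, hsplit, hN0, hNk, smul_smul] at a1
    have e : ((1 / (k * A) : ℝ) : 𝕜) = (k : 𝕜)⁻¹ * ((A⁻¹ : ℝ) : 𝕜) := by
      push_cast
      rw [one_div, mul_inv]
    rw [e]
    exact a1

/-- Dependent choice in a block source.  Recipe: recursion on histories `L : List _`; given `L`, pick `n ≥ n₀` above the
`far`-indices of all `z ∈ L` with `z.1 ∈ B 0`. -/
theorem Src.exists_seq (𝓑 : Src Γ 𝕜) {A : Type} (n₀ : ℕ)
    (Q : List ((Γ →₀ 𝕜) × A) → (Γ →₀ 𝕜) × A → Prop)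
    (h : ∀ L n, ∃ y : (Γ →₀ 𝕜) × A, y.1 ∈ 𝓑.B n ∧ Q L y) :
    ∃ (v : ℕ → Γ →₀ 𝕜) (a : ℕ → A), (∀ r, v r ∈ 𝓑.B n₀) ∧ Succ v ∧
      ∀ r, Q ((List.range r).map fun i => (v i, a i)) (v r, a r) := by
  have hfar : ∀ v : Γ →₀ 𝕜, ∃ n, v ∈ 𝓑.B 0 → ∀ u ∈ 𝓑.B n, Blt v u := fun v => by
    by_cases hv : v ∈ 𝓑.B 0
    · obtain ⟨n, hn⟩ := 𝓑.far v hv
      exact ⟨n, fun _ => hn⟩
    · exact ⟨0, fun a => absurd a hv⟩
  choose far hfar using hfar
  choose Y hY1 hY2 using h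
  let N : List ((Γ →₀ 𝕜) × A) → ℕ := fun L => n₀ + (L.map fun z => far z.1).sum
  let hist : ℕ → List ((Γ →₀ 𝕜) × A) := fun r => Nat.rec [] (fun _ L => L ++ [Y L (N L)]) r
  let w : ℕ → (Γ →₀ 𝕜) × A := fun r => Y (hist r) (N (hist r))
  have hh : ∀ r, hist r = (List.range r).map w := by
    intro r
    induction r with
    | zero => rfl
    | succ r ih =>
      rw [List.range_succ, List.map_append, ← ih]
      rfl
  have hw : ∀ r, (w r).1 ∈ 𝓑.B (N (hist r)) := fun r => hY1 _ _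
  refine ⟨fun r => (w r).1, fun r => (w r).2, fun r => 𝓑.anti (Nat.le_add_right _ _) (hw r),
    fun i j hij => hfar _ (𝓑.anti (Nat.zero_le _) (hw i)) _ (𝓑.anti ?_ (hw j)), fun r => ?_⟩
  · refine le_trans (List.single_le_sum (fun _ _ => Nat.zero_le _) _ ?_) (Nat.le_add_left _ _)
    refine List.mem_map.mpr ⟨w i, ?_, rfl⟩
    rw [hh]
    exact List.mem_map.mpr ⟨i, List.mem_range.mpr hij, rfl⟩
  · rw [← hh r]
    exact hY2 _ _

/-- far-out `ℓ₁`-averages (normalized successive sequence in `B n`, then `av`) -/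
theorem Src.exists_R1 (S : Setup Γ) (𝓑 : Src Γ 𝕜) (t n : ℕ) :
    ∃ v ∈ 𝓑.B n, 1 / 2 ≤ nrm S v ∧ nrm S v ≤ 1 ∧ R1 S t v := by
  obtain ⟨y, a₀, hy1, hy2, hy3⟩ := 𝓑.exists_seq (A := Unit) n (fun _ y => nrm S y.1 = 1)
    fun _ n' => by
      obtain ⟨v, hv, hv0⟩ := 𝓑.ne n'
      have hp := nrm_pos S hv0
      refine ⟨((((nrm S v)⁻¹ : ℝ) : 𝕜) • v, ()), (𝓑.B n').smul_mem _ hv, ?_⟩
      show nrm S ((((nrm S v)⁻¹ : ℝ) : 𝕜) • v) = 1
      rw [nrm_smul, RCLike.norm_ofReal, abs_of_pos (inv_pos.mpr hp), inv_mul_cancel₀ hp.ne']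
  obtain ⟨a, b, c, -, -, -, -, h1, h2, h3⟩ := av S t hy2
    (fun l => by have : nrm S (y l) = 1 := hy3 l; rw [this]; norm_num)
    (fun l => le_of_eq (hy3 l))
  exact ⟨_, (𝓑.B n).smul_mem _ (sum_mem fun l _ => hy1 l), h1, h2, h3⟩

end Crest.Agent.R114
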