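import Crest.Agent.R114.BDefs

/-! # R114/Adj : surjectivity from a lower bound on the adjoint; `SQ` from a surjection. -/

set_option autoImplicit false
open Filter Topology Finset

namespace Crest.Agent.R114

variable {𝕜 : Type} [RCLike 𝕜] {X : Type*} [NormedAddCommGroup X] [NormedSpace 𝕜 X]
  {V : Type*} [NormedAddCommGroup V] [NormedSpace 𝕜 V]

/-- Approximate preimages.  Recipe: let `D = closure (T '' closedBall 0 (C * ‖v‖))`, closed and
convex (over `ℝ`: `letI := NormedSpace.restrictScalars ℝ 𝕜 V`, `IsScalarTower.restrictScalars`).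
If `v ∉ D`, `RCLike.geometric_hahn_banach_point_closed` (or `..._closed_point`) gives `ψ` and `u` with
`re (ψ (T x)) < u < re (ψ v)` for `‖x‖ ≤ C‖v‖`; rotating `x` by a unimodular scalar gives
`‖ψ (T x)‖ < u`, so `C ‖v‖ ‖ψ ∘ T‖ ≤ u < ‖ψ‖ ‖v‖ ≤ C ‖ψ ∘ T‖ ‖v‖`, absurd. -/
theorem approx_of_adjoint (T : X →L[𝕜] V) (C : ℝ) (hC : 0 < C)
    (h : ∀ ψ : StrongDual 𝕜 V, ‖ψ‖ ≤ C * ‖ψ.comp T‖) (v : V) (ε : ℝ) (hε : 0 < ε) :
    ∃ x : X, ‖x‖ ≤ C * ‖v‖ ∧ ‖T x - v‖ ≤ ε := by
  letI := NormedSpace.restrictScalars ℝ 𝕜 V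
  haveI := IsScalarTower.restrictScalars ℝ 𝕜 V
  letI := NormedSpace.restrictScalars ℝ 𝕜 X
  haveI := IsScalarTower.restrictScalars ℝ 𝕜 X
  set r := C * ‖v‖ with hr
  have hr0 : 0 ≤ r := by positivity
  have hmem : v ∈ closure (T '' Metric.closedBall 0 r) := by
    by_contra hv
    have hconv : Convex ℝ (closure (T '' Metric.closedBall (0 : X) r)) :=
      ((convex_closedBall (0 : X) r).linear_image ((T.restrictScalars ℝ : X →L[ℝ] V) :
        X →ₗ[ℝ] V)).closure
    obtain ⟨ψ, u, h1, h2⟩ :=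
      RCLike.geometric_hahn_banach_closed_point (𝕜 := 𝕜) hconv isClosed_closure hv
    have h3 : ∀ x : X, ‖x‖ ≤ r → ‖ψ (T x)‖ < u := fun x hx => by
      obtain ⟨c, hc, hc'⟩ := RCLike.exists_norm_eq_mul_self (ψ (T x))
      have := h1 (T (c • x)) (subset_closure ⟨c • x, by
        rw [mem_closedBall_zero_iff, norm_smul, hc, one_mul]; exact hx, rfl⟩)
      rwa [map_smul, map_smul, smul_eq_mul, ← hc', RCLike.ofReal_re] at this
    have hu : 0 < u := by simpa using h3 0 (by simpa using hr0)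
    have h4 : u < ‖ψ‖ * ‖v‖ := h2.trans_le ((RCLike.re_le_norm _).trans (ψ.le_opNorm v))
    have hv0 : 0 < ‖v‖ := by
      rcases (norm_nonneg v).lt_or_eq with a | a
      · exact a
      · rw [← a, mul_zero] at h4; linarith
    have hr1 : 0 < r := by positivity
    have h5 : ‖ψ.comp T‖ ≤ u / r := by
      refine ContinuousLinearMap.opNorm_le_of_unit_norm (by positivity) fun x hx => ?_
      have := h3 ((r : 𝕜) • x) (by
        rw [norm_smul, hx, mul_one, RCLike.norm_ofReal, abs_of_pos hr1])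
      rw [map_smul, map_smul, norm_smul, RCLike.norm_ofReal, abs_of_pos hr1] at this
      rw [le_div_iff₀ hr1, mul_comm]
      exact this.le
    have h6 : ‖ψ‖ * ‖v‖ ≤ C * (u / r) * ‖v‖ :=
      mul_le_mul_of_nonneg_right ((h ψ).trans (mul_le_mul_of_nonneg_left h5 hC.le)) hv0.le
    have h7 : C * (u / r) * ‖v‖ = u := by rw [hr]; field_simp
    linarith
  obtain ⟨_, ⟨x, hx, rfl⟩, hd⟩ := Metric.mem_closure_iff.mp hmem ε hε
  refine ⟨x, mem_closedBall_zero_iff.mp hx, ?_⟩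
  rw [← dist_eq_norm, dist_comm]
  exact hd.le

/-- Successive approximation (as in `ContinuousLinearMap.exists_preimage_norm_le`): with
`ε = ‖v‖/2` define `v₀ = v`, `v_{n+1} = v_n - T x_n`, `‖v_n‖ ≤ 2^{-n}‖v‖`, `x = ∑ x_n`. -/
theorem surj_of_adjoint [CompleteSpace X] (T : X →L[𝕜] V) (C : ℝ) (hC : 0 < C)
    (h : ∀ ψ : StrongDual 𝕜 V, ‖ψ‖ ≤ C * ‖ψ.comp T‖) : Function.Surjective T := by
  have hC' : ∀ y : V, ∃ x : X, ‖x‖ ≤ C * ‖y‖ ∧ ‖y - T x‖ ≤ 1 / 2 * ‖y‖ := fun y => by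
    rcases eq_or_ne y 0 with rfl | hy
    · exact ⟨0, by simp, by simp⟩
    · obtain ⟨x, a, b⟩ := approx_of_adjoint T C hC h y (1 / 2 * ‖y‖)
        (by have := norm_pos_iff.mpr hy; positivity)
      exact ⟨x, a, by rwa [norm_sub_rev]⟩
  choose g hg hle using hC'
  intro y
  let k : V → V := fun y => y - T (g y)
  have hnle : ∀ n : ℕ, ‖k^[n] y‖ ≤ (1 / 2) ^ n * ‖y‖ := by
    intro n
    induction n with
    | zero => simp
    | succ n IH =>
      rw [Function.iterate_succ_apply']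
      refine le_trans (hle _) ?_
      rw [pow_succ', mul_assoc]
      gcongr
  let u : ℕ → X := fun n => g (k^[n] y)
  have ule : ∀ n, ‖u n‖ ≤ (1 / 2) ^ n * (C * ‖y‖) := fun n => by
    refine le_trans (hg _) ?_
    calc
      C * ‖k^[n] y‖ ≤ C * ((1 / 2) ^ n * ‖y‖) := by gcongr; exact hnle n
      _ = (1 / 2) ^ n * (C * ‖y‖) := by ring
  have sNu : Summable fun n => ‖u n‖ := by
    refine .of_nonneg_of_le (fun n => norm_nonneg _) ule ?_
    exact Summable.mul_right _ (summable_geometric_of_lt_one (by simp) (by norm_num))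
  have su : Summable u := sNu.of_norm
  have fsumeq : ∀ n : ℕ, T (∑ i ∈ Finset.range n, u i) = y - k^[n] y := by
    intro n
    induction n with
    | zero => simp
    | succ n IH => rw [sum_range_succ, map_add, IH, Function.iterate_succ_apply', sub_add]
  have L₁ : Tendsto (fun n => T (∑ i ∈ Finset.range n, u i)) atTop (𝓝 (T (tsum u))) :=
    (T.continuous.tendsto _).comp su.hasSum.tendsto_sum_nat
  simp only [fsumeq] at L₁
  have L₂ : Tendsto (fun n => y - k^[n] y) atTop (𝓝 (y - 0)) := by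
    refine tendsto_const_nhds.sub ?_
    rw [tendsto_iff_norm_sub_tendsto_zero]
    simp only [sub_zero]
    refine squeeze_zero (fun _ => norm_nonneg _) hnle ?_
    rw [← zero_mul ‖y‖]
    refine (tendsto_pow_atTop_nhds_zero_of_lt_one ?_ ?_).mul tendsto_const_nhds <;> norm_num
  exact ⟨tsum u, by simpa using tendsto_nhds_unique L₁ L₂⟩

/-- `M = ker T`; the induced map `X ⧸ ker T → V` is a continuous linear bijection of Banach spaces
(`Submodule.liftQ` + `LinearMap.mkContinuous`/`continuous_quot_lift`, `ContinuousLinearEquiv.ofBijective`),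
so `X ⧸ M` is separable and infinite-dimensional. -/
theorem SQ_of_surj [CompleteSpace X] [CompleteSpace V] [TopologicalSpace.SeparableSpace V]
    (hV : ¬ FiniteDimensional 𝕜 V) (T : X →L[𝕜] V) (hT : Function.Surjective T) : SQ 𝕜 X := by
  have hcl : IsClosed ((T.ker : Submodule 𝕜 X) : Set X) := T.isClosed_ker
  haveI := hcl
  let L : (X ⧸ T.ker) →L[𝕜] V := T.ker.liftQL T le_rfl
  have hLs : Function.Surjective L := fun y => by
    obtain ⟨x, rfl⟩ := hT y
    exact ⟨T.ker.mkQ x, rfl⟩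
  have hLi : Function.Injective L :=
    LinearMap.ker_eq_bot.mp (Submodule.ker_liftQ_eq_bot' _ _ rfl)
  refine ⟨T.ker, hcl, (L.isOpenMap hLs).separableSpace_of_injective hLi, fun hf => hV ?_⟩
  exact Module.Finite.of_surjective (L : (X ⧸ T.ker) →ₗ[𝕜] V) hLs

/-- The dual of an infinite-dimensional normed space contains a sequence with
infinite-dimensional span.  Recipe: if `StrongDual 𝕜 X` were finite-dimensional, so would be its dual,
and `NormedSpace.inclusionInDoubleDualLi` is injective; then take a linearly independent sequence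
(`exists_linearIndependent_of_not_finite`-style: `Basis.ofVectorSpace` has an infinite index type,
`Infinite.natEmbedding`). -/
theorem exists_seq_dual (hX : ¬ FiniteDimensional 𝕜 X) :
    ∃ g : ℕ → StrongDual 𝕜 X, ¬ FiniteDimensional 𝕜 (Submodule.span 𝕜 (Set.range g)) := by
  have h1 : ¬ FiniteDimensional 𝕜 (StrongDual 𝕜 X) := fun hf =>
    hX (FiniteDimensional.of_injective
      (NormedSpace.inclusionInDoubleDualLi 𝕜 (E := X)).toLinearMap
      (NormedSpace.inclusionInDoubleDualLi 𝕜 (E := X)).injective)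
  let b := Module.Basis.ofVectorSpace 𝕜 (StrongDual 𝕜 X)
  haveI : Infinite (Module.Basis.ofVectorSpaceIndex 𝕜 (StrongDual 𝕜 X)) := by
    by_contra hc
    haveI := not_infinite_iff_finite.mp hc
    exact h1 (Module.Finite.of_basis b)
  let e := Infinite.natEmbedding (Module.Basis.ofVectorSpaceIndex 𝕜 (StrongDual 𝕜 X))
  have hli : LinearIndependent 𝕜 (b ∘ e) := b.linearIndependent.comp e e.injective
  exact ⟨b ∘ e, Module.not_finite_of_infinite_basis (Module.Basis.span hli)⟩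

/-- A countable subset of the unit ball that `3`-norms the span of a sequence of functionals.
Recipe: the span is separable (`TopologicalSpace.IsSeparable.span` of a countable set); take a countable
`c` with span ⊆ closure c; for every `y` pick `x y` with `‖x y‖ ≤ 1`, `‖y‖ ≤ 2 ‖y (x y)‖`;
`S = x '' c ∪ {0}`; approximate `y ≠ 0` by `y' ∈ c` with `‖y - y'‖ ≤ ‖y‖/10`. -/
theorem exists_norming_set (g : ℕ → StrongDual 𝕜 X) :
    ∃ S : Set X, S.Countable ∧ (∀ s ∈ S, ‖s‖ ≤ 1) ∧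
      ∀ y ∈ Submodule.span 𝕜 (Set.range g), ∃ s ∈ S, ‖y‖ ≤ 3 * ‖y s‖ := by
  obtain ⟨c, hc, hsub⟩ : TopologicalSpace.IsSeparable
      (Submodule.span 𝕜 (Set.range g) : Set (StrongDual 𝕜 X)) :=
    (Set.countable_range g).isSeparable.span
  have h1 : ∀ y : StrongDual 𝕜 X, ∃ x : X, ‖x‖ ≤ 1 ∧ ‖y‖ ≤ 2 * ‖y x‖ := fun y => by
    rcases eq_or_ne y 0 with rfl | hy
    · exact ⟨0, by simp, by simp⟩
    · have hy' := norm_pos_iff.mpr hy
      obtain ⟨x, a, b⟩ := y.exists_lt_apply_of_lt_opNorm (r := ‖y‖ / 2) (by linarith)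
      exact ⟨x, a.le, by linarith⟩
  choose x hx1 hx2 using h1
  refine ⟨insert 0 (x '' c), (hc.image x).insert 0, ?_, fun y hy => ?_⟩
  · rintro s (rfl | ⟨y, -, rfl⟩)
    · simp
    · exact hx1 y
  · rcases eq_or_ne y 0 with rfl | hy0
    · exact ⟨0, Set.mem_insert _ _, by simp⟩
    · have hy' := norm_pos_iff.mpr hy0
      obtain ⟨z, hz, hd⟩ := Metric.mem_closure_iff.mp (hsub hy) (‖y‖ / 10) (by positivity)
      refine ⟨x z, Set.mem_insert_of_mem _ ⟨z, hz, rfl⟩, ?_⟩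
      rw [dist_eq_norm] at hd
      have a1 : ‖y‖ ≤ ‖z‖ + ‖y - z‖ := by
        have := norm_add_le z (y - z)
        rwa [add_sub_cancel] at this
      have a2 : ‖(y - z) (x z)‖ ≤ ‖y - z‖ :=
        ((y - z).le_opNorm _).trans (mul_le_of_le_one_right (norm_nonneg _) (hx1 z))
      have a3 : ‖z (x z)‖ ≤ ‖y (x z)‖ + ‖(y - z) (x z)‖ := by
        have := norm_sub_le (y (x z)) ((y - z) (x z))
        rwa [ContinuousLinearMap.sub_apply, sub_sub_cancel, ← ContinuousLinearMap.sub_apply]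
          at this
      have a4 := hx2 z
      linarith

/-- Pointwise limits of bounded sequences of functionals along an ultrafilter exist.
Recipe: for each `x` the values lie in the compact `closedBall 0 (B‖x‖)`, `IsCompact.ultrafilter_le_nhds'`;
the limit is linear by uniqueness of limits; `LinearMap.mkContinuous`. -/
theorem exists_ultralim (u : ℕ → StrongDual 𝕜 X) (B : ℝ) (hu : ∀ n, ‖u n‖ ≤ B)
    (𝒰 : Ultrafilter ℕ) :
    ∃ f : StrongDual 𝕜 X, ‖f‖ ≤ B ∧ ∀ x, Tendsto (fun n => u n x) 𝒰 (𝓝 (f x)) := by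
  have hB : 0 ≤ B := (norm_nonneg _).trans (hu 0)
  have h1 : ∀ x : X, ∃ z : 𝕜, ‖z‖ ≤ B * ‖x‖ ∧ Tendsto (fun n => u n x) 𝒰 (𝓝 z) := fun x => by
    obtain ⟨z, hz, hl⟩ := (isCompact_closedBall (0 : 𝕜) (B * ‖x‖)).ultrafilter_le_nhds'
      (𝒰.map fun n => u n x) (Ultrafilter.mem_map.mpr (Filter.univ_mem' fun n =>
        mem_closedBall_zero_iff.mpr (((u n).le_opNorm x).trans
          (mul_le_mul_of_nonneg_right (hu n) (norm_nonneg x)))))
    exact ⟨z, mem_closedBall_zero_iff.mp hz, hl⟩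
  choose f hf1 hf2 using h1
  let F : X →ₗ[𝕜] 𝕜 :=
    { toFun := f
      map_add' := fun x y => tendsto_nhds_unique (hf2 (x + y)) (by
        simpa only [map_add] using (hf2 x).add (hf2 y))
      map_smul' := fun c x => tendsto_nhds_unique (hf2 (c • x)) (by
        simpa only [map_smul, RingHom.id_apply] using (hf2 x).const_smul c) }
  exact ⟨F.mkContinuous B hf1, F.mkContinuous_norm_le hB hf1, hf2⟩

/-- Among finitely many scalars, a subfamily whose sum has at least a quarter of the total size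
(one of `re⁺, re⁻, im⁺, im⁻` carries a quarter; `‖z‖ ≤ |re z| + |im z|`). -/
theorem exists_quarter {ι : Type*} (s : Finset ι) (a : ι → 𝕜) :
    ∃ F ⊆ s, ∑ k ∈ s, ‖a k‖ ≤ 4 * ‖∑ k ∈ F, a k‖ := by
  classical
  have key : ∀ φ : 𝕜 → ℝ, (∀ z, |φ z| ≤ ‖z‖) → (∀ F : Finset ι, φ (∑ k ∈ F, a k) = ∑ k ∈ F, φ (a k)) →
      ∃ F ⊆ s, ∑ k ∈ s, |φ (a k)| ≤ 2 * ‖∑ k ∈ F, a k‖ := fun φ h1 h2 => by
    have e1 : ∑ k ∈ s, |φ (a k)| = ∑ k ∈ s.filter (fun k => 0 ≤ φ (a k)), φ (a k) -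
        ∑ k ∈ s.filter (fun k => ¬ 0 ≤ φ (a k)), φ (a k) := by
      rw [← sum_filter_add_sum_filter_not s (fun k => 0 ≤ φ (a k)), sub_eq_add_neg,
        ← sum_neg_distrib]
      congr 1
      · exact sum_congr rfl fun k hk => abs_of_nonneg (mem_filter.mp hk).2
      · exact sum_congr rfl fun k hk => abs_of_neg (not_le.mp (mem_filter.mp hk).2)
    have b1 := abs_le.mp (h1 (∑ k ∈ s.filter (fun k => 0 ≤ φ (a k)), a k))
    have b2 := abs_le.mp (h1 (∑ k ∈ s.filter (fun k => ¬ 0 ≤ φ (a k)), a k))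
    rw [h2] at b1 b2
    rcases le_total ‖∑ k ∈ s.filter (fun k => 0 ≤ φ (a k)), a k‖
      ‖∑ k ∈ s.filter (fun k => ¬ 0 ≤ φ (a k)), a k‖ with c | c
    · exact ⟨_, filter_subset (fun k => ¬ 0 ≤ φ (a k)) s, by linarith [b1.2, b2.1]⟩
    · exact ⟨_, filter_subset (fun k => 0 ≤ φ (a k)) s, by linarith [b1.2, b2.1]⟩
  obtain ⟨F₁, hF₁, a1⟩ := key RCLike.re RCLike.abs_re_le_norm fun F => map_sum _ _ _
  obtain ⟨F₂, hF₂, a2⟩ := key RCLike.im RCLike.abs_im_le_norm fun F => map_sum _ _ _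
  have a3 : ∑ k ∈ s, ‖a k‖ ≤ ∑ k ∈ s, |RCLike.re (a k)| + ∑ k ∈ s, |RCLike.im (a k)| := by
    rw [← sum_add_distrib]
    refine sum_le_sum fun k _ => ?_
    have e := RCLike.re_add_im (a k)
    have b := norm_add_le ((RCLike.re (a k) : ℝ) : 𝕜) (((RCLike.im (a k) : ℝ) : 𝕜) * RCLike.I)
    rw [e, norm_mul, RCLike.norm_ofReal, RCLike.norm_ofReal] at b
    have hI : ‖(RCLike.I : 𝕜)‖ ≤ 1 := by
      rcases eq_or_ne (RCLike.I : 𝕜) 0 with c | c
      · rw [c]; simp
      · exact (RCLike.norm_I_of_ne_zero c).le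
    exact b.trans (add_le_add le_rfl (mul_le_of_le_one_right (abs_nonneg _) hI))
  rcases le_total ‖∑ k ∈ F₁, a k‖ ‖∑ k ∈ F₂, a k‖ with c | c
  · exact ⟨F₂, hF₂, by linarith⟩
  · exact ⟨F₁, hF₁, by linarith⟩

end Crest.Agent.R114
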