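import Mathlib
import Crest.Prelude.Def_ContinuumRVM

/-!
# Row 114, part B (S0153): definitions

Blueprint of the proof that `ContinuumRVM` gives every infinite-dimensional Banach space `X` a
separable infinite-dimensional quotient (`SQ 𝕜 X`).  Assume `¬ SQ 𝕜 X`.

* `Adj`   : a map `T : X → V` with `‖ψ‖ ≤ C ‖ψ ∘ T‖` is onto; a surjection onto a separable
  infinite-dimensional Banach space gives `SQ`.
* `JR1`, `JR2`, `JR3` : Johnson–Rosenthal weak*-basic sequences (`JRseq`) and criteria for `SQ`.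
* `DR`    : Dvoretzky–Rogers lemma.
* `RVM`   : the measure on `Om` (all subsets measurable), covering lemma, exhaustion.
* `Ros1`, `Ros2` : Rosenthal's `ℓ₁` theorem (Dor's complex version) for sequences in `X*`.
* `L1a`, `L1b`, `Khin`, `L1c` : `ℓ₁ ⊆ X*` gives `SQ` (Hagler–Johnson).
* `Unc`   : a suppression-unconditional normalized sequence in `X*` gives `SQ`.
* `Fub`   : Fubini recursion producing a suppression-unconditional sequence.
* `Phi`   : for every small set `I` a norm one functional killing `T ⁻¹ I`; final assembly.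
-/

set_option autoImplicit false

open Filter Topology Finset MeasureTheory
open scoped ENNReal Cardinal

namespace Crest.Agent.R114

section
variable (𝕜 : Type) [RCLike 𝕜] (X : Type*) [NormedAddCommGroup X] [NormedSpace 𝕜 X]

/-- `X` has a separable infinite-dimensional quotient. -/
def SQ : Prop :=
  ∃ M : Submodule 𝕜 X, IsClosed (M : Set X) ∧
    TopologicalSpace.SeparableSpace (X ⧸ M) ∧ ¬ FiniteDimensional 𝕜 (X ⧸ M)

variable {𝕜 X}

/-- Johnson–Rosenthal sequence: bounded below in norm, and the partial sums of a bounded,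
pointwise convergent series `∑ c k • h k` are controlled by the norm of the pointwise limit. -/
def JRseq (h : ℕ → StrongDual 𝕜 X) : Prop :=
  (∃ a : ℝ, 0 < a ∧ ∀ k, a ≤ ‖h k‖) ∧
  ∃ C : ℝ, 0 < C ∧ ∀ (c : ℕ → 𝕜) (f : StrongDual 𝕜 X) (B : ℝ),
    (∀ n, ‖∑ k ∈ range n, c k • h k‖ ≤ B) →
    (∀ x, Tendsto (fun n => (∑ k ∈ range n, c k • h k) x) atTop (𝓝 (f x))) →
    ∀ n, ‖∑ k ∈ range n, c k • h k‖ ≤ C * ‖f‖

/-- lower `ℓ₁` estimate with constant `a`. -/
def L1LowerC (a : ℝ) (y : ℕ → StrongDual 𝕜 X) : Prop :=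
  ∀ (s : Finset ℕ) (c : ℕ → 𝕜), a * ∑ k ∈ s, ‖c k‖ ≤ ‖∑ k ∈ s, c k • y k‖

/-- lower `ℓ₂` estimate with constant `a`. -/
def L2LowerC (a : ℝ) (y : ℕ → StrongDual 𝕜 X) : Prop :=
  ∀ (s : Finset ℕ) (c : ℕ → 𝕜), a * √(∑ k ∈ s, ‖c k‖ ^ 2) ≤ ‖∑ k ∈ s, c k • y k‖

variable (𝕜 X) in
/-- The dual of `X` contains a copy of `ℓ₁` (over `𝕜`). -/
def HasL1 : Prop :=
  ∃ (y : ℕ → StrongDual 𝕜 X) (a : ℝ), 0 < a ∧ (∀ n, ‖y n‖ ≤ 1) ∧ L1LowerC a y

/-- A stabilized `ℓ₁`-sequence: the asymptotic size `δ` cannot be lowered by signed averaging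
of disjoint subsequences. -/
def Stable (y : ℕ → StrongDual 𝕜 X) (δ : ℝ) : Prop :=
  (∀ n, ‖y n‖ ≤ 1) ∧
  (∀ x : X, ‖x‖ ≤ 1 → ∀ᶠ n in atTop, ‖y n x‖ ≤ 101 / 100 * δ) ∧
  ∀ (ι : Type) [Fintype ι] [Nonempty ι] (e : ι → ℕ → ℕ) (σ : ι → ℝ),
    (Function.Injective fun p : ι × ℕ => e p.1 p.2) → (∀ i j, j ≤ e i j) →
    (∀ i, σ i = 1 ∨ σ i = -1) →
    ∃ x : X, ‖x‖ ≤ 1 ∧ ∃ᶠ j in atTop,
      99 / 100 * δ ≤ (∑ i, σ i * RCLike.re (y (e i j) x)) / (Fintype.card ι : ℝ)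

/-- suppression-unconditional with constant `2`. -/
def SuppUnc (φ : ℕ → StrongDual 𝕜 X) : Prop :=
  ∀ (A B : Finset ℕ) (c : ℕ → 𝕜), A ⊆ B → ‖∑ k ∈ A, c k • φ k‖ ≤ 2 * ‖∑ k ∈ B, c k • φ k‖

/-- `f` is a pointwise limit of a sequence from the linear span of the `g n`. -/
def SeqLim (g : ℕ → StrongDual 𝕜 X) (f : StrongDual 𝕜 X) : Prop :=
  ∃ u : ℕ → StrongDual 𝕜 X, (∀ n, u n ∈ Submodule.span 𝕜 (Set.range g)) ∧
    ∀ x, Tendsto (fun n => u n x) atTop (𝓝 (f x))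

end

/-- Rademacher sign of a Boolean. -/
def sgn (b : Bool) : ℝ := if b then 1 else -1

/-- The real line with the discrete σ-algebra. -/
def Om : Type := ℝ

instance : MeasurableSpace Om := ⊤
instance : DiscreteMeasurableSpace Om := ⟨fun _ => trivial⟩
instance : Nonempty Om := ⟨(0 : ℝ)⟩

/-- A real-valued measurable witness, as a Mathlib measure on `Om`. -/
structure IsRVM (μ : Measure Om) : Prop where
  prob : IsProbabilityMeasure μ
  atom : ∀ t, μ {t} = 0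
  small : ∀ (ι : Type) (A : ι → Set Om), #ι < 𝔠 → (∀ i, μ (A i) = 0) → μ (⋃ i, A i) = 0

end Crest.Agent.R114
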