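import Crest.Agent.R114.ADefs

/-! # R114/Basic0 : algebra of `res`, `act`, `l1`. -/

set_option autoImplicit false
open Filter Topology Finset

namespace Crest.Agent.R114

variable {Γ : Type} [LinearOrder Γ] {𝕜 : Type} [RCLike 𝕜]

section res
variable {R : Type}

theorem res_apply_mem [Zero R] {E : Set Γ} (x : Γ →₀ R) {γ : Γ} (h : γ ∈ E) : res E x γ = x γ := by
  classical
  simp [res, Finsupp.filter_apply, h]

theorem res_apply_not_mem [Zero R] {E : Set Γ} (x : Γ →₀ R) {γ : Γ} (h : γ ∉ E) :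
    res E x γ = 0 := by
  classical
  simp [res, Finsupp.filter_apply, h]

theorem mem_support_res [Zero R] {E : Set Γ} {x : Γ →₀ R} {γ : Γ} :
    γ ∈ (res E x).support ↔ γ ∈ x.support ∧ γ ∈ E := by
  by_cases h : γ ∈ E
  · simp [res_apply_mem x h, h]
  · simp [res_apply_not_mem x h, h]

theorem res_res [Zero R] (E E' : Set Γ) (x : Γ →₀ R) : res E (res E' x) = res (E ∩ E') x := by
  ext γ
  by_cases h : γ ∈ E
  · by_cases h' : γ ∈ E'
    · rw [res_apply_mem _ h, res_apply_mem _ h', res_apply_mem _ (Set.mem_inter h h')]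
    · rw [res_apply_mem _ h, res_apply_not_mem _ h', res_apply_not_mem _ (fun k => h' k.2)]
  · rw [res_apply_not_mem _ h, res_apply_not_mem _ (fun k => h k.1)]

theorem res_univ [Zero R] (x : Γ →₀ R) : res Set.univ x = x := by
  ext γ
  exact res_apply_mem x (Set.mem_univ γ)

theorem res_eq_self [Zero R] {E : Set Γ} {x : Γ →₀ R} (h : ∀ γ ∈ x.support, γ ∈ E) :
    res E x = x := by
  ext γ
  by_cases hγ : γ ∈ E
  · exact res_apply_mem x hγ
  · rw [res_apply_not_mem x hγ]
    exact (Finsupp.notMem_support_iff.1 fun k => hγ (h γ k)).symm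

theorem res_eq_zero [Zero R] {E : Set Γ} {x : Γ →₀ R} (h : ∀ γ ∈ x.support, γ ∉ E) :
    res E x = 0 := by
  ext γ
  by_cases hγ : γ ∈ E
  · rw [res_apply_mem x hγ]
    exact Finsupp.notMem_support_iff.1 fun k => h γ k hγ
  · exact res_apply_not_mem x hγ

theorem res_zero [Zero R] (E : Set Γ) : res E (0 : Γ →₀ R) = 0 := by
  exact res_eq_zero (by simp)

theorem res_add [AddCommMonoid R] (E : Set Γ) (x y : Γ →₀ R) :
    res E (x + y) = res E x + res E y := by
  ext γ
  by_cases hγ : γ ∈ E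
  · simp [res_apply_mem _ hγ]
  · simp [res_apply_not_mem _ hγ]

theorem res_sub [AddCommGroup R] (E : Set Γ) (x y : Γ →₀ R) :
    res E (x - y) = res E x - res E y := by
  ext γ
  by_cases hγ : γ ∈ E
  · simp [res_apply_mem _ hγ]
  · simp [res_apply_not_mem _ hγ]

theorem res_smul [Semiring R] (E : Set Γ) (a : R) (x : Γ →₀ R) :
    res E (a • x) = a • res E x := by
  ext γ
  by_cases hγ : γ ∈ E
  · simp [res_apply_mem _ hγ]
  · simp [res_apply_not_mem _ hγ]

theorem res_sum [AddCommMonoid R] {ι : Type*} (E : Set Γ) (s : Finset ι) (x : ι → Γ →₀ R) :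
    res E (∑ i ∈ s, x i) = ∑ i ∈ s, res E (x i) := by
  classical
  induction s using Finset.induction_on with
  | empty => simp [res_zero]
  | insert i s hi ih => rw [Finset.sum_insert hi, Finset.sum_insert hi, res_add, ih]

theorem res_union [AddCommMonoid R] {E E' : Set Γ} (h : Disjoint E E') (x : Γ →₀ R) :
    res (E ∪ E') x = res E x + res E' x := by
  ext γ
  by_cases hγ : γ ∈ E
  · have hγ' : γ ∉ E' := Set.disjoint_left.1 h hγ
    rw [Finsupp.add_apply, res_apply_mem _ hγ, res_apply_not_mem _ hγ', add_zero,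
      res_apply_mem _ (Set.mem_union_left _ hγ)]
  · by_cases hγ' : γ ∈ E'
    · rw [Finsupp.add_apply, res_apply_not_mem _ hγ, res_apply_mem _ hγ', zero_add,
        res_apply_mem _ (Set.mem_union_right _ hγ')]
    · rw [Finsupp.add_apply, res_apply_not_mem _ hγ, res_apply_not_mem _ hγ', add_zero,
        res_apply_not_mem _ (fun k => k.elim hγ hγ')]

end res

section act

theorem act_eq_sum (h : Γ →₀ ℚ) (x : Γ →₀ 𝕜) (s : Finset Γ) (hs : h.support ⊆ s) :
    act h x = ∑ γ ∈ s, ((h γ : ℚ) : 𝕜) * x γ := by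
  unfold act
  exact Finsupp.sum_of_support_subset h hs _ (by simp)

theorem act_eq_sum' (h : Γ →₀ ℚ) (x : Γ →₀ 𝕜) (s : Finset Γ) (hs : x.support ⊆ s) :
    act h x = ∑ γ ∈ s, ((h γ : ℚ) : 𝕜) * x γ := by
  classical
  rw [act_eq_sum h x (h.support ∪ s) Finset.subset_union_left]
  symm
  refine Finset.sum_subset Finset.subset_union_right fun γ _ hγ => ?_
  rw [Finsupp.notMem_support_iff.1 fun k => hγ (hs k), mul_zero]

theorem act_zero_left (x : Γ →₀ 𝕜) : act 0 x = 0 := by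
  rw [act_eq_sum 0 x ∅ (by simp), Finset.sum_empty]

theorem act_zero (h : Γ →₀ ℚ) : act h (0 : Γ →₀ 𝕜) = 0 := by
  rw [act_eq_sum' h 0 ∅ (by simp), Finset.sum_empty]

theorem act_add_left (h h' : Γ →₀ ℚ) (x : Γ →₀ 𝕜) : act (h + h') x = act h x + act h' x := by
  simp only [act_eq_sum' _ x x.support subset_rfl, Finsupp.add_apply, Rat.cast_add, add_mul,
    Finset.sum_add_distrib]

theorem act_add (h : Γ →₀ ℚ) (x y : Γ →₀ 𝕜) : act h (x + y) = act h x + act h y := by
  simp only [act_eq_sum h _ h.support subset_rfl, Finsupp.add_apply, mul_add,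
    Finset.sum_add_distrib]

theorem act_sub (h : Γ →₀ ℚ) (x y : Γ →₀ 𝕜) : act h (x - y) = act h x - act h y := by
  simp only [act_eq_sum h _ h.support subset_rfl, Finsupp.sub_apply, mul_sub,
    Finset.sum_sub_distrib]

theorem act_smul_left (q : ℚ) (h : Γ →₀ ℚ) (x : Γ →₀ 𝕜) :
    act (q • h) x = (q : 𝕜) * act h x := by
  simp only [act_eq_sum' _ x x.support subset_rfl, Finsupp.smul_apply, smul_eq_mul, Rat.cast_mul,
    Finset.mul_sum, mul_assoc]

theorem act_smul (h : Γ →₀ ℚ) (a : 𝕜) (x : Γ →₀ 𝕜) : act h (a • x) = a * act h x := by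
  simp only [act_eq_sum h _ h.support subset_rfl, Finsupp.smul_apply, smul_eq_mul,
    Finset.mul_sum, mul_left_comm a]

theorem act_sum_left {ι : Type*} (s : Finset ι) (h : ι → Γ →₀ ℚ) (x : Γ →₀ 𝕜) :
    act (∑ i ∈ s, h i) x = ∑ i ∈ s, act (h i) x := by
  classical
  induction s using Finset.induction_on with
  | empty => simp [act_zero_left]
  | insert i s hi ih => rw [Finset.sum_insert hi, Finset.sum_insert hi, act_add_left, ih]

theorem act_sum {ι : Type*} (h : Γ →₀ ℚ) (s : Finset ι) (x : ι → Γ →₀ 𝕜) :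
    act h (∑ i ∈ s, x i) = ∑ i ∈ s, act h (x i) := by
  classical
  induction s using Finset.induction_on with
  | empty => simp [act_zero]
  | insert i s hi ih => rw [Finset.sum_insert hi, Finset.sum_insert hi, act_add, ih]

theorem act_single (γ : Γ) (x : Γ →₀ 𝕜) : act (Finsupp.single γ 1) x = x γ := by
  rw [act_eq_sum _ x {γ} Finsupp.support_single_subset]
  simp

theorem act_res_left (E : Set Γ) (h : Γ →₀ ℚ) (x : Γ →₀ 𝕜) :
    act (res E h) x = act h (res E x) := by
  rw [act_eq_sum (res E h) x h.support fun γ hγ => (mem_support_res.1 hγ).1,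
    act_eq_sum h _ h.support subset_rfl]
  refine Finset.sum_congr rfl fun γ _ => ?_
  by_cases hγ : γ ∈ E
  · rw [res_apply_mem _ hγ, res_apply_mem _ hγ]
  · rw [res_apply_not_mem _ hγ, res_apply_not_mem _ hγ]
    simp

theorem act_eq_zero {h : Γ →₀ ℚ} {x : Γ →₀ 𝕜} (hd : ∀ γ ∈ h.support, γ ∉ x.support) :
    act h x = 0 := by
  rw [act_eq_sum h x h.support subset_rfl]
  refine Finset.sum_eq_zero fun γ hγ => ?_
  rw [Finsupp.notMem_support_iff.1 (hd γ hγ), mul_zero]

theorem l1_nonneg (x : Γ →₀ 𝕜) : 0 ≤ l1 x := by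
  exact Finset.sum_nonneg fun γ _ => norm_nonneg _

theorem l1_smul (a : 𝕜) (x : Γ →₀ 𝕜) : l1 (a • x) = ‖a‖ * l1 x := by
  have h1 : l1 (a • x) = ∑ γ ∈ x.support, ‖(a • x) γ‖ :=
    Finsupp.sum_of_support_subset _ Finsupp.support_smul _ (by simp)
  have h2 : l1 x = ∑ γ ∈ x.support, ‖x γ‖ := rfl
  rw [h1, h2, Finset.mul_sum]
  refine Finset.sum_congr rfl fun γ _ => ?_
  rw [Finsupp.smul_apply, smul_eq_mul, norm_mul]

theorem norm_act_res_le (h : Γ →₀ ℚ) (E : Set Γ) (x : Γ →₀ 𝕜) (r : ℝ) (hr : 0 ≤ r)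
    (hh : ∀ γ, |((h γ : ℚ) : ℝ)| ≤ r) : ‖act h (res E x)‖ ≤ r * l1 x := by
  have h2 : l1 x = ∑ γ ∈ x.support, ‖x γ‖ := rfl
  rw [act_eq_sum' h _ x.support fun γ hγ => (mem_support_res.1 hγ).1, h2, Finset.mul_sum]
  refine (norm_sum_le _ _).trans (Finset.sum_le_sum fun γ _ => ?_)
  rw [norm_mul]
  have h3 : ‖((h γ : ℚ) : 𝕜)‖ ≤ r := by
    rw [← RCLike.ofReal_ratCast, RCLike.norm_ofReal]
    exact hh γ
  refine mul_le_mul h3 ?_ (norm_nonneg _) hr
  by_cases hγ : γ ∈ E
  · rw [res_apply_mem _ hγ]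
  · rw [res_apply_not_mem _ hγ, norm_zero]
    exact norm_nonneg _

end act

end Crest.Agent.R114
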