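import Crest.Agent.R114.Par
import Crest.Agent.R114.Basic0

/-! # R114/Basic1 : codes and chains; inversion of the norming set. -/

set_option autoImplicit false
open Filter Topology Finset

namespace Crest.Agent.R114

variable {Γ : Type} [LinearOrder Γ] {𝕜 : Type} [RCLike 𝕜] {S : Setup Γ}

section chains

theorem code_inj {p p' : ℕ} {L L' : List ((ℕ →₀ ℚ) × ℕ)} (h : code p L = code p' L') :
    p = p' ∧ L = L' := by
  unfold code at h
  have h1 : Nat.pair p (enc L) = Nat.pair p' (enc L') := by omega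
  rw [Nat.pair_eq_pair] at h1
  exact ⟨h1.1, enc_injective h1.2⟩

theorem lt_code (p : ℕ) (L : List ((ℕ →₀ ℚ) × ℕ)) : p < code p L := by
  unfold code
  have := Nat.left_le_pair p (enc L)
  omega

theorem two_le_code (p : ℕ) (L : List ((ℕ →₀ ℚ) × ℕ)) : 2 ≤ code p L := by
  unfold code
  omega

theorem even_code (p : ℕ) (L : List ((ℕ →₀ ℚ) × ℕ)) : Even (code p L) := ⟨Nat.pair p (enc L) + 1, by unfold code; ring⟩

theorem Chn.At.two_le {c : Chn Γ} {n : ℕ} (h : c.At S n) : 2 ≤ c.w n := h.1 ▸ two_le_code _ _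

theorem Chn.At.even {c : Chn Γ} {n : ℕ} (h : c.At S n) : Even (c.w n) := h.1 ▸ even_code _ _

theorem Chn.At.w_lt {c : Chn Γ} {n : ℕ} (h : c.At S n) {i : ℕ} (hi : i < n) : c.w i < c.w n := (h.2.1 i hi).trans_lt (h.1 ▸ lt_code _ _)

/-- equal weights force equal positions, levels and earlier weights -/
theorem Chn.At.eq_of_w_eq {c c' : Chn Γ} {n n' : ℕ} (h : c.At S n) (h' : c'.At S n')
    (hw : c.w n = c'.w n') :
    n = n' ∧ c.p n = c'.p n' ∧ c.hist S n = c'.hist S n' ∧ ∀ i < n, c.w i = c'.w i := by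
  obtain ⟨h1, h2⟩ := code_inj (h.1.symm.trans (hw.trans h'.1))
  have hn : n = n' := by simpa [Chn.hist] using congrArg List.length h2
  subst hn
  refine ⟨rfl, h1, h2, fun i hi => ?_⟩
  unfold Chn.hist at h2
  exact congrArg Prod.snd (List.map_inj_left.1 h2 i (List.mem_range.2 hi))

theorem Valid.mono {c : Chn Γ} {b b' : ℕ} (h : Valid S c b) (hb : b' ≤ b) : Valid S c b' := fun n hn => h n (hn.trans_le hb)

theorem Valid.w_lt {c : Chn Γ} {b : ℕ} (h : Valid S c b) {i n : ℕ} (hi : i < n) (hn : n < b) :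
    c.w i < c.w n := (h n hn).1.w_lt hi

theorem Valid.w_le {c : Chn Γ} {b : ℕ} (h : Valid S c b) {i n : ℕ} (hi : i ≤ n) (hn : n < b) :
    c.w i ≤ c.w n := by
  rcases hi.eq_or_lt with rfl | hi
  exacts [le_rfl, (h.w_lt hi hn).le]

theorem Valid.injOn {c : Chn Γ} {b : ℕ} (h : Valid S c b) (s : Finset ℕ) (hs : ∀ n ∈ s, n < b) :
    Set.InjOn c.w s := by
  intro i hi n hn e
  rcases lt_trichotomy i n with h1 | h1 | h1
  · exact absurd e (h.w_lt h1 (hs n hn)).ne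
  · exact h1
  · exact absurd e (h.w_lt h1 (hs i hi)).ne'

theorem Valid.le_w {c : Chn Γ} {b : ℕ} (h : Valid S c b) {n : ℕ} (hn : n < b) : n ≤ c.w n := by
  induction n with
  | zero => exact Nat.zero_le _
  | succ n ih => exact (ih (by omega)).trans_lt (h.w_lt (Nat.lt_succ_self n) hn)

/-- cutting a segment at a weight threshold -/
theorem Valid.exists_cut {c : Chn Γ} {b : ℕ} (h : Valid S c b) (a t : ℕ) (hab : a ≤ b) :
    ∃ a', a ≤ a' ∧ a' ≤ b ∧ (∀ n ∈ Ico a a', c.w n ≤ t) ∧ ∀ n ∈ Ico a' b, t < c.w n := by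
  classical
  have hex : ∃ n, a ≤ n ∧ (n = b ∨ t < c.w n) := ⟨b, hab, Or.inl rfl⟩
  have h1 := Nat.find_spec hex
  have h2 : Nat.find hex ≤ b := Nat.find_min' hex ⟨hab, Or.inl rfl⟩
  refine ⟨Nat.find hex, h1.1, h2, fun n hn => ?_, fun n hn => ?_⟩
  · rw [mem_Ico] at hn
    by_contra hc
    exact Nat.find_min hex hn.2 ⟨hn.1, Or.inr (not_le.1 hc)⟩
  · rw [mem_Ico] at hn
    rcases h1.2 with h3 | h3
    · omega
    · exact h3.trans_le (h.w_le hn.1 hn.2)

theorem Chn.seg_add (c : Chn Γ) {a a' b : ℕ} (h1 : a ≤ a') (h2 : a' ≤ b) :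
    c.seg a a' + c.seg a' b = c.seg a b := sum_Ico_consecutive _ h1 h2

theorem Chn.seg_of_le (c : Chn Γ) {a b : ℕ} (h : b ≤ a) : c.seg a b = 0 := by
  rw [Chn.seg, Ico_eq_empty_of_le h, sum_empty]

theorem CohOn.mono {p q : ℕ} {A B : Set Γ} (h : CohOn S p A) (hpq : p ≤ q) (hB : B ⊆ A) :
    CohOn S q B := fun α hα β hβ hle => S.mono p q β hpq (h α (hB hα) β (hB hβ) hle)

theorem exists_cohOn (S : Setup Γ) {A : Set Γ} (hA : A.Finite) : ∃ p, CohOn S p A := by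
  have h1 : ∀ α β : Γ, ∀ᶠ p in atTop, α ≤ β → α ∈ S.F p β := fun α β => by
    by_cases hle : α ≤ β
    · obtain ⟨p, hp⟩ := S.ex α β hle
      filter_upwards [eventually_ge_atTop p] with q hq _ using S.mono p q β hq hp
    · exact Eventually.of_forall fun _ h => absurd h hle
  exact ((eventually_all_finite hA).2 fun α _ => (eventually_all_finite hA).2 fun β _ =>
    h1 α β).exists

theorem pos_lt {p : ℕ} {α β : Γ} (h : α ∈ S.F p β) (hne : α ≠ β) : pos S p α < pos S p β := by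
  refine card_lt_card ⟨fun ξ hξ => ((S.coh p α β h ξ).1 hξ).1, fun hs => hne ?_⟩
  exact le_antisymm (S.le p β α h) (S.le p α β (hs (S.self p β)))

/-- Determination lemma.  Recipe: `α ∈ F p c₀`.  For `γ ∈ supp g`: if `γ ≤ c₀` then `γ ∈ F p c₀`, and `pos` is
injective on `F p c₀` (by `coh`, comparable points are `F p`-related, `pos_lt`); if `c₀ < γ` then
`pos α ≤ pos c₀ < pos γ`.  So `γ ∈ supp g`, `pos γ = pos α` iff `γ = α` (`Finsupp.mapDomain`, `Finsupp.sum`, `sum_eq_single`). -/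
theorem determine {p : ℕ} {A G : Set Γ} (hA : CohOn S p A) (hG : CohOn S p G) (g : Γ →₀ ℚ)
    (hg : ∀ γ ∈ g.support, γ ∈ G) {c₀ α : Γ} (hcA : c₀ ∈ A) (hcG : c₀ ∈ G) (hα : α ∈ A)
    (hle : α ≤ c₀) : g α = (g.mapDomain (pos S p)) (pos S p α) := by
  have h1 : α ∈ S.F p c₀ := hA α hα c₀ hcA hle
  have h2 : ∀ γ ∈ g.support, γ ≠ α → pos S p γ ≠ pos S p α := by
    intro γ hγ hne
    rcases le_or_gt γ c₀ with h3 | h3
    · have h4 : γ ∈ S.F p c₀ := hG γ (hg γ hγ) c₀ hcG h3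
      rcases le_total γ α with h5 | h5
      · exact (pos_lt ((S.coh p α c₀ h1 γ).2 ⟨h4, h5⟩) hne).ne
      · exact (pos_lt ((S.coh p γ c₀ h4 α).2 ⟨h1, h5⟩) hne.symm).ne'
    · have h4 := pos_lt (hG c₀ hcG γ (hg γ hγ) h3.le) h3.ne
      have h5 : pos S p α ≤ pos S p c₀ := by
        rcases eq_or_ne α c₀ with rfl | h6
        exacts [le_rfl, (pos_lt h1 h6).le]
      omega
  rw [Finsupp.mapDomain, Finsupp.sum_apply, Finsupp.sum, sum_eq_single α]
  · simp
  · intro γ hγ hne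
    exact Finsupp.single_eq_of_ne' (h2 γ hγ hne)
  · intro h
    simp [Finsupp.notMem_support_iff.1 h]

end chains

section inv

theorem KK_zero_some (S : Setup Γ) (j : ℕ) : KK S (some j) 0 := by
  simpa using KK.wop (S := S) j 0 (fun _ => ∅) (fun _ => 0) (fun _ => 0) (Nat.zero_le _)
    ⟨by simp, by simp⟩ (by simp) (by simp)

theorem KK_zero (S : Setup Γ) : KK S none 0 := KK.up 0 0 (KK_zero_some S 0)

theorem KK.some_inv {j : ℕ} {g : Γ →₀ ℚ} (hg : KK S (some j) g) :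
    ∃ (d : ℕ) (E : ℕ → Set Γ) (h : ℕ → Γ →₀ ℚ) (lam : ℕ → ℚ), d ≤ S.n j ∧ SuccInt E d ∧
      (∀ c < d, |lam c| ≤ 1) ∧ (∀ c < d, KK S none (h c)) ∧
      g = (S.m j : ℚ)⁻¹ • ∑ c ∈ range d, lam c • res (E c) (h c) := by
  cases hg with
  | wop _ d E h lam hd hE hl hh => exact ⟨d, E, h, lam, hd, hE, hl, hh, rfl⟩

theorem KK.none_inv {h : Γ →₀ ℚ} (hh : KK S none h) :
    (∃ γ, h = Finsupp.single γ 1) ∨ (∃ j, KK S (some j) h) ∨
    ∃ (N : ℕ) (c : ℕ → Chn Γ) (a b : ℕ → ℕ) (lam : ℕ → ℚ), (∀ q < N, Valid S (c q) (b q)) ∧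
      (∀ q < N, ∀ n ∈ Ico (a q) (b q), N ≤ (c q).w n) ∧
      (∀ q < N, ∀ q' < N, q ≠ q' → ∀ n ∈ Ico (a q) (b q), ∀ n' ∈ Ico (a q') (b q'),
        (c q).w n ≠ (c q').w n') ∧ (∀ q < N, |lam q| ≤ 1) ∧
      h = (2 : ℚ)⁻¹ • ∑ q ∈ range N, lam q • (c q).seg (a q) (b q) := by
  cases hh with
  | unit γ => exact Or.inl ⟨γ, rfl⟩
  | up j _ hh => exact Or.inr (Or.inl ⟨j, hh⟩)
  | dop N c a b lam hc hk hN hd hl =>
    exact Or.inr (Or.inr ⟨N, c, a, b, lam, fun q hq n hn => ⟨hc q hq n hn, hk q hq n hn⟩, hN, hd,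
      hl, rfl⟩)

/-- analytic form of `KK.some_inv` -/
theorem KK.some_act_le {j : ℕ} {g : Γ →₀ ℚ} (hg : KK S (some j) g) :
    ∃ (d : ℕ) (E : ℕ → Set Γ) (h : ℕ → Γ →₀ ℚ), d ≤ S.n j ∧ SuccInt E d ∧
      (∀ c < d, KK S none (h c)) ∧ ∀ (E' : Set Γ) (x : Γ →₀ 𝕜),
        ‖act g (res E' x)‖ ≤ 1 / (S.m j : ℝ) * ∑ c ∈ range d, ‖act (h c) (res (E c ∩ E') x)‖ := by
  obtain ⟨d, E, h, lam, hd, hE, hl, hh, rfl⟩ := hg.some_inv
  refine ⟨d, E, h, hd, hE, hh, fun E' x => ?_⟩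
  rw [act_smul_left, act_sum_left, norm_mul]
  refine mul_le_mul (le_of_eq (by simp)) ((norm_sum_le _ _).trans (sum_le_sum fun c hc => ?_))
    (norm_nonneg _) (by positivity)
  rw [act_smul_left, act_res_left, res_res, norm_mul]
  refine mul_le_of_le_one_left (norm_nonneg _) ?_
  rw [← RCLike.ofReal_ratCast, RCLike.norm_ofReal]
  exact_mod_cast hl c (mem_range.1 hc)

/-- Sup-norm bounds, by induction on `KK` (motive: `|h γ| ≤ 1` and, for `o = some j`, `≤ 1 / m j`).  In `wop` at most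
one `E c` contains `γ`; in `dop` use `Par.sum_sum_inv_m_le` with `t = 0`. -/
theorem KK.abs_le {o : Option ℕ} {h : Γ →₀ ℚ} (hh : KK S o h) (γ : Γ) :
    |((h γ : ℚ) : ℝ)| ≤ 1 ∧ ∀ j, o = some j → |((h γ : ℚ) : ℝ)| ≤ 1 / (S.m j : ℝ) := by
  induction hh with
  | unit γ' =>
    refine ⟨?_, fun j hj => by cases hj⟩
    rcases eq_or_ne γ' γ with rfl | hne
    · simp
    · simp [Finsupp.single_eq_of_ne' hne]
  | wop j d E h lam hd hE hl hh ih =>
    have hm := S.toPar.m_pos j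
    have h1 : |(((∑ c ∈ range d, lam c • res (E c) (h c)) γ : ℚ) : ℝ)| ≤ 1 := by
      rw [Finsupp.finsetSum_apply]
      by_cases hex : ∃ c < d, γ ∈ E c
      · obtain ⟨c, hc, hγ⟩ := hex
        rw [sum_eq_single c]
        · rw [Finsupp.smul_apply, res_apply_mem _ hγ, smul_eq_mul, Rat.cast_mul, abs_mul]
          exact mul_le_one₀ (by exact_mod_cast hl c hc) (abs_nonneg _) (ih c hc).1
        · intro c' hc' hne
          rw [Finsupp.smul_apply, res_apply_not_mem, smul_zero]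
          intro hγ'
          rcases lt_or_gt_of_ne hne with h2 | h2
          · exact lt_irrefl _ (hE.2 c' c h2 hc γ hγ' γ hγ)
          · exact lt_irrefl _ (hE.2 c c' h2 (mem_range.1 hc') γ hγ γ hγ')
        · intro h2
          exact absurd (mem_range.2 hc) h2
      · rw [sum_eq_zero]
        · simp
        · intro c hc
          rw [Finsupp.smul_apply, res_apply_not_mem _ fun h2 => hex ⟨c, mem_range.1 hc, h2⟩,
            smul_zero]
    have h2 : |((((S.m j : ℚ)⁻¹ • ∑ c ∈ range d, lam c • res (E c) (h c)) γ : ℚ) : ℝ)| ≤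
        1 / (S.m j : ℝ) := by
      rw [Finsupp.smul_apply, smul_eq_mul, Rat.cast_mul, abs_mul, Rat.cast_inv, Rat.cast_natCast,
        abs_of_pos (inv_pos.2 hm), one_div]
      exact mul_le_of_le_one_right (inv_pos.2 hm).le h1
    refine ⟨h2.trans ?_, fun j' hj => by cases hj; exact h2⟩
    rw [div_le_one hm]
    exact_mod_cast le_trans (by norm_num) (S.toPar.m_ge j)
  | up j h hh ih => exact ⟨ih.1, fun j hj => by cases hj⟩
  | dop N c a b lam hc hk hN hd hl ih =>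
    refine ⟨?_, fun j hj => by cases hj⟩
    have h1 := S.toPar.sum_sum_inv_m_le (range N) (fun q => Ico (a q) (b q)) (fun q => (c q).w)
      (fun q hq => Valid.injOn (S := S) (b := b q)
        (fun n hn => ⟨hc q (mem_range.1 hq) n hn, hk q (mem_range.1 hq) n hn⟩) _
        fun n hn => (mem_Ico.1 hn).2)
      (fun q hq q' hq' => hd q (mem_range.1 hq) q' (mem_range.1 hq')) 0 fun _ _ _ _ => Nat.zero_le _
    have h2 : (2 : ℝ) / S.m 0 ≤ 2 := div_le_self (by norm_num)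
      (by exact_mod_cast le_trans (by norm_num) (S.toPar.m_ge 0))
    rw [Finsupp.smul_apply, smul_eq_mul, Rat.cast_mul, abs_mul, Finsupp.finsetSum_apply,
      Rat.cast_sum]
    have h3 : |∑ q ∈ range N, (((lam q • (c q).seg (a q) (b q)) γ : ℚ) : ℝ)| ≤ 2 := by
      refine (abs_sum_le_sum_abs _ _).trans (le_trans (sum_le_sum fun q hq => ?_) (h1.trans h2))
      rw [Finsupp.smul_apply, smul_eq_mul, Rat.cast_mul, abs_mul, Chn.seg,
        Finsupp.finsetSum_apply, Rat.cast_sum]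
      refine (mul_le_of_le_one_left (abs_nonneg _)
        (by exact_mod_cast hl q (mem_range.1 hq))).trans ?_
      exact (abs_sum_le_sum_abs _ _).trans (sum_le_sum fun n hn =>
        (ih q (mem_range.1 hq) n (mem_Ico.1 hn).2).2 _ rfl)
    have h4 : |(((2 : ℚ)⁻¹ : ℚ) : ℝ)| = 1 / 2 := by norm_num
    rw [h4]
    linarith

theorem KK.act_le_l1 {j : ℕ} {g : Γ →₀ ℚ} (hg : KK S (some j) g) (E : Set Γ) (x : Γ →₀ 𝕜) :
    ‖act g (res E x)‖ ≤ 1 / (S.m j : ℝ) * l1 x := norm_act_res_le g E x _ (by positivity) fun γ => (hg.abs_le γ).2 j rfl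

end inv

end Crest.Agent.R114
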