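import Crest.Agent.R114.Basic1

/-! # R114/Basic2 : the norm; lower estimates from the two operations. -/

set_option autoImplicit false
open Filter Topology Finset

namespace Crest.Agent.R114

variable {Γ : Type} [LinearOrder Γ] {𝕜 : Type} [RCLike 𝕜] {S : Setup Γ}

/-- (bounded above by `l1 x`, from `KK.abs_le`) -/
theorem act_le_nrm {h : Γ →₀ ℚ} (hh : KK S none h) {E : Set Γ} (hE : E.OrdConnected)
    (x : Γ →₀ 𝕜) : ‖act h (res E x)‖ ≤ nrm S x := by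
  refine le_csSup ⟨l1 x, ?_⟩ ⟨h, E, hh, hE, rfl⟩
  rintro r ⟨h', E', hh', -, rfl⟩
  simpa using norm_act_res_le h' E' x 1 zero_le_one fun γ => (hh'.abs_le γ).1

theorem act_le_nrm' {h : Γ →₀ ℚ} (hh : KK S none h) (x : Γ →₀ 𝕜) : ‖act h x‖ ≤ nrm S x := by
  simpa only [res_univ] using act_le_nrm hh Set.ordConnected_univ x

theorem nrm_le {x : Γ →₀ 𝕜} {r : ℝ}
    (h : ∀ h, KK S none h → ∀ E : Set Γ, E.OrdConnected → ‖act h (res E x)‖ ≤ r) :
    nrm S x ≤ r := by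
  refine csSup_le ⟨_, 0, Set.univ, KK_zero S, Set.ordConnected_univ, rfl⟩ ?_
  rintro r' ⟨h', E', hh', hE', rfl⟩
  exact h h' hh' E' hE'

theorem exists_act_gt {x : Γ →₀ 𝕜} {r : ℝ} (h : r < nrm S x) :
    ∃ h, KK S none h ∧ ∃ E : Set Γ, E.OrdConnected ∧ r < ‖act h (res E x)‖ := by
  by_contra hc
  push Not at hc
  exact absurd (nrm_le hc) (not_le.2 h)

theorem nrm_nonneg (S : Setup Γ) (x : Γ →₀ 𝕜) : 0 ≤ nrm S x := by
  exact (norm_nonneg _).trans (act_le_nrm' (KK_zero S) x)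

theorem nrm_zero (S : Setup Γ) : nrm S (0 : Γ →₀ 𝕜) = 0 := by
  refine le_antisymm (nrm_le fun h _ E _ => ?_) (nrm_nonneg S _)
  rw [res_zero, act_zero, norm_zero]

theorem nrm_add_le (S : Setup Γ) (x y : Γ →₀ 𝕜) : nrm S (x + y) ≤ nrm S x + nrm S y := by
  refine nrm_le fun h hh E hE => ?_
  rw [res_add, act_add]
  exact (norm_add_le _ _).trans (add_le_add (act_le_nrm hh hE x) (act_le_nrm hh hE y))

theorem nrm_smul (S : Setup Γ) (a : 𝕜) (x : Γ →₀ 𝕜) : nrm S (a • x) = ‖a‖ * nrm S x := by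
  have key : ∀ (a : 𝕜) (x : Γ →₀ 𝕜), nrm S (a • x) ≤ ‖a‖ * nrm S x := fun a x =>
    nrm_le fun h hh E hE => by
      rw [res_smul, act_smul, norm_mul]
      exact mul_le_mul_of_nonneg_left (act_le_nrm hh hE x) (norm_nonneg _)
  refine le_antisymm (key a x) ?_
  rcases eq_or_ne a 0 with rfl | ha
  · simpa using nrm_nonneg S _
  · have h1 := key a⁻¹ (a • x)
    rw [inv_smul_smul₀ ha, norm_inv, le_inv_mul_iff₀ (norm_pos_iff.2 ha)] at h1
    exact h1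

theorem nrm_sum_le (S : Setup Γ) {ι : Type*} (s : Finset ι) (x : ι → Γ →₀ 𝕜) :
    nrm S (∑ i ∈ s, x i) ≤ ∑ i ∈ s, nrm S (x i) := by
  classical
  induction s using Finset.induction_on with
  | empty => simp [nrm_zero]
  | insert i s hi ih =>
    rw [sum_insert hi, sum_insert hi]
    exact (nrm_add_le S _ _).trans (add_le_add le_rfl ih)

theorem nrm_res_le (S : Setup Γ) {E : Set Γ} (hE : E.OrdConnected) (x : Γ →₀ 𝕜) :
    nrm S (res E x) ≤ nrm S x := by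
  refine nrm_le fun h hh E' hE' => ?_
  rw [res_res]
  exact act_le_nrm hh (hE'.inter hE) x

theorem apply_le_nrm (S : Setup Γ) (x : Γ →₀ 𝕜) (γ : Γ) : ‖x γ‖ ≤ nrm S x := by
  simpa only [act_single] using act_le_nrm' (KK.unit (S := S) γ) x

theorem nrm_le_l1 (S : Setup Γ) (x : Γ →₀ 𝕜) : nrm S x ≤ l1 x := by
  refine nrm_le fun h hh E _ => ?_
  simpa using norm_act_res_le h E x 1 zero_le_one fun γ => (hh.abs_le γ).1

theorem nrm_pos (S : Setup Γ) {x : Γ →₀ 𝕜} (hx : x ≠ 0) : 0 < nrm S x := by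
  obtain ⟨γ, hγ⟩ := Finsupp.ne_iff.1 hx
  exact (norm_pos_iff.2 hγ).trans_le (apply_le_nrm S x γ)

theorem nrm_single (S : Setup Γ) (γ : Γ) (a : 𝕜) : nrm S (Finsupp.single γ a) = ‖a‖ := by
  refine le_antisymm ((nrm_le_l1 S _).trans_eq ?_) ?_
  · unfold l1
    exact Finsupp.sum_single_index norm_zero
  · simpa using apply_le_nrm S (Finsupp.single γ a) γ

/-- real signs recover at least half of the `ℓ₁`-sum (signs of the real parts or of the imaginary parts) -/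
theorem exists_signs {ι : Type*} (s : Finset ι) (z : ι → 𝕜) :
    ∃ lam : ι → ℚ, (∀ i, |lam i| ≤ 1) ∧
      ∑ i ∈ s, ‖z i‖ ≤ 2 * ‖∑ i ∈ s, ((lam i : ℚ) : 𝕜) * z i‖ := by
  have sgn : ∀ f : ι → ℝ, ∃ lam : ι → ℚ, (∀ i, |lam i| ≤ 1) ∧ ∀ i, ((lam i : ℚ) : ℝ) * f i = |f i| := by
    intro f
    refine ⟨fun i => if 0 ≤ f i then 1 else -1, fun i => ?_, fun i => ?_⟩
    · dsimp only; split_ifs <;> simp
    · dsimp only
      split_ifs with h
      · simp [abs_of_nonneg h]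
      · simp [abs_of_neg (not_le.1 h)]
  obtain ⟨l₁, h₁, h₁'⟩ := sgn fun i => RCLike.re (z i)
  obtain ⟨l₂, h₂, h₂'⟩ := sgn fun i => RCLike.im (z i)
  have e₁ : ∑ i ∈ s, |RCLike.re (z i)| ≤ ‖∑ i ∈ s, ((l₁ i : ℚ) : 𝕜) * z i‖ := by
    refine le_trans (le_of_eq ?_) (RCLike.re_le_norm _)
    rw [map_sum]
    exact sum_congr rfl fun i _ => by
      rw [← h₁' i, ← RCLike.ofReal_ratCast (K := 𝕜), RCLike.re_ofReal_mul]
  have e₂ : ∑ i ∈ s, |RCLike.im (z i)| ≤ ‖∑ i ∈ s, ((l₂ i : ℚ) : 𝕜) * z i‖ := by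
    refine le_trans (le_of_eq ?_) (RCLike.im_le_norm _)
    rw [map_sum]
    exact sum_congr rfl fun i _ => by
      rw [← h₂' i, ← RCLike.ofReal_ratCast (K := 𝕜), RCLike.im_ofReal_mul]
  have e₃ : ∑ i ∈ s, ‖z i‖ ≤ ∑ i ∈ s, |RCLike.re (z i)| + ∑ i ∈ s, |RCLike.im (z i)| := by
    rw [← sum_add_distrib]
    refine sum_le_sum fun i _ => ?_
    conv_lhs => rw [← RCLike.re_add_im (z i)]
    refine (norm_add_le _ _).trans ?_
    rw [norm_mul, RCLike.norm_ofReal, RCLike.norm_ofReal]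
    refine add_le_add le_rfl (mul_le_of_le_one_right (abs_nonneg _) ?_)
    rcases @RCLike.I_eq_zero_or_im_I_eq_one 𝕜 _ with h | h
    · simp [h]
    · exact (RCLike.norm_I_of_ne_zero fun h0 => by simp [h0] at h).le
  rcases le_total ‖∑ i ∈ s, ((l₁ i : ℚ) : 𝕜) * z i‖ ‖∑ i ∈ s, ((l₂ i : ℚ) : 𝕜) * z i‖ with h | h
  · exact ⟨l₂, h₂, by linarith⟩
  · exact ⟨l₁, h₁, by linarith⟩

/-- Lower estimate from the weighted operation.  Recipe: for `ε > 0` pick `h c, E' c` with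
`nrm (res (E c) x) - ε < ‖act (h c) (res (E' c) (res (E c) x))‖`, `exists_signs`, and apply `KK.wop` with the intervals
`E' c ∩ E c`. -/
theorem sum_nrm_res_le (S : Setup Γ) (j d : ℕ) (hd : d ≤ S.n j) (E : ℕ → Set Γ)
    (hE : SuccInt E d) (x : Γ →₀ 𝕜) :
    ∑ c ∈ range d, nrm S (res (E c) x) ≤ 2 * S.m j * nrm S x := by
  have hm := S.m_pos j
  refine le_of_forall_pos_le_add fun ε hε => ?_
  have hε' : 0 < ε / (d + 1) := by positivity
  have hex : ∀ c, ∃ h, KK S none h ∧ ∃ E' : Set Γ, E'.OrdConnected ∧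
      nrm S (res (E c) x) - ε / (d + 1) < ‖act h (res E' (res (E c) x))‖ :=
    fun c => exists_act_gt (by linarith)
  choose h hh E' hE' hlt using hex
  obtain ⟨lam, hl, hsum⟩ := exists_signs (range d) fun c => act (h c) (res (E' c ∩ E c) x)
  have hK := KK.up _ _ (KK.wop (S := S) j d (fun c => E' c ∩ E c) h lam hd
    ⟨fun c hc => (hE' c).inter (hE.1 c hc),
      fun c c' h1 h2 α hα β hβ => hE.2 c c' h1 h2 α hα.2 β hβ.2⟩ (fun c _ => hl c) fun c _ => hh c)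
  have h1 := act_le_nrm' hK x
  simp only [act_smul_left, act_sum_left, act_res_left, norm_mul] at h1
  have h2 : ‖(((S.m j : ℚ)⁻¹ : ℚ) : 𝕜)‖ = (S.m j : ℝ)⁻¹ := by simp
  rw [h2, inv_mul_le_iff₀ hm] at h1
  have h3 : ∑ c ∈ range d, nrm S (res (E c) x) ≤
      ∑ c ∈ range d, (‖act (h c) (res (E' c ∩ E c) x)‖ + ε / (d + 1)) :=
    sum_le_sum fun c _ => by
      have := hlt c
      rw [res_res] at this
      linarith
  rw [sum_add_distrib, sum_const, card_range, nsmul_eq_mul] at h3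
  have h4 : (d : ℝ) * (ε / (d + 1)) ≤ ε := by
    rw [← mul_div_assoc, div_le_iff₀ (by positivity)]
    nlinarith
  linarith

/-- a single segment has norm at most `2` (`KK.dop` with `N = 1`) -/
theorem seg_le {c : Chn Γ} {b : ℕ} (hv : Valid S c b) (a : ℕ) {E : Set Γ} (hE : E.OrdConnected)
    (x : Γ →₀ 𝕜) : ‖act (c.seg a b) (res E x)‖ ≤ 2 * nrm S x := by
  have hK := KK.dop (S := S) 1 (fun _ => c) (fun _ => a) (fun _ => b) (fun _ => 1)
    (fun _ _ n hn => (hv n hn).1) (fun _ _ n hn => (hv n hn).2)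
    (fun _ _ n hn => le_trans one_le_two (hv n (mem_Ico.1 hn).2).1.two_le)
    (fun q hq q' hq' hne => absurd (by omega) hne) (fun _ _ => by simp)
  have h1 := act_le_nrm hK hE x
  rw [sum_range_one, one_smul, act_smul_left, norm_mul] at h1
  have h2 : ‖(((2 : ℚ)⁻¹ : ℚ) : 𝕜)‖ = 2⁻¹ := by simp
  rw [h2] at h1
  linarith

/-- `KK.dop` in terms of `Valid` -/
theorem KK_dop (N : ℕ) (c : ℕ → Chn Γ) (a b : ℕ → ℕ) (lam : ℕ → ℚ)
    (hv : ∀ q < N, Valid S (c q) (b q))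
    (hN : ∀ q < N, ∀ n ∈ Ico (a q) (b q), N ≤ (c q).w n)
    (hd : ∀ q < N, ∀ q' < N, q ≠ q' → ∀ n ∈ Ico (a q) (b q), ∀ n' ∈ Ico (a q') (b q'),
      (c q).w n ≠ (c q').w n') (hl : ∀ q < N, |lam q| ≤ 1) :
    KK S none ((2 : ℚ)⁻¹ • ∑ q ∈ range N, lam q • (c q).seg (a q) (b q)) := by
  exact KK.dop N c a b lam (fun q hq n hn => (hv q hq n hn).1) (fun q hq n hn => (hv q hq n hn).2)
    hN hd hl

/-- Lower estimate from the `D`-operation (reindex `Z` by `range Z.card`, e.g. with `Finset.equivFin`;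
`exists_signs`; `KK_dop`). -/
theorem sum_seg_le {ι : Type*} (Z : Finset ι) (c : ι → Chn Γ) (a b : ι → ℕ)
    (hv : ∀ q ∈ Z, Valid S (c q) (b q))
    (hN : ∀ q ∈ Z, ∀ n ∈ Ico (a q) (b q), Z.card ≤ (c q).w n)
    (hd : ∀ q ∈ Z, ∀ q' ∈ Z, q ≠ q' → ∀ n ∈ Ico (a q) (b q), ∀ n' ∈ Ico (a q') (b q'),
      (c q).w n ≠ (c q').w n') {E : Set Γ} (hE : E.OrdConnected) (x : Γ →₀ 𝕜) :
    ∑ q ∈ Z, ‖act ((c q).seg (a q) (b q)) (res E x)‖ ≤ 4 * nrm S x := by
  rcases Z.eq_empty_or_nonempty with rfl | ⟨q₀, hq₀⟩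
  · simpa using nrm_nonneg S x
  let f : ℕ → ι := fun i => if hi : i < Z.card then (Z.equivFin.symm ⟨i, hi⟩ : Z) else q₀
  have hf : ∀ i < Z.card, f i ∈ Z := fun i hi => by
    simp only [f, dif_pos hi]; exact Subtype.property _
  have hinj : ∀ i < Z.card, ∀ i' < Z.card, i ≠ i' → f i ≠ f i' := fun i hi i' hi' hne h => by
    simp only [f, dif_pos hi, dif_pos hi'] at h
    exact hne (congrArg Fin.val (Z.equivFin.symm.injective (Subtype.ext h)))
  have hsum : ∀ F : ι → ℝ, ∑ q ∈ Z, F q = ∑ i ∈ range Z.card, F (f i) := fun F => by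
    rw [← sum_coe_sort Z, ← Z.equivFin.symm.sum_comp, sum_range]
    exact sum_congr rfl fun i _ => by simp only [f, dif_pos i.2]
  obtain ⟨lam, hl, hs⟩ := exists_signs (range Z.card)
    fun i => act ((c (f i)).seg (a (f i)) (b (f i))) (res E x)
  have hK := KK_dop (S := S) Z.card (fun i => c (f i)) (fun i => a (f i)) (fun i => b (f i)) lam
    (fun i hi => hv _ (hf i hi)) (fun i hi => hN _ (hf i hi))
    (fun i hi i' hi' hne => hd _ (hf i hi) _ (hf i' hi') (hinj i hi i' hi' hne)) fun i _ => hl i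
  have h1 := act_le_nrm hK hE x
  simp only [act_smul_left, act_sum_left, norm_mul] at h1
  have h2 : ‖(((2 : ℚ)⁻¹ : ℚ) : 𝕜)‖ = 2⁻¹ := by simp
  rw [h2] at h1
  rw [hsum]
  linarith

theorem R1.smul {t : ℕ} {x : Γ →₀ 𝕜} (h : R1 S t x) {a : 𝕜} (ha : ‖a‖ = 1) :
    R1 S t (a • x) := by
  intro j hj g hg E hE
  rw [res_smul, act_smul, norm_mul, ha, one_mul]
  exact h j hj g hg E hE

theorem R2.smul {t : ℕ} {x : Γ →₀ 𝕜} {η : ℝ} (h : R2 S t x η) {a : 𝕜} (ha : ‖a‖ = 1) :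
    R2 S t (a • x) η := by
  intro c a' b hv hw E hE
  rw [res_smul, act_smul, norm_mul, ha, one_mul]
  exact h c a' b hv hw E hE

/-- rotating a scalar to the nonnegative real axis -/
theorem exists_unimod (z : 𝕜) : ∃ θ : 𝕜, ‖θ‖ = 1 ∧ θ * z = (‖z‖ : 𝕜) := by
  obtain ⟨c, hc, h⟩ := RCLike.exists_norm_eq_mul_self z
  exact ⟨c, hc, h.symm⟩

end Crest.Agent.R114
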