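import Crest.Agent.R114.Basic2

/-! # R114/Blocks : block sequences and counting. -/

set_option autoImplicit false
set_option linter.unusedSectionVars false
open Filter Topology Finset

namespace Crest.Agent.R114

variable {Γ : Type} [LinearOrder Γ] {𝕜 : Type} [RCLike 𝕜] {S : Setup Γ}

theorem rng_ordConnected (x : Γ →₀ 𝕜) : (rng x).OrdConnected := by
  refine ⟨?_⟩
  rintro a ⟨α, hα, -, -, h1, -⟩ b ⟨-, -, β, hβ, -, h2⟩ γ ⟨h3, h4⟩
  exact ⟨α, hα, β, hβ, h1.trans h3, h4.trans h2⟩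

theorem mem_rng {x : Γ →₀ 𝕜} {γ : Γ} (h : γ ∈ x.support) : γ ∈ rng x := by
  exact ⟨γ, h, γ, h, le_rfl, le_rfl⟩

theorem Blt.rng_lt {x y : Γ →₀ 𝕜} (h : Blt x y) : ∀ α ∈ rng x, ∀ β ∈ rng y, α < β := by
  rintro α ⟨-, -, a, ha, -, h1⟩ β ⟨b, hb, -, -, h2, -⟩
  exact lt_of_le_of_lt h1 ((h a ha b hb).trans_le h2)

theorem Succ.smul {x : ℕ → Γ →₀ 𝕜} (h : Succ x) (a : ℕ → 𝕜) : Succ fun i => a i • x i := by
  intro i j hij α hα β hβ
  exact h i j hij α (Finsupp.support_smul hα) β (Finsupp.support_smul hβ)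

theorem Succ.succInt {x : ℕ → Γ →₀ 𝕜} (h : Succ x) (a d : ℕ) :
    SuccInt (fun c => rng (x (a + c))) d := by
  refine ⟨fun c _ => rng_ordConnected _, fun c c' hc _ => ?_⟩
  exact (h _ _ (by omega)).rng_lt

theorem Succ.res_rng_sum {x : ℕ → Γ →₀ 𝕜} (h : Succ x) (s : Finset ℕ) {l : ℕ} (hl : l ∈ s) :
    res (rng (x l)) (∑ i ∈ s, x i) = x l := by
  rw [res_sum, Finset.sum_eq_single_of_mem l hl]
  · exact res_eq_self fun γ hγ => mem_rng hγ
  · intro i _ hil
    refine res_eq_zero fun γ hγ hγ' => ?_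
    rcases lt_or_gt_of_ne hil with h1 | h1
    · exact lt_irrefl _ ((h _ _ h1).rng_lt γ (mem_rng hγ) γ hγ')
    · exact lt_irrefl _ ((h _ _ h1).rng_lt γ hγ' γ (mem_rng hγ))

theorem Succ.support_subset {x : ℕ → Γ →₀ 𝕜} (h : Succ x) (s : Finset ℕ) {l : ℕ} (hl : l ∈ s) :
    (x l).support ⊆ (∑ i ∈ s, x i).support := by
  intro γ hγ
  rw [← h.res_rng_sum s hl] at hγ
  exact (mem_support_res.1 hγ).1

theorem Succ.nrm_le_sum {x : ℕ → Γ →₀ 𝕜} (h : Succ x) (s : Finset ℕ) {l : ℕ} (hl : l ∈ s) :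
    nrm S (x l) ≤ nrm S (∑ i ∈ s, x i) := by
  conv_lhs => rw [← h.res_rng_sum s hl]
  exact nrm_res_le S (rng_ordConnected _) _

/-- sums over consecutive index intervals are again successive -/
theorem Succ.blocks {x : ℕ → Γ →₀ 𝕜} (h : Succ x) {N : ℕ → ℕ} (hN : Monotone N) :
    Succ fun i => ∑ l ∈ Ico (N i) (N (i + 1)), x l := by
  classical
  intro i j hij α hα β hβ
  obtain ⟨a, ha, hαa⟩ := Finset.mem_biUnion.1 (Finsupp.support_finsetSum hα)
  obtain ⟨b, hb, hβb⟩ := Finset.mem_biUnion.1 (Finsupp.support_finsetSum hβ)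
  have h1 := (Finset.mem_Ico.1 ha).2
  have h2 := (Finset.mem_Ico.1 hb).1
  have h3 : N (i + 1) ≤ N j := hN hij
  exact h a b (by omega) α hαa β hβb

/-- lower estimate for blocks (`sum_nrm_res_le` with the ranges) -/
theorem Succ.sum_nrm_le {x : ℕ → Γ →₀ 𝕜} (h : Succ x) (j a b : ℕ) (hab : b - a ≤ S.n j) :
    ∑ l ∈ Ico a b, nrm S (x l) ≤ 2 * S.m j * nrm S (∑ l ∈ Ico a b, x l) := by
  have key := sum_nrm_res_le S j (b - a) hab _ (h.succInt a (b - a)) (∑ l ∈ Ico a b, x l)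
  rw [Finset.sum_Ico_eq_sum_range (fun l => nrm S (x l))]
  refine le_trans (le_of_eq ?_) key
  refine Finset.sum_congr rfl fun c hc => ?_
  rw [h.res_rng_sum]
  have := Finset.mem_range.1 hc
  exact Finset.mem_Ico.2 ⟨by omega, by omega⟩

theorem cnt_le (x : ℕ → Γ →₀ 𝕜) (n : ℕ) (E : Set Γ) : cnt x n E ≤ n := by
  classical
  unfold cnt
  convert (Finset.card_filter_le (range n) (fun r => ∃ α ∈ (x r).support, α ∈ E)).trans
    (Finset.card_range n).le

/-- Recipe: `R c = {r < n | E c ∩ E' meets supp (x r)}`; if `r ∈ R c ∩ R c'` with `c < c'` then `r = min (R c')`; so the sets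
`R c \ {min}` are pairwise disjoint subsets of `{r < n | E' meets supp (x r)}`. -/
theorem sum_cnt_le {x : ℕ → Γ →₀ 𝕜} (h : Succ x) (n d : ℕ) (E : ℕ → Set Γ) (hE : SuccInt E d)
    (E' : Set Γ) : ∑ c ∈ range d, cnt x n (E c ∩ E') ≤ cnt x n E' + d := by
  classical
  set R : ℕ → Finset ℕ := fun c =>
    (range n).filter fun r => ∃ α ∈ (x r).support, α ∈ E c ∩ E' with hR
  set R' : ℕ → Finset ℕ := fun c => (R c).filter fun r => ∃ r' ∈ R c, r' < r with hR'
  have h1 : ∀ c, (R c).card ≤ (R' c).card + 1 := by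
    intro c
    have hs : (R c \ R' c).card ≤ 1 := by
      refine Finset.card_le_one.2 fun a ha b hb => ?_
      rw [Finset.mem_sdiff] at ha hb
      by_contra hne
      rcases lt_or_gt_of_ne hne with h2 | h2
      · exact hb.2 (Finset.mem_filter.2 ⟨hb.1, a, ha.1, h2⟩)
      · exact ha.2 (Finset.mem_filter.2 ⟨ha.1, b, hb.1, h2⟩)
    have := Finset.card_sdiff_add_card_eq_card (s := R' c) (t := R c) (Finset.filter_subset _ _)
    omega
  have hlt : ∀ c c', c < c' → c' < d → Disjoint (R' c) (R' c') := by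
    intro c c' hcc hc'
    refine Finset.disjoint_left.2 fun r hr hr' => ?_
    obtain ⟨hr1, -⟩ := Finset.mem_filter.1 hr
    obtain ⟨-, r', hr2, hlt⟩ := Finset.mem_filter.1 hr'
    obtain ⟨-, α, hα, hαE⟩ := Finset.mem_filter.1 hr1
    obtain ⟨-, β, hβ, hβE⟩ := Finset.mem_filter.1 hr2
    exact lt_asymm (h r' r hlt β hβ α hα) (hE.2 c c' hcc hc' α hαE.1 β hβE.1)
  have h2 : ∑ c ∈ range d, (R' c).card ≤ cnt x n E' := by
    rw [← Finset.card_biUnion]
    · unfold cnt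
      refine Finset.card_le_card fun r hr => ?_
      obtain ⟨c, -, hc⟩ := Finset.mem_biUnion.1 hr
      obtain ⟨hr1, -⟩ := Finset.mem_filter.1 hc
      obtain ⟨h3, α, hα, hαE⟩ := Finset.mem_filter.1 hr1
      exact Finset.mem_filter.2 ⟨h3, α, hα, hαE.2⟩
    · intro c hc c' hc' hne
      rcases lt_or_gt_of_ne hne with h3 | h3
      · exact hlt c c' h3 (Finset.mem_range.1 hc')
      · exact (hlt c' c h3 (Finset.mem_range.1 hc)).symm
  have h3 : ∀ c, cnt x n (E c ∩ E') = (R c).card := by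
    intro c
    unfold cnt
    congr
  calc ∑ c ∈ range d, cnt x n (E c ∩ E') ≤ ∑ c ∈ range d, ((R' c).card + 1) :=
        Finset.sum_le_sum fun c _ => (h3 c).le.trans (h1 c)
    _ = ∑ c ∈ range d, (R' c).card + d := by simp [Finset.sum_add_distrib]
    _ ≤ _ := by omega

/-- only the blocks meeting `E` contribute -/
theorem norm_act_sum_le (h : Γ →₀ ℚ) (x : ℕ → Γ →₀ 𝕜) (n : ℕ) (E : Set Γ) (a : ℝ)
    (ha : ∀ r < n, ‖act h (res E (x r))‖ ≤ a) :
    ‖act h (res E (∑ r ∈ range n, x r))‖ ≤ a * cnt x n E := by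
  classical
  unfold cnt
  rw [res_sum, act_sum, ← Finset.sum_filter_of_ne (p := fun r => ∃ α ∈ (x r).support, α ∈ E)]
  · refine (norm_sum_le _ _).trans ?_
    refine (Finset.sum_le_card_nsmul _ _ a fun r hr => ?_).trans (le_of_eq ?_)
    · exact ha r (Finset.mem_range.1 (Finset.mem_filter.1 hr).1)
    · rw [nsmul_eq_mul, mul_comm]
  · intro r _ hr
    by_contra hn
    push Not at hn
    exact hr (by rw [res_eq_zero hn, act_zero])

/-- the same with one exceptional block -/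
theorem norm_act_sum_le' (h : Γ →₀ ℚ) (x : ℕ → Γ →₀ 𝕜) (n : ℕ) (E : Set Γ) (a b : ℝ)
    (ha0 : 0 ≤ a) (hb0 : 0 ≤ b) (r₀ : ℕ) (ha : ∀ r < n, r ≠ r₀ → ‖act h (res E (x r))‖ ≤ a)
    (hb : ‖act h (res E (x r₀))‖ ≤ b) :
    ‖act h (res E (∑ r ∈ range n, x r))‖ ≤ a * cnt x n E + b := by
  classical
  unfold cnt
  rw [res_sum, act_sum, ← Finset.sum_filter_of_ne (p := fun r => ∃ α ∈ (x r).support, α ∈ E)]
  · refine (norm_sum_le _ _).trans ?_
    set T := (range n).filter fun r => ∃ α ∈ (x r).support, α ∈ E with hT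
    have h1 : ∑ r ∈ T, ‖act h (res E (x r))‖ ≤ ∑ r ∈ T, (a + if r = r₀ then b else 0) := by
      refine Finset.sum_le_sum fun r hr => ?_
      split_ifs with h2
      · subst h2; linarith
      · simpa using ha r (Finset.mem_range.1 (Finset.mem_filter.1 hr).1) h2
    refine h1.trans ?_
    rw [Finset.sum_add_distrib, Finset.sum_const, nsmul_eq_mul, mul_comm, Finset.sum_ite_eq']
    refine add_le_add (le_of_eq ?_) ?_
    · congr
    · split_ifs <;> simp [hb0]
  · intro r _ hr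
    by_contra hn
    push Not at hn
    exact hr (by rw [res_eq_zero hn, act_zero])

end Crest.Agent.R114
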