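import Crest.Agent.R114.Basic2

/-! # R114/Compl : existence and size of the completion. -/

set_option autoImplicit false
open Filter Topology Finset
open scoped Cardinal

namespace Crest.Agent.R114

variable {Γ : Type} [LinearOrder Γ]

/-- a general completion lemma for a seminorm -/
theorem Compl.exists_completion {𝕜 : Type} [RCLike 𝕜] {V : Type} [AddCommGroup V] [Module 𝕜 V]
    (p : Seminorm 𝕜 V) :
    ∃ (W : Type) (_ : NormedAddCommGroup W) (_ : NormedSpace 𝕜 W) (_ : CompleteSpace W)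
      (e : V →ₗ[𝕜] W), (∀ x, ‖e x‖ = p x) ∧ DenseRange e := by
  let _ : SeminormedAddCommGroup V := p.toAddGroupSeminorm.toSeminormedAddCommGroup
  let _ : NormedSpace 𝕜 V := ⟨fun a x => (map_smul_eq_mul p a x).le⟩
  refine ⟨UniformSpace.Completion V, inferInstance, inferInstance, inferInstance,
    (UniformSpace.Completion.toComplₗᵢ (𝕜 := 𝕜) (E := V)).toLinearMap, fun x => ?_, ?_⟩
  · exact (UniformSpace.Completion.toComplₗᵢ (𝕜 := 𝕜) (E := V)).norm_map x
  · exact UniformSpace.Completion.denseRange_coe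

/-- restriction as a linear map -/
noncomputable def Compl.resL (𝕜 : Type) [RCLike 𝕜] (E : Set Γ) : (Γ →₀ 𝕜) →ₗ[𝕜] (Γ →₀ 𝕜) where
  toFun := res E
  map_add' := res_add E
  map_smul' := res_smul E

/-- Recipe: a type synonym `V` of `Γ →₀ 𝕜` with `AddGroupNorm.toNormedAddCommGroup` (or `NormedAddCommGroup.ofCore`) for
`nrm S`, `NormedSpace` from `nrm_smul`; `W = UniformSpace.Completion V`, `emb` from `UniformSpace.Completion.toComplL`;
`P E` = extension of `x ↦ emb (res E x)` (`LinearMap.mkContinuous`, `ContinuousLinearMap.extend`, or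
`ContinuousLinearMap.completion`) when `E` is `OrdConnected`, else `0`; `ev γ` likewise. -/
theorem exists_mdl (S : Setup Γ) (𝕜 : Type) [RCLike 𝕜] :
    ∃ (W : Type) (_ : NormedAddCommGroup W) (_ : NormedSpace 𝕜 W) (_ : CompleteSpace W),
      Nonempty (Mdl S 𝕜 W) := by
  classical
  let p : Seminorm 𝕜 (Γ →₀ 𝕜) := Seminorm.of (nrm S) (nrm_add_le S) (nrm_smul S)
  obtain ⟨W, i1, i2, i3, e, he, hd⟩ := Compl.exists_completion p
  have he' : ∀ x, ‖e x‖ = nrm S x := he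
  refine ⟨W, i1, i2, i3, ⟨⟨e, he', hd,
    fun E => (e ∘ₗ Compl.resL 𝕜 E).extendOfNorm e, fun E hE x => ?_,
    fun γ => (Finsupp.lapply γ : (Γ →₀ 𝕜) →ₗ[𝕜] 𝕜).extendOfNorm e, fun γ x => ?_⟩⟩⟩
  · refine LinearMap.extendOfNorm_eq hd ⟨1, fun y => ?_⟩ x
    rw [one_mul, LinearMap.comp_apply, he', he']
    exact nrm_res_le S hE y
  · refine LinearMap.extendOfNorm_eq hd ⟨1, fun y => ?_⟩ x
    rw [one_mul, he']
    exact apply_le_nrm S y γ

variable {𝕜 : Type} [RCLike 𝕜]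

theorem Compl.card_scalar (𝕜 : Type) [RCLike 𝕜] : #𝕜 ≤ 𝔠 := by
  have h : Function.Injective (fun z : 𝕜 => (RCLike.re z, RCLike.im z)) := by
    intro z w hzw
    simp only [Prod.mk.injEq] at hzw
    exact RCLike.ext hzw.1 hzw.2
  have := Cardinal.mk_le_of_injective h
  simpa [Cardinal.mk_real] using this

theorem Compl.card_finsupp (𝕜 : Type) [RCLike 𝕜] {Γ : Type} (hΓ : #Γ ≤ 𝔠) :
    #(Γ →₀ 𝕜) ≤ 𝔠 := by
  classical
  have h : Function.Injective (fun x : Γ →₀ 𝕜 => x.graph) := Finsupp.graph_injective Γ 𝕜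
  refine (Cardinal.mk_le_of_injective h).trans ?_
  have h2 : #(Γ × 𝕜) ≤ 𝔠 := by
    rw [Cardinal.mk_prod, Cardinal.lift_id, Cardinal.lift_id]
    calc #Γ * #𝕜 ≤ 𝔠 * 𝔠 := mul_le_mul' hΓ (Compl.card_scalar 𝕜)
      _ = 𝔠 := Cardinal.continuum_mul_self
  rcases finite_or_infinite (Γ × 𝕜) with hf | hf
  · exact (Cardinal.mk_le_aleph0).trans Cardinal.aleph0_le_continuum
  · rw [Cardinal.mk_finset_of_infinite]
    exact h2

theorem Compl.card_seq {A : Type} (h : #A ≤ 𝔠) : #(ℕ → A) ≤ 𝔠 := by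
  rw [← Cardinal.power_def, Cardinal.mk_nat]
  calc #A ^ ℵ₀ ≤ 𝔠 ^ ℵ₀ := Cardinal.power_le_power_right h
    _ = 𝔠 := Cardinal.continuum_power_aleph0

/-- `W` is a set of limits of sequences in `Γ →₀ 𝕜`, which has cardinality `≤ 𝔠` (`Cardinal.mk_finsupp_lift_of_infinite` or a
surjection from `List (Γ × 𝕜)`; `𝔠 ^ ℵ₀ = 𝔠`; `#𝕜 ≤ 𝔠` through `(re, im)`). -/
theorem Mdl.card_seq_le {S : Setup Γ} {W : Type} [NormedAddCommGroup W] [NormedSpace 𝕜 W]
    (M : Mdl S 𝕜 W) (hΓ : #Γ ≤ 𝔠) : #(ℕ → W) ≤ 𝔠 := by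
  refine Compl.card_seq ?_
  have h1 : ∀ w : W, ∃ x : ℕ → (Γ →₀ 𝕜), Tendsto (fun n => M.emb (x n)) atTop (𝓝 w) := by
    intro w
    obtain ⟨y, hy, hlim⟩ := mem_closure_iff_seq_limit.1 (M.dense w)
    choose x hx using hy
    exact ⟨x, by simpa only [hx] using hlim⟩
  choose x hx using h1
  have hinj : Function.Injective x := by
    intro w w' hww
    have h2 := hx w
    rw [hww] at h2
    exact tendsto_nhds_unique h2 (hx w')
  exact (Cardinal.mk_le_of_injective hinj).trans (Compl.card_seq (Compl.card_finsupp 𝕜 hΓ))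

end Crest.Agent.R114
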