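import Crest.Agent.R114.Tail

/-! # R114/Dual : the generators norm `W`. -/

set_option autoImplicit false
open Filter Topology Finset

namespace Crest.Agent.R114

variable {Γ : Type} [LinearOrder Γ] [WellFoundedLT Γ] {𝕜 : Type} [RCLike 𝕜] {S : Setup Γ}
  {W : Type} [NormedAddCommGroup W] [NormedSpace 𝕜 W] {M : Mdl S 𝕜 W}
  {f : Γ → Dat Γ 𝕜 W}

theorem xx_P (hf : ∀ ζ, Inv M f ζ (f ζ)) {L : Set Γ} (hL : IsLowerSet L) {ζ : Γ} (hζ : ζ ∈ L)
    (w : W) : xx M f ζ (M.P L w) = xx M f ζ w := by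
  unfold xx
  rw [add_apply, add_apply, M.ev_P_mem hL.ordConnected hζ,
    T_P isLowerSet_univ (fun ζ _ => hf ζ) (Set.mem_univ ζ) hL.ordConnected (hL.Iio_subset hζ)]

theorem XX_P (hf : ∀ ζ, Inv M f ζ (f ζ)) {L : Set Γ} (hL : IsLowerSet L)
    {φ : StrongDual 𝕜 W} (hφ : φ ∈ XX M f L) (w : W) : φ (M.P L w) = φ w := by
  induction hφ using Submodule.span_induction with
  | mem φ h =>
    obtain ⟨ζ, hζ, rfl⟩ := h
    exact xx_P hf hL hζ w
  | zero => rfl
  | add φ ψ _ _ h1 h2 => rw [add_apply, add_apply, h1, h2]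
  | smul a φ _ h => rw [smul_apply, smul_apply, h]

theorem dual_T_single (hf : ∀ ζ, Inv M f ζ (f ζ)) {ξ ζ : Γ} (h : ξ ≤ ζ) (k : ℕ) :
    (f ξ).T k (M.emb (Finsupp.single ζ 1)) = 0 := by
  rw [← T_P isLowerSet_univ (fun ζ _ => hf ζ) (Set.mem_univ ξ) Set.ordConnected_Iio subset_rfl,
    M.P_emb _ Set.ordConnected_Iio, res_eq_zero, map_zero, map_zero]
  intro γ hγ
  rw [Finset.mem_singleton.1 (Finsupp.support_single_subset hγ)]
  exact not_lt.2 h

theorem xx_single_self (hf : ∀ ζ, Inv M f ζ (f ζ)) (ζ : Γ) :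
    xx M f ζ (M.emb (Finsupp.single ζ 1)) = 1 := by
  unfold xx
  rw [add_apply, dual_T_single hf le_rfl, M.ev_emb, Finsupp.single_eq_same, add_zero]

theorem xx_single_of_lt (hf : ∀ ζ, Inv M f ζ (f ζ)) {ξ ζ : Γ} (h : ξ < ζ) :
    xx M f ξ (M.emb (Finsupp.single ζ 1)) = 0 := by
  unfold xx
  rw [add_apply, dual_T_single hf h.le, M.ev_emb, Finsupp.single_eq_of_ne h.ne,
    add_zero]

/-- triangular, hence independent (`linearIndependent_iff'`, evaluate at the largest index with nonzero coefficient) -/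
theorem linearIndependent_xx (hf : ∀ ζ, Inv M f ζ (f ζ)) : LinearIndependent 𝕜 (xx M f) := by
  classical
  rw [linearIndependent_iff']
  intro s g hg
  by_contra hne
  push Not at hne
  obtain ⟨i₀, hi₀, hg₀⟩ := hne
  obtain ⟨ζ, hζ, hmax⟩ := (s.filter fun i => g i ≠ 0).exists_max_image (fun i => i)
    ⟨i₀, Finset.mem_filter.2 ⟨hi₀, hg₀⟩⟩
  obtain ⟨hζs, hζg⟩ := Finset.mem_filter.1 hζ
  have h1 := congrArg (fun φ : StrongDual 𝕜 W => φ (M.emb (Finsupp.single ζ 1))) hg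
  simp only [_root_.sum_apply, smul_apply,
    zero_apply] at h1
  rw [Finset.sum_eq_single ζ, xx_single_self hf, smul_eq_mul, mul_one] at h1
  · exact hζg h1
  · intro i hi hiζ
    by_cases h0 : g i = 0
    · rw [h0, zero_smul]
    · rw [xx_single_of_lt hf (lt_of_le_of_ne (hmax i (Finset.mem_filter.2 ⟨hi, h0⟩)) hiζ), smul_zero]
  · exact fun h => absurd hζs h

omit [WellFoundedLT Γ] in
theorem dual_corr_tendsto (hf : ∀ ζ, Inv M f ζ (f ζ)) (g : Γ →₀ ℚ) (x : Γ →₀ 𝕜) :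
    Tendsto (fun K => corr f g K (M.emb x)) atTop (𝓝 0) := by
  have h := tendsto_finsetSum g.support fun ζ _ =>
    ((hf ζ).tendsto_T x).const_smul ((g ζ : ℚ) : 𝕜)
  simp only [smul_zero, Finset.sum_const_zero] at h
  refine h.congr fun K => ?_
  simp only [corr, _root_.sum_apply, smul_apply]

theorem dual_mem_XX (hf : ∀ ζ, Inv M f ζ (f ζ)) {L : Set Γ} (hL : IsLowerSet L) {g : Γ →₀ ℚ}
    (hg : ∀ γ ∈ g.support, γ ∈ L) (K : ℕ) : M.actW g + corr f g K ∈ XX M f L := by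
  unfold Mdl.actW corr
  rw [← Finset.sum_add_distrib]
  refine Submodule.sum_mem _ fun γ hγ => ?_
  have h := Submodule.smul_mem _ ((g γ : ℚ) : 𝕜) (mem_XX hL (fun ζ _ => hf ζ) (hg γ hγ) K)
  convert h using 1
  ext w
  simp only [add_apply, smul_apply, smul_add]

/-- Norming.  Recipe: `exists_approx` gives `x` supported in `L` with `‖P L w - emb x‖ < ε`.  For `h`, `E` put
`h' = res (E ∩ L) h`, `K` admissible for `supp h'` (`exists_adm`, `Adm.mono`) and so large that `‖corr f h' K (emb x)‖ < ε`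
(`Inv.tendsto_T`); `φ = actW h' + corr f h' K ∈ XX M f L` (`mem_XX`), `‖φ‖ ≤ 1 + 8` (`norm_actW_res_le`, `corr_le`);
`‖act h (res E x)‖ ≤ ‖φ (emb x)‖ + ε ≤ ‖φ w‖ + 10 ε` (`XX_P`); `nrm_le`. -/
theorem norming (hf : ∀ ζ, Inv M f ζ (f ζ)) {L : Set Γ} (hL : IsLowerSet L) (w : W) {c : ℝ}
    (hc0 : 0 ≤ c) (hc : ∀ φ ∈ XX M f L, ‖φ w‖ ≤ c * ‖φ‖) : ‖M.P L w‖ ≤ 9 * c := by
  refine le_of_forall_pos_le_add fun ε' hε' => ?_
  obtain ⟨ε, hε, rfl⟩ : ∃ ε : ℝ, 0 < ε ∧ ε' = 11 * ε := ⟨ε' / 11, by positivity, by ring⟩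
  obtain ⟨x, hxL, hx⟩ := M.exists_approx hL.ordConnected w hε
  have key : nrm S x ≤ 9 * c + 10 * ε := by
    refine nrm_le fun h hh E hE => ?_
    have hEL : (E ∩ L).OrdConnected := hE.inter hL.ordConnected
    set g := res (E ∩ L) h with hg
    have hgL : ∀ γ ∈ g.support, γ ∈ L := fun γ hγ => (mem_support_res.1 hγ).2.2
    have e1 : act h (res E x) = M.actW g (M.emb x) := by
      rw [M.actW_emb, hg, act_res_left, ← res_res, res_eq_self hxL]
    obtain ⟨K₀, hK₀⟩ := exists_adm (fun ζ (_ : ζ ∈ L) => hf ζ) g.support hgL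
    obtain ⟨K, hK, hKε⟩ := ((eventually_ge_atTop K₀).and
      ((dual_corr_tendsto hf g x).norm.eventually
        (gt_mem_nhds (show ‖(0 : 𝕜)‖ < ε by rwa [norm_zero])))).exists
    have habs : ∀ γ, |((g γ : ℚ) : ℝ)| ≤ 1 := fun γ => by
      by_cases hγ : γ ∈ E ∩ L
      · rw [hg, res_apply_mem h hγ]; exact (hh.abs_le γ).1
      · rw [hg, res_apply_not_mem h hγ]; simp
    have hcorr : ‖corr f g K‖ ≤ 8 := ContinuousLinearMap.opNorm_le_bound _ (by norm_num) fun v => by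
      simpa using corr_le hL (fun ζ _ => hf ζ) g hgL (hK₀.mono hK) zero_le_one habs v
    have hφ9 : ‖M.actW g + corr f g K‖ ≤ 9 :=
      (norm_add_le _ _).trans (by linarith [M.norm_actW_res_le hh hEL])
    have hmem := dual_mem_XX hf hL hgL K
    set φ := M.actW g + corr f g K with hφ
    have h1 : ‖φ w‖ ≤ 9 * c := (hc φ hmem).trans (by nlinarith)
    have h2 : ‖φ (M.P L w - M.emb x)‖ ≤ 9 * ε :=
      (φ.le_opNorm _).trans (mul_le_mul hφ9 hx.le (norm_nonneg _) (by norm_num))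
    have e2 : M.actW g (M.emb x) = φ w - φ (M.P L w - M.emb x) - corr f g K (M.emb x) := by
      rw [map_sub, XX_P hf hL hmem, sub_sub_cancel, hφ, add_apply,
        add_sub_cancel_right]
    rw [e1, e2]
    refine (norm_sub_le _ _).trans ?_
    linarith [norm_sub_le (φ w) (φ (M.P L w - M.emb x))]
  have h3 : ‖M.P L w‖ ≤ ‖M.P L w - M.emb x‖ + ‖M.emb x‖ := by
    simpa using norm_add_le (M.P L w - M.emb x) (M.emb x)
  rw [M.norm_emb] at h3
  linarith

end Crest.Agent.R114
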