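import Crest.Agent.R114.Dual

/-! # R114/Dual2 : every functional on the span of the generators is represented by a point of `W`. -/

set_option autoImplicit false
open Filter Topology Finset

namespace Crest.Agent.R114

variable {Γ : Type} [LinearOrder Γ] [WellFoundedLT Γ] {𝕜 : Type} [RCLike 𝕜] {S : Setup Γ}
  {W : Type} [NormedAddCommGroup W] [NormedSpace 𝕜 W] {M : Mdl S 𝕜 W}
  {f : Γ → Dat Γ 𝕜 W}

/-- `w` represents `Φ` on the generators indexed by `L` -/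
def Rep (M : Mdl S 𝕜 W) (f : Γ → Dat Γ 𝕜 W) (Φ : StrongDual 𝕜 (StrongDual 𝕜 W)) (L : Set Γ)
    (w : W) : Prop :=
  M.P L w = w ∧ ∀ ζ ∈ L, xx M f ζ w = Φ (xx M f ζ)

variable {Φ : StrongDual 𝕜 (StrongDual 𝕜 W)}

omit [WellFoundedLT Γ] in
theorem Rep.apply_eq {L : Set Γ} {w : W} (h : Rep M f Φ L w) {φ : StrongDual 𝕜 W}
    (hφ : φ ∈ XX M f L) : φ w = Φ φ := by
  induction hφ using Submodule.span_induction with
  | mem x hx => obtain ⟨ζ, hζ, rfl⟩ := hx; exact h.2 ζ hζ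
  | zero => simp
  | add x y _ _ hx hy => rw [ContinuousLinearMap.add_apply, map_add, hx, hy]
  | smul a x _ hx => rw [ContinuousLinearMap.smul_apply, map_smul, hx]

theorem Rep.norm_le (hf : ∀ ζ, Inv M f ζ (f ζ)) {L : Set Γ} (hL : IsLowerSet L) {w : W}
    (h : Rep M f Φ L w) : ‖w‖ ≤ 9 * ‖Φ‖ := by
  have h1 : ‖M.P L w‖ ≤ 9 * ‖Φ‖ := norming hf hL w (norm_nonneg Φ) fun φ hφ => by
    rw [h.apply_eq hφ]; exact Φ.le_opNorm φ
  rwa [h.1] at h1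

theorem Rep.unique (hf : ∀ ζ, Inv M f ζ (f ζ)) {L : Set Γ} (hL : IsLowerSet L) {w w' : W}
    (h : Rep M f Φ L w) (h' : Rep M f Φ L w') : w = w' := by
  have h1 : ‖M.P L (w - w')‖ ≤ 9 * 0 := norming hf hL (w - w') le_rfl fun φ hφ => by
    rw [map_sub, h.apply_eq hφ, h'.apply_eq hφ]; simp
  rw [map_sub, h.1, h'.1, mul_zero] at h1
  exact sub_eq_zero.1 (norm_le_zero_iff.1 h1)

theorem Rep.restrict (hf : ∀ ζ, Inv M f ζ (f ζ)) {L L' : Set Γ} (hL : IsLowerSet L)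
    (hL' : IsLowerSet L') (hLL : L' ⊆ L) {w : W} (h : Rep M f Φ L w) :
    Rep M f Φ L' (M.P L' w) := by
  refine ⟨?_, fun ζ hζ => ?_⟩
  · rw [M.P_P hL'.ordConnected hL'.ordConnected, Set.inter_self]
  · rw [xx_P hf hL' hζ]; exact h.2 ζ (hLL hζ)

/-- `w + (Φ (xx ζ) - xx ζ w) • emb (single ζ 1)` -/
theorem Rep.succ (hf : ∀ ζ, Inv M f ζ (f ζ)) {ζ : Γ} {w : W} (h : Rep M f Φ (Set.Iio ζ) w) :
    ∃ w', Rep M f Φ (Set.Iic ζ) w' := by
  refine ⟨w + (Φ (xx M f ζ) - xx M f ζ w) • M.emb (Finsupp.single ζ 1), ?_, fun ξ hξ => ?_⟩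
  · have h1 : M.P (Set.Iic ζ) w = w := by
      conv_lhs => rw [← h.1]
      rw [M.P_P Set.ordConnected_Iic Set.ordConnected_Iio,
        Set.inter_eq_self_of_subset_right Set.Iio_subset_Iic_self, h.1]
    have h2 : M.P (Set.Iic ζ) (M.emb (Finsupp.single ζ 1)) = M.emb (Finsupp.single ζ 1) := by
      rw [M.P_emb _ Set.ordConnected_Iic, res_eq_self]
      intro γ hγ
      have := Finsupp.support_single_subset hγ
      rw [Finset.mem_singleton] at this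
      exact this.le
    rw [map_add, map_smul, h1, h2]
  · rw [map_add, map_smul, smul_eq_mul]
    rcases (Set.mem_Iic.1 hξ).eq_or_lt with rfl | hlt
    · rw [xx_single_self hf]; ring
    · rw [xx_single_of_lt hf hlt, mul_zero, add_zero]; exact h.2 ξ hlt

/-- Bounded completeness.  Recipe: `L = ∅`: `w = 0`.  Otherwise choose `w ζ`; for `ζ ≤ ζ'` in `L`,
`w ζ = P (Iic ζ) (w ζ')` (`restrict`, `unique`).  If for some `ε` every `ζ₀ ∈ L` has `ζ ∈ L`, `ζ₀ ≤ ζ`, `ε ≤ ‖w ζ - w ζ₀‖`,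
build `ζ 0 < ζ 1 < …`; `P (Ioc (ζ c) (ζ (c+1))) (w (ζ d)) = w (ζ (c+1)) - w (ζ c)` (`P_union`), so
`n j ε ≤ 2 m j · 9 ‖Φ‖` (`sum_norm_P_le`), contradicting `Par.mul_m_le_n` for large `j`.  Hence the net on `↥L` is Cauchy
(`Metric.cauchySeq_iff'`, `cauchySeq_tendsto_of_complete`); pass to the limit. -/
theorem Rep.limit [CompleteSpace W] (hf : ∀ ζ, Inv M f ζ (f ζ)) {L : Set Γ} (hL : IsLowerSet L)
    (h : ∀ ζ ∈ L, ∃ w, Rep M f Φ (Set.Iic ζ) w) : ∃ w, Rep M f Φ L w := by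
  rcases L.eq_empty_or_nonempty with rfl | hne
  · exact ⟨0, by simp, by simp⟩
  choose! w hw using h
  have hcomp : ∀ ζ ζ', ζ' ∈ L → ζ ≤ ζ' → M.P (Set.Iic ζ) (w ζ') = w ζ := fun ζ ζ' hζ' hle =>
    Rep.unique hf (isLowerSet_Iic ζ)
      ((hw ζ' hζ').restrict hf (isLowerSet_Iic ζ') (isLowerSet_Iic ζ) (Set.Iic_subset_Iic.2 hle))
      (hw ζ (hL hle hζ'))
  have hdiff : ∀ ζ ζ' ζ'', ζ'' ∈ L → ζ ≤ ζ' → ζ' ≤ ζ'' →
      M.P (Set.Ioc ζ ζ') (w ζ'') = w ζ' - w ζ := by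
    intro ζ ζ' ζ'' hζ h1 h2
    have hU : Set.Iic ζ ∪ Set.Ioc ζ ζ' = Set.Iic ζ' := Set.Iic_union_Ioc_eq_Iic h1
    have h3 := M.P_union (E := Set.Iic ζ) (E' := Set.Ioc ζ ζ') Set.ordConnected_Iic
      Set.ordConnected_Ioc (hU ▸ Set.ordConnected_Iic)
      (Set.disjoint_left.2 fun a ha hb => absurd hb.1 (not_lt.2 ha)) (w ζ'')
    rw [hU, hcomp ζ' ζ'' hζ h2, hcomp ζ ζ'' hζ (h1.trans h2)] at h3
    rw [h3]; abel
  have hcau : ∀ ε > (0 : ℝ), ∃ ζ₀ : L, ∀ ζ : L, ζ₀ ≤ ζ → dist (w ζ) (w ζ₀) < ε := by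
    intro ε hε
    by_contra hcon
    push Not at hcon
    choose g hg1 hg2 using hcon
    obtain ⟨ζ₀, hζ₀⟩ := hne
    let z : ℕ → L := fun c => g^[c] ⟨ζ₀, hζ₀⟩
    have hz : ∀ c, z (c + 1) = g (z c) := fun c => Function.iterate_succ_apply' g c _
    have hmono : Monotone z := monotone_nat_of_le_succ fun c => by rw [hz]; exact hg1 _
    obtain ⟨j, hj⟩ := exists_nat_gt (18 * ‖Φ‖ / ε)
    have hS : SuccInt (fun c => Set.Ioc (z c : Γ) (z (c + 1) : Γ)) (S.n j) := by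
      refine ⟨fun c _ => Set.ordConnected_Ioc, fun c c' hcc _ α hα β hβ => ?_⟩
      have : z (c + 1) ≤ z c' := hmono hcc
      exact lt_of_le_of_lt (hα.2.trans this) hβ.1
    have h1 := M.sum_norm_P_le j (S.n j) le_rfl _ hS (w (z (S.n j)))
    have h2 : ∑ c ∈ range (S.n j), ε ≤
        ∑ c ∈ range (S.n j), ‖M.P (Set.Ioc (z c : Γ) (z (c + 1) : Γ)) (w (z (S.n j)))‖ := by
      refine Finset.sum_le_sum fun c hc => ?_
      have hc' : c + 1 ≤ S.n j := Finset.mem_range.1 hc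
      rw [hdiff _ _ _ (z (S.n j)).2 (hmono (Nat.le_succ c)) (hmono hc'), ← dist_eq_norm, hz]
      exact hg2 _
    rw [Finset.sum_const, Finset.card_range, nsmul_eq_mul] at h2
    have h3 : ‖w (z (S.n j))‖ ≤ 9 * ‖Φ‖ :=
      (hw _ (z (S.n j)).2).norm_le hf (isLowerSet_Iic _)
    have h4 : (j : ℝ) * S.m j ≤ S.n j := by exact_mod_cast S.toPar.mul_m_le_n j
    have hm : (0 : ℝ) < S.m j := S.toPar.m_pos j
    rw [div_lt_iff₀ hε] at hj
    have h5 : (S.n j : ℝ) * ε ≤ 2 * S.m j * (9 * ‖Φ‖) :=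
      h2.trans (h1.trans (mul_le_mul_of_nonneg_left h3 (by positivity)))
    have h6 : (j : ℝ) * S.m j * ε ≤ (S.n j : ℝ) * ε := mul_le_mul_of_nonneg_right h4 hε.le
    nlinarith
  haveI : Nonempty L := hne.to_subtype
  have hC : CauchySeq fun ζ : L => w ζ := Metric.cauchySeq_iff'.2 hcau
  obtain ⟨v, hv⟩ := cauchySeq_tendsto_of_complete hC
  refine ⟨v, ?_, fun ξ hξ => ?_⟩
  · have h1 : Tendsto (fun ζ : L => M.P L (w ζ)) atTop (𝓝 (M.P L v)) :=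
      ((M.P L).continuous.tendsto v).comp hv
    have h2 : (fun ζ : L => M.P L (w ζ)) = fun ζ : L => w ζ := by
      funext ζ
      have h3 := (hw ζ ζ.2).1
      have h4 : Set.Iic (ζ : Γ) ⊆ L := fun a ha => hL ha ζ.2
      conv_lhs => rw [← h3]
      rw [M.P_P hL.ordConnected Set.ordConnected_Iic, Set.inter_eq_self_of_subset_right h4, h3]
    rw [h2] at h1
    exact tendsto_nhds_unique h1 hv
  · have h1 : Tendsto (fun ζ : L => xx M f ξ (w ζ)) atTop (𝓝 (xx M f ξ v)) :=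
      ((xx M f ξ).continuous.tendsto v).comp hv
    have h2 : (fun ζ : L => xx M f ξ (w ζ)) =ᶠ[atTop] fun _ => Φ (xx M f ξ) := by
      filter_upwards [eventually_ge_atTop (⟨ξ, hξ⟩ : L)] with ζ hζ
      exact (hw ζ ζ.2).2 ξ hζ
    exact tendsto_nhds_unique (h1.congr' h2) tendsto_const_nhds

/-- strong induction with `limit` (for `Iio ζ`) and `succ`, then `limit` for `univ` -/
theorem exists_rep [CompleteSpace W] (hf : ∀ ζ, Inv M f ζ (f ζ))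
    (Φ : StrongDual 𝕜 (StrongDual 𝕜 W)) : ∃ w : W, ∀ ζ, xx M f ζ w = Φ (xx M f ζ) := by
  have h1 : ∀ ζ, ∃ w, Rep M f Φ (Set.Iic ζ) w := by
    intro ζ
    induction ζ using WellFoundedLT.induction with
    | ind ζ ih =>
      obtain ⟨w, hw⟩ := Rep.limit (Φ := Φ) hf (isLowerSet_Iio ζ) fun ξ hξ => ih ξ hξ
      exact hw.succ hf
  obtain ⟨w, hw⟩ := Rep.limit (Φ := Φ) hf isLowerSet_univ fun ζ _ => h1 ζ
  exact ⟨w, fun ζ => hw.2 ζ trivial⟩

end Crest.Agent.R114
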