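import Mathlib

/-! # R114/Omega : the well-order `ω₁`, recursion with invariants, bookkeeping. -/

set_option autoImplicit false
open Filter Topology Finset
open scoped Cardinal

namespace Crest.Agent.R114

/-- `Γ = (ℵ₁).ord.ToType`; initial segments have cardinality `< ℵ₁` (`Cardinal.mk_Iio_ord_toType` or
`Ordinal.mk_Iio_ordinal`-type lemmas, `Cardinal.lt_aleph_one_iff`/`countable_iff_lt_aleph_one`). -/
theorem exists_omega1 : ∃ (Γ : Type) (_ : LinearOrder Γ) (_ : WellFoundedLT Γ),
    #Γ = Cardinal.aleph 1 ∧ ∀ β : Γ, (Set.Iio β).Countable := by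
  refine ⟨(Cardinal.aleph 1).ord.ToType, inferInstance, inferInstance, Cardinal.mk_ord_toType _,
    fun β => ?_⟩
  rw [Cardinal.countable_iff_lt_aleph_one]
  exact Cardinal.mk_Iio_ord_toType β

variable {Γ : Type} [LinearOrder Γ]

/-- countable sets are strictly bounded (otherwise `Γ = ⋃_{α ∈ A} Iic α` is countable) -/
theorem exists_bound [Uncountable Γ] (hc : ∀ β : Γ, (Set.Iio β).Countable) (A : Set Γ)
    (hA : A.Countable) : ∃ β, ∀ α ∈ A, α < β := by
  by_contra h
  push Not at h
  have h1 : (⋃ α ∈ A, Set.Iic α).Countable := hA.biUnion fun α _ => by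
    rw [← Set.Iio_insert]; exact (hc α).insert α
  have h2 : (Set.univ : Set Γ) ⊆ ⋃ α ∈ A, Set.Iic α := fun β _ => by
    obtain ⟨α, hα, hβ⟩ := h β
    exact Set.mem_biUnion hα hβ
  exact Set.not_countable_univ (h1.mono h2)

/-- Transfinite recursion with an invariant.  Recipe: `f = WellFounded.fix` of
`fun η rec => if h : ∃ d, P η (ext η rec) d then choose h else default`, where `ext η rec ζ = rec ζ _` for `ζ < η` and a
default value otherwise; strong induction with `hloc`. -/
theorem exists_rec [WellFoundedLT Γ] {D : Type*} [Nonempty D] (P : Γ → (Γ → D) → D → Prop)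
    (hloc : ∀ η f f' d, (∀ ζ < η, f ζ = f' ζ) → P η f d → P η f' d)
    (hstep : ∀ η f, (∀ ζ < η, P ζ f (f ζ)) → ∃ d, P η f d) :
    ∃ f : Γ → D, ∀ η, P η f (f η) := by
  classical
  let ext : (η : Γ) → ((ζ : Γ) → ζ < η → D) → Γ → D := fun η r ζ =>
    if h : ζ < η then r ζ h else Classical.arbitrary D
  let F : (η : Γ) → ((ζ : Γ) → ζ < η → D) → D := fun η r =>
    if h : ∃ d, P η (ext η r) d then Classical.choose h else Classical.arbitrary D
  let f : Γ → D := WellFounded.fix wellFounded_lt F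
  have hf : ∀ η, f η = F η (fun ζ _ => f ζ) := fun η => WellFounded.fix_eq _ _ _
  refine ⟨f, fun η => ?_⟩
  induction η using WellFoundedLT.induction with
  | ind η ih =>
    have he : ∀ ζ < η, ext η (fun ζ _ => f ζ) ζ = f ζ := fun ζ h => dif_pos h
    obtain ⟨d, hd⟩ := hstep η f ih
    have h1 : ∃ d, P η (ext η fun ζ _ => f ζ) d :=
      ⟨d, hloc η f _ d (fun ζ h => (he ζ h).symm) hd⟩
    have h2 : f η = Classical.choose h1 := by rw [hf]; exact dif_pos h1
    rw [h2]
    exact hloc η _ f _ he (Classical.choose_spec h1)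

/-- Bookkeeping: every task is listed cofinally often.  Recipe: `#(A × Γ) ≤ #Γ`, so there is a surjection
`Γ → A × Γ`; the fibre of the first coordinate over `a` surjects onto `Γ`, so it is uncountable and not inside `Iio β`. -/
theorem exists_bookkeeping [Uncountable Γ] (hc : ∀ β : Γ, (Set.Iio β).Countable) (A : Type)
    [Nonempty A] (hA : #A ≤ #Γ) : ∃ τ : Γ → A, ∀ a β, ∃ η, β ≤ η ∧ τ η = a := by
  have h1 : #(A × Γ) ≤ #Γ := by
    rw [Cardinal.mk_prod, Cardinal.lift_id, Cardinal.lift_id]
    calc #A * #Γ ≤ #Γ * #Γ := mul_le_mul_left hA _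
      _ = #Γ := Cardinal.mul_eq_self (Cardinal.aleph0_le_mk Γ)
  obtain ⟨e⟩ := (Cardinal.le_def _ _).1 h1
  refine ⟨fun η => (Function.invFun e η).1, fun a β => ?_⟩
  by_contra h
  push Not at h
  have h2 : ∀ γ, e (a, γ) ∈ Set.Iio β := fun γ => by
    by_contra h3
    exact h _ (not_lt.1 h3) (by rw [Function.leftInverse_invFun e.injective])
  have := (hc β).to_subtype
  have h3 : Function.Injective fun γ : Γ => (⟨e (a, γ), h2 γ⟩ : Set.Iio β) := fun x y hxy =>
    (Prod.mk.inj (e.injective (Subtype.mk.inj hxy))).2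
  exact not_countable h3.countable

end Crest.Agent.R114
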