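import Crest.Agent.R114.ADefs

/-! # R114/Rho : a `ρ`-function on a well-order with countable initial segments. -/

set_option autoImplicit false
open Filter Topology Finset

namespace Crest.Agent.R114

variable {Γ : Type} [LinearOrder Γ]

theorem rho_seq {β : Γ} (hc : (Set.Iio β).Countable) :
    ∃ s : ℕ → Γ, Monotone s ∧ ∀ α < β, (∀ n, s n < β) ∧ ∃ n, α ≤ s n := by
  rcases (Set.Iio β).eq_empty_or_nonempty with h | h
  · refine ⟨fun _ => β, monotone_const, fun α hα => ?_⟩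
    have : α ∈ Set.Iio β := hα
    rw [h] at this
    exact this.elim
  obtain ⟨f, hf⟩ := hc.exists_eq_range h
  have hf1 : ∀ n, f n < β := fun n => by
    have : f n ∈ Set.Iio β := hf ▸ Set.mem_range_self n
    exact this
  let s : ℕ → Γ := fun n => Nat.rec (f 0) (fun n x => max x (f (n + 1))) n
  have hs : ∀ n, s (n + 1) = max (s n) (f (n + 1)) := fun n => rfl
  refine ⟨s, monotone_nat_of_le_succ fun n => hs n ▸ le_max_left _ _, fun α hα => ⟨fun n => ?_, ?_⟩⟩
  · induction n with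
    | zero => exact hf1 0
    | succ n ih => rw [hs]; exact max_lt ih (hf1 _)
  · have : α ∈ Set.range f := hf ▸ hα
    obtain ⟨n, rfl⟩ := this
    refine ⟨n, ?_⟩
    cases n with
    | zero => exact le_rfl
    | succ n => rw [hs]; exact le_max_right _ _

theorem rho_fun [WellFoundedLT Γ] (s : Γ → ℕ → Γ) (hs : ∀ β α, α < β → ∀ n, s β n < β)
    (N : Γ → Γ → ℕ) : ∃ ρ : Γ → Γ → ℕ, (∀ β, ρ β β = 0) ∧ ∀ β α, α < β → ρ β α =
      max (N β α + (range (N β α + 1) ×ˢ range (N β α + 1)).sup fun ij => ρ (s β ij.2) (s β ij.1))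
        (ρ (s β (N β α)) α) := by
  let G : (β : Γ) → ((ζ : Γ) → ζ < β → Γ → ℕ) → Γ → ℕ := fun β rec α =>
    if h : α < β then max (N β α + (range (N β α + 1) ×ˢ range (N β α + 1)).sup
      fun ij => rec (s β ij.2) (hs β α h _) (s β ij.1)) (rec (s β (N β α)) (hs β α h _) α) else 0
  refine ⟨(wellFounded_lt (α := Γ)).fix G, fun β => ?_, fun β α h => ?_⟩
  · rw [WellFounded.fix_eq]
    exact dif_neg (lt_irrefl β)
  · rw [WellFounded.fix_eq]
    exact dif_pos h

theorem rho_exists [WellFoundedLT Γ] (hc : ∀ β : Γ, (Set.Iio β).Countable) :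
    ∃ ρ : Γ → Γ → ℕ, (∀ β, ρ β β = 0) ∧
      (∀ γ β α, α ≤ β → β ≤ γ → ρ γ α ≤ max (ρ β α) (ρ γ β) ∧ ρ β α ≤ max (ρ γ α) (ρ γ β)) ∧
      ∀ p β, {α | α ≤ β ∧ ρ β α ≤ p}.Finite := by
  choose s hsm hs using fun β => rho_seq (hc β)
  let N : Γ → Γ → ℕ := fun β α => sInf {n | α ≤ s β n}
  have hN : ∀ β α, α < β → α ≤ s β (N β α) := fun β α h => Nat.sInf_mem (hs β α h).2
  have hN' : ∀ β α n, α ≤ s β n → N β α ≤ n := fun β α n h => Nat.sInf_le h
  obtain ⟨ρ, h0, hρ⟩ := rho_fun s (fun β α h => (hs β α h).1) N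
  let kk : Γ → ℕ → ℕ := fun β n =>
    n + (range (n + 1) ×ˢ range (n + 1)).sup fun ij => ρ (s β ij.2) (s β ij.1)
  have hρ' : ∀ β α, α < β → ρ β α = max (kk β (N β α)) (ρ (s β (N β α)) α) := hρ
  have hk1 : ∀ β a b, a ≤ b → kk β a ≤ kk β b := fun β a b h =>
    add_le_add h (sup_mono (product_subset_product (range_mono (by omega)) (range_mono (by omega))))
  have hk2 : ∀ β a b, a ≤ b → ρ (s β b) (s β a) ≤ kk β b := fun β a b h =>
    le_add_left (le_sup (f := fun ij : ℕ × ℕ => ρ (s β ij.2) (s β ij.1)) (b := (a, b))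
      (mem_product.2 ⟨mem_range.2 (by omega), mem_range.2 (by omega)⟩))
  have hk3 : ∀ β a, a ≤ kk β a := fun β a => Nat.le_add_right _ _
  clear_value kk N
  refine ⟨ρ, h0, fun γ => ?_, fun p β => ?_⟩
  · induction γ using (wellFounded_lt (α := Γ)).induction with
    | _ γ ih =>
      intro β α hαβ hβγ
      rcases hβγ.eq_or_lt with rfl | hβγ
      · exact ⟨le_max_left _ _, le_max_left _ _⟩
      have hαγ := hαβ.trans_lt hβγ
      have hb := hN γ β hβγ
      have ha := hN γ α hαγ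
      have hab := hN' γ α _ (hαβ.trans hb)
      have hB := (hs γ β hβγ).1 (N γ β)
      have i1 := ih _ hB _ _ ha (hsm γ hab)
      have i2 := ih _ hB _ _ hαβ hb
      have e1 := hρ' γ α hαγ
      have e2 := hρ' γ β hβγ
      have k1 := hk1 γ _ _ hab
      have k2 := hk2 γ _ _ hab
      omega
  · induction β using (wellFounded_lt (α := Γ)).induction with
    | _ β ih =>
      rcases (Set.Iio β).eq_empty_or_nonempty with h | ⟨α₀, h⟩
      · refine (Set.finite_singleton β).subset fun α hα => ?_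
        refine hα.1.eq_or_lt.resolve_right fun h' => ?_
        have : α ∈ Set.Iio β := h'
        rw [h] at this
        exact this.elim
      refine ((Set.finite_singleton β).union ((Set.finite_le_nat p).biUnion fun n _ =>
        ih (s β n) ((hs β α₀ h).1 n))).subset fun α hα => ?_
      rcases hα.1.eq_or_lt with h' | h'
      · exact Or.inl h'
      have e1 := hρ' β α h'
      have e2 := hα.2
      have k3 := hk3 β (N β α)
      exact Or.inr (Set.mem_biUnion (x := N β α) (show N β α ≤ p by omega)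
        ⟨hN β α h', by omega⟩)

/-- Recipe.  For `β` with `Iio β ≠ ∅` pick a monotone `s β : ℕ → Γ` with values `< β`, cofinal in `Iio β` (running
maximum of an enumeration).  Define `ρ β : Γ → ℕ` (`ρ β α` = `ρ(α, β)`) by `WellFounded.fix`: `ρ β α = 0` if `¬ α < β`, else
`max (kk N) (ρ (s β N) α)` with `N = Nat.find (α ≤ s β N)` and `kk N = N + sup_{i ≤ j ≤ N} ρ (s β j) (s β i)` (monotone, `≥ N`).
Prove by strong induction on the top `γ`, for `α ≤ β ≤ γ`: (1) `ρ(α,γ) ≤ max ρ(α,β) ρ(β,γ)`,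
(2) `ρ(α,β) ≤ max ρ(α,γ) ρ(β,γ)`: with `a = N(α) ≤ b = N(β)`, (1) from (2) at `s γ b` for `α ≤ s γ a ≤ s γ b` and (1) at
`s γ b` for `α ≤ β`; (2) from (2) at `s γ b` and (1) at `s γ b` for `α ≤ s γ a`.  (3) `{α ≤ β | ρ(α,β) ≤ p}` is finite:
it lies in `{β} ∪ ⋃_{N ≤ p} {α ≤ s β N | ρ(α, s β N) ≤ p}`.  `F p β` is that set. -/
theorem exists_coh [WellFoundedLT Γ] (hc : ∀ β : Γ, (Set.Iio β).Countable) : Nonempty (Coh Γ) := by
  obtain ⟨ρ, h0, h1, h2⟩ := rho_exists hc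
  have hm : ∀ p β α, α ∈ (h2 p β).toFinset ↔ α ≤ β ∧ ρ β α ≤ p := fun p β α =>
    Set.Finite.mem_toFinset _
  refine ⟨⟨fun p β => (h2 p β).toFinset, fun p β => ?_, fun p β α h => ((hm _ _ _).1 h).1,
    fun p q β hpq α h => ?_, fun α β h => ⟨ρ β α, (hm _ _ _).2 ⟨h, le_rfl⟩⟩, fun p α β h ξ => ?_⟩⟩
  · rw [hm, h0]; exact ⟨le_rfl, Nat.zero_le _⟩
  · rw [hm] at h ⊢; exact ⟨h.1, h.2.trans hpq⟩
  · rw [hm] at h
    rw [hm, hm]
    constructor
    · rintro ⟨a1, a2⟩
      exact ⟨⟨a1.trans h.1, (h1 β α ξ a1 h.1).1.trans (max_le a2 h.2)⟩, a1⟩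
    · rintro ⟨⟨-, a2⟩, a1⟩
      exact ⟨a1, (h1 β α ξ a1 h.1).2.trans (max_le a2 h.2)⟩

end Crest.Agent.R114
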