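import Crest.Agent.R114.Stage
import Crest.Agent.R114.Dual2
import Crest.Agent.R114.Compl
import Crest.Agent.R114.Omega
import Crest.Agent.R114.Rho
import Crest.Agent.R114.Adj

/-! # R114/Final : the recursion and the theorem for S0152. -/

set_option autoImplicit false
open Filter Topology Finset
open scoped Cardinal

namespace Crest.Agent.R114

variable {Γ : Type} [LinearOrder Γ] [WellFoundedLT Γ] {𝕜 : Type} [RCLike 𝕜] {S : Setup Γ}
  {W : Type} [NormedAddCommGroup W] [NormedSpace 𝕜 W]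

/-- Recipe: `exists_bookkeeping` for `A = ℕ → W`; `exists_rec` with
`P η f d = Inv M f η d ∧ (¬ FiniteDimensional (span (range (τ η))) → (∀ n, P (Iio η) (τ η n) = τ η n) → Done M f η d (span …))`
(`Inv.congr`, `Done.congr`, `stage_trivial`, `stage_main`); `exists_countable_support` and `exists_bound` to find
`β' ≥ β` above the supports of all `y n`. -/
theorem exists_system [Uncountable Γ] (M : Mdl S 𝕜 W) (hc : ∀ β : Γ, (Set.Iio β).Countable)
    (hW : #(ℕ → W) ≤ #Γ) :
    ∃ f : Γ → Dat Γ 𝕜 W, (∀ ζ, Inv M f ζ (f ζ)) ∧ ∀ (y : ℕ → W) (β : Γ),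
      ¬ FiniteDimensional 𝕜 (Submodule.span 𝕜 (Set.range y)) →
      ∃ η, β ≤ η ∧ Done M f η (f η) (Submodule.span 𝕜 (Set.range y)) := by
  have : Nonempty (Dat Γ 𝕜 W) :=
    ⟨⟨⟨fun _ => 0, fun _ => 0, fun _ => 0⟩, fun _ => 0, fun _ => 0⟩⟩
  obtain ⟨τ, hτ⟩ := exists_bookkeeping hc (ℕ → W) hW
  obtain ⟨f, hf⟩ := exists_rec (D := Dat Γ 𝕜 W)
    (fun η f d => Inv M f η d ∧ (¬ FiniteDimensional 𝕜 (Submodule.span 𝕜 (Set.range (τ η))) →
      (∀ n, M.P (Set.Iio η) (τ η n) = τ η n) →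
      Done M f η d (Submodule.span 𝕜 (Set.range (τ η)))))
    (fun η f f' d h hP => ⟨hP.1.congr h, fun a b => (hP.2 a b).congr h⟩)
    (fun η f ih => by
      by_cases h : ¬ FiniteDimensional 𝕜 (Submodule.span 𝕜 (Set.range (τ η))) ∧
          ∀ n, M.P (Set.Iio η) (τ η n) = τ η n
      · obtain ⟨d, h1, h2⟩ := stage_main (hc η) (fun ζ hζ => (ih ζ hζ).1) _ h.1 (fun w hw => by
          induction hw using Submodule.span_induction with
          | mem x hx => obtain ⟨n, rfl⟩ := hx; exact h.2 n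
          | zero => exact map_zero _
          | add x y _ _ hx hy => rw [map_add, hx, hy]
          | smul a x _ hx => rw [map_smul, hx])
        exact ⟨d, h1, fun _ _ => h2⟩
      · obtain ⟨d, hd⟩ := stage_trivial (hc η) (fun ζ hζ => (ih ζ hζ).1)
        exact ⟨d, hd, fun a b => absurd ⟨a, b⟩ h⟩)
  refine ⟨f, fun ζ => (hf ζ).1, fun y β hy => ?_⟩
  choose A hA hA' using fun n => M.exists_countable_support (y n)
  obtain ⟨β', hβ'⟩ := exists_bound hc (⋃ n, A n) (Set.countable_iUnion hA)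
  obtain ⟨η, hη, rfl⟩ := hτ y (max β β')
  exact ⟨η, le_of_max_le_left hη, (hf η).2 hy fun n => hA' n _ Set.ordConnected_Iio fun α hα =>
    (hβ' α (Set.mem_iUnion.2 ⟨n, hα⟩)).trans_le (le_of_max_le_right hη)⟩

/-- a point of the closed span lies in the closed span of countably many generators -/
theorem exists_bound_closure [Uncountable Γ] (M : Mdl S 𝕜 W) (f : Γ → Dat Γ 𝕜 W)
    (hc : ∀ β : Γ, (Set.Iio β).Countable) (x : ℕ → StrongDual 𝕜 W)
    (hx : ∀ i, x i ∈ (XX M f Set.univ).topologicalClosure) :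
    ∃ β, ∀ i, x i ∈ (XX M f (Set.Iio β)).topologicalClosure := by
  have hmono : ∀ β β' : Γ, β ≤ β' → XX M f (Set.Iio β) ≤ XX M f (Set.Iio β') := fun β β' h =>
    Submodule.span_mono (Set.image_mono (Set.Iio_subset_Iio h))
  have key : ∀ φ ∈ XX M f Set.univ, ∃ β, φ ∈ XX M f (Set.Iio β) := by
    intro φ hφ
    induction hφ using Submodule.span_induction with
    | mem x hx =>
      obtain ⟨ζ, -, rfl⟩ := hx
      obtain ⟨β, hβ⟩ := exists_bound hc {ζ} (Set.countable_singleton ζ)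
      exact ⟨β, Submodule.subset_span ⟨ζ, hβ ζ rfl, rfl⟩⟩
    | zero => exact ⟨Classical.arbitrary Γ, Submodule.zero_mem _⟩
    | add x y _ _ hx hy =>
      obtain ⟨β, hβ⟩ := hx
      obtain ⟨β', hβ'⟩ := hy
      exact ⟨max β β', Submodule.add_mem _ (hmono _ _ (le_max_left _ _) hβ)
        (hmono _ _ (le_max_right _ _) hβ')⟩
    | smul a x _ hx =>
      obtain ⟨β, hβ⟩ := hx
      exact ⟨β, Submodule.smul_mem _ a hβ⟩
  choose a ha hlim using fun i => mem_closure_iff_seq_limit.1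
    (show x i ∈ closure (XX M f Set.univ : Set (StrongDual 𝕜 W)) from hx i)
  choose b hb using fun p : ℕ × ℕ => key _ (ha p.1 p.2)
  obtain ⟨β, hβ⟩ := exists_bound hc (Set.range b) (Set.countable_range b)
  exact ⟨β, fun i => mem_closure_of_tendsto (hlim i) (Eventually.of_forall fun k =>
    hmono _ _ (hβ _ ⟨(i, k), rfl⟩).le (hb (i, k)))⟩

variable {X : Type} [NormedAddCommGroup X] [NormedSpace 𝕜 X]

/-- The annihilator of `M'` in `W`; `X` is an isometric copy of the closed span of the generators.  Recipe: `exists_seq_dual` for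
`X ⧸ M'` gives `g n`; extend `g n ∘ mkQ` along `ι` to `Φ n : W**` (`exists_extension_norm_eq` on `range ι`, with
`LinearIsometry.equivRange`), `exists_rep` gives `y n` with `ι x (y n) = g n (mk x)` for all `x` (the functionals `Φ n` and
evaluation at `y n` agree on the span, hence on its closure).  If `span (range y)` were finite-dimensional, so would be its
image under `J : W →ₗ (X →ₗ 𝕜)`, `J w x = ι x w`, which is the image of `span (range g)` under an injective linear map. -/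
theorem exists_annihilator [CompleteSpace W] (M : Mdl S 𝕜 W) (f : Γ → Dat Γ 𝕜 W)
    (hf : ∀ ζ, Inv M f ζ (f ζ)) (ι : X →ₗᵢ[𝕜] StrongDual 𝕜 W)
    (hι : ∀ x, ι x ∈ (XX M f Set.univ).topologicalClosure) (M' : Submodule 𝕜 X)
    (hM' : IsClosed (M' : Set X)) (hd : ¬ FiniteDimensional 𝕜 (X ⧸ M')) :
    ∃ y : ℕ → W, ¬ FiniteDimensional 𝕜 (Submodule.span 𝕜 (Set.range y)) ∧
      ∀ n, ∀ x ∈ M', ι x (y n) = 0 := by
  have := hM'
  obtain ⟨g, hg⟩ := exists_seq_dual hd
  have key : ∀ ψ : StrongDual 𝕜 X, ∃ w : W, ∀ x, ι x w = ψ x := by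
    intro ψ
    obtain ⟨Φ, hΦ, -⟩ := exists_extension_norm_eq (LinearMap.range ι.toLinearMap)
      (ψ.comp (ι.equivRange.symm.toContinuousLinearEquiv : _ →L[𝕜] X))
    obtain ⟨w, hw⟩ := exists_rep hf Φ
    refine ⟨w, fun x => ?_⟩
    have h1 : ∀ φ ∈ XX M f Set.univ, φ w = Φ φ := by
      intro φ hφ
      induction hφ using Submodule.span_induction with
      | mem x hx => obtain ⟨ζ, -, rfl⟩ := hx; exact hw ζ
      | zero => simp
      | add x y _ _ hx hy => rw [map_add, ← hx, ← hy]; rfl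
      | smul a x _ hx => rw [map_smul, ← hx]; rfl
    have h2 : ι x w = Φ (ι x) :=
      (isClosed_eq (ContinuousLinearMap.apply 𝕜 𝕜 w).continuous Φ.continuous).closure_subset_iff.2
        h1 (hι x)
    rw [h2]
    have h3 := hΦ (ι.equivRange x)
    simpa using h3
  choose y hy using fun n => key ((g n).comp M'.mkQL)
  refine ⟨y, fun hfin => hg ?_, fun n x hx => ?_⟩
  · let J : W →ₗ[𝕜] (X → 𝕜) :=
      { toFun := fun w x => ι x w
        map_add' := fun w w' => funext fun x => map_add _ _ _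
        map_smul' := fun a w => funext fun x => map_smul _ _ _ }
    let K : StrongDual 𝕜 (X ⧸ M') →ₗ[𝕜] (X → 𝕜) :=
      { toFun := fun φ x => φ (M'.mkQ x)
        map_add' := fun _ _ => rfl
        map_smul' := fun _ _ => rfl }
    have hK : Function.Injective K := fun φ φ' h => by
      ext q
      obtain ⟨x, rfl⟩ := M'.mkQ_surjective q
      exact congrFun h x
    have e : (Submodule.span 𝕜 (Set.range g)).map K = (Submodule.span 𝕜 (Set.range y)).map J := by
      rw [Submodule.map_span, Submodule.map_span, ← Set.range_comp, ← Set.range_comp]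
      congr 2
      funext n x
      exact (hy n x).symm
    have : FiniteDimensional 𝕜 ((Submodule.span 𝕜 (Set.range g)).map K) := by
      rw [e]; infer_instance
    exact (Submodule.equivMapOfInjective K hK _).symm.finiteDimensional
  · rw [hy n x]
    have : M'.mkQL x = 0 := (Submodule.Quotient.mk_eq_zero M').2 hx
    rw [ContinuousLinearMap.comp_apply, this, map_zero]

/-- Recipe: `y` from `exists_annihilator`; a dense sequence of the quotient (`TopologicalSpace.exists_dense_seq`) lifted to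
`x i : X`; `β` from `exists_bound_closure`; `η ≥ β`, `u`, `C` from the task.  Every `φ` in the closure of `XX (Iio η)` has
`φ (u k) → 0` (span induction, then `ε/C` approximation); members of `M'` kill `span (range y)`; approximate
`xx η = ι x₀` by `x i + m`, `m ∈ M'`, within `1/(16 (C+1))` (`Submodule.Quotient.norm_mk_lt`), contradiction with
`1/8 ≤ ‖xx η (u k)‖`. -/
theorem no_SQ_of_system [CompleteSpace W] [Uncountable Γ] (M : Mdl S 𝕜 W) (f : Γ → Dat Γ 𝕜 W)
    (hc : ∀ β : Γ, (Set.Iio β).Countable) (hf : ∀ ζ, Inv M f ζ (f ζ))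
    (ht : ∀ (y : ℕ → W) (β : Γ), ¬ FiniteDimensional 𝕜 (Submodule.span 𝕜 (Set.range y)) →
      ∃ η, β ≤ η ∧ Done M f η (f η) (Submodule.span 𝕜 (Set.range y)))
    (ι : X →ₗᵢ[𝕜] StrongDual 𝕜 W) (hι : ∀ x, ι x ∈ (XX M f Set.univ).topologicalClosure)
    (hι' : ∀ ζ, ∃ x, ι x = xx M f ζ) : ¬ SQ 𝕜 X := by
  rintro ⟨M', hM', hsep, hd⟩
  have := hM'
  obtain ⟨y, hy, hy0⟩ := exists_annihilator M f hf ι hι M' hM' hd
  obtain ⟨q, hq⟩ := TopologicalSpace.exists_dense_seq (X ⧸ M')
  choose x hx using fun i => M'.mkQ_surjective (q i)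
  obtain ⟨β, hβ⟩ := exists_bound_closure M f hc (fun i => ι (x i)) (fun i => hι _)
  obtain ⟨η, hβη, u, C, hu, hC, hnull, hlow⟩ := ht y β hy
  obtain ⟨x₀, hx₀⟩ := hι' η
  have hC0 : 0 ≤ C := (norm_nonneg _).trans (hC 0)
  set ε : ℝ := 1 / (32 * (C + 1)) with hε
  have hε0 : 0 < ε := by positivity
  have hεC : ε * C ≤ 1 / 32 := by
    rw [hε, div_mul_eq_mul_div, div_le_div_iff₀ (by positivity) (by norm_num)]
    linarith
  obtain ⟨i, hi⟩ := Metric.denseRange_iff.1 hq (M'.mkQ x₀) ε hε0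
  obtain ⟨r, hr, hr'⟩ := Submodule.Quotient.norm_mk_lt (M'.mkQ x₀ - q i) hε0
  rw [dist_eq_norm] at hi
  have hm : x₀ - x i - r ∈ M' := by
    rw [← Submodule.Quotient.mk_eq_zero, Submodule.Quotient.mk_sub, hr, ← hx i]
    simp
  obtain ⟨φ, hφ, hφ'⟩ := Metric.mem_closure_iff.1
    (show ι (x i) ∈ closure (XX M f (Set.Iio β) : Set (StrongDual 𝕜 W)) from hβ i) ε hε0
  rw [dist_eq_norm] at hφ'
  have h1 : ∀ᶠ k in atTop, φ (u k) = 0 := by
    clear hφ'
    induction hφ using Submodule.span_induction with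
    | mem x hx => obtain ⟨ζ, hζ, rfl⟩ := hx; exact hnull ζ (lt_of_lt_of_le hζ hβη)
    | zero => exact Eventually.of_forall fun _ => rfl
    | add x y _ _ hx hy =>
      filter_upwards [hx, hy] with k h1 h2
      change x (u k) + y (u k) = 0
      rw [h1, h2, add_zero]
    | smul a x _ hx =>
      filter_upwards [hx] with k h1
      change a • x (u k) = 0
      rw [h1, smul_zero]
  have h2 : ∀ w ∈ Submodule.span 𝕜 (Set.range y), ι (x₀ - x i - r) w = 0 := by
    intro w hw
    induction hw using Submodule.span_induction with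
    | mem x hx => obtain ⟨n, rfl⟩ := hx; exact hy0 n _ hm
    | zero => exact map_zero _
    | add x y _ _ hx hy => rw [map_add, hx, hy, add_zero]
    | smul a x _ hx => rw [map_smul, hx, smul_zero]
  obtain ⟨k, hk⟩ := h1.exists
  have h3 : xx M f η (u k) = (ι (x i) - φ) (u k) + ι r (u k) := by
    have := h2 _ (hu k)
    rw [map_sub, map_sub, hx₀] at this
    change xx M f η (u k) - ι (x i) (u k) - ι r (u k) = 0 at this
    change _ = ι (x i) (u k) - φ (u k) + ι r (u k)
    rw [hk]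
    linear_combination this
  have h4 : ‖(ι (x i) - φ) (u k)‖ ≤ ε * C :=
    ((ι (x i) - φ).le_opNorm _).trans (mul_le_mul hφ'.le (hC k) (norm_nonneg _) hε0.le)
  have h5 : ‖ι r (u k)‖ ≤ 2 * ε * C := by
    refine ((ι r).le_opNorm _).trans (mul_le_mul ?_ (hC k) (norm_nonneg _) (by positivity))
    rw [ι.norm_map]
    linarith
  have h6 : 1 / 8 ≤ ‖xx M f η (u k)‖ := hlow k
  rw [h3] at h6
  have h7 := norm_add_le ((ι (x i) - φ) (u k)) (ι r (u k))
  linarith

/-- (`linearIndependent_xx` pulled back along `ι`, `LinearIndependent.of_comp`; `Γ` is infinite) -/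
theorem not_finiteDimensional_X [Uncountable Γ] (M : Mdl S 𝕜 W) (f : Γ → Dat Γ 𝕜 W)
    (hf : ∀ ζ, Inv M f ζ (f ζ)) (ι : X →ₗᵢ[𝕜] StrongDual 𝕜 W)
    (hι' : ∀ ζ, ∃ x, ι x = xx M f ζ) : ¬ FiniteDimensional 𝕜 X := by
  intro hX
  choose x hx using hι'
  have h : LinearIndependent 𝕜 x :=
    LinearIndependent.of_comp ι.toLinearMap (by
      have : ⇑ι.toLinearMap ∘ x = xx M f := funext hx
      rw [this]
      exact linearIndependent_xx hf)
  exact Module.Finite.not_linearIndependent_of_infinite x h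

theorem exists_no_SQ (𝕜 : Type) [RCLike 𝕜] (hCH : Cardinal.mk ℝ = Cardinal.aleph 1) :
    ∃ (X : Type) (_ : NormedAddCommGroup X) (_ : NormedSpace 𝕜 X),
      CompleteSpace X ∧ ¬ FiniteDimensional 𝕜 X ∧ ¬ SQ 𝕜 X := by
  obtain ⟨Γ, _, _, hΓ, hc⟩ := exists_omega1
  have hc1 : (𝔠 : Cardinal) = Cardinal.aleph 1 := by rw [← Cardinal.mk_real, hCH]
  have : Uncountable Γ := by
    rw [← Cardinal.aleph0_lt_mk_iff, hΓ]; exact Cardinal.aleph0_lt_aleph_one
  obtain ⟨C⟩ := exists_coh hc
  obtain ⟨P⟩ := exists_par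
  let S : Setup Γ := { C, P with }
  obtain ⟨W, _, _, _, ⟨M⟩⟩ := exists_mdl S 𝕜
  obtain ⟨f, hf, ht⟩ := exists_system M hc
    (by rw [hΓ, ← hc1]; exact M.card_seq_le (by rw [hΓ, hc1]))
  have h' : ∀ ζ, ∃ x, (XX M f Set.univ).topologicalClosure.subtypeₗᵢ x = xx M f ζ := fun ζ =>
    ⟨⟨xx M f ζ, Submodule.le_topologicalClosure _
      (Submodule.subset_span ⟨ζ, Set.mem_univ _, rfl⟩)⟩, rfl⟩
  exact ⟨(XX M f Set.univ).topologicalClosure, inferInstance, inferInstance,
    (Submodule.isClosed_topologicalClosure _).completeSpace_coe,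
    not_finiteDimensional_X M f hf _ h', no_SQ_of_system M f hc hf ht _ (fun x => x.2) h'⟩

end Crest.Agent.R114
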