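import Crest.Agent.R114.BDefs

/-! # R114/Fub : Fubini recursion producing a suppression-unconditional sequence. -/

set_option autoImplicit false
open Filter Topology Finset MeasureTheory

namespace Crest.Agent.R114

variable {𝕜 : Type} [RCLike 𝕜] {X : Type*} [NormedAddCommGroup X] [NormedSpace 𝕜 X]

/-- Joint measurability.  Recipe: choose `u t n = ∑ i ∈ supp, c t n i • g i` (`Finsupp.mem_span_range_iff_exists_finsupp`);
`(z, t) ↦ ∑_{i<M} c t n i * g i (x z)` is measurable (each factor depends on one discrete coordinate), it is eventually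
constant in `M`, then let `n → ∞` (`measurable_of_tendsto_metrizable`, with `borelize 𝕜` or the norms into `ℝ`). -/
theorem measurableSet_zero {Z : Type} [MeasurableSpace Z] [DiscreteMeasurableSpace Z]
    (g : ℕ → StrongDual 𝕜 X) (φ : Om → StrongDual 𝕜 X) (hlim : ∀ t, SeqLim g (φ t))
    (x : Z → X) : MeasurableSet {q : Z × Om | φ q.2 (x q.1) = 0} := by
  classical
  choose u hu hlim' using hlim
  have hc : ∀ t n, ∃ c : ℕ →₀ 𝕜, c.sum (fun i a => a • g i) = u t n := fun t n =>
    Finsupp.mem_span_range_iff_exists_finsupp.1 (hu t n)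
  choose c hc using hc
  have h1 : ∀ n M, Measurable fun q : Z × Om => ∑ i ∈ range M, c q.2 n i * g i (x q.1) := by
    intro n M
    refine Finset.measurable_sum _ fun i _ => Measurable.mul ?_ ?_
    · exact (Measurable.of_discrete (f := fun t : Om => c t n i)).comp measurable_snd
    · exact (Measurable.of_discrete (f := fun z : Z => g i (x z))).comp measurable_fst
  have h2 : ∀ n, Measurable fun q : Z × Om => u q.2 n (x q.1) := by
    intro n
    refine measurable_of_tendsto_metrizable (h1 n) (tendsto_pi_nhds.2 fun q => ?_)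
    obtain ⟨M₀, hM₀⟩ := (c q.2 n).support.exists_nat_subset_range
    refine tendsto_atTop_of_eventually_const (i₀ := M₀) fun M hM => ?_
    rw [← hc q.2 n, Finsupp.sum, _root_.sum_apply]
    symm
    refine Finset.sum_subset_zero_on_sdiff (hM₀.trans (Finset.range_mono hM)) ?_ ?_
    · intro i hi
      have : c q.2 n i = 0 := by
        simpa using (Finset.mem_sdiff.1 hi).2
      simp [this]
    · intro i _
      simp
  have h3 : Measurable fun q : Z × Om => φ q.2 (x q.1) :=
    measurable_of_tendsto_metrizable h2 (tendsto_pi_nhds.2 fun q => hlim' q.2 (x q.1))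
  exact h3 (measurableSet_singleton 0)

/-- `Good μ φ xx ψ y as`: for almost all `s₁`, almost all `s₂`, …, `ψ` kills `xx (y + a₁ φ s₁ + a₂ φ s₂ + …)`. -/
def Good (μ : Measure Om) (φ : Om → StrongDual 𝕜 X) (xx : StrongDual 𝕜 X → X)
    (ψ : StrongDual 𝕜 X) : StrongDual 𝕜 X → List 𝕜 → Prop
  | y, [] => ψ (xx y) = 0
  | y, a :: as => ∀ᵐ s ∂μ, Good μ φ xx ψ (y + a • φ s) as

/-- `Z × Om` with the discrete σ-algebra. -/
def DProd (Z : Type) : Type := Z × Om

instance (Z : Type) : MeasurableSpace (DProd Z) := ⊤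
instance (Z : Type) : DiscreteMeasurableSpace (DProd Z) := ⟨fun _ => trivial⟩

/-- The pairing map into `DProd`. -/
def DProd.mk {Z : Type} (z : Z) (s : Om) : DProd Z := (z, s)

theorem ae_good_aux (μ : Measure Om) [IsProbabilityMeasure μ] (g : ℕ → StrongDual 𝕜 X)
    (φ : Om → StrongDual 𝕜 X) (hlim : ∀ t, SeqLim g (φ t)) (hae : ∀ x, ∀ᵐ t ∂μ, φ t x = 0)
    (xx : StrongDual 𝕜 X → X) (as : List 𝕜) :
    ∀ (Z : Type) [MeasurableSpace Z] [DiscreteMeasurableSpace Z] (ν : Measure Z)
      [IsProbabilityMeasure ν] (yy : Z → StrongDual 𝕜 X),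
      ∀ᵐ t ∂μ, ∀ᵐ z ∂ν, Good μ φ xx (φ t) (yy z) as := by
  induction as with
  | nil =>
    intro Z _ _ ν _ yy
    have hm := measurableSet_zero g φ hlim (fun z : Z => xx (yy z))
    exact (Measure.ae_ae_comm (μ := ν) (ν := μ)
      (p := fun z t => φ t (xx (yy z)) = 0) hm).1 (ae_of_all _ fun z => hae _)
  | cons a as ih =>
    intro Z _ _ ν _ yy
    have hf : Measurable fun z : Z => μ.map (DProd.mk z) := Measurable.of_discrete
    have hP : ∀ z : Z, IsProbabilityMeasure (μ.map (DProd.mk z)) := fun z =>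
      Measure.isProbabilityMeasure_map (Measurable.of_discrete (f := DProd.mk z)).aemeasurable
    have : IsProbabilityMeasure (ν.bind fun z : Z => μ.map (DProd.mk z)) :=
      isProbabilityMeasure_bind hf.aemeasurable (ae_of_all _ hP)
    have h := ih (DProd Z) (ν.bind fun z : Z => μ.map (DProd.mk z))
      (fun q => yy (Prod.fst q) + a • φ (Prod.snd q))
    filter_upwards [h] with t ht
    have h2 := Measure.ae_ae_of_ae_bind hf.aemeasurable ht
    filter_upwards [h2] with z hz
    exact ae_of_ae_map (Measurable.of_discrete (f := DProd.mk z)).aemeasurable hz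

/-- Fubini.  Recipe: prove by induction on `as`, for every type `Z : Type` with discrete σ-algebra, every probability
measure `ν` on `Z` and every `yy : Z → StrongDual 𝕜 X`: `∀ᵐ t ∂μ, ∀ᵐ z ∂ν, Good … (φ t) (yy z) as`.  Base:
`MeasureTheory.Measure.ae_ae_comm` with `measurableSet_zero`.  Step: a type synonym `Z'` of `Z × Om` with `⊤`, the measure
`ν.bind fun z => μ.map (Prod.mk z)` (`Measure.bind_apply`, `lintegral_eq_zero_iff`), for which
`(∀ᵐ q, P q) ↔ ∀ᵐ z ∂ν, ∀ᵐ s ∂μ, P (z, s)`.  Finally `Z = Unit`, `ν = dirac ()`. -/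
theorem ae_good (μ : Measure Om) [IsProbabilityMeasure μ] (g : ℕ → StrongDual 𝕜 X)
    (φ : Om → StrongDual 𝕜 X) (hlim : ∀ t, SeqLim g (φ t)) (hae : ∀ x, ∀ᵐ t ∂μ, φ t x = 0)
    (xx : StrongDual 𝕜 X → X) (y : StrongDual 𝕜 X) (as : List 𝕜) :
    ∀ᵐ t ∂μ, Good μ φ xx (φ t) y as := by
  have h := ae_good_aux μ g φ hlim hae xx as Unit (Measure.dirac ()) (fun _ => y)
  filter_upwards [h] with t ht
  simpa using ht

/-- Dependent choice along prefixes. -/
theorem exists_seq_prefix {α : Type*} [Nonempty α] (P : ℕ → (ℕ → α) → Prop)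
    (hcongr : ∀ n t t', (∀ j < n, t j = t' j) → P n t → P n t') (h0 : ∀ t, P 0 t)
    (hstep : ∀ n t, P n t → ∃ s, P (n + 1) (Function.update t n s)) :
    ∃ T : ℕ → α, ∀ n, P n T := by
  classical
  have hstep' : ∀ n t, ∃ s, P n t → P (n + 1) (Function.update t n s) := by
    intro n t
    by_cases h : P n t
    · obtain ⟨s, hs⟩ := hstep n t h
      exact ⟨s, fun _ => hs⟩
    · exact ⟨Classical.arbitrary α, fun h' => absurd h' h⟩
  choose S hS using hstep'
  let st : ℕ → ℕ → α := fun n =>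
    Nat.rec (fun _ => Classical.arbitrary α) (fun n t => Function.update t n (S n t)) n
  have hst : ∀ n, st (n + 1) = Function.update (st n) n (S n (st n)) := fun n => rfl
  have hP : ∀ n, P n (st n) := by
    intro n
    induction n with
    | zero => exact h0 _
    | succ n ih => rw [hst]; exact hS n _ ih
  have hagree : ∀ j m, j < m → st m j = st (j + 1) j := by
    intro j m hjm
    induction m, hjm using Nat.le_induction with
    | base => rfl
    | succ m hm ih =>
      rw [hst, Function.update_of_ne (by omega), ih]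
  exact ⟨fun j => st (j + 1) j, fun n => hcongr n _ _ (fun j hj => hagree j n hj) (hP n)⟩

theorem exists_norming (y : StrongDual 𝕜 X) : ∃ x : X, ‖x‖ ≤ 1 ∧ ‖y‖ ≤ 2 * ‖y x‖ := by
  rcases eq_or_lt_of_le (norm_nonneg y) with h | h
  · exact ⟨0, by simp, by rw [← h]; positivity⟩
  · obtain ⟨x, hx, hx'⟩ := y.exists_lt_apply_of_lt_opNorm (r := ‖y‖ / 2) (by linarith)
    exact ⟨x, hx.le, by linarith⟩

/-- Recipe: `xx y` with `‖xx y‖ ≤ 1`, `‖y‖ ≤ 2 ‖y (xx y)‖`; `D` countable dense in `𝕜` containing `0`.  Choose `t n`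
recursively keeping: for all `i < n`, all `c : ℕ → D` with `c i = 0`, all lists `as` over `D`,
`Good (φ (t i)) (∑_{j<n} c j • φ (t j)) as`.  At step `n` only countably many almost-sure conditions are required
(`ae_all_iff` over `Fin n → D`, `List D`): the `a :: as` instances for `i < n`, and `ae_good` for `i = n`.
Then for `A ⊆ B`, `c` with values in `D`: `y = ∑_A`, `x = xx y`, `φ (t i) x = 0` for `i ∈ B \ A` (`as = []`, `n` above `B`),
so `‖y‖ ≤ 2 ‖(∑_B) x‖`.  General `c` by density (closed condition in finitely many coordinates, e.g. sequences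
`c m k → c k` in `D`, `le_of_tendsto_of_tendsto'`). -/
theorem exists_suppUnc (μ : Measure Om) [IsProbabilityMeasure μ] (g : ℕ → StrongDual 𝕜 X)
    (φ : Om → StrongDual 𝕜 X) (hlim : ∀ t, SeqLim g (φ t)) (hae : ∀ x, ∀ᵐ t ∂μ, φ t x = 0) :
    ∃ t : ℕ → Om, SuppUnc fun n => φ (t n) := by
  classical
  choose xx hxx1 hxx2 using exists_norming (𝕜 := 𝕜) (X := X)
  let d : ℕ → 𝕜 := fun k => Nat.casesOn k 0 (fun k => TopologicalSpace.denseSeq 𝕜 k)
  have hd0 : d 0 = 0 := rfl
  have hz0 : ∀ f : StrongDual 𝕜 X, (0 : 𝕜) • f = 0 := fun f => by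
    ext x
    simp
  have hd : DenseRange d := by
    refine (TopologicalSpace.denseRange_denseSeq 𝕜).mono ?_
    rintro _ ⟨k, rfl⟩
    exact ⟨k + 1, rfl⟩
  let P : ℕ → (ℕ → Om) → Prop := fun n t =>
    ∀ i < n, ∀ c : ℕ →₀ ℕ, c i = 0 → ∀ as : List ℕ,
      Good μ φ xx (φ (t i)) (∑ j ∈ range n, d (c j) • φ (t j)) (as.map d)
  obtain ⟨T, hT⟩ : ∃ T : ℕ → Om, ∀ n, P n T := by
    refine exists_seq_prefix P ?_ ?_ ?_
    · intro n t t' h hP i hi c hc as
      have h1 : ∑ j ∈ range n, d (c j) • φ (t' j) = ∑ j ∈ range n, d (c j) • φ (t j) :=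
        Finset.sum_congr rfl fun j hj => by rw [h j (Finset.mem_range.1 hj)]
      rw [h1, ← h i hi]
      exact hP i hi c hc as
    · intro t i hi
      exact absurd hi (Nat.not_lt_zero i)
    · intro n t hP
      have hA : ∀ᵐ s ∂μ, ∀ i : ℕ, ∀ c : ℕ →₀ ℕ, ∀ as : List ℕ, i < n → c i = 0 →
          Good μ φ xx (φ (t i)) (∑ j ∈ range n, d (c j) • φ (t j) + d (c n) • φ s)
            (as.map d) := by
        refine ae_all_iff.2 fun i => ae_all_iff.2 fun c => ae_all_iff.2 fun as => ?_
        by_cases h : i < n ∧ c i = 0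
        · have h1 := hP i h.1 c h.2 (c n :: as)
          have h2 : ∀ᵐ s ∂μ, Good μ φ xx (φ (t i))
              (∑ j ∈ range n, d (c j) • φ (t j) + d (c n) • φ s) (as.map d) := h1
          filter_upwards [h2] with s hs _ _ using hs
        · exact ae_of_all _ fun s h1 h2 => absurd ⟨h1, h2⟩ h
      have hB : ∀ᵐ s ∂μ, ∀ c : ℕ →₀ ℕ, ∀ as : List ℕ,
          Good μ φ xx (φ s) (∑ j ∈ range n, d (c j) • φ (t j)) (as.map d) :=
        ae_all_iff.2 fun c => ae_all_iff.2 fun as => ae_good μ g φ hlim hae xx _ _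
      obtain ⟨s, hsA, hsB⟩ := (hA.and hB).exists
      refine ⟨s, fun i hi c hc as => ?_⟩
      have h1 : ∑ j ∈ range (n + 1), d (c j) • φ (Function.update t n s j) =
          ∑ j ∈ range n, d (c j) • φ (t j) + d (c n) • φ s := by
        rw [Finset.sum_range_succ, Function.update_self]
        congr 1
        refine Finset.sum_congr rfl fun j hj => ?_
        rw [Function.update_of_ne (Finset.mem_range.1 hj).ne]
      rw [h1]
      rcases (Nat.lt_succ_iff.1 hi).lt_or_eq with hlt | rfl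
      · rw [Function.update_of_ne hlt.ne]
        exact hsA i c as hlt hc
      · rw [Function.update_self, hc, hd0, hz0, add_zero]
        exact hsB c as
  have key : ∀ (A B : Finset ℕ) (c : ℕ → ℕ), A ⊆ B →
      ‖∑ k ∈ A, d (c k) • φ (T k)‖ ≤ 2 * ‖∑ k ∈ B, d (c k) • φ (T k)‖ := by
    intro A B c hAB
    obtain ⟨n, hn⟩ := B.exists_nat_subset_range
    let c' : ℕ →₀ ℕ := Finsupp.onFinset A (fun k => if k ∈ A then c k else 0)
      (fun k hk => by by_contra h; simp [h] at hk)
    have hc' : ∀ k, c' k = if k ∈ A then c k else 0 := fun k => rfl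
    set y := ∑ k ∈ A, d (c k) • φ (T k) with hy
    have hy' : ∑ j ∈ range n, d (c' j) • φ (T j) = y := by
      rw [hy]
      symm
      refine Finset.sum_subset_zero_on_sdiff (hAB.trans hn) ?_ ?_
      · intro j hj
        rw [hc', if_neg (Finset.mem_sdiff.1 hj).2, hd0, hz0]
      · intro j hj
        rw [hc', if_pos hj]
    have hz : ∀ i ∈ B \ A, φ (T i) (xx y) = 0 := by
      intro i hi
      have hi' := Finset.mem_sdiff.1 hi
      have h1 := hT n i (Finset.mem_range.1 (hn hi'.1)) c' (by rw [hc', if_neg hi'.2]) []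
      rw [hy'] at h1
      exact h1
    have h2 : (∑ k ∈ B, d (c k) • φ (T k)) (xx y) = y (xx y) := by
      rw [← Finset.sum_sdiff hAB, ← hy, _root_.add_apply,
        _root_.sum_apply, Finset.sum_eq_zero, zero_add]
      intro i hi
      rw [_root_.smul_apply, hz i hi, smul_zero]
    calc ‖y‖ ≤ 2 * ‖y (xx y)‖ := hxx2 y
      _ = 2 * ‖(∑ k ∈ B, d (c k) • φ (T k)) (xx y)‖ := by rw [h2]
      _ ≤ 2 * (‖∑ k ∈ B, d (c k) • φ (T k)‖ * ‖xx y‖) := by
          gcongr
          exact ContinuousLinearMap.le_opNorm _ _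
      _ ≤ 2 * (‖∑ k ∈ B, d (c k) • φ (T k)‖ * 1) := by
          gcongr
          exact hxx1 y
      _ = _ := by rw [mul_one]
  refine ⟨T, fun A B c hAB => ?_⟩
  have hseq : ∀ k, ∃ u : ℕ → ℕ, Tendsto (fun m => d (u m)) atTop (𝓝 (c k)) := by
    intro k
    obtain ⟨v, hv, hv'⟩ := mem_closure_iff_seq_limit.1 (hd (c k))
    choose u hu using hv
    refine ⟨u, ?_⟩
    simpa only [hu] using hv'
  choose u hu using hseq
  have hlimS : ∀ S : Finset ℕ, Tendsto (fun m => ‖∑ k ∈ S, d (u k m) • φ (T k)‖) atTop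
      (𝓝 ‖∑ k ∈ S, c k • φ (T k)‖) := fun S =>
    (tendsto_finsetSum S fun k _ => (hu k).smul_const (φ (T k))).norm
  exact le_of_tendsto_of_tendsto' (hlimS A) ((hlimS B).const_mul 2)
    fun m => key A B (fun k => u k m) hAB

end Crest.Agent.R114
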