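import Mathlib

/-! # R114/Hoeff : a choice of signs making finitely many interval sums small. -/

set_option autoImplicit false
open Finset

namespace Crest.Agent.R114

/-- greedy choice of signs (method of conditional expectations) -/
theorem hoeff_greedy {T : Type*} (A : Finset T) (c : T → ℕ → ℝ) (K : ℕ) : ∀ w : T → ℝ,
    (∀ t, 0 ≤ w t) → ∃ ε : ℕ → ℝ, (∀ l, ε l = 1 ∨ ε l = -1) ∧
      ∑ t ∈ A, w t * Real.exp (∑ l ∈ range K, ε l * c t l) ≤
        ∑ t ∈ A, w t * Real.exp (∑ l ∈ range K, c t l ^ 2 / 2) := by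
  induction K with
  | zero => exact fun w _ => ⟨fun _ => 1, fun _ => Or.inl rfl, by simp⟩
  | succ K ih =>
    intro w hw
    obtain ⟨ε, hε, h⟩ := ih (fun t => w t * Real.exp (c t K ^ 2 / 2))
      fun t => mul_nonneg (hw t) (Real.exp_pos _).le
    have key : ∀ s : ℝ, ∑ t ∈ A, w t *
        Real.exp (∑ l ∈ range (K + 1), Function.update ε K s l * c t l) =
        ∑ t ∈ A, w t * Real.exp (∑ l ∈ range K, ε l * c t l) * Real.exp (s * c t K) := fun s => by
      refine sum_congr rfl fun t _ => ?_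
      rw [sum_range_succ, Function.update_self, Real.exp_add, mul_assoc,
        sum_congr rfl fun l hl => by rw [Function.update_of_ne (mem_range.1 hl).ne]]
    have h2 : ∑ t ∈ A, w t * Real.exp (∑ l ∈ range K, ε l * c t l) * Real.exp (1 * c t K) +
        ∑ t ∈ A, w t * Real.exp (∑ l ∈ range K, ε l * c t l) * Real.exp (-1 * c t K) ≤
        2 * ∑ t ∈ A, w t * Real.exp (∑ l ∈ range (K + 1), c t l ^ 2 / 2) := by
      have h3 : ∑ t ∈ A, w t * Real.exp (∑ l ∈ range (K + 1), c t l ^ 2 / 2) =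
          ∑ t ∈ A, w t * Real.exp (c t K ^ 2 / 2) * Real.exp (∑ l ∈ range K, c t l ^ 2 / 2) :=
        sum_congr rfl fun t _ => by rw [sum_range_succ, Real.exp_add]; ring
      rw [h3, ← sum_add_distrib]
      refine le_trans ?_ (mul_le_mul_of_nonneg_left h zero_le_two)
      rw [mul_sum]
      refine sum_le_sum fun t _ => ?_
      have h4 := Real.cosh_le_exp_half_sq (c t K)
      rw [Real.cosh_eq] at h4
      have h5 := mul_le_mul_of_nonneg_left h4
        (mul_nonneg (hw t) (Real.exp_pos (∑ l ∈ range K, ε l * c t l)).le)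
      rw [one_mul, neg_one_mul]
      linarith
    have hup : ∀ s : ℝ, s = 1 ∨ s = -1 → ∀ l, Function.update ε K s l = 1 ∨
        Function.update ε K s l = -1 := fun s hs l => by
      by_cases hl : l = K
      · rw [hl, Function.update_self]; exact hs
      · rw [Function.update_of_ne hl]; exact hε l
    by_cases h1 : ∑ t ∈ A, w t * Real.exp (∑ l ∈ range K, ε l * c t l) * Real.exp (1 * c t K) ≤
        ∑ t ∈ A, w t * Real.exp (∑ l ∈ range (K + 1), c t l ^ 2 / 2)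
    · exact ⟨_, hup 1 (Or.inl rfl), by rwa [key]⟩
    · exact ⟨_, hup (-1) (Or.inr rfl), by rw [key]; linarith⟩

/-- Recipe: signs `s : Fin K → Bool`, `ε l = ±1` (and `1` for `l ≥ K`).  For fixed `b`, `J = Ico a a'` and `λ = δ/2`,
`∑_s exp (λ ∑_{l ∈ J} ε l b l) = ∏_{l<K} (…) = 2^K ∏_{l ∈ J} cosh (λ b l) ≤ 2^K exp (δ² |J| / 2)` (`Finset.prod_univ_sum`/`Fintype.piFinset`,
`Real.cosh_le_exp_half_sq`), so the number of `s` with `∑ > δ (|J| + k)` is `≤ 2^K exp (-δ² k / 2)`; same for `-b`; union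
bound over `PP × range (K+1) × range (K+1) × {±}`. -/
theorem exists_signs_small (K k : ℕ) (δ : ℝ) (hδ : 0 < δ) (PP : Finset (ℕ → ℝ))
    (hb : ∀ b ∈ PP, ∀ l, |b l| ≤ 2)
    (hc : 2 * (PP.card : ℝ) * ((K : ℝ) + 1) ^ 2 < Real.exp (δ ^ 2 * k / 2)) :
    ∃ ε : ℕ → ℝ, (∀ l, ε l = 1 ∨ ε l = -1) ∧ ∀ b ∈ PP, ∀ a a', a ≤ a' → a' ≤ K →
      |∑ l ∈ Ico a a', ε l * b l| ≤ δ * (((a' : ℝ) - a) + k) := by
  classical
  let A : Finset ((ℕ → ℝ) × ℕ × ℕ × ℝ) := PP ×ˢ range (K + 1) ×ˢ range (K + 1) ×ˢ {1, -1}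
  let c : (ℕ → ℝ) × ℕ × ℕ × ℝ → ℕ → ℝ := fun t l =>
    if l ∈ Ico t.2.1 t.2.2.1 then δ / 2 * t.2.2.2 * t.1 l else 0
  let w : (ℕ → ℝ) × ℕ × ℕ × ℝ → ℝ := fun t =>
    Real.exp (-(δ ^ 2 / 2 * ((Ico t.2.1 t.2.2.1).card + k)))
  obtain ⟨ε, hε, h⟩ := hoeff_greedy A c K w fun t => (Real.exp_pos _).le
  have hsub : ∀ a a', a' ≤ K → range K ∩ Ico a a' = Ico a a' := fun a a' h' =>
    inter_eq_right.2 fun l hl => mem_range.2 ((mem_Ico.1 hl).2.trans_le h')
  have h1 : ∀ t ∈ A, w t * Real.exp (∑ l ∈ range K, c t l ^ 2 / 2) ≤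
      Real.exp (-(δ ^ 2 * k / 2)) := by
    rintro ⟨b, a, a', σ⟩ ht
    simp only [A, mem_product, mem_range, mem_insert, mem_singleton] at ht
    obtain ⟨h2, -, h3, h4⟩ := ht
    have h5 : ∑ l ∈ range K, c (b, a, a', σ) l ^ 2 / 2 ≤
        ∑ l ∈ range K, if l ∈ Ico a a' then δ ^ 2 / 2 else 0 := by
      refine sum_le_sum fun l _ => ?_
      simp only [c]
      split_ifs
      · have h6 : b l ^ 2 ≤ 2 ^ 2 := sq_le_sq' (abs_le.1 (hb b h2 l)).1 (abs_le.1 (hb b h2 l)).2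
        have h7 : σ ^ 2 = 1 := by rcases h4 with rfl | rfl <;> norm_num
        have h8 := mul_le_mul_of_nonneg_left h6 (sq_nonneg δ)
        rw [mul_pow, mul_pow, h7]
        linarith
      · simp
    rw [sum_ite_mem, hsub a a' (by omega), sum_const, nsmul_eq_mul] at h5
    rw [← Real.exp_add, Real.exp_le_exp]
    linarith
  have h2 : ∑ t ∈ A, w t * Real.exp (∑ l ∈ range K, ε l * c t l) < 1 := by
    refine (h.trans (sum_le_card_nsmul _ _ _ h1)).trans_lt ?_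
    have h3 : (A.card : ℝ) = 2 * (PP.card : ℝ) * ((K : ℝ) + 1) ^ 2 := by
      simp only [A, card_product, card_range, card_pair (show (1 : ℝ) ≠ -1 by norm_num)]
      push_cast
      ring
    rw [nsmul_eq_mul, h3, Real.exp_neg, ← div_eq_mul_inv, div_lt_one (Real.exp_pos _)]
    exact hc
  refine ⟨ε, hε, fun b hbP a a' haa ha' => ?_⟩
  have h3 : ∀ σ : ℝ, σ = 1 ∨ σ = -1 →
      σ * ∑ l ∈ Ico a a', ε l * b l ≤ δ * (((a' : ℝ) - a) + k) := fun σ hσ => by
    have hm : (b, a, a', σ) ∈ A := by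
      simp only [A, mem_product, mem_range, mem_insert, mem_singleton]
      exact ⟨hbP, by omega, by omega, hσ⟩
    have h4 := (single_le_sum (f := fun t => w t * Real.exp (∑ l ∈ range K, ε l * c t l))
      (fun t _ => mul_nonneg (Real.exp_pos _).le (Real.exp_pos _).le) hm).trans_lt h2
    have h5 : ∑ l ∈ range K, ε l * c (b, a, a', σ) l = δ / 2 * (σ * ∑ l ∈ Ico a a', ε l * b l) := by
      simp only [c, mul_ite, mul_zero]
      rw [sum_ite_mem, hsub a a' ha', mul_sum, mul_sum]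
      exact sum_congr rfl fun l _ => by ring
    simp only [w] at h4
    rw [h5, ← Real.exp_add, Real.exp_lt_one_iff, Nat.card_Ico, Nat.cast_sub haa] at h4
    refine le_of_mul_le_mul_left ?_ (half_pos hδ)
    nlinarith
  have h4 := h3 1 (Or.inl rfl)
  have h5 := h3 (-1) (Or.inr rfl)
  exact abs_le.2 ⟨by linarith, by linarith⟩

/-- complex version (apply the real one to the real and imaginary parts) -/
theorem exists_signs_small' {𝕜 : Type} [RCLike 𝕜] (K k : ℕ) (δ : ℝ) (hδ : 0 < δ)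
    (𝒟 : Finset (ℕ → 𝕜)) (hb : ∀ D ∈ 𝒟, ∀ l, ‖D l‖ ≤ 2)
    (hc : 4 * (𝒟.card : ℝ) * ((K : ℝ) + 1) ^ 2 < Real.exp (δ ^ 2 * k / 2)) :
    ∃ ε : ℕ → ℝ, (∀ l, ε l = 1 ∨ ε l = -1) ∧ ∀ D ∈ 𝒟, ∀ a a', a ≤ a' → a' ≤ K →
      ‖∑ l ∈ Ico a a', (ε l : 𝕜) * D l‖ ≤ 2 * (δ * (((a' : ℝ) - a) + k)) := by
  classical
  obtain ⟨ε, hε, h⟩ := exists_signs_small K k δ hδ
    ((𝒟.image fun D l => RCLike.re (D l)) ∪ 𝒟.image fun D l => RCLike.im (D l))
    (fun b hb' l => by
      rcases mem_union.1 hb' with h | h <;> obtain ⟨D, hD, rfl⟩ := mem_image.1 h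
      · exact (RCLike.abs_re_le_norm _).trans (hb D hD l)
      · exact (RCLike.abs_im_le_norm _).trans (hb D hD l))
    (by
      refine lt_of_le_of_lt ?_ hc
      have h1 : (((𝒟.image fun D l => RCLike.re (D l)) ∪
          𝒟.image fun D l => RCLike.im (D l)).card : ℝ) ≤ 𝒟.card + 𝒟.card := by
        exact_mod_cast (card_union_le _ _).trans (add_le_add card_image_le card_image_le)
      refine mul_le_mul_of_nonneg_right (by linarith) (by positivity))
  refine ⟨ε, hε, fun D hD a a' haa ha' => ?_⟩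
  have h1 := h _ (mem_union_left _ (mem_image_of_mem _ hD)) a a' haa ha'
  have h2 := h _ (mem_union_right _ (mem_image_of_mem _ hD)) a a' haa ha'
  have e1 : RCLike.re (∑ l ∈ Ico a a', (ε l : 𝕜) * D l) = ∑ l ∈ Ico a a', ε l * RCLike.re (D l) := by
    rw [map_sum]
    exact sum_congr rfl fun l _ => RCLike.re_ofReal_mul _ _
  have e2 : RCLike.im (∑ l ∈ Ico a a', (ε l : 𝕜) * D l) = ∑ l ∈ Ico a a', ε l * RCLike.im (D l) := by
    rw [map_sum]
    exact sum_congr rfl fun l _ => RCLike.im_ofReal_mul _ _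
  have h3 : ∀ z : 𝕜, ‖z‖ ≤ |RCLike.re z| + |RCLike.im z| := fun z => by
    refine abs_le_of_sq_le_sq' ?_ (by positivity) |>.2
    rw [RCLike.norm_sq_eq_def, add_sq, sq_abs, sq_abs]
    have := mul_nonneg (abs_nonneg (RCLike.re z)) (abs_nonneg (RCLike.im z))
    nlinarith
  refine (h3 _).trans ?_
  rw [e1, e2]
  linarith

end Crest.Agent.R114
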