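import Crest.Agent.R114.BDefs

/-! # R114/JR1 : extracting a Johnson–Rosenthal subsequence. -/

set_option autoImplicit false
open Filter Topology Finset

namespace Crest.Agent.R114

variable {𝕜 : Type} [RCLike 𝕜] {X : Type*} [NormedAddCommGroup X] [NormedSpace 𝕜 X]

/-- A finite-dimensional space of functionals `3`-normed by `S` is `4`-normed by a finite subset.
Recipe: the unit sphere of `E` is compact (`FiniteDimensional.proper_rclike`, `isCompact_sphere`), covered by the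
open sets `{y | ‖y‖ < 4 ‖y s‖}`, `s ∈ S`; scale; `y = 0` needs `F` nonempty: add the `s` given by `hS 0`. -/
theorem exists_finite_norming (E : Submodule 𝕜 (StrongDual 𝕜 X)) [FiniteDimensional 𝕜 E]
    (S : Set X) (hS : ∀ y ∈ E, ∃ s ∈ S, ‖y‖ ≤ 3 * ‖y s‖) :
    ∃ F : Finset X, (F : Set X) ⊆ S ∧ ∀ y ∈ E, ∃ s ∈ F, ‖y‖ ≤ 4 * ‖y s‖ := by
  classical
  have : ProperSpace E := FiniteDimensional.proper_rclike 𝕜 E
  obtain ⟨s₀, hs₀, -⟩ := hS 0 E.zero_mem
  let U : S → Set E := fun s => {y | ‖y‖ < 4 * ‖(y : StrongDual 𝕜 X) s‖}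
  have hU : ∀ s, IsOpen (U s) := fun s =>
    isOpen_lt (continuous_norm (E := E)) (continuous_const.mul
      (((ContinuousLinearMap.apply 𝕜 𝕜 (s : X)).continuous.comp continuous_subtype_val).norm))
  have hcov : Metric.sphere (0 : E) 1 ⊆ ⋃ s, U s := fun y hy => by
    obtain ⟨s, hs, h1⟩ := hS y y.2
    have h2 : ‖y‖ = 1 := (mem_sphere_zero_iff_norm (E := E)).1 hy
    have h3 : ‖(y : StrongDual 𝕜 X)‖ = 1 := h2
    refine Set.mem_iUnion.2 ⟨⟨s, hs⟩, ?_⟩
    change ‖y‖ < 4 * ‖(y : StrongDual 𝕜 X) s‖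
    rw [h3] at h1
    rw [h2]
    linarith
  obtain ⟨t, ht⟩ := (isCompact_sphere (0 : E) 1).elim_finite_subcover U hU hcov
  refine ⟨insert s₀ (t.image Subtype.val), ?_, fun y hy => ?_⟩
  · intro s hs
    rw [Finset.coe_insert, Finset.coe_image] at hs
    rcases hs with rfl | ⟨s', -, rfl⟩
    exacts [hs₀, s'.2]
  · rcases eq_or_ne y 0 with rfl | hy0
    · exact ⟨s₀, Finset.mem_insert_self _ _, by simp⟩
    · have hn : 0 < ‖y‖ := norm_pos_iff.2 hy0
      let y' : E := ⟨((‖y‖⁻¹ : ℝ) : 𝕜) • y, E.smul_mem _ hy⟩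
      have h1 : ‖y'‖ = 1 := by
        change ‖((‖y‖⁻¹ : ℝ) : 𝕜) • y‖ = 1
        rw [norm_smul, RCLike.norm_ofReal, abs_of_pos (inv_pos.2 hn), inv_mul_cancel₀ hn.ne']
      obtain ⟨s, hs⟩ := Set.mem_iUnion.1 (ht ((mem_sphere_zero_iff_norm (E := E)).2 h1))
      obtain ⟨hs, h2⟩ := Set.mem_iUnion.1 hs
      refine ⟨s, Finset.mem_insert_of_mem (Finset.mem_image_of_mem _ hs), ?_⟩
      change ‖y'‖ < 4 * ‖(((‖y‖⁻¹ : ℝ) : 𝕜) • y) s‖ at h2
      rw [h1, _root_.smul_apply, norm_smul, RCLike.norm_ofReal,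
        abs_of_pos (inv_pos.2 hn), mul_left_comm, ← div_eq_inv_mul, one_lt_div hn] at h2
      exact h2.le

/-- Recipe: build `φ` and finite `F n ⊆ S` recursively: `F n` `4`-norms the span of `h (φ k)`, `k < n`,
and `φ n > φ (n-1)` is so large that `‖h (φ n) s‖ ≤ a/32 * 2^{-n}` for all `s ∈ F 0 ∪ … ∪ F n`
(one way: recursion on finite lists / `Nat.rec` on the state `(φ restricted to < n)`, or `exists_seq_of_forall_finset_exists`-like
dependent choice).  Given `c, f, B`, let `S n` be the partial sums and `M = ⨆ n ‖S n‖ ≤ B`; `‖c m‖ a ≤ 2M`;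
for `s ∈ F n` and `N ≥ n`, `‖S N s - S n s‖ ≤ ∑_{m ≥ n} (2M/a)(a/32)2^{-m} ≤ M/8`; let `N → ∞`:
`‖S n‖ ≤ 4(‖f‖ + M/8)`, so `M ≤ 8 ‖f‖`.  `C = 8`. -/
theorem exists_JRseq (h : ℕ → StrongDual 𝕜 X) (a : ℝ) (ha : 0 < a) (hh : ∀ k, a ≤ ‖h k‖)
    (S : Set X) (hS1 : ∀ s ∈ S, ‖s‖ ≤ 1)
    (hS : ∀ y ∈ Submodule.span 𝕜 (Set.range h), ∃ s ∈ S, ‖y‖ ≤ 3 * ‖y s‖)
    (hnull : ∀ s ∈ S, Tendsto (fun k => h k s) atTop (𝓝 0)) :
    ∃ φ : ℕ → ℕ, StrictMono φ ∧ JRseq (fun k => h (φ k)) := by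
  have hF : ∀ m : ℕ, ∃ F : Finset X, (F : Set X) ⊆ S ∧
      ∀ y ∈ Submodule.span 𝕜 (h '' Set.Iio m), ∃ s ∈ F, ‖y‖ ≤ 4 * ‖y s‖ := fun m => by
    have := FiniteDimensional.span_of_finite 𝕜 ((Set.finite_Iio m).image h)
    exact exists_finite_norming _ S fun y hy =>
      hS y (Submodule.span_mono (Set.image_subset_range _ _) hy)
  choose F hFS hF using hF
  have hg : ∀ n m : ℕ, ∃ k, m < k ∧ ∀ j ∈ range (m + 2), ∀ s ∈ F j,
      ‖h k s‖ ≤ a / 32 * (1 / 2) ^ n := fun n m => by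
    have h1 : ∀ᶠ k in atTop, ∀ j ∈ range (m + 2), ∀ s ∈ F j, ‖h k s‖ ≤ a / 32 * (1 / 2) ^ n := by
      refine (Finset.eventually_all _).2 fun j _ => (Finset.eventually_all _).2 fun s hs => ?_
      have h2 := (hnull s (hFS j hs)).norm
      rw [norm_zero] at h2
      exact h2.eventually (ge_mem_nhds (by positivity))
    exact ((eventually_gt_atTop m).and h1).exists
  choose g hg1 hg2 using hg
  let φ : ℕ → ℕ := fun n => Nat.rec 0 (fun n m => g n m) n
  have hφ : ∀ n, φ (n + 1) = g n (φ n) := fun _ => rfl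
  have hmono : StrictMono φ := strictMono_nat_of_lt_succ fun n => hg1 n (φ n)
  refine ⟨φ, hmono, ⟨a, ha, fun k => hh _⟩, 8, by norm_num, fun c f B hB hf => ?_⟩
  set T : ℕ → StrongDual 𝕜 X := fun n => ∑ k ∈ range n, c k • h (φ k) with hT
  have hbdd : BddAbove (Set.range fun n => ‖T n‖) := ⟨B, by rintro _ ⟨n, rfl⟩; exact hB n⟩
  set M := ⨆ n, ‖T n‖ with hM
  have hle : ∀ n, ‖T n‖ ≤ M := fun n => le_ciSup hbdd n
  have hM0 : 0 ≤ M := (norm_nonneg _).trans (hle 0)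
  have hsucc : ∀ n, T (n + 1) = T n + c n • h (φ n) := fun n => Finset.sum_range_succ _ _
  have hc : ∀ n, ‖c n‖ * a ≤ 2 * M := fun n => by
    have h1 : c n • h (φ n) = T (n + 1) - T n := by rw [hsucc, add_sub_cancel_left]
    have h2 := norm_sub_le (T (n + 1)) (T n)
    rw [← h1, norm_smul] at h2
    have h3 := mul_le_mul_of_nonneg_left (hh (φ n)) (norm_nonneg (c n))
    linarith [hle n, hle (n + 1)]
  have key : ∀ n, ‖T n‖ ≤ 4 * ‖f‖ + M / 2 := fun n => by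
    rcases n with _ | n
    · have : T 0 = 0 := Finset.sum_range_zero _
      rw [this, norm_zero]
      positivity
    have hmem : T (n + 1) ∈ Submodule.span 𝕜 (h '' Set.Iio (φ n + 1)) :=
      Submodule.sum_mem _ fun k hk => Submodule.smul_mem _ _ (Submodule.subset_span
        ⟨φ k, Nat.lt_succ_of_le (hmono.monotone (Nat.lt_succ_iff.1 (Finset.mem_range.1 hk))), rfl⟩)
    obtain ⟨s, hs, h1⟩ := hF _ _ hmem
    have h2 : ∀ d, ‖T (n + 1) s‖ ≤ ‖T (d + (n + 1)) s‖ + M / 8 * (1 - (1 / 2) ^ d) := fun d => by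
      induction d with
      | zero => simp
      | succ d ih =>
        have h3 : ‖h (φ (d + n + 1)) s‖ ≤ a / 32 * (1 / 2) ^ (d + n) := by
          rw [hφ]
          refine hg2 _ _ (φ n + 1) (Finset.mem_range.2 ?_) s hs
          have := hmono.monotone (Nat.le_add_left n d)
          omega
        have h4 : ((1 : ℝ) / 2) ^ (d + n) ≤ (1 / 2) ^ d :=
          pow_le_pow_of_le_one (by norm_num) (by norm_num) (Nat.le_add_right d n)
        have h5 : T (d + (n + 1)) s = T (d + 1 + (n + 1)) s - c (d + n + 1) * h (φ (d + n + 1)) s := by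
          rw [show d + 1 + (n + 1) = d + n + 1 + 1 by omega, hsucc (d + n + 1)]
          simp [add_assoc]
        have h6 : ‖c (d + n + 1) * h (φ (d + n + 1)) s‖ ≤ M / 16 * (1 / 2) ^ d := by
          rw [norm_mul]
          calc ‖c (d + n + 1)‖ * ‖h (φ (d + n + 1)) s‖
              ≤ ‖c (d + n + 1)‖ * (a / 32 * (1 / 2) ^ d) := by
                refine mul_le_mul_of_nonneg_left (h3.trans ?_) (norm_nonneg _)
                gcongr
            _ = ‖c (d + n + 1)‖ * a * ((1 / 2) ^ d / 32) := by ring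
            _ ≤ 2 * M * ((1 / 2) ^ d / 32) := by
                have := hc (d + n + 1)
                gcongr
            _ = M / 16 * (1 / 2) ^ d := by ring
        have h7 := norm_sub_le (T (d + 1 + (n + 1)) s) (c (d + n + 1) * h (φ (d + n + 1)) s)
        rw [← h5] at h7
        rw [pow_succ]
        linarith
    have h3 : Tendsto (fun d => ‖T (d + (n + 1)) s‖ + M / 8) atTop (𝓝 (‖f s‖ + M / 8)) :=
      ((tendsto_add_atTop_iff_nat (n + 1)).2 (hf s)).norm.add_const _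
    have h4 : ‖T (n + 1) s‖ ≤ ‖f s‖ + M / 8 := ge_of_tendsto' h3 fun d => by
      have h5 : (0 : ℝ) ≤ M / 8 * (1 / 2) ^ d := by positivity
      have := h2 d
      linarith
    have h5 : ‖f s‖ ≤ ‖f‖ :=
      (f.le_opNorm s).trans (mul_le_of_le_one_right (norm_nonneg _) (hS1 s (hFS _ hs)))
    linarith
  have hM8 : M ≤ 4 * ‖f‖ + M / 2 := ciSup_le key
  intro n
  linarith [hle n]

/-- The special case `S =` closed unit ball. -/
theorem exists_JRseq_of_null (h : ℕ → StrongDual 𝕜 X) (a : ℝ) (ha : 0 < a) (hh : ∀ k, a ≤ ‖h k‖)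
    (hnull : ∀ x, Tendsto (fun k => h k x) atTop (𝓝 0)) :
    ∃ φ : ℕ → ℕ, StrictMono φ ∧ JRseq (fun k => h (φ k)) := by
  refine exists_JRseq h a ha hh {x | ‖x‖ ≤ 1} (fun s hs => hs) (fun y _ => ?_) fun s _ => hnull s
  rcases eq_or_ne y 0 with rfl | hy0
  · exact ⟨0, by simp, by simp⟩
  · have hn : 0 < ‖y‖ := norm_pos_iff.2 hy0
    obtain ⟨x, hx, h1⟩ := y.exists_lt_apply_of_lt_opNorm (r := ‖y‖ / 3) (by linarith)
    exact ⟨x, hx.le, by linarith⟩

end Crest.Agent.R114
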