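import Crest.Agent.R114.Adj

/-! # R114/JR2 : a shrinking Johnson–Rosenthal sequence gives a separable quotient. -/

set_option autoImplicit false
open Filter Topology Finset

namespace Crest.Agent.R114

variable {𝕜 : Type} [RCLike 𝕜] {X : Type*} [NormedAddCommGroup X] [NormedSpace 𝕜 X]

theorem jr2_sum_ite (h : ℕ → StrongDual 𝕜 X) (s : Finset ℕ) (p : ℕ → Prop) [DecidablePred p]
    (c : ℕ → 𝕜) :
    ∑ k ∈ s, (if p k then c k else 0) • h k = ∑ k ∈ s.filter p, c k • h k := by
  rw [sum_filter]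
  refine sum_congr rfl fun k _ => ?_
  split_ifs
  · rfl
  · exact zero_smul 𝕜 (h k)

/-- Basis constant: apply the `JRseq` property to `c` cut off at `N` (partial sums eventually
constant, equal to `f = ∑_{k<N} c k • h k`). -/
theorem JRseq.basis {h : ℕ → StrongDual 𝕜 X} (hJ : JRseq h) :
    ∃ C : ℝ, 0 < C ∧ (∀ (c : ℕ → 𝕜) (n N : ℕ), n ≤ N →
        ‖∑ k ∈ range n, c k • h k‖ ≤ C * ‖∑ k ∈ range N, c k • h k‖) ∧
      ∀ (c : ℕ → 𝕜) (s : Finset ℕ), ∀ k ∈ s, ‖c k‖ ≤ C * ‖∑ k ∈ s, c k • h k‖ := by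
  obtain ⟨⟨a, ha, hh⟩, C, hC, hJ⟩ := hJ
  have key : ∀ (c : ℕ → 𝕜) (n N : ℕ), n ≤ N →
      ‖∑ k ∈ range n, c k • h k‖ ≤ C * ‖∑ k ∈ range N, c k • h k‖ := by
    intro c n N hn
    have h1 : ∀ m, ∑ k ∈ range m, (if k < N then c k else 0) • h k =
        ∑ k ∈ range (min m N), c k • h k := fun m => by
      rw [jr2_sum_ite]
      refine sum_congr ?_ fun _ _ => rfl
      ext k
      simp
    have h2 := hJ (fun k => if k < N then c k else 0) (∑ k ∈ range N, c k • h k)
      (∑ k ∈ range N, ‖c k • h k‖) (fun m => by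
        rw [h1]
        exact (norm_sum_le _ _).trans (sum_le_sum_of_subset_of_nonneg
          (range_mono (min_le_right _ _)) fun _ _ _ => norm_nonneg _))
      (fun x => tendsto_const_nhds.congr' (by
        filter_upwards [eventually_ge_atTop N] with m hm
        rw [h1, min_eq_right hm])) n
    rwa [h1, min_eq_left hn] at h2
  refine ⟨C + 2 * C / a, by positivity, fun c n N hn => (key c n N hn).trans ?_,
    fun c s k hk => ?_⟩
  · gcongr
    exact le_add_of_nonneg_right (by positivity)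
  · obtain ⟨N, hN⟩ := s.exists_nat_subset_range
    have hkN : k < N := mem_range.1 (hN hk)
    have h1 : ∑ j ∈ range N, (if j ∈ s then c j else 0) • h j = ∑ j ∈ s, c j • h j := by
      rw [jr2_sum_ite, filter_mem_eq_inter, inter_eq_right.2 hN]
    have h2 := key (fun j => if j ∈ s then c j else 0) k N hkN.le
    have h3 := key (fun j => if j ∈ s then c j else 0) (k + 1) N hkN
    rw [h1] at h2 h3
    rw [sum_range_succ, if_pos hk] at h3
    have h4 := norm_sub_le (∑ j ∈ range k, (if j ∈ s then c j else 0) • h j + c k • h k)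
      (∑ j ∈ range k, (if j ∈ s then c j else 0) • h j)
    rw [add_sub_cancel_left, norm_smul] at h4
    have h5 : ‖c k‖ * a ≤ ‖c k‖ * ‖h k‖ := mul_le_mul_of_nonneg_left (hh k) (norm_nonneg _)
    have h6 : ‖c k‖ ≤ 2 * C / a * ‖∑ j ∈ s, c j • h j‖ := by
      rw [div_mul_eq_mul_div, le_div_iff₀ ha]
      linarith
    refine h6.trans ?_
    gcongr
    exact le_add_of_nonneg_left hC.le

theorem jr2_surj [CompleteSpace X] (V : Type*) [NormedAddCommGroup V] [NormedSpace 𝕜 V]
    [CompleteSpace V] [TopologicalSpace.SeparableSpace V] (hV : ¬ FiniteDimensional 𝕜 V)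
    (T : X →L[𝕜] V) (C : ℝ) (hC : 0 < C) (h : ∀ ψ : StrongDual 𝕜 V, ‖ψ‖ ≤ C * ‖ψ.comp T‖) :
    SQ 𝕜 X := SQ_of_surj hV T (surj_of_adjoint T C hC h)

theorem jr2_aux [CompleteSpace X] (h : ℕ → StrongDual 𝕜 X) (hJ : JRseq h)
    (hs : ∀ (x : X) (ε : ℝ), 0 < ε → ∃ n : ℕ, ∀ (c : ℕ → 𝕜) (N : ℕ),
      ‖(∑ k ∈ Ico n N, c k • h k) x‖ ≤ ε * ‖∑ k ∈ Ico n N, c k • h k‖)
    {W : Type*} [NormedAddCommGroup W] [NormedSpace 𝕜 W] (ι : W →L[𝕜] X →L[𝕜] 𝕜)
    (hι : ∀ y, ‖ι y‖ = ‖y‖) (b : Module.Basis ℕ 𝕜 W) (hb : ∀ k, ι (b k) = h k) : SQ 𝕜 X := by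
  obtain ⟨C, hC, hb1, hb2⟩ := hJ.basis
  obtain ⟨-, C', hC', hJ'⟩ := hJ
  have hrep : ∀ y : W, ∀ᶠ N in atTop,
      ∑ k ∈ range N, b.repr y k • h k = ι y := fun y => by
    obtain ⟨N, hN⟩ := (b.repr y).support.exists_nat_subset_range
    filter_upwards [eventually_ge_atTop N] with m hm
    have h1 := congrArg ι (b.linearCombination_repr y)
    rw [Finsupp.linearCombination_apply,
      Finsupp.sum_of_support_subset _ (hN.trans (range_mono hm)) _ (by simp), map_sum] at h1
    simpa [hb] using h1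
  have hpart : ∀ (y : W) n, ‖∑ k ∈ range n, b.repr y k • h k‖ ≤ C * ‖y‖ := fun y n => by
    obtain ⟨N, h1, h2⟩ := ((hrep y).and (eventually_ge_atTop n)).exists
    have := hb1 (b.repr y) n N h2
    rwa [h1, hι] at this
  have hco : ∀ k (y : W), ‖b.coord k y‖ ≤ C * ‖y‖ := fun k y => by
    obtain ⟨N, h1, h2⟩ := ((hrep y).and (eventually_gt_atTop k)).exists
    have := hb2 (b.repr y) (range N) k (mem_range.2 h2)
    rwa [h1, hι] at this
  let e : ℕ → StrongDual 𝕜 W := fun k => LinearMap.mkContinuous (b.coord k) C (hco k)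
  have he : ∀ k y, e k y = b.repr y k := fun _ _ => rfl
  let T₀ : X →L[𝕜] StrongDual 𝕜 W := ι.flip
  have hT₀ : ∀ x (y : W), T₀ x y = ι y x := fun _ _ => rfl
  have hP : ∀ n x (y : W), (∑ k ∈ range n, h k x • e k) y =
      (∑ k ∈ range n, b.repr y k • h k) x := fun n x y => by
    simp only [_root_.sum_apply, _root_.smul_apply, he, smul_eq_mul]
    exact sum_congr rfl fun k _ => mul_comm _ _
  have hlim : ∀ x, Tendsto (fun n => ∑ k ∈ range n, h k x • e k) atTop (𝓝 (T₀ x)) := fun x => by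
    refine Metric.tendsto_atTop.2 fun ε hε => ?_
    obtain ⟨n₀, hn₀⟩ := hs x (ε / 2 / (1 + C)) (by positivity)
    refine ⟨n₀, fun n hn => ?_⟩
    rw [dist_comm, dist_eq_norm]
    refine lt_of_le_of_lt (ContinuousLinearMap.opNorm_le_bound _ (half_pos hε).le fun y => ?_)
      (half_lt_self hε)
    obtain ⟨N, h1, h2⟩ := ((hrep y).and (eventually_ge_atTop n)).exists
    have h3 : ∑ k ∈ Ico n₀ N, (if n ≤ k then b.repr y k else 0) • h k =
        ι y - ∑ k ∈ range n, b.repr y k • h k := by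
      rw [← h1, ← sum_Ico_eq_sub _ h2]
      rw [jr2_sum_ite]
      refine sum_congr ?_ fun _ _ => rfl
      ext k
      simp only [mem_filter, mem_Ico]
      omega
    have h4 := hn₀ (fun k => if n ≤ k then b.repr y k else 0) N
    rw [h3] at h4
    rw [_root_.sub_apply, hT₀, hP]
    refine h4.trans ?_
    have h5 : ‖ι y - ∑ k ∈ range n, b.repr y k • h k‖ ≤ (1 + C) * ‖y‖ := by
      rw [add_mul, one_mul]
      exact (norm_sub_le _ _).trans (add_le_add (hι y).le (hpart y n))
    refine (mul_le_mul_of_nonneg_left h5 (by positivity)).trans (le_of_eq ?_)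
    field_simp
  let V := (Submodule.span 𝕜 (Set.range e)).topologicalClosure
  have hV : Submodule.span 𝕜 (Set.range e) ≤ V := Submodule.le_topologicalClosure _
  let e' : ℕ → V := fun k => ⟨e k, hV (Submodule.subset_span ⟨k, rfl⟩)⟩
  have hmem : ∀ x, T₀ x ∈ V := fun x =>
    (Submodule.isClosed_topologicalClosure _).mem_of_tendsto (hlim x)
      (Eventually.of_forall fun n => V.sum_mem fun k _ => V.smul_mem _ (e' k).2)
  let T : X →L[𝕜] V := T₀.codRestrict V hmem
  have hlim' : ∀ x, Tendsto (fun n => ∑ k ∈ range n, h k x • e' k) atTop (𝓝 (T x)) := fun x => by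
    refine tendsto_subtype_rng.2 ((hlim x).congr fun n => ?_)
    simp [e']
  have : TopologicalSpace.SeparableSpace V :=
    ((Set.countable_range e).isSeparable.span (R := 𝕜)).closure.separableSpace
  refine jr2_surj V (fun hfin => ?_) T C' hC' fun ψ => ?_
  · refine Module.Finite.not_linearIndependent_of_infinite (R := 𝕜) e'
      (LinearIndependent.of_comp V.subtype (linearIndependent_iff'.2 fun s c h0 k hk => ?_))
    have h1 := congrArg (fun f : StrongDual 𝕜 W => f (b k)) h0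
    simpa [e', he, Finsupp.single_apply, hk] using h1
  · have hS : ∀ n x, (∑ k ∈ range n, ψ (e' k) • h k) x = ψ (∑ k ∈ range n, h k x • e' k) :=
      fun n x => by
        simp only [_root_.sum_apply, _root_.smul_apply, map_sum,
          map_smul, smul_eq_mul]
        exact sum_congr rfl fun k _ => mul_comm _ _
    have h1 := hJ' (fun k => ψ (e' k)) (ψ.comp T) (‖ψ‖ * C) (fun n => by
      refine ContinuousLinearMap.opNorm_le_bound _ (by positivity) fun x => ?_
      rw [hS, mul_assoc]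
      refine (ψ.le_opNorm _).trans (mul_le_mul_of_nonneg_left ?_ (norm_nonneg _))
      have h2 : ((∑ k ∈ range n, h k x • e' k : V) : StrongDual 𝕜 W) =
          ∑ k ∈ range n, h k x • e k := by simp [e']
      rw [← Submodule.norm_coe, h2]
      refine ContinuousLinearMap.opNorm_le_bound _ (by positivity) fun y => ?_
      rw [hP, mul_right_comm]
      exact (ContinuousLinearMap.le_opNorm _ _).trans
        (mul_le_mul_of_nonneg_right (hpart y n) (norm_nonneg _)))
      (fun x => ((ψ.continuous.tendsto _).comp (hlim' x)).congr fun n => (hS n x).symm)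
    have h2 : ∀ w (hw : w ∈ Submodule.span 𝕜 (Set.range e)), ∀ᶠ n in atTop,
        ψ ⟨w, hV hw⟩ = w (∑ k ∈ range n, ψ (e' k) • b k) := by
      intro w hw
      induction hw using Submodule.span_induction with
      | mem w hw =>
        obtain ⟨k, rfl⟩ := hw
        filter_upwards [eventually_gt_atTop k] with n hn
        simp [he, Finsupp.single_apply, hn, e']
      | zero => exact Eventually.of_forall fun n => map_zero ψ
      | add w w' _ _ h2 h3 =>
        filter_upwards [h2, h3] with n h2 h3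
        rw [_root_.add_apply, ← h2, ← h3, ← map_add]
        rfl
      | smul a w _ h2 =>
        filter_upwards [h2] with n h2
        rw [_root_.smul_apply, ← h2, ← map_smul]
        rfl
    have h3 : Dense (Subtype.val ⁻¹' (Submodule.span 𝕜 (Set.range e) : Set (StrongDual 𝕜 W)) :
        Set V) := by
      exact Subtype.dense_iff.2 (closure_mono fun w hw => ⟨⟨w, hV hw⟩, hw, rfl⟩)
    refine ContinuousLinearMap.opNorm_le_bound _ (by positivity) fun v => ?_
    refine (isClosed_le (f := fun v => ‖ψ v‖) (g := fun v : V => C' * ‖ψ.comp T‖ * ‖v‖)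
      (by fun_prop) (continuous_const.mul (continuous_norm (E := V)))).closure_subset_iff.2 (fun v hv => ?_) (h3 v)
    show ‖ψ v‖ ≤ C' * ‖ψ.comp T‖ * ‖v‖
    obtain ⟨n, hn⟩ := (h2 v.1 hv).exists
    have h4 : ι (∑ k ∈ range n, ψ (e' k) • b k) =
        ∑ k ∈ range n, ψ (e' k) • h k := by simp [hb]
    rw [show ψ v = _ from hn, mul_comm]
    refine (ContinuousLinearMap.le_opNorm _ _).trans
      (mul_le_mul_of_nonneg_left ?_ (norm_nonneg _))
    rw [← hι, h4]
    exact h1 n

/-- Recipe: `W = span (range h)`; `h` is linearly independent by `JRseq.basis`, `Basis.span`; the coordinate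
functionals `e k : StrongDual 𝕜 W` are bounded; `T : X →L W*`, `T x y = y x`;
`V = (span (range e)).topologicalClosure` (complete, separable, infinite-dimensional since `e k (h j) = δ`).
`T x = lim_n ∑_{k<n} h k x • e k` in norm: on `y = ∑ c k • h k` the difference is `(∑_{k ≥ n} c k • h k) x`,
bounded by `ε (1 + C) ‖y‖` for `n ≥ n₀` (apply `hs` to `c` zeroed on `[n₀, n)`).  So `T` maps into `V`
(`ContinuousLinearMap.codRestrict`).  For `ψ ∈ V*` put `c k = ψ (e k)`, `S n = ∑_{k<n} c k • h k`; then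
`S n x = ψ (∑_{k<n} h k x • e k) → ψ (T x)`, `‖S n‖ ≤ C ‖ψ‖`, so `‖S n‖ ≤ C' ‖ψ ∘ T‖` by `hJ`;
for `v = ∑_{k<n} b k • e k`, `ψ v = v (S n)`, hence `‖ψ v‖ ≤ C' ‖ψ ∘ T‖ ‖v‖`, and by density
`‖ψ‖ ≤ C' ‖ψ ∘ T‖`.  Conclude with `surj_of_adjoint`, `SQ_of_surj`. -/
theorem SQ_of_JRseq [CompleteSpace X] (h : ℕ → StrongDual 𝕜 X) (hJ : JRseq h)
    (hs : ∀ (x : X) (ε : ℝ), 0 < ε → ∃ n : ℕ, ∀ (c : ℕ → 𝕜) (N : ℕ),
      ‖(∑ k ∈ Ico n N, c k • h k) x‖ ≤ ε * ‖∑ k ∈ Ico n N, c k • h k‖) : SQ 𝕜 X := by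
  obtain ⟨C, hC, -, hb2⟩ := hJ.basis
  have hli : LinearIndependent 𝕜 h := linearIndependent_iff'.2 fun s c h0 k hk => by
    have := hb2 c s k hk
    rwa [h0, norm_zero, mul_zero, norm_le_zero_iff] at this
  exact jr2_aux h hJ hs (W := Submodule.span 𝕜 (Set.range h))
    (Submodule.span 𝕜 (Set.range h)).subtypeL (fun _ => rfl) (Module.Basis.span hli)
    fun k => congrArg Subtype.val (Module.Basis.span_apply hli k)

end Crest.Agent.R114
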