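import Crest.Agent.R114.JR1
import Crest.Agent.R114.JR2

/-! # R114/JR3 : corollaries of the Johnson–Rosenthal lemmas; unconditional sequences. -/

set_option autoImplicit false
open Filter Topology Finset

namespace Crest.Agent.R114

variable {𝕜 : Type} [RCLike 𝕜] {X : Type*} [NormedAddCommGroup X] [NormedSpace 𝕜 X]

/-- block index of a strictly increasing sequence -/
theorem jr3_exists_idx {N : ℕ → ℕ} (hN : StrictMono N) :
    ∃ idx : ℕ → ℕ, ∀ n k, k ∈ Ico (N n) (N (n + 1)) → idx k = n := by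
  classical
  have huniq : ∀ n m k, k ∈ Ico (N n) (N (n + 1)) → k ∈ Ico (N m) (N (m + 1)) → n = m := by
    intro n m k hn hm
    rw [Finset.mem_Ico] at hn hm
    have h1 : N n < N (m + 1) := lt_of_le_of_lt hn.1 hm.2
    have h2 : N m < N (n + 1) := lt_of_le_of_lt hm.1 hn.2
    have := hN.lt_iff_lt.1 h1
    have := hN.lt_iff_lt.1 h2
    omega
  refine ⟨fun k => if hk : ∃ n, k ∈ Ico (N n) (N (n + 1)) then hk.choose else 0, ?_⟩
  intro n k hk
  have hex : ∃ n, k ∈ Ico (N n) (N (n + 1)) := ⟨n, hk⟩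
  simp only [dif_pos hex]
  exact huniq _ _ k hex.choose_spec hk

/-- reindexing a finite sum along an injection -/
theorem jr3_reindex {M : Type*} [AddCommMonoid M] {φ : ℕ → ℕ} (hφ : Function.Injective φ)
    (s : Finset ℕ) (c : ℕ → 𝕜) (g : 𝕜 → ℕ → M) :
    ∑ j ∈ s.map ⟨φ, hφ⟩, g (Function.extend φ c 0 j) j = ∑ k ∈ s, g (c k) (φ k) := by
  rw [Finset.sum_map]
  refine Finset.sum_congr rfl fun k _ => ?_
  simp only [Function.Embedding.coeFn_mk]
  rw [hφ.extend_apply]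

/-- Without separable quotient, a `JRseq` has normalized successive blocks staying away from `0`
at a fixed point.  Recipe: negate `hs` of `SQ_of_JRseq`: `x₀, ε` with, for each `n`, `c, N` such that the block
`u` on `Ico n N` has `ε ‖u‖ < ‖u x₀‖` (so `u ≠ 0`, `n < N`); normalize; iterate `N (n+1) = next (N n)` from `N 0 = 0`
and glue the coefficients (`c k` = coefficient of the block containing `k`, e.g. via `Nat.find`/`StrictMono` inverse;
bound `B` from `JRseq.basis`). -/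
theorem blocks_of_not_SQ [CompleteSpace X] (hX : ¬ SQ 𝕜 X) (h : ℕ → StrongDual 𝕜 X)
    (hJ : JRseq h) :
    ∃ (x₀ : X) (ε B : ℝ) (N : ℕ → ℕ) (c : ℕ → 𝕜), 0 < ε ∧ StrictMono N ∧ (∀ k, ‖c k‖ ≤ B) ∧
      ∀ n, ‖∑ k ∈ Ico (N n) (N (n + 1)), c k • h k‖ ≤ 1 ∧
        ε ≤ ‖(∑ k ∈ Ico (N n) (N (n + 1)), c k • h k) x₀‖ := by
  classical
  have hneg : ¬ ∀ (x : X) (ε : ℝ), 0 < ε → ∃ n : ℕ, ∀ (c : ℕ → 𝕜) (N : ℕ),
      ‖(∑ k ∈ Ico n N, c k • h k) x‖ ≤ ε * ‖∑ k ∈ Ico n N, c k • h k‖ :=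
    fun hs => hX (SQ_of_JRseq h hJ hs)
  push Not at hneg
  obtain ⟨x₀, ε, hε, hb⟩ := hneg
  choose c M hcM using hb
  obtain ⟨C, hC, -, hbas⟩ := hJ.basis
  set u : ℕ → StrongDual 𝕜 X := fun n => ∑ k ∈ Ico n (M n), c n k • h k with hu
  have hu0 : ∀ n, u n ≠ 0 := by
    intro n h0
    have := hcM n
    change ε * ‖u n‖ < ‖u n x₀‖ at this
    rw [h0] at this
    simp at this
  have hlt : ∀ n, n < M n := by
    intro n
    by_contra hle
    apply hu0 n
    simp only [hu]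
    rw [Finset.Ico_eq_empty hle, Finset.sum_empty]
  let N : ℕ → ℕ := fun n => Nat.rec 0 (fun _ m => M m) n
  have hNs : ∀ n, N (n + 1) = M (N n) := fun n => rfl
  have hN : StrictMono N := strictMono_nat_of_lt_succ fun n => by rw [hNs]; exact hlt _
  obtain ⟨idx, hidx⟩ := jr3_exists_idx hN
  let d : ℕ → 𝕜 := fun k =>
    if k ∈ Ico (N (idx k)) (N (idx k + 1)) then
      ((‖u (N (idx k))‖⁻¹ : ℝ) : 𝕜) * c (N (idx k)) k else 0
  have hd : ∀ n k, k ∈ Ico (N n) (N (n + 1)) → d k = ((‖u (N n)‖⁻¹ : ℝ) : 𝕜) * c (N n) k := by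
    intro n k hk
    simp only [d, hidx n k hk, if_pos hk]
  have hsum : ∀ n, ∑ k ∈ Ico (N n) (N (n + 1)), d k • h k = ((‖u (N n)‖⁻¹ : ℝ) : 𝕜) • u (N n) := by
    intro n
    simp only [hu]
    rw [Finset.smul_sum, ← hNs]
    refine Finset.sum_congr rfl fun k hk => ?_
    rw [hd n k hk, smul_smul]
  refine ⟨x₀, ε, C, N, d, hε, hN, ?_, ?_⟩
  · intro k
    by_cases hk : k ∈ Ico (N (idx k)) (N (idx k + 1))
    · rw [hd _ k hk, norm_mul, RCLike.norm_ofReal, abs_of_nonneg (by positivity)]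
      have h1 := hbas (c (N (idx k))) (Ico (N (idx k)) (M (N (idx k)))) k hk
      change _ ≤ C * ‖u (N (idx k))‖ at h1
      have h2 : 0 < ‖u (N (idx k))‖ := norm_pos_iff.2 (hu0 _)
      rw [inv_mul_le_iff₀ h2]
      linarith
    · simp only [d, if_neg hk, norm_zero]
      exact hC.le
  · intro n
    have h2 : 0 < ‖u (N n)‖ := norm_pos_iff.2 (hu0 _)
    rw [hsum n]
    constructor
    · rw [norm_smul, RCLike.norm_ofReal, abs_of_nonneg (by positivity), inv_mul_cancel₀ h2.ne']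
    · rw [_root_.smul_apply, norm_smul, RCLike.norm_ofReal,
        abs_of_nonneg (by positivity), le_inv_mul_iff₀ h2]
      have := hcM (N n)
      change ε * ‖u (N n)‖ < ‖u (N n) x₀‖ at this
      linarith

/-- A pointwise null sequence with a lower `ℓ₁` estimate gives `SQ` (subsequences keep the estimate:
extend `c` by `Function.extend φ c 0` and use `s.map`/`sum_image`; on a tail `‖∑ c k h k x‖ ≤ sup ‖h k x‖ ∑ ‖c k‖`). -/
theorem SQ_of_null_l1 [CompleteSpace X] (h : ℕ → StrongDual 𝕜 X) (a : ℝ) (ha : 0 < a)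
    (hl : L1LowerC a h) (hnull : ∀ x, Tendsto (fun k => h k x) atTop (𝓝 0)) : SQ 𝕜 X := by
  have hlow : ∀ k, a ≤ ‖h k‖ := by
    intro k
    have := hl {k} (fun _ => 1)
    simpa using this
  obtain ⟨φ, hφ, hJ⟩ := exists_JRseq_of_null h a ha hlow hnull
  refine SQ_of_JRseq _ hJ fun x ε hε => ?_
  have ht : Tendsto (fun k => h (φ k) x) atTop (𝓝 0) := (hnull x).comp hφ.tendsto_atTop
  have hev := (NormedAddGroup.tendsto_nhds_zero.1 ht) (ε * a) (by positivity)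
  obtain ⟨n, hn⟩ := eventually_atTop.1 hev
  refine ⟨n, fun c N => ?_⟩
  have h1 := hl ((Ico n N).map ⟨φ, hφ.injective⟩) (Function.extend φ c 0)
  rw [jr3_reindex hφ.injective (Ico n N) c (fun z _ => ‖z‖),
    jr3_reindex hφ.injective (Ico n N) c (fun z j => z • h j)] at h1
  calc ‖(∑ k ∈ Ico n N, c k • h (φ k)) x‖ = ‖∑ k ∈ Ico n N, c k • h (φ k) x‖ := by
        rw [_root_.sum_apply]; rfl
    _ ≤ ∑ k ∈ Ico n N, ‖c k • h (φ k) x‖ := norm_sum_le _ _
    _ ≤ ∑ k ∈ Ico n N, ‖c k‖ * (ε * a) := by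
        refine Finset.sum_le_sum fun k hk => ?_
        rw [norm_smul]
        exact mul_le_mul_of_nonneg_left (hn k (Finset.mem_Ico.1 hk).1).le (norm_nonneg _)
    _ = ε * (a * ∑ k ∈ Ico n N, ‖c k‖) := by rw [← Finset.sum_mul]; ring
    _ ≤ _ := mul_le_mul_of_nonneg_left h1 hε.le

/-- A pointwise square-summable sequence with a lower `ℓ₂` estimate gives `SQ` (Cauchy–Schwarz on tails). -/
theorem SQ_of_bessel_l2 [CompleteSpace X] (h : ℕ → StrongDual 𝕜 X) (a : ℝ) (ha : 0 < a)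
    (hl : L2LowerC a h) (hsum : ∀ x, Summable fun k => ‖h k x‖ ^ 2) : SQ 𝕜 X := by
  have hlow : ∀ k, a ≤ ‖h k‖ := by
    intro k
    have := hl {k} (fun _ => 1)
    simpa using this
  have hnull : ∀ x, Tendsto (fun k => h k x) atTop (𝓝 0) := by
    intro x
    have h1 := (hsum x).tendsto_atTop_zero
    have h2 := h1.sqrt
    rw [Real.sqrt_zero] at h2
    rw [tendsto_zero_iff_norm_tendsto_zero]
    refine h2.congr fun k => ?_
    rw [Real.sqrt_sq (norm_nonneg _)]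
  obtain ⟨φ, hφ, hJ⟩ := exists_JRseq_of_null h a ha hlow hnull
  refine SQ_of_JRseq _ hJ fun x ε hε => ?_
  have hs : Summable fun k => ‖h (φ k) x‖ ^ 2 := (hsum x).comp_injective hφ.injective
  obtain ⟨s, hs'⟩ := summable_iff_vanishing_norm.1 hs ((ε * a) ^ 2) (by positivity)
  refine ⟨s.sup id + 1, fun c N => ?_⟩
  set n := s.sup id + 1 with hn
  have hdis : Disjoint (Ico n N) s := by
    rw [Finset.disjoint_left]
    intro k hk hks
    have h1 : id k ≤ s.sup id := Finset.le_sup hks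
    have h2 := (Finset.mem_Ico.1 hk).1
    simp only [id] at h1
    omega
  have h2 := hs' _ hdis
  rw [Real.norm_eq_abs, abs_of_nonneg (Finset.sum_nonneg fun k _ => by positivity)] at h2
  have h3 : √(∑ k ∈ Ico n N, ‖h (φ k) x‖ ^ 2) ≤ ε * a := by
    rw [Real.sqrt_le_iff]
    exact ⟨by positivity, h2.le⟩
  have h1 := hl ((Ico n N).map ⟨φ, hφ.injective⟩) (Function.extend φ c 0)
  rw [jr3_reindex hφ.injective (Ico n N) c (fun z _ => ‖z‖ ^ 2),
    jr3_reindex hφ.injective (Ico n N) c (fun z j => z • h j)] at h1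
  calc ‖(∑ k ∈ Ico n N, c k • h (φ k)) x‖ = ‖∑ k ∈ Ico n N, c k • h (φ k) x‖ := by
        rw [_root_.sum_apply]; rfl
    _ ≤ ∑ k ∈ Ico n N, ‖c k • h (φ k) x‖ := norm_sum_le _ _
    _ = ∑ k ∈ Ico n N, ‖c k‖ * ‖h (φ k) x‖ := by
        refine Finset.sum_congr rfl fun k _ => ?_
        rw [norm_smul]
    _ ≤ √(∑ k ∈ Ico n N, ‖c k‖ ^ 2) * √(∑ k ∈ Ico n N, ‖h (φ k) x‖ ^ 2) :=
        Real.sum_mul_le_sqrt_mul_sqrt _ _ _
    _ ≤ √(∑ k ∈ Ico n N, ‖c k‖ ^ 2) * (ε * a) :=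
        mul_le_mul_of_nonneg_left h3 (Real.sqrt_nonneg _)
    _ = ε * (a * √(∑ k ∈ Ico n N, ‖c k‖ ^ 2)) := by ring
    _ ≤ _ := mul_le_mul_of_nonneg_left h1 hε.le

/-- A bounded suppression-unconditional sequence staying away from `0` at one point spans `ℓ₁`:
with `F` from `exists_quarter` applied to `c k * u k x₀`,
`ε/4 ∑ ‖c k‖ ≤ ‖(∑_F c k • u k) x₀‖ ≤ 2 ‖∑_s c k • u k‖ ‖x₀‖`. -/
theorem hasL1_of_suppUnc (u : ℕ → StrongDual 𝕜 X) (hu : ∀ n, ‖u n‖ ≤ 1) (hs : SuppUnc u)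
    (x₀ : X) (ε : ℝ) (hε : 0 < ε) (hx : ∀ n, ε ≤ ‖u n x₀‖) : HasL1 𝕜 X := by
  have hp : 0 < 8 * (‖x₀‖ + 1) := by positivity
  refine ⟨u, ε / (8 * (‖x₀‖ + 1)), by positivity, hu, fun s c => ?_⟩
  obtain ⟨F, hFs, hF⟩ := exists_quarter s (fun k => c k * u k x₀)
  have h1 : ε * ∑ k ∈ s, ‖c k‖ ≤ ∑ k ∈ s, ‖c k * u k x₀‖ := by
    rw [Finset.mul_sum]
    refine Finset.sum_le_sum fun k _ => ?_
    rw [norm_mul, mul_comm]
    exact mul_le_mul_of_nonneg_left (hx k) (norm_nonneg _)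
  have h2 : ∑ k ∈ F, c k * u k x₀ = (∑ k ∈ F, c k • u k) x₀ := by
    rw [_root_.sum_apply]; rfl
  have h3 : ‖(∑ k ∈ F, c k • u k) x₀‖ ≤ ‖∑ k ∈ F, c k • u k‖ * ‖x₀‖ :=
    ContinuousLinearMap.le_opNorm _ _
  have h4 := hs F s c hFs
  rw [h2] at hF
  rw [div_mul_eq_mul_div, div_le_iff₀ hp]
  have h5 : ‖∑ k ∈ F, c k • u k‖ * ‖x₀‖ ≤ 2 * ‖∑ k ∈ s, c k • u k‖ * ‖x₀‖ :=
    mul_le_mul_of_nonneg_right h4 (norm_nonneg _)
  nlinarith [norm_nonneg (∑ k ∈ s, c k • u k), norm_nonneg x₀]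

/-- subsequences of suppression-unconditional sequences -/
theorem SuppUnc.comp {u : ℕ → StrongDual 𝕜 X} (hs : SuppUnc u) {φ : ℕ → ℕ}
    (hφ : Function.Injective φ) : SuppUnc fun n => u (φ n) := by
  intro A B c hAB
  have h1 := hs (A.map ⟨φ, hφ⟩) (B.map ⟨φ, hφ⟩) (Function.extend φ c 0)
    (Finset.map_subset_map.2 hAB)
  rwa [jr3_reindex hφ A c (fun z j => z • u j), jr3_reindex hφ B c (fun z j => z • u j)] at h1

/-- successive blocks of suppression-unconditional sequences (`Finset.sum_biUnion` over the disjoint `Ico`s) -/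
theorem SuppUnc.blocks {u : ℕ → StrongDual 𝕜 X} (hs : SuppUnc u) {N : ℕ → ℕ} (hN : StrictMono N)
    (c : ℕ → 𝕜) : SuppUnc fun n => ∑ k ∈ Ico (N n) (N (n + 1)), c k • u k := by
  classical
  obtain ⟨idx, hidx⟩ := jr3_exists_idx hN
  intro A B d hAB
  have key : ∀ S : Finset ℕ, ∑ n ∈ S, d n • ∑ k ∈ Ico (N n) (N (n + 1)), c k • u k =
      ∑ k ∈ S.biUnion (fun n => Ico (N n) (N (n + 1))), (d (idx k) * c k) • u k := by
    intro S
    rw [Finset.sum_biUnion]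
    · refine Finset.sum_congr rfl fun n _ => ?_
      rw [Finset.smul_sum]
      refine Finset.sum_congr rfl fun k hk => ?_
      rw [hidx n k hk, smul_smul]
    · intro n _ m _ hnm
      rw [Function.onFun, Finset.disjoint_left]
      intro k hk hk'
      exact hnm ((hidx n k hk).symm.trans (hidx m k hk'))
  rw [key A, key B]
  exact hs _ _ _ (Finset.biUnion_subset_biUnion_of_subset_left _ hAB)

/-- A normalized suppression-unconditional sequence in the dual gives `SQ` or `ℓ₁`.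
Recipe: if `φ k x` does not tend to `0` for some `x`, a subsequence stays `≥ ε` at `x`
(`extraction_of_frequently_atTop`), `hasL1_of_suppUnc`.  Otherwise `exists_JRseq_of_null`, and if `¬ SQ`,
`blocks_of_not_SQ` + `SuppUnc.comp` + `SuppUnc.blocks` + `hasL1_of_suppUnc`. -/
theorem SQ_or_hasL1_of_suppUnc [CompleteSpace X] (φ : ℕ → StrongDual 𝕜 X) (hn : ∀ k, ‖φ k‖ = 1)
    (hs : SuppUnc φ) : SQ 𝕜 X ∨ HasL1 𝕜 X := by
  by_cases hnull : ∀ x, Tendsto (fun k => φ k x) atTop (𝓝 0)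
  · obtain ⟨ψ, hψ, hJ⟩ := exists_JRseq_of_null φ 1 one_pos (fun k => (hn k).ge) hnull
    by_cases hX : SQ 𝕜 X
    · exact Or.inl hX
    · obtain ⟨x₀, ε, B, N, c, hε, hN, -, hb⟩ := blocks_of_not_SQ hX _ hJ
      exact Or.inr (hasL1_of_suppUnc _ (fun n => (hb n).1)
        ((hs.comp hψ.injective).blocks hN c) x₀ ε hε fun n => (hb n).2)
  · push Not at hnull
    obtain ⟨x, hx⟩ := hnull
    rw [NormedAddGroup.tendsto_nhds_zero] at hx
    push Not at hx
    obtain ⟨ε, hε, hx⟩ := hx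
    have hfr : ∃ᶠ k in atTop, ε ≤ ‖φ k x‖ := by
      first
        | exact hx
        | (rw [Filter.not_eventually] at hx; exact hx.mono fun k hk => not_lt.1 hk)
    obtain ⟨ψ, hψ, hψx⟩ := extraction_of_frequently_atTop hfr
    exact Or.inr (hasL1_of_suppUnc _ (fun n => (hn _).le) (hs.comp hψ.injective) x ε hε hψx)

end Crest.Agent.R114
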