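import Crest.Agent.R114.BDefs

/-! # R114/Khin : Rademacher sums on the discrete cube `Fin L → Bool`. -/

set_option autoImplicit false
open Filter Topology Finset

namespace Crest.Agent.R114

variable {𝕜 : Type} [RCLike 𝕜]

@[simp] theorem khin_sgn_true : sgn true = 1 := rfl

@[simp] theorem khin_sgn_false : sgn false = -1 := rfl

theorem khin_sgn_mul_self (b : Bool) : sgn b * sgn b = 1 := by
  cases b <;> simp

theorem khin_sgn_not (b : Bool) : sgn (!b) = -sgn b := by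
  cases b <;> simp

/-- splitting a sum over the cube along the first coordinate. -/
theorem khin_sum_cube_succ {M : Type*} [AddCommMonoid M] (L : ℕ)
    (F : (Fin (L + 1) → Bool) → M) :
    ∑ s, F s = ∑ s : Fin L → Bool, (F (Fin.cons true s) + F (Fin.cons false s)) := by
  rw [← (Fin.consEquiv fun _ : Fin (L + 1) => Bool).sum_comp, Fintype.sum_prod_type_right]
  refine Finset.sum_congr rfl fun s _ => ?_
  rw [Fintype.sum_bool]
  rfl

/-- orthogonality (flip the `k`-th bit: `Finset.sum_involution` / `Equiv.sum_comp`). -/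
theorem sum_sgn_mul_sgn (L : ℕ) (k l : Fin L) :
    ∑ s : Fin L → Bool, sgn (s k) * sgn (s l) = if k = l then (2 : ℝ) ^ L else 0 := by
  split_ifs with h
  · subst h
    simp [khin_sgn_mul_self]
  · refine Finset.sum_involution (fun s _ => Function.update s k (!s k)) ?_ ?_ ?_ ?_
    · intro s _
      rw [Function.update_self, Function.update_of_ne (Ne.symm h), khin_sgn_not]
      ring
    · intro s _ _ hs
      have := congrFun hs k
      simp at this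
    · intro s _
      exact Finset.mem_univ _
    · intro s _
      funext i
      by_cases hi : i = k
      · subst hi
        simp
      · simp [Function.update_of_ne hi]

theorem second_moment (L : ℕ) (a : Fin L → 𝕜) :
    ∑ s : Fin L → Bool, ‖∑ k, a k * (sgn (s k) : 𝕜)‖ ^ 2 = 2 ^ L * ∑ k, ‖a k‖ ^ 2 := by
  induction L with
  | zero => simp
  | succ L ih =>
    rw [khin_sum_cube_succ]
    have key : ∀ s : Fin L → Bool,
        ‖∑ k, a k * (sgn ((Fin.cons true s : Fin (L + 1) → Bool) k) : 𝕜)‖ ^ 2 +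
          ‖∑ k, a k * (sgn ((Fin.cons false s : Fin (L + 1) → Bool) k) : 𝕜)‖ ^ 2 =
        2 * ‖∑ k : Fin L, a k.succ * (sgn (s k) : 𝕜)‖ ^ 2 + 2 * ‖a 0‖ ^ 2 := by
      intro s
      simp only [Fin.sum_univ_succ, Fin.cons_zero, Fin.cons_succ, khin_sgn_true, khin_sgn_false]
      have := parallelogram_law_with_norm 𝕜 (∑ k : Fin L, a k.succ * (sgn (s k) : 𝕜)) (a 0)
      push_cast
      rw [mul_one, mul_neg_one, add_comm (a 0), neg_add_eq_sub]
      nlinarith [this]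
    simp only [key]
    rw [Finset.sum_add_distrib, ← Finset.mul_sum, ih fun k => a k.succ, Fin.sum_univ_succ]
    simp only [Finset.sum_const, Finset.card_univ, Fintype.card_fun, Fintype.card_bool,
      Fintype.card_fin, nsmul_eq_mul]
    push_cast
    ring

theorem khin_second_moment_real (L : ℕ) (a : Fin L → ℝ) :
    ∑ s : Fin L → Bool, (∑ k, a k * sgn (s k)) ^ 2 = 2 ^ L * ∑ k, a k ^ 2 := by
  have := second_moment (𝕜 := ℝ) L a
  simpa only [Real.norm_eq_abs, sq_abs, RCLike.ofReal_real_eq_id, id] using this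

/-- fourth moment (induction on `L` together with the second moment: `(S ± a)^4` averages to `S^4 + 6 S^2 a^2 + a^4`). -/
theorem fourth_moment (L : ℕ) (a : Fin L → ℝ) :
    ∑ s : Fin L → Bool, (∑ k, a k * sgn (s k)) ^ 4 ≤ 2 ^ L * (3 * (∑ k, a k ^ 2) ^ 2) := by
  induction L with
  | zero => simp
  | succ L ih =>
    rw [khin_sum_cube_succ]
    have key : ∀ s : Fin L → Bool,
        (∑ k, a k * sgn ((Fin.cons true s : Fin (L + 1) → Bool) k)) ^ 4 +
          (∑ k, a k * sgn ((Fin.cons false s : Fin (L + 1) → Bool) k)) ^ 4 =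
        2 * (∑ k : Fin L, a k.succ * sgn (s k)) ^ 4 +
          12 * a 0 ^ 2 * (∑ k : Fin L, a k.succ * sgn (s k)) ^ 2 + 2 * a 0 ^ 4 := by
      intro s
      simp only [Fin.sum_univ_succ, Fin.cons_zero, Fin.cons_succ, khin_sgn_true, khin_sgn_false]
      ring
    simp only [key]
    rw [Finset.sum_add_distrib, Finset.sum_add_distrib, ← Finset.mul_sum, ← Finset.mul_sum,
      khin_second_moment_real L fun k => a k.succ, Fin.sum_univ_succ]
    simp only [Finset.sum_const, Finset.card_univ, Fintype.card_fun, Fintype.card_bool,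
      Fintype.card_fin, nsmul_eq_mul]
    push_cast
    have h1 := ih fun k => a k.succ
    have h2 : (0 : ℝ) ≤ 2 ^ L * a 0 ^ 4 := by positivity
    rw [pow_succ (2 : ℝ) L]
    nlinarith [h1, h2]

/-- Khintchine's `L¹` inequality, from `|u| ≥ u² - (4/27) u⁴` applied to `u = S / V`, `V² = ∑ a k ²`. -/
theorem khintchine (L : ℕ) (a : Fin L → ℝ) :
    5 / 9 * √(∑ k, a k ^ 2) * 2 ^ L ≤ ∑ s : Fin L → Bool, |∑ k, a k * sgn (s k)| := by
  have hW : 0 ≤ ∑ k, a k ^ 2 := Finset.sum_nonneg fun k _ => sq_nonneg _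
  set V := √(∑ k, a k ^ 2) with hV
  have hV0 : 0 ≤ V := Real.sqrt_nonneg _
  have hVV : V ^ 2 = ∑ k, a k ^ 2 := Real.sq_sqrt hW
  rcases hV0.eq_or_lt with h0 | hpos
  · rw [← h0]
    simp only [mul_zero, zero_mul]
    exact Finset.sum_nonneg fun s _ => abs_nonneg _
  have pt : ∀ x : ℝ, V ^ 2 * x ^ 2 - 4 / 27 * x ^ 4 ≤ V ^ 3 * |x| := by
    intro x
    have ht : 0 ≤ |x| := abs_nonneg x
    have e2 : x ^ 2 = |x| ^ 2 := (sq_abs x).symm
    have e4 : x ^ 4 = |x| ^ 4 := by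
      rw [show x ^ 4 = (x ^ 2) ^ 2 by ring, e2]; ring
    rw [e4, e2]
    have : 0 ≤ |x| * ((2 * |x| - 3 * V) ^ 2 * (|x| + 3 * V)) := by positivity
    nlinarith [this]
  have h1 : ∑ s : Fin L → Bool, (V ^ 2 * (∑ k, a k * sgn (s k)) ^ 2 -
      4 / 27 * (∑ k, a k * sgn (s k)) ^ 4) ≤
      ∑ s : Fin L → Bool, V ^ 3 * |∑ k, a k * sgn (s k)| :=
    Finset.sum_le_sum fun s _ => pt _
  rw [Finset.sum_sub_distrib, ← Finset.mul_sum, ← Finset.mul_sum, ← Finset.mul_sum,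
    khin_second_moment_real, ← hVV] at h1
  have h4 := fourth_moment L a
  rw [← hVV] at h4
  have hV3 : 0 < V ^ 3 := by positivity
  refine le_of_mul_le_mul_left ?_ hV3
  nlinarith [h1, h4]

/-- Cauchy–Schwarz together with the second moment. -/
theorem khin_norm_pair_le (L : ℕ) (a : Fin L → 𝕜) (g : (Fin L → Bool) → 𝕜) :
    ‖∑ k, a k * ((∑ s : Fin L → Bool, (sgn (s k) : 𝕜) * g s) / 2 ^ L)‖ ≤
      √(∑ k, ‖a k‖ ^ 2) * √((∑ s : Fin L → Bool, ‖g s‖ ^ 2) / 2 ^ L) := by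
  have e : ∑ k, a k * ((∑ s : Fin L → Bool, (sgn (s k) : 𝕜) * g s) / 2 ^ L) =
      (∑ s : Fin L → Bool, (∑ k, a k * (sgn (s k) : 𝕜)) * g s) / 2 ^ L := by
    simp only [← mul_div_assoc, ← Finset.sum_div, Finset.mul_sum, Finset.sum_mul, mul_assoc]
    rw [Finset.sum_comm]
  have hP : (0 : ℝ) < 2 ^ L := by positivity
  rw [e, norm_div, norm_pow, RCLike.norm_two, div_le_iff₀ hP]
  calc ‖∑ s : Fin L → Bool, (∑ k, a k * (sgn (s k) : 𝕜)) * g s‖
      ≤ ∑ s : Fin L → Bool, ‖∑ k, a k * (sgn (s k) : 𝕜)‖ * ‖g s‖ := by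
        refine (norm_sum_le _ _).trans (le_of_eq ?_)
        simp only [norm_mul]
    _ ≤ √(∑ s : Fin L → Bool, ‖∑ k, a k * (sgn (s k) : 𝕜)‖ ^ 2) *
          √(∑ s : Fin L → Bool, ‖g s‖ ^ 2) := Real.sum_mul_le_sqrt_mul_sqrt _ _ _
    _ = √(∑ k, ‖a k‖ ^ 2) * √((∑ s : Fin L → Bool, ‖g s‖ ^ 2) / 2 ^ L) * 2 ^ L := by
        rw [second_moment, Real.sqrt_mul hP.le, Real.sqrt_div' _ hP.le]
        have hs : 0 < √((2 : ℝ) ^ L) := Real.sqrt_pos.2 hP
        have hss : √((2 : ℝ) ^ L) * √((2 : ℝ) ^ L) = 2 ^ L := Real.mul_self_sqrt hP.le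
        set r := √((2 : ℝ) ^ L)
        rw [← hss]
        field_simp

/-- Bessel's inequality for the Rademacher system (expand `0 ≤ ∑_s ‖g s - ∑ k b k r k s‖²`, or duality with
`second_moment` and Cauchy–Schwarz). -/
theorem bessel_sgn (L : ℕ) (g : (Fin L → Bool) → 𝕜) :
    ∑ k : Fin L, ‖(∑ s : Fin L → Bool, (sgn (s k) : 𝕜) * g s) / 2 ^ L‖ ^ 2 ≤
      (∑ s : Fin L → Bool, ‖g s‖ ^ 2) / 2 ^ L := by
  set b : Fin L → 𝕜 := fun k => (∑ s : Fin L → Bool, (sgn (s k) : 𝕜) * g s) / 2 ^ L with hb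
  have h := khin_norm_pair_le L (fun k => (starRingEnd 𝕜) (b k)) g
  have e : ∑ k, (starRingEnd 𝕜) (b k) * b k = ((∑ k, ‖b k‖ ^ 2 : ℝ) : 𝕜) := by
    push_cast
    exact Finset.sum_congr rfl fun k _ => RCLike.conj_mul (b k)
  have hB : 0 ≤ ∑ k, ‖b k‖ ^ 2 := Finset.sum_nonneg fun k _ => sq_nonneg _
  have hG : 0 ≤ (∑ s : Fin L → Bool, ‖g s‖ ^ 2) / 2 ^ L := by positivity
  change ‖∑ k, (starRingEnd 𝕜) (b k) * b k‖ ≤ _ at h
  rw [e, RCLike.norm_ofReal, abs_of_nonneg hB] at h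
  simp only [RCLike.norm_conj] at h
  change ∑ k, ‖b k‖ ^ 2 ≤ _
  have h1 := Real.mul_self_sqrt hB
  have h2 := Real.mul_self_sqrt hG
  nlinarith [sq_nonneg (√(∑ k, ‖b k‖ ^ 2) - √((∑ s : Fin L → Bool, ‖g s‖ ^ 2) / 2 ^ L))]

/-- The finite estimate behind the lower `ℓ₂` bound.  Here `τ s` is the sign of `∑ re (a k) r k s`, `g` is close to `τ` on
average.  Recipe: `E ‖g - τ‖² ≤ 1.01² - 2·0.99 + 1 = 0.0401 ≤ (21/100)²`; `E[(∑ a r) g] = E[(∑ a r) τ] + E[(∑ a r)(g - τ)]`;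
the real part of the first term is `E |∑ re a r| ≥ 5/9 ‖re a‖₂ ≥ 5/9 · 7/10 ‖a‖₂`; the second is `≤ 21/100 ‖a‖₂`
(Cauchy–Schwarz, `second_moment`); `7/18 - 21/100 ≥ 1/6`. -/
theorem lower_l2_cube (L : ℕ) (a : Fin L → 𝕜) (τ : (Fin L → Bool) → Bool)
    (g : (Fin L → Bool) → 𝕜)
    (ha : ∑ k, ‖a k‖ ^ 2 ≤ 2 * ∑ k, RCLike.re (a k) ^ 2)
    (hτ : ∀ s, (∑ k, RCLike.re (a k) * sgn (s k)) * sgn (τ s) = |∑ k, RCLike.re (a k) * sgn (s k)|)
    (hg : ∀ s, ‖g s‖ ≤ 101 / 100)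
    (hτg : 99 / 100 ≤ (∑ s, sgn (τ s) * RCLike.re (g s)) / 2 ^ L) :
    1 / 6 * √(∑ k, ‖a k‖ ^ 2) ≤
      ‖∑ k, a k * ((∑ s : Fin L → Bool, (sgn (s k) : 𝕜) * g s) / 2 ^ L)‖ := by
  have hP : (0 : ℝ) < 2 ^ L := by positivity
  set A := √(∑ k, ‖a k‖ ^ 2) with hA
  have hA0 : 0 ≤ A := Real.sqrt_nonneg _
  -- the error term
  have herr : (∑ s : Fin L → Bool, ‖g s - (sgn (τ s) : 𝕜)‖ ^ 2) / 2 ^ L ≤ (21 / 100) ^ 2 := by
    have pt : ∀ s, ‖g s - (sgn (τ s) : 𝕜)‖ ^ 2 ≤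
        (101 / 100) ^ 2 + 1 - 2 * (sgn (τ s) * RCLike.re (g s)) := by
      intro s
      have h1 : ‖g s‖ ^ 2 ≤ (101 / 100) ^ 2 := pow_le_pow_left₀ (norm_nonneg _) (hg s) 2
      have h2 := khin_sgn_mul_self (τ s)
      rw [RCLike.norm_sq_eq_def] at h1 ⊢
      simp only [map_sub, RCLike.ofReal_re, RCLike.ofReal_im, sub_zero]
      nlinarith [h1, h2]
    have h1 := Finset.sum_le_sum fun s (_ : s ∈ (Finset.univ : Finset (Fin L → Bool))) => pt s
    rw [Finset.sum_sub_distrib, ← Finset.mul_sum] at h1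
    simp only [Finset.sum_const, Finset.card_univ, Fintype.card_fun, Fintype.card_bool,
      Fintype.card_fin, nsmul_eq_mul] at h1
    push_cast at h1
    rw [le_div_iff₀ hP] at hτg
    rw [div_le_iff₀ hP]
    nlinarith [h1, hτg, hP]
  have h2 : ‖∑ k, a k * ((∑ s : Fin L → Bool, (sgn (s k) : 𝕜) * (g s - (sgn (τ s) : 𝕜))) / 2 ^ L)‖
      ≤ A * (21 / 100) := by
    refine (khin_norm_pair_le L a _).trans (mul_le_mul_of_nonneg_left ?_ hA0)
    exact Real.sqrt_le_iff.2 ⟨by norm_num, herr⟩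
  -- the main term
  have h3 : 7 / 18 * A ≤
      ‖∑ k, a k * ((∑ s : Fin L → Bool, (sgn (s k) : 𝕜) * (sgn (τ s) : 𝕜)) / 2 ^ L)‖ := by
    refine le_trans ?_ (RCLike.re_le_norm _)
    have e : RCLike.re (∑ k, a k *
        ((∑ s : Fin L → Bool, (sgn (s k) : 𝕜) * (sgn (τ s) : 𝕜)) / 2 ^ L)) =
        (∑ s : Fin L → Bool, |∑ k, RCLike.re (a k) * sgn (s k)|) / 2 ^ L := by
      have e1 : ∀ k : Fin L, (∑ s : Fin L → Bool, (sgn (s k) : 𝕜) * (sgn (τ s) : 𝕜)) / 2 ^ L =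
          (((∑ s : Fin L → Bool, sgn (s k) * sgn (τ s)) / 2 ^ L : ℝ) : 𝕜) := by
        intro k
        push_cast
        rfl
      simp only [e1, map_sum, RCLike.mul_re, RCLike.ofReal_re, RCLike.ofReal_im, mul_zero,
        sub_zero, ← hτ]
      simp only [← mul_div_assoc, ← Finset.sum_div, Finset.mul_sum, Finset.sum_mul, mul_assoc]
      rw [Finset.sum_comm]
    rw [e, le_div_iff₀ hP]
    refine le_trans ?_ (khintchine L fun k => RCLike.re (a k))
    have h7 : 7 / 10 * A ≤ √(∑ k, RCLike.re (a k) ^ 2) := by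
      have hW : 0 ≤ ∑ k, ‖a k‖ ^ 2 := Finset.sum_nonneg fun k _ => sq_nonneg _
      refine Real.le_sqrt_of_sq_le ?_
      rw [mul_pow, hA, Real.sq_sqrt hW]
      linarith
    refine mul_le_mul_of_nonneg_right ?_ hP.le
    linarith
  have e : ∑ k, a k * ((∑ s : Fin L → Bool, (sgn (s k) : 𝕜) * (sgn (τ s) : 𝕜)) / 2 ^ L) =
      ∑ k, a k * ((∑ s : Fin L → Bool, (sgn (s k) : 𝕜) * g s) / 2 ^ L) -
      ∑ k, a k * ((∑ s : Fin L → Bool, (sgn (s k) : 𝕜) * (g s - (sgn (τ s) : 𝕜))) / 2 ^ L) := by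
    rw [← Finset.sum_sub_distrib]
    refine Finset.sum_congr rfl fun k _ => ?_
    rw [← mul_sub, ← sub_div, ← Finset.sum_sub_distrib]
    congr 2
    refine Finset.sum_congr rfl fun s _ => ?_
    ring
  rw [e] at h3
  have h4 := norm_sub_le
    (∑ k, a k * ((∑ s : Fin L → Bool, (sgn (s k) : 𝕜) * g s) / 2 ^ L))
    (∑ k, a k * ((∑ s : Fin L → Bool, (sgn (s k) : 𝕜) * (g s - (sgn (τ s) : 𝕜))) / 2 ^ L))
  linarith

end Crest.Agent.R114
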