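import Crest.Agent.R114.JR3

/-! # R114/L1a : stabilizing an `ℓ₁`-sequence in the dual. -/

set_option autoImplicit false
open Filter Topology Finset

namespace Crest.Agent.R114

variable {𝕜 : Type} [RCLike 𝕜] {X : Type*} [NormedAddCommGroup X] [NormedSpace 𝕜 X]

/-- `z m` is an absolutely convex combination of the `y n`, `n ≥ m`. -/
def FarComb (z y : ℕ → StrongDual 𝕜 X) : Prop :=
  ∀ m, ∃ (s : Finset ℕ) (c : ℕ → 𝕜), (∀ n ∈ s, m ≤ n) ∧ ∑ n ∈ s, ‖c n‖ ≤ 1 ∧
    z m = ∑ n ∈ s, c n • y n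

/-- asymptotically of size at most `r` on the unit ball -/
def Small (z : ℕ → StrongDual 𝕜 X) (r : ℝ) : Prop :=
  ∀ x : X, ‖x‖ ≤ 1 → ∀ᶠ m in atTop, ‖z m x‖ ≤ r

theorem FarComb.refl (y : ℕ → StrongDual 𝕜 X) : FarComb y y := fun m =>
  ⟨{m}, fun _ => 1, by simp, by simp, by simp⟩

/-- (`choose`, `Finset.biUnion`, swap sums.) -/
theorem FarComb.trans {w z y : ℕ → StrongDual 𝕜 X} (h₁ : FarComb w z) (h₂ : FarComb z y) :
    FarComb w y := by
  classical
  choose t d ht hd hz using h₂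
  intro m
  obtain ⟨s, c, hs, hc, hw⟩ := h₁ m
  have key : ∀ n ∈ s, s.biUnion t ∩ t n = t n := fun n hn =>
    inter_eq_right.2 (subset_biUnion_of_mem t hn)
  refine ⟨s.biUnion t, fun l => ∑ n ∈ s, if l ∈ t n then c n * d n l else 0, ?_, ?_, ?_⟩
  · intro l hl
    obtain ⟨n, hn, hl⟩ := mem_biUnion.1 hl
    exact (hs n hn).trans (ht n l hl)
  · calc ∑ l ∈ s.biUnion t, ‖∑ n ∈ s, if l ∈ t n then c n * d n l else 0‖
        ≤ ∑ l ∈ s.biUnion t, ∑ n ∈ s, if l ∈ t n then ‖c n‖ * ‖d n l‖ else 0 := by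
          refine sum_le_sum fun l _ => (norm_sum_le _ _).trans (le_of_eq ?_)
          refine sum_congr rfl fun n _ => ?_
          split_ifs <;> simp
      _ = ∑ n ∈ s, ‖c n‖ * ∑ l ∈ t n, ‖d n l‖ := by
          rw [sum_comm]
          refine sum_congr rfl fun n hn => ?_
          rw [sum_ite_mem, key n hn, mul_sum]
      _ ≤ ∑ n ∈ s, ‖c n‖ := sum_le_sum fun n _ => mul_le_of_le_one_right (norm_nonneg _) (hd n)
      _ ≤ 1 := hc
  · calc w m = ∑ n ∈ s, ∑ l ∈ s.biUnion t, if l ∈ t n then (c n * d n l) • y l else 0 := by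
          rw [hw]
          refine sum_congr rfl fun n hn => ?_
          rw [hz n, smul_sum, sum_ite_mem, key n hn]
          exact sum_congr rfl fun l _ => smul_smul _ _ _
      _ = _ := by
          rw [sum_comm]
          refine sum_congr rfl fun l _ => ?_
          refine Eq.trans ?_ (Finset.sum_smul (s := s) (x := y l)
            (f := fun n => if l ∈ t n then c n * d n l else 0)).symm
          refine sum_congr rfl fun n _ => ?_
          split_ifs
          · rfl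
          · exact (zero_smul 𝕜 (y l)).symm

theorem FarComb.bound {z y : ℕ → StrongDual 𝕜 X} (h : FarComb z y) {r : ℝ} (hr : 0 ≤ r) {x : X}
    {N : ℕ} (hy : ∀ n, N ≤ n → ‖y n x‖ ≤ r) {m : ℕ} (hm : N ≤ m) : ‖z m x‖ ≤ r := by
  obtain ⟨s, c, hs, hc, hz⟩ := h m
  rw [hz, ContinuousLinearMap.sum_apply]
  calc ‖∑ n ∈ s, (c n • y n) x‖ ≤ ∑ n ∈ s, ‖c n‖ * r := by
        refine (norm_sum_le _ _).trans (sum_le_sum fun n hn => ?_)
        rw [ContinuousLinearMap.smul_apply, norm_smul]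
        exact mul_le_mul_of_nonneg_left (hy n (hm.trans (hs n hn))) (norm_nonneg _)
    _ ≤ r := by
        rw [← sum_mul]
        exact mul_le_of_le_one_left hr hc

theorem FarComb.small {z y : ℕ → StrongDual 𝕜 X} (h : FarComb z y) {r : ℝ} (hr : 0 ≤ r)
    (hy : Small y r) : Small z r := by
  intro x hx
  obtain ⟨N, hN⟩ := eventually_atTop.1 (hy x hx)
  exact eventually_atTop.2 ⟨N, fun m hm => h.bound hr hN hm⟩

theorem FarComb.norm_le {z y : ℕ → StrongDual 𝕜 X} (h : FarComb z y) (hy : ∀ n, ‖y n‖ ≤ 1) :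
    ∀ n, ‖z n‖ ≤ 1 := by
  intro m
  obtain ⟨s, c, -, hc, hz⟩ := h m
  rw [hz]
  refine (norm_sum_le _ _).trans ((sum_le_sum fun n _ => ?_).trans hc)
  rw [norm_smul]
  exact mul_le_of_le_one_right (norm_nonneg _) (hy n)

theorem l1a_coef {P : Type*} (T : Finset P) (g : P → ℕ) (hg : Set.InjOn g T) (d : P → 𝕜) :
    ∃ c : ℕ → 𝕜, ∀ p ∈ T, c (g p) = d p := by
  classical
  refine ⟨fun n => if h : ∃ p ∈ T, g p = n then d h.choose else 0, fun p hp => ?_⟩
  have h : ∃ q ∈ T, g q = g p := ⟨p, hp, rfl⟩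
  simp only [dif_pos h]
  rw [hg h.choose_spec.1 hp h.choose_spec.2]

theorem L1LowerC.injOn {a : ℝ} {y : ℕ → StrongDual 𝕜 X} (hl : L1LowerC a y) {P : Type*}
    (T : Finset P) (g : P → ℕ) (hg : Set.InjOn g T) (d : P → 𝕜) :
    a * ∑ p ∈ T, ‖d p‖ ≤ ‖∑ p ∈ T, d p • y (g p)‖ := by
  obtain ⟨c, hc⟩ := l1a_coef T g hg d
  have := hl (T.image g) c
  rw [sum_image hg, sum_image hg] at this
  rwa [sum_congr rfl fun p hp => by rw [hc p hp],
    sum_congr rfl (f := fun p => c (g p) • y (g p)) fun p hp => by rw [hc p hp]] at this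

theorem Small.mono {z : ℕ → StrongDual 𝕜 X} {r r' : ℝ} (h : Small z r) (hr : r ≤ r') :
    Small z r' := fun x hx => (h x hx).mono fun _ hm => hm.trans hr

/-- Diagonal case.  Recipe: `z 0 = y`, `z (i+1)` a far combination of `z i` with `L1LowerC a` and `Small _ (1/(i+1))`.
`w i = z i (m i)` with `m i ≥ i` chosen recursively above the support (relative to `y`) of `w (i-1)`; each `w i` has norm
`≥ a`, so its coefficients relative to `y` have `ℓ₁`-mass `≥ a` (as `‖y n‖ ≤ 1`); disjoint supports give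
`L1LowerC (a * a) w`; `w` is pointwise null since for `i ≥ k`, `w i` is an absolutely convex combination of
`z k n`, `n ≥ m i`. -/
theorem null_l1_of_dense (y : ℕ → StrongDual 𝕜 X) (a : ℝ) (ha : 0 < a) (hy : ∀ n, ‖y n‖ ≤ 1)
    (hl : L1LowerC a y)
    (h : ∀ z, FarComb z y → L1LowerC a z → ∀ r : ℝ, 0 < r →
      ∃ w, FarComb w z ∧ L1LowerC a w ∧ Small w r) :
    ∃ w : ℕ → StrongDual 𝕜 X, L1LowerC (a * a) w ∧
      ∀ x, Tendsto (fun k => w k x) atTop (𝓝 0) := by
  classical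
  choose! F hF1 hF2 hF3 using h
  let z : ℕ → ℕ → StrongDual 𝕜 X := fun i => Nat.rec y (fun i z => F z (1 / ((i : ℝ) + 1))) i
  have hz : ∀ i, z (i + 1) = F (z i) (1 / ((i : ℝ) + 1)) := fun _ => rfl
  have hadm : ∀ i, FarComb (z i) y ∧ L1LowerC a (z i) := by
    intro i
    induction i with
    | zero => exact ⟨FarComb.refl y, hl⟩
    | succ i ih =>
      exact ⟨(hF1 _ ih.1 ih.2 _ Nat.one_div_pos_of_nat).trans ih.1,
        hF2 _ ih.1 ih.2 _ Nat.one_div_pos_of_nat⟩
  have hstep : ∀ i, FarComb (z (i + 1)) (z i) := fun i =>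
    hF1 _ (hadm i).1 (hadm i).2 _ Nat.one_div_pos_of_nat
  have hsm : ∀ i, Small (z (i + 1)) (1 / ((i : ℝ) + 1)) := fun i =>
    hF3 _ (hadm i).1 (hadm i).2 _ Nat.one_div_pos_of_nat
  have hfar : ∀ k i, k ≤ i → FarComb (z i) (z k) := by
    intro k i hki
    induction i, hki using Nat.le_induction with
    | base => exact FarComb.refl _
    | succ i _ ih => exact (hstep i).trans ih
  choose s c hs hc hzc using fun i => (hadm i).1
  let m : ℕ → ℕ := fun i => Nat.rec 0 (fun i m => (s i m).sup id + m + 1) i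
  have hm : ∀ i, m (i + 1) = (s i (m i)).sup id + m i + 1 := fun _ => rfl
  have hmono : StrictMono m := strictMono_nat_of_lt_succ fun i => by rw [hm]; omega
  have hlt : ∀ i, ∀ n ∈ s i (m i), n < m (i + 1) := fun i n hn => by
    have : n ≤ (s i (m i)).sup id := le_sup (f := id) hn
    rw [hm]; omega
  have hmass : ∀ i, a ≤ ∑ n ∈ s i (m i), ‖c i (m i) n‖ := fun i => by
    have h1 := (hadm i).2 {m i} fun _ => 1
    simp only [sum_singleton, norm_one, mul_one, one_smul] at h1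
    rw [hzc i (m i)] at h1
    refine h1.trans ((norm_sum_le _ _).trans (sum_le_sum fun n _ => ?_))
    rw [norm_smul]
    exact mul_le_of_le_one_right (norm_nonneg _) (hy n)
  refine ⟨fun i => z i (m i), fun A b => ?_, fun x => ?_⟩
  · have hinj : Set.InjOn (fun p : (Σ _ : ℕ, ℕ) => p.2) (A.sigma fun i => s i (m i)) := by
      rintro ⟨i, n⟩ hi ⟨j, n'⟩ hj (rfl : n = n')
      have h1 : n ∈ s i (m i) := (mem_sigma.1 (mem_coe.1 hi)).2
      have h2 : n ∈ s j (m j) := (mem_sigma.1 (mem_coe.1 hj)).2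
      have : i = j := by
        by_contra hne
        rcases Nat.lt_or_gt_of_ne hne with hij | hij
        · have : m (i + 1) ≤ m j := hmono.monotone (Nat.succ_le_of_lt hij)
          have := hlt i n h1
          have := hs j _ n h2
          omega
        · have : m (j + 1) ≤ m i := hmono.monotone (Nat.succ_le_of_lt hij)
          have := hlt j n h2
          have := hs i _ n h1
          omega
      rw [this]
    have h1 := hl.injOn _ _ hinj fun p => b p.1 * c p.1 (m p.1) p.2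
    rw [sum_sigma, sum_sigma] at h1
    have e : ∑ i ∈ A, b i • z i (m i) =
        ∑ i ∈ A, ∑ n ∈ s i (m i), (b i * c i (m i) n) • y n := by
      refine sum_congr rfl fun i _ => ?_
      rw [hzc i (m i), smul_sum]
      simp only [smul_smul]
    rw [e]
    refine le_trans ?_ h1
    rw [mul_assoc, mul_sum]
    refine mul_le_mul_of_nonneg_left (sum_le_sum fun i _ => ?_) ha.le
    simp only [norm_mul]
    rw [← mul_sum, mul_comm]
    exact mul_le_mul_of_nonneg_left (hmass i) (norm_nonneg _)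
  · have key : ∀ x : X, ‖x‖ ≤ 1 → Tendsto (fun k => z k (m k) x) atTop (𝓝 0) := by
      intro x hx
      rw [Metric.tendsto_atTop]
      intro ε hε
      obtain ⟨k, hk⟩ := exists_nat_one_div_lt hε
      obtain ⟨N, hN⟩ := eventually_atTop.1 (hsm k x hx)
      refine ⟨max N (k + 1), fun i hi => ?_⟩
      rw [dist_zero_right]
      refine lt_of_le_of_lt ?_ hk
      exact (hfar (k + 1) i (le_of_max_le_right hi)).bound Nat.one_div_pos_of_nat.le hN
        ((le_of_max_le_left hi).trans (hmono.id_le i))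
    have ht : (((‖x‖ + 1 : ℝ) : 𝕜)) ≠ 0 := by
      rw [RCLike.ofReal_ne_zero]; positivity
    have h1 := key ((((‖x‖ + 1 : ℝ) : 𝕜))⁻¹ • x) (by
      rw [norm_smul, norm_inv, RCLike.norm_ofReal, abs_of_pos (by positivity),
        inv_mul_le_iff₀ (by positivity)]
      linarith)
    have h2 := h1.const_mul ((‖x‖ + 1 : ℝ) : 𝕜)
    simp only [map_smul, smul_eq_mul, mul_inv_cancel_left₀ ht, mul_zero] at h2
    exact h2

/-- Recipe: if the hypothesis of `null_l1_of_dense` holds, `SQ_of_null_l1`.  Otherwise fix `z`, `r₀ > 0` with no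
admissible `w` (`FarComb w z`, `L1LowerC a w`) small of size `r₀`; `δ = sInf {r | ∃ admissible w, Small w r} ≥ r₀`
(the set contains `1`, is upward closed); take admissible `w` with `Small w (1001/1000 δ)`.  For `e, σ` as in `Stable`,
`v j = (card ι)⁻¹ • ∑ i, σ i • w (e i j)` is a far combination of `w` with `L1LowerC a` (injectivity of `e`), so it is not
small of size `999/1000 δ`: some `x` with frequently `‖v j x‖ > 999/1000 δ`; a cluster point `ζ` of these values has
`‖ζ‖ ≥ 999/1000 δ`; replace `x` by `(conj ζ / ‖ζ‖) • x`. -/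
theorem stable_of_hasL1 [CompleteSpace X] (h : HasL1 𝕜 X) (hX : ¬ SQ 𝕜 X) :
    ∃ (y : ℕ → StrongDual 𝕜 X) (δ : ℝ), 0 < δ ∧ Stable y δ := by
  classical
  obtain ⟨y, a, ha, hy, hl⟩ := h
  by_cases hd : ∀ z, FarComb z y → L1LowerC a z → ∀ r : ℝ, 0 < r →
      ∃ w, FarComb w z ∧ L1LowerC a w ∧ Small w r
  · obtain ⟨w, hw, hn⟩ := null_l1_of_dense y a ha hy hl hd
    exact absurd (SQ_of_null_l1 w _ (mul_pos ha ha) hw hn) hX
  push Not at hd
  obtain ⟨z, hz, hzl, r₀, hr₀, hno⟩ := hd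
  have hz1 := hz.norm_le hy
  let R : Set ℝ := {r | ∃ w, FarComb w z ∧ L1LowerC a w ∧ Small w r}
  have hne : R.Nonempty := ⟨1, z, FarComb.refl z, hzl, fun x hx => Eventually.of_forall fun n =>
    ((z n).le_opNorm x).trans (mul_le_one₀ (hz1 n) (norm_nonneg _) hx)⟩
  have hlb : ∀ r ∈ R, r₀ ≤ r := by
    rintro r ⟨w, h1, h2, h3⟩
    by_contra hlt
    exact hno w h1 h2 (h3.mono (not_le.1 hlt).le)
  set δ := sInf R with hδ
  have hδ0 : 0 < δ := hr₀.trans_le (le_csInf hne hlb)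
  obtain ⟨r, ⟨w, hw, hwl, hws⟩, hr⟩ := exists_lt_of_csInf_lt hne
    (show sInf R < 101 / 100 * δ by linarith)
  have hw1 := hw.norm_le hz1
  refine ⟨w, δ, hδ0, hw1, hws.mono hr.le, ?_⟩
  intro ι _ _ e σ he hej hσ
  have hcard : (0 : ℝ) < Fintype.card ι := by exact_mod_cast Fintype.card_pos
  let d : ι → 𝕜 := fun i => ((σ i / Fintype.card ι : ℝ) : 𝕜)
  have hdn : ∀ i, ‖d i‖ = 1 / Fintype.card ι := fun i => by
    simp only [d, RCLike.norm_ofReal, abs_div, abs_of_pos hcard]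
    rcases hσ i with h | h <;> simp [h]
  have hds : ∑ i, ‖d i‖ = 1 := by
    simp only [hdn, sum_const, card_univ, nsmul_eq_mul]
    field_simp
  let v : ℕ → StrongDual 𝕜 X := fun j => ∑ i, d i • w (e i j)
  have hv : FarComb v w := fun j => by
    have hinj : Set.InjOn (fun i => e i j) (univ : Finset ι) := fun i _ i' _ h =>
      congrArg Prod.fst (he (a₁ := (i, j)) (a₂ := (i', j)) h)
    obtain ⟨c, hc⟩ := l1a_coef univ _ hinj d
    refine ⟨univ.image fun i => e i j, c, fun n hn => ?_, ?_, ?_⟩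
    · obtain ⟨i, -, rfl⟩ := mem_image.1 hn
      exact hej i j
    · rw [sum_image hinj, sum_congr rfl fun i hi => by rw [hc i hi], hds]
    · rw [sum_image hinj]
      exact sum_congr rfl fun i hi => by rw [hc i hi]
  have hvl : L1LowerC a v := fun A b => by
    have h1 := hwl.injOn (univ ×ˢ A) (fun p : ι × ℕ => e p.1 p.2) he.injOn
      fun p => b p.2 * d p.1
    rw [sum_product_right, sum_product_right] at h1
    simp only [norm_mul, ← mul_sum, hds, mul_one] at h1
    refine h1.trans (le_of_eq ?_)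
    congr 1
    refine sum_congr rfl fun j _ => ?_
    simp only [v, smul_sum, smul_smul]
  have hns : ¬ Small v (999 / 1000 * δ) := fun hs => by
    have : δ ≤ 999 / 1000 * δ := csInf_le ⟨r₀, hlb⟩ ⟨v, hv.trans hw, hvl, hs⟩
    linarith
  unfold Small at hns
  push Not at hns
  obtain ⟨x, hx, hfr⟩ := hns
  have hv1 := hv.norm_le hw1
  have hK : IsCompact (Metric.closedBall (0 : 𝕜) 1 ∩ {ζ | 999 / 1000 * δ ≤ ‖ζ‖}) :=
    (isCompact_closedBall _ _).inter_right (isClosed_le continuous_const continuous_norm)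
  obtain ⟨ζ, hζ, φ, hφ, hlim⟩ := hK.tendsto_subseq' (x := fun j => v j x) (hfr.mono fun j hj =>
    ⟨mem_closedBall_zero_iff.2
      (((v j).le_opNorm x).trans (mul_le_one₀ (hv1 j) (norm_nonneg _) hx)), hj.le⟩)
  have hζ1 : 999 / 1000 * δ ≤ ‖ζ‖ := hζ.2
  have hζ0 : 0 < ‖ζ‖ := by linarith
  set u : 𝕜 := (starRingEnd 𝕜) ζ / (‖ζ‖ : 𝕜) with hu
  have hun : ‖u‖ = 1 := by
    rw [hu, norm_div, RCLike.norm_conj, RCLike.norm_ofReal, abs_of_pos hζ0, div_self hζ0.ne']
  have huζ : RCLike.re (u * ζ) = ‖ζ‖ := by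
    have h0 : (‖ζ‖ : 𝕜) ≠ 0 := RCLike.ofReal_ne_zero.2 hζ0.ne'
    have : u * ζ = (‖ζ‖ : 𝕜) := by
      rw [hu, div_mul_eq_mul_div, RCLike.conj_mul, sq, mul_div_assoc, div_self h0, mul_one]
    rw [this, RCLike.ofReal_re]
  refine ⟨u • x, by rw [norm_smul, hun, one_mul]; exact hx, ?_⟩
  have h1 : Tendsto (fun j => RCLike.re (u * v (φ j) x)) atTop (𝓝 ‖ζ‖) := by
    rw [← huζ]
    exact (RCLike.continuous_re.tendsto _).comp (hlim.const_mul u)
  have h2 : ∀ᶠ j in atTop, 99 / 100 * δ < RCLike.re (u * v (φ j) x) :=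
    h1.eventually (lt_mem_nhds (by linarith))
  refine hφ.tendsto_atTop.frequently (p := fun j =>
    99 / 100 * δ ≤ (∑ i, σ i * RCLike.re (w (e i j) (u • x))) / (Fintype.card ι : ℝ))
    (h2.mono fun j hj => hj.le.trans (le_of_eq ?_)).frequently
  have : u * v (φ j) x = ∑ i, d i * w (e i (φ j)) (u • x) := by
    simp only [v, ContinuousLinearMap.sum_apply, ContinuousLinearMap.smul_apply, map_smul,
      smul_eq_mul, mul_sum]
    exact sum_congr rfl fun i _ => by ring
  rw [this, map_sum, sum_div]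
  refine sum_congr rfl fun i _ => ?_
  simp only [d, RCLike.re_ofReal_mul]
  ring

end Crest.Agent.R114
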