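import Crest.Agent.R114.BDefs

/-! # R114/L1b : the dyadic tree of subsequences of a stable sequence. -/

set_option autoImplicit false
open Filter Topology Finset

namespace Crest.Agent.R114

variable {𝕜 : Type} [RCLike 𝕜] {X : Type*} [NormedAddCommGroup X] [NormedSpace 𝕜 X]

/-- One level: a common subsequence `θ` realizing all sign functions.  Recipe: induction over a `Finset` of sign
functions `σ : ι → Bool` starting from `θ = (· + 1)`; to add `σ`, apply the third part of `Stable` to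
`fun i j => e i (θ j)` and refine `θ` by `extraction_of_frequently_atTop`. -/
theorem Stable.level {y : ℕ → StrongDual 𝕜 X} {δ : ℝ} (hy : Stable y δ) (ι : Type) [Fintype ι]
    [Nonempty ι] (e : ι → ℕ → ℕ) (he : Function.Injective fun p : ι × ℕ => e p.1 p.2)
    (he' : ∀ i j, j ≤ e i j) :
    ∃ θ : ℕ → ℕ, StrictMono θ ∧ (∀ j, j < θ j) ∧ ∀ σ : ι → Bool, ∃ x : X, ‖x‖ ≤ 1 ∧ ∀ j,
      99 / 100 * δ ≤ (∑ i, sgn (σ i) * RCLike.re (y (e i (θ j)) x)) / (Fintype.card ι : ℝ) := by
  classical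
  have key : ∀ S : Finset (ι → Bool), ∃ θ : ℕ → ℕ, StrictMono θ ∧ (∀ j, j < θ j) ∧
      ∀ σ ∈ S, ∃ x : X, ‖x‖ ≤ 1 ∧ ∀ j,
        99 / 100 * δ ≤ (∑ i, sgn (σ i) * RCLike.re (y (e i (θ j)) x)) / (Fintype.card ι : ℝ) := by
    intro S
    induction S using Finset.induction_on with
    | empty =>
      exact ⟨fun j => j + 1, fun a b h => Nat.succ_lt_succ h, fun j => Nat.lt_succ_self j,
        fun σ h => absurd h (Finset.notMem_empty σ)⟩
    | insert σ S _ ih =>
      obtain ⟨θ, hθ, hθ', hS⟩ := ih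
      have hinj : Function.Injective fun p : ι × ℕ => e p.1 (θ p.2) := by
        intro p q hpq
        have h1 : ((p.1, θ p.2) : ι × ℕ) = (q.1, θ q.2) := he hpq
        rw [Prod.mk.injEq] at h1
        exact Prod.ext h1.1 (hθ.injective h1.2)
      obtain ⟨x, hx, hfr⟩ := hy.2.2 ι (fun i j => e i (θ j)) (fun i => sgn (σ i)) hinj
        (fun i j => (hθ' j).le.trans (he' i _))
        (fun i => by unfold sgn; split_ifs <;> simp)
      obtain ⟨φ, hφ, hφ'⟩ := extraction_of_frequently_atTop hfr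
      refine ⟨fun j => θ (φ j), hθ.comp hφ, fun j => lt_of_le_of_lt (hφ.id_le j) (hθ' _), ?_⟩
      intro τ hτ
      rcases Finset.mem_insert.1 hτ with rfl | hτ
      · exact ⟨x, hx, hφ'⟩
      · obtain ⟨z, hz, hz'⟩ := hS τ hτ
        exact ⟨z, hz, fun j => hz' _⟩
  obtain ⟨θ, hθ, hθ', h⟩ := key Finset.univ
  exact ⟨θ, hθ, hθ', fun σ => h σ (Finset.mem_univ σ)⟩

/-- Sum over the cube of dimension `n + 1`, split along the last bit. -/
theorem sum_cube_snoc {n : ℕ} (f : (Fin (n + 1) → Bool) → ℝ) :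
    ∑ s, f s = ∑ t : Fin n → Bool, f (Fin.snoc (α := fun _ => Bool) t false) +
      ∑ t : Fin n → Bool, f (Fin.snoc (α := fun _ => Bool) t true) := by
  rw [← (Fin.snocEquiv (fun _ : Fin (n + 1) => Bool)).sum_comp, Fintype.sum_prod_type,
    Fintype.sum_bool, add_comm]
  rfl

/-- The invariant carried along the levels of the tree. -/
def TreeLev (L : ℕ) : Type :=
  {e : (Fin L → Bool) → ℕ → ℕ //
    (Function.Injective fun p : (Fin L → Bool) × ℕ => e p.1 p.2) ∧ ∀ s m, L + m ≤ e s m}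

/-- One step down the tree, along the subsequence `θ`. -/
def TreeLev.next {L : ℕ} (e : TreeLev L) (θ : ℕ → ℕ) (hθ : StrictMono θ) (hθ' : ∀ j, j < θ j) :
    TreeLev (L + 1) :=
  ⟨fun s m => e.1 (Fin.init s) (θ (2 * m + (s (Fin.last L)).toNat)), by
    intro p q hpq
    have h1 : ((Fin.init p.1, θ (2 * p.2 + (p.1 (Fin.last L)).toNat)) : (Fin L → Bool) × ℕ) =
        (Fin.init q.1, θ (2 * q.2 + (q.1 (Fin.last L)).toNat)) := e.2.1 hpq
    rw [Prod.mk.injEq] at h1
    have h2 := hθ.injective h1.2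
    have h3 : p.1 (Fin.last L) = q.1 (Fin.last L) ∧ p.2 = q.2 := by
      revert h2
      cases p.1 (Fin.last L) <;> cases q.1 (Fin.last L) <;> simp <;> omega
    refine Prod.ext ?_ h3.2
    funext i
    refine Fin.lastCases h3.1 (fun k => ?_) i
    exact congrFun h1.1 k, by
    intro s m
    have h1 := e.2.2 (Fin.init s) (θ (2 * m + (s (Fin.last L)).toNat))
    have h2 := hθ' (2 * m + (s (Fin.last L)).toNat)
    change L + 1 + m ≤ e.1 (Fin.init s) (θ (2 * m + (s (Fin.last L)).toNat))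
    omega⟩

/-- The root of the tree. -/
def TreeLev.zero : TreeLev 0 :=
  ⟨fun _ m => m, fun p q hpq => Prod.ext (Subsingleton.elim _ _) hpq, fun _ m => by simp⟩

/-- The tree.  Recipe: define by recursion `e L : (Fin L → Bool) → ℕ → ℕ` (as a subtype with the invariants: injective in
`(s, m)`, `L + m ≤ e L s m`), `e 0 s m = m`,
`e (L+1) s m = e L (Fin.init s) (θ_L (2 m + (s (Fin.last L)).toNat))` with `θ_L` from `Stable.level`; `N L s = e L s 0`.
For `σ` at level `L` take `x` from `Stable.level` and prove for all `L' > L` and all `m` the bound for `e L' · m`, by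
induction on `L'` (sum over `Fin (L'+1) → Bool` = sum over last bit and `Fin.init`, `Fin.snocEquiv`/`Fin.insertNthEquiv`). -/
theorem Stable.tree {y : ℕ → StrongDual 𝕜 X} {δ : ℝ} (hy : Stable y δ) :
    ∃ N : (L : ℕ) → (Fin L → Bool) → ℕ, (∀ L s, L ≤ N L s) ∧
      ∀ (L : ℕ) (σ : (Fin L → Bool) → Bool), ∃ x : X, ‖x‖ ≤ 1 ∧ ∀ (L' : ℕ) (hL : L < L'),
        99 / 100 * δ ≤ (∑ s : Fin L' → Bool,
          sgn (σ fun i => s (Fin.castLE hL.le i)) * RCLike.re (y (N L' s) x)) / 2 ^ L' := by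
  have hlev : ∀ (L : ℕ) (e : TreeLev L), ∃ θ : ℕ → ℕ, StrictMono θ ∧ (∀ j, j < θ j) ∧
      ∀ σ : (Fin L → Bool) → Bool, ∃ x : X, ‖x‖ ≤ 1 ∧ ∀ j,
        99 / 100 * δ ≤ (∑ i, sgn (σ i) * RCLike.re (y (e.1 i (θ j)) x)) / (2 : ℝ) ^ L := by
    intro L e
    have := hy.level (Fin L → Bool) e.1 e.2.1
      (fun s m => (Nat.le_add_left m L).trans (e.2.2 s m))
    simpa using this
  choose θ hθ hθ' hσ using hlev
  let E : (L : ℕ) → TreeLev L := fun L =>
    Nat.rec (motive := TreeLev) TreeLev.zero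
      (fun n e => e.next (θ n e) (hθ n e) (hθ' n e)) L
  have hE : ∀ (n : ℕ) (t : Fin n → Bool) (b : Bool) (m : ℕ),
      (E (n + 1)).1 (Fin.snoc (α := fun _ => Bool) t b) m =
        (E n).1 t (θ n (E n) (2 * m + b.toNat)) := by
    intro n t b m
    change (E n).1 (Fin.init (Fin.snoc (α := fun _ => Bool) t b))
      (θ n (E n) (2 * m + (Fin.snoc (α := fun _ => Bool) t b (Fin.last n)).toNat)) = _
    rw [Fin.init_snoc, Fin.snoc_last]
  refine ⟨fun L s => (E L).1 s 0, fun L s => by simpa using (E L).2.2 s 0, fun L σ => ?_⟩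
  obtain ⟨x, hx, hx'⟩ := hσ L (E L) σ
  have step : ∀ (n : ℕ) (hL : L ≤ n),
      (∀ j, 99 / 100 * δ ≤ (∑ t : Fin n → Bool, sgn (σ fun i => t (Fin.castLE hL i)) *
        RCLike.re (y ((E n).1 t (θ n (E n) j)) x)) / 2 ^ n) →
      ∀ m, 99 / 100 * δ ≤ (∑ s : Fin (n + 1) → Bool,
        sgn (σ fun i => s (Fin.castLE (hL.trans (Nat.le_succ n)) i)) *
          RCLike.re (y ((E (n + 1)).1 s m) x)) / 2 ^ (n + 1) := by
    intro n hL H m
    have hc : ∀ (t : Fin n → Bool) (b : Bool),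
        (fun i => Fin.snoc (α := fun _ => Bool) t b (Fin.castLE (hL.trans (Nat.le_succ n)) i)) =
          fun i => t (Fin.castLE hL i) := by
      intro t b
      funext i
      have : Fin.castLE (hL.trans (Nat.le_succ n)) i = (Fin.castLE hL i).castSucc := rfl
      rw [this, Fin.snoc_castSucc]
    rw [sum_cube_snoc]
    simp only [hc, hE]
    have h0 := H (2 * m + false.toNat)
    have h1 := H (2 * m + true.toNat)
    have hp : (0 : ℝ) < 2 ^ n := by positivity
    rw [le_div_iff₀ hp] at h0 h1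
    rw [le_div_iff₀ (by positivity), pow_succ]
    linarith
  have hall : ∀ (n : ℕ) (hL : L ≤ n), ∀ j, 99 / 100 * δ ≤
      (∑ t : Fin n → Bool, sgn (σ fun i => t (Fin.castLE hL i)) *
        RCLike.re (y ((E n).1 t (θ n (E n) j)) x)) / 2 ^ n := by
    intro n hL
    induction n, hL using Nat.le_induction with
    | base => intro j; simpa using hx' j
    | succ n hL ih => intro j; exact step n hL ih _
  refine ⟨x, hx, fun L' hL => ?_⟩
  obtain ⟨n, rfl⟩ : ∃ n, L' = n + 1 := ⟨L' - 1, by omega⟩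
  have hn : L ≤ n := Nat.lt_succ_iff.1 hL
  exact step n hn (hall n hn) 0

end Crest.Agent.R114
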