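import Crest.Agent.R114.L1a
import Crest.Agent.R114.L1b
import Crest.Agent.R114.Khin

/-! # R114/L1c : `ℓ₁ ⊆ X*` gives a separable quotient. -/

set_option autoImplicit false
open Filter Topology Finset

namespace Crest.Agent.R114

variable {𝕜 : Type} [RCLike 𝕜] {X : Type*} [NormedAddCommGroup X] [NormedSpace 𝕜 X]

/-- Rademacher averages of the tree. -/
noncomputable def L1cG (y : ℕ → StrongDual 𝕜 X) (N : (L : ℕ) → (Fin L → Bool) → ℕ) (k L : ℕ) :
    StrongDual 𝕜 X :=
  if h : k < L then ((2 : 𝕜) ^ L)⁻¹ • ∑ t : Fin L → Bool, (sgn (t ⟨k, h⟩) : 𝕜) • y (N L t) else 0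

theorem L1cG_apply (y : ℕ → StrongDual 𝕜 X) (N : (L : ℕ) → (Fin L → Bool) → ℕ) {L : ℕ}
    (k : Fin L) (x : X) :
    L1cG y N k L x = (∑ t : Fin L → Bool, (sgn (t k) : 𝕜) * y (N L t) x) / 2 ^ L := by
  rw [L1cG, dif_pos k.2, div_eq_inv_mul]
  simp

theorem L1cG_norm {y : ℕ → StrongDual 𝕜 X} (hy : ∀ n, ‖y n‖ ≤ 1)
    (N : (L : ℕ) → (Fin L → Bool) → ℕ) (k L : ℕ) : ‖L1cG y N k L‖ ≤ 1 := by
  unfold L1cG
  split_ifs with h
  · rw [norm_smul, norm_inv, norm_pow, RCLike.norm_two, inv_mul_le_iff₀ (by positivity), mul_one]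
    refine (norm_sum_le _ _).trans ((Finset.sum_le_card_nsmul _ _ 1 fun t _ => ?_).trans ?_)
    · rw [norm_smul, RCLike.norm_ofReal]
      have : |sgn (t ⟨k, h⟩)| = 1 := by unfold sgn; split_ifs <;> simp
      rw [this, one_mul]
      exact hy _
    · simp
  · simp

theorem L1c_sum {M : Type*} [AddCommMonoid M] {s : Finset ℕ} {L : ℕ} (hs : s ⊆ range L)
    (f : ℕ → M) : ∑ k : Fin L, (if (k : ℕ) ∈ s then f k else 0) = ∑ k ∈ s, f k := by
  rw [← Finset.sum_range (fun k => if k ∈ s then f k else 0), ← Finset.sum_filter,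
    Finset.filter_mem_eq_inter, Finset.inter_eq_right.2 hs]

/-- Recipe: `N` from `Stable.tree`; for `k < L` put `G k L = (2^L)⁻¹ • ∑ s, sgn (s k) • y (N L s)` (and `0` for `L ≤ k`),
`‖G k L‖ ≤ 1`; `F k` = limit of `G k L` along `hyperfilter ℕ` (`exists_ultralim`).  Bessel: for every `n` and `L ≥ n`,
`∑_{k<n} ‖G k L x‖² ≤ ‖x‖²` (`bessel_sgn`), pass to the limit, `summable_of_sum_range_le`.  Lower bound: given `s, c`, choose
`n` above `s`, extend `c` by `0`; if the imaginary parts carry more than half, multiply `c` by `-I` (norms unchanged;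
for `I = 0` this case is trivial); `σ` = sign of `∑_{k<n} re (c k) r k` at level `n`, `x` from the tree; for `L > n`
large (`N L s ≥ L` and the second part of `Stable`), `lower_l2_cube` with `g s = y (N L s) x / δ`, `a` extended by `0`;
pass to the limit. -/
theorem Stable.exists_l2 {y : ℕ → StrongDual 𝕜 X} {δ : ℝ} (hδ : 0 < δ) (hy : Stable y δ) :
    ∃ F : ℕ → StrongDual 𝕜 X, L2LowerC (δ / 6) F ∧ ∀ x, Summable fun k => ‖F k x‖ ^ 2 := by
  classical
  obtain ⟨N, hN, htree⟩ := hy.tree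
  have hle : (hyperfilter ℕ : Filter ℕ) ≤ atTop := Nat.hyperfilter_le_atTop
  choose F hF1 hF using fun k => exists_ultralim (L1cG y N k) 1 (L1cG_norm hy.1 N k) (hyperfilter ℕ)
  refine ⟨F, fun s => ?_, fun x => ?_⟩
  · have key : ∀ c : ℕ → 𝕜, ∑ k ∈ s, ‖c k‖ ^ 2 ≤ 2 * ∑ k ∈ s, RCLike.re (c k) ^ 2 →
        δ / 6 * √(∑ k ∈ s, ‖c k‖ ^ 2) ≤ ‖∑ k ∈ s, c k • F k‖ := by
      intro c hc
      obtain ⟨n, hn⟩ : ∃ n, s ⊆ range n := s.exists_nat_subset_range
      let c' : ℕ → 𝕜 := fun k => if k ∈ s then c k else 0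
      obtain ⟨x, hx, hx'⟩ := htree n fun t => decide (0 ≤ ∑ k : Fin n, RCLike.re (c' k) * sgn (t k))
      obtain ⟨L₀, hL₀⟩ := eventually_atTop.1 (hy.2.1 x hx)
      have h1 : ∀ᶠ L in atTop, δ / 6 * √(∑ k ∈ s, ‖c k‖ ^ 2) ≤
          ‖∑ k ∈ s, c k * L1cG y N k L x‖ := by
        filter_upwards [eventually_gt_atTop n, eventually_ge_atTop L₀] with L hL hL'
        have hs : s ⊆ range L := hn.trans (range_subset_range.2 hL.le)
        have e1 : ∑ k : Fin L, ‖c' k‖ ^ 2 = ∑ k ∈ s, ‖c k‖ ^ 2 := by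
          rw [← L1c_sum hs]
          refine Finset.sum_congr rfl fun k _ => ?_
          simp only [c']
          split_ifs <;> simp
        have e2 : ∑ k : Fin L, RCLike.re (c' k) ^ 2 = ∑ k ∈ s, RCLike.re (c k) ^ 2 := by
          rw [← L1c_sum hs]
          refine Finset.sum_congr rfl fun k _ => ?_
          simp only [c']
          split_ifs <;> simp
        have e3 : ∀ t : Fin L → Bool, ∑ k : Fin n, RCLike.re (c' k) * sgn (t (Fin.castLE hL.le k)) =
            ∑ k : Fin L, RCLike.re (c' k) * sgn (t k) := by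
          intro t
          refine Fintype.sum_of_injective (Fin.castLE hL.le) (Fin.castLE_injective _) _ _
            (fun i hi => ?_) (fun i => rfl)
          have hi' : (i : ℕ) ∉ s := fun h => hi ⟨⟨i, mem_range.1 (hn h)⟩, rfl⟩
          simp [c', hi']
        have h2 := lower_l2_cube L (fun k => c' k)
          (fun t => decide (0 ≤ ∑ k : Fin n, RCLike.re (c' k) * sgn (t (Fin.castLE hL.le k))))
          (fun t => y (N L t) x / (δ : 𝕜)) (by rw [e1, e2]; exact hc)
          (fun t => by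
            rw [e3]
            by_cases h : 0 ≤ ∑ k : Fin L, RCLike.re (c' k) * sgn (t k)
            · rw [decide_eq_true h, abs_of_nonneg h]; simp [sgn]
            · rw [decide_eq_false h, abs_of_neg (not_le.1 h)]; simp [sgn])
          (fun t => by
            rw [norm_div, RCLike.norm_ofReal, abs_of_pos hδ, div_le_iff₀ hδ]
            exact hL₀ _ (hL'.trans (hN L t)))
          (by
            have h3 := hx' L hL
            simp only [RCLike.div_re_ofReal, ← mul_div_assoc, ← Finset.sum_div]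
            rw [div_right_comm, le_div_iff₀ hδ]
            exact h3)
        have e4 : ∑ k : Fin L, c' k * ((∑ t : Fin L → Bool,
            (sgn (t k) : 𝕜) * (y (N L t) x / (δ : 𝕜))) / 2 ^ L) =
            (∑ k ∈ s, c k * L1cG y N k L x) / (δ : 𝕜) := by
          rw [← L1c_sum hs, Finset.sum_div]
          refine Finset.sum_congr rfl fun k _ => ?_
          simp only [c']
          split_ifs
          · rw [L1cG_apply]
            simp only [← mul_div_assoc, ← Finset.sum_div]
            ring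
          · simp
        rw [e1, e4, norm_div, RCLike.norm_ofReal, abs_of_pos hδ, le_div_iff₀ hδ] at h2
        linarith
      have h2 : Tendsto (fun L => ‖∑ k ∈ s, c k * L1cG y N k L x‖) (hyperfilter ℕ)
          (𝓝 ‖∑ k ∈ s, c k * F k x‖) :=
        (tendsto_finsetSum _ fun k _ => (hF k x).const_mul _).norm
      refine (ge_of_tendsto h2 (hle h1)).trans ?_
      have h3 := (∑ k ∈ s, c k • F k).le_opNorm x
      simp only [ContinuousLinearMap.sum_apply, ContinuousLinearMap.smul_apply, smul_eq_mul] at h3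
      exact h3.trans (mul_le_of_le_one_right (norm_nonneg _) hx)
    intro c
    have hsq : ∑ k ∈ s, ‖c k‖ ^ 2 =
        ∑ k ∈ s, RCLike.re (c k) ^ 2 + ∑ k ∈ s, RCLike.im (c k) ^ 2 := by
      rw [← Finset.sum_add_distrib]
      refine Finset.sum_congr rfl fun k _ => ?_
      rw [RCLike.norm_sq_eq_def]; ring
    by_cases hc : ∑ k ∈ s, ‖c k‖ ^ 2 ≤ 2 * ∑ k ∈ s, RCLike.re (c k) ^ 2
    · exact key c hc
    rcases RCLike.I_eq_zero_or_im_I_eq_one (K := 𝕜) with hI | hI
    · exfalso
      have h0 : ∑ k ∈ s, RCLike.im (c k) ^ 2 = 0 := Finset.sum_eq_zero fun k _ => by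
        rw [RCLike.im_eq_zero hI]; simp
      have h1 : 0 ≤ ∑ k ∈ s, RCLike.re (c k) ^ 2 := Finset.sum_nonneg fun k _ => sq_nonneg _
      apply hc
      linarith
    · have hI1 : ‖(RCLike.I : 𝕜)‖ = 1 := RCLike.norm_I_of_ne_zero fun h => by simp [h] at hI
      have h1 := key (fun k => RCLike.I * c k) (by
        simp only [norm_mul, hI1, one_mul, RCLike.I_mul_re, neg_sq]
        linarith [not_le.1 hc])
      simp only [norm_mul, hI1, one_mul, mul_smul, ← Finset.smul_sum, norm_smul] at h1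
      exact h1
  · refine summable_of_sum_range_le (c := ‖x‖ ^ 2) (fun k => sq_nonneg _) fun n => ?_
    have h2 : Tendsto (fun L => ∑ k ∈ range n, ‖L1cG y N k L x‖ ^ 2) (hyperfilter ℕ)
        (𝓝 (∑ k ∈ range n, ‖F k x‖ ^ 2)) :=
      tendsto_finsetSum _ fun k _ => (hF k x).norm.pow 2
    refine le_of_tendsto h2 (hle ?_)
    filter_upwards [eventually_ge_atTop n] with L hL
    refine (Finset.sum_le_sum_of_subset_of_nonneg (range_subset_range.2 hL)
      fun k _ _ => sq_nonneg _).trans ?_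
    rw [Finset.sum_range]
    simp only [L1cG_apply]
    refine (bessel_sgn L fun t => y (N L t) x).trans ?_
    rw [div_le_iff₀ (by positivity)]
    refine (Finset.sum_le_card_nsmul _ _ (‖x‖ ^ 2) fun t _ => ?_).trans ?_
    · refine pow_le_pow_left₀ (norm_nonneg _) (((y _).le_opNorm x).trans ?_) 2
      exact mul_le_of_le_one_left (norm_nonneg _) (hy.1 _)
    · simp [mul_comm]

theorem SQ_of_hasL1 [CompleteSpace X] (h : HasL1 𝕜 X) : SQ 𝕜 X := by
  by_contra hX
  obtain ⟨y, δ, hδ, hy⟩ := stable_of_hasL1 h hX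
  obtain ⟨F, hF, hs⟩ := hy.exists_l2 hδ
  exact hX (SQ_of_bessel_l2 F (δ / 6) (by positivity) hF hs)

end Crest.Agent.R114
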