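import Crest.Agent.R114.Blocks

/-! # R114/StepB : the upper estimate for sums of rapidly increasing vectors. -/

set_option autoImplicit false
open Filter Topology Finset

namespace Crest.Agent.R114

variable {Γ : Type} [LinearOrder Γ] {𝕜 : Type} [RCLike 𝕜] {S : Setup Γ}

/-- a rapidly increasing sequence for the weight `j + 1` -/
structure RISeq (S : Setup Γ) (j : ℕ) (x : ℕ → Γ →₀ 𝕜) (t : ℕ → ℕ) (η : ℕ → ℝ) : Prop where
  succ : Succ x
  hi : ∀ r, nrm S (x r) ≤ 1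
  mono : StrictMono t
  t0 : j + 1 ≤ t 0
  r1 : ∀ r, R1 S (t r) (x r)
  r2 : ∀ r, R2 S (t r) (x r) (η r)
  eta : ∀ r, (t r : ℝ) * η r ≤ 1 / (S.m (j + 1) : ℝ)
  eta0 : ∀ r, 0 ≤ η r
  l1 : ∀ r, 2 * l1 (x r) / (S.m (t (r + 1)) : ℝ) ≤ 1 / (S.m (j + 1) : ℝ)

/-- the claim that is improved iteratively -/
def Claim (S : Setup Γ) (x : ℕ → Γ →₀ 𝕜) (n : ℕ) (a b : ℝ) : Prop :=
  ∀ h, KK S none h → ∀ E : Set Γ, E.OrdConnected →
    ‖act h (res E (∑ r ∈ range n, x r))‖ ≤ a * cnt x n E + b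

variable {j : ℕ} {x : ℕ → Γ →₀ 𝕜} {t : ℕ → ℕ} {η : ℕ → ℝ} {n : ℕ}

/-- for strictly increasing `t` every `N` lies strictly between `t r` and `t (r+1)` for at most one `r` -/
theorem exists_exceptional (ht : StrictMono t) (N : ℕ) :
    ∃ r₀, ∀ r, r ≠ r₀ → N ≤ t r ∨ t (r + 1) ≤ N := by
  by_cases h : ∃ r, t r < N ∧ N < t (r + 1)
  · obtain ⟨r₀, h1, h2⟩ := h
    refine ⟨r₀, fun r hr => ?_⟩
    rcases lt_or_gt_of_ne hr with h | h
    · right
      exact (ht.monotone (Nat.succ_le_of_lt h)).trans h1.le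
    · left
      exact h2.le.trans (ht.monotone (Nat.succ_le_of_lt h))
  · refine ⟨0, fun r _ => ?_⟩
    by_contra hc
    push Not at hc
    exact h ⟨r, hc.1, hc.2⟩

/-- small weights: `KK.some_act_le`, the claim on each `E c ∩ E`, `sum_cnt_le`, `d ≤ n w ≤ n j` -/
theorem Claim.low (hx : RISeq S j x t η) {a b : ℝ} (ha : 0 ≤ a) (hb : 0 ≤ b)
    (hc : Claim S x n a b) {w : ℕ} (hw : w ≤ j) {g : Γ →₀ ℚ} (hg : KK S (some w) g) {E : Set Γ}
    (hE : E.OrdConnected) :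
    ‖act g (res E (∑ r ∈ range n, x r))‖ ≤
      1 / (S.m w : ℝ) * (a * cnt x n E + S.n j * (a + b)) := by
  obtain ⟨d, E', h, hd, hE', hh, hle⟩ := KK.some_act_le (𝕜 := 𝕜) hg
  refine (hle E _).trans ?_
  have hm : (0 : ℝ) < S.m w := S.toPar.m_pos w
  refine mul_le_mul_of_nonneg_left ?_ (by positivity)
  have h1 : ∑ c ∈ range d, ‖act (h c) (res (E' c ∩ E) (∑ r ∈ range n, x r))‖ ≤
      ∑ c ∈ range d, (a * cnt x n (E' c ∩ E) + b) := by
    refine sum_le_sum fun c hc' => ?_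
    have hc'' := mem_range.1 hc'
    exact hc (h c) (hh c hc'') _ ((hE'.1 c hc'').inter hE)
  refine h1.trans ?_
  rw [sum_add_distrib, ← mul_sum, sum_const, card_range, nsmul_eq_mul]
  have h2 : (∑ c ∈ range d, (cnt x n (E' c ∩ E) : ℝ)) ≤ cnt x n E + d := by
    exact_mod_cast sum_cnt_le hx.succ n d E' hE' E
  have h3 : (d : ℝ) ≤ S.n j := by
    exact_mod_cast hd.trans (S.toPar.n_mono hw)
  have h4 := mul_le_mul_of_nonneg_left h2 ha
  have h5 := mul_le_mul_of_nonneg_right h3 (add_nonneg ha hb)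
  nlinarith

/-- large weights: `norm_act_sum_le'`; `w ≤ t r` gives `2/m w`, `t (r+1) ≤ w` gives `l1/m w` -/
theorem RISeq.high (hx : RISeq S j x t η) {w : ℕ} (hw : j < w) {g : Γ →₀ ℚ}
    (hg : KK S (some w) g) {E : Set Γ} (hE : E.OrdConnected) :
    ‖act g (res E (∑ r ∈ range n, x r))‖ ≤ 2 / (S.m (j + 1) : ℝ) * cnt x n E + 1 := by
  obtain ⟨r₀, hr₀⟩ := exists_exceptional hx.mono w
  have hm : (0 : ℝ) < S.m (j + 1) := S.toPar.m_pos _
  have hmw : (0 : ℝ) < S.m w := S.toPar.m_pos _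
  refine norm_act_sum_le' g x n E _ _ (by positivity) zero_le_one r₀ ?_ ?_
  · intro r _ hr
    rcases hr₀ r hr with h | h
    · refine (hx.r1 r w h g hg E hE).trans ?_
      have : (S.m (j + 1) : ℝ) ≤ S.m w := by exact_mod_cast S.toPar.m_mono hw
      gcongr
    · refine (KK.act_le_l1 hg E (x r)).trans ?_
      have h1 := hx.l1 r
      have h2 : (S.m (t (r + 1)) : ℝ) ≤ S.m w := by exact_mod_cast S.toPar.m_mono h
      have h3 : (0 : ℝ) < S.m (t (r + 1)) := S.toPar.m_pos _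
      have h4 := l1_nonneg (x r)
      have h5 : 1 / (S.m w : ℝ) * R114.l1 (x r) ≤ 2 * R114.l1 (x r) / (S.m (t (r + 1)) : ℝ) := by
        rw [one_div_mul_eq_div]
        gcongr
        linarith
      refine h5.trans (h1.trans ?_)
      gcongr
      norm_num
  · exact (act_le_nrm (KK.up w g hg) hE _).trans (hx.hi r₀)

theorem norm_act_seg_le (c : Chn Γ) (a b : ℕ) (y : Γ →₀ 𝕜) :
    ‖act (c.seg a b) y‖ ≤ ∑ n ∈ Ico a b, ‖act (c.g n) y‖ := by
  rw [Chn.seg, act_sum_left]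
  exact norm_sum_le _ _

theorem norm_act_dop_le (N : ℕ) (c : ℕ → Chn Γ) (a b : ℕ → ℕ) (lam : ℕ → ℚ)
    (hl : ∀ q < N, |lam q| ≤ 1) (y : Γ →₀ 𝕜) :
    ‖act ((2 : ℚ)⁻¹ • ∑ q ∈ range N, lam q • (c q).seg (a q) (b q)) y‖ ≤
      1 / 2 * ∑ q ∈ range N, ‖act ((c q).seg (a q) (b q)) y‖ := by
  rw [act_smul_left, norm_mul, act_sum_left]
  have h2 : ‖(((2 : ℚ)⁻¹ : ℚ) : 𝕜)‖ = 1 / 2 := by
    push_cast
    rw [norm_inv, RCLike.norm_two, one_div]
  rw [h2]
  refine mul_le_mul_of_nonneg_left ((norm_sum_le _ _).trans (sum_le_sum fun q hq => ?_))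
    (by norm_num)
  rw [act_smul_left, norm_mul]
  have h1 : ‖((lam q : ℚ) : 𝕜)‖ ≤ 1 := by
    rw [← RCLike.ofReal_ratCast, RCLike.norm_ofReal]
    exact_mod_cast hl q (mem_range.1 hq)
  exact mul_le_of_le_one_left (norm_nonneg _) h1

theorem seg_le_l1 {c : Chn Γ} {b : ℕ} (hv : Valid S c b) (a : ℕ) (E : Set Γ) (y : Γ →₀ 𝕜) :
    ‖act (c.seg a b) (res E y)‖ ≤ (∑ n ∈ Ico a b, (1 : ℝ) / S.m (c.w n)) * l1 y := by
  refine (norm_act_seg_le _ _ _ _).trans ?_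
  rw [sum_mul]
  exact sum_le_sum fun n hn => KK.act_le_l1 (hv n (mem_Ico.1 hn).2).2 E y

theorem seg_le_R12 {c : Chn Γ} {b : ℕ} (hv : Valid S c b) {s : ℕ} {y : Γ →₀ 𝕜} {e : ℝ}
    (h1 : R1 S s y) (h2 : R2 S s y e) (he : 0 ≤ e) (a : ℕ) {E : Set Γ} (hE : E.OrdConnected) :
    ‖act (c.seg a b) (res E y)‖ ≤ 2 * ∑ n ∈ Ico a b, (1 : ℝ) / S.m (c.w n) + e := by
  have h0 : ∀ n, (0 : ℝ) ≤ 1 / S.m (c.w n) := fun n => by positivity
  rcases le_total a b with hab | hab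
  · obtain ⟨a', ha1, ha2, hlo, hhi⟩ := hv.exists_cut a s hab
    rw [← Chn.seg_add c ha1 ha2, act_add_left]
    refine (norm_add_le _ _).trans (add_le_add ?_ (h2 c a' b hv hhi E hE))
    refine (norm_act_seg_le _ _ _ _).trans ?_
    have h3 : ∑ n ∈ Ico a a', ‖act (c.g n) (res E y)‖ ≤
        ∑ n ∈ Ico a a', 2 * ((1 : ℝ) / S.m (c.w n)) := by
      refine sum_le_sum fun n hn => ?_
      have := h1 (c.w n) (hlo n hn) (c.g n) (hv n ((mem_Ico.1 hn).2.trans_le ha2)).2 E hE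
      rwa [mul_one_div]
    refine h3.trans ?_
    rw [← mul_sum]
    refine mul_le_mul_of_nonneg_left ?_ (by norm_num)
    exact sum_le_sum_of_subset_of_nonneg (Ico_subset_Ico_right ha2) fun n _ _ => h0 n
  · rw [Chn.seg_of_le c hab, act_zero_left, norm_zero]
    have := sum_nonneg (s := Ico a b) fun n _ => h0 n
    linarith

/-- `D`-functionals with all weights `> j`.  Recipe: `norm_act_sum_le'` with the exceptional `r₀` for `N` (bounded by
`act_le_nrm`, `KK_dop`).  If `N ≤ t r`, cut each segment at `t r` (`Valid.exists_cut`): the lower parts give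
`(1/2) ∑ 2/m w ≤ 2/m (j+1)` (`Par.sum_sum_inv_m_le`), the upper parts `(1/2) N η r ≤ 1/(2 m (j+1))`.  If `t (r+1) ≤ N`:
`(1/2) ∑ l1/m w ≤ l1 / m (t (r+1))`. -/
theorem RISeq.dhigh (hx : RISeq S j x t η) (N : ℕ) (c : ℕ → Chn Γ) (a b : ℕ → ℕ) (lam : ℕ → ℚ)
    (hv : ∀ q < N, Valid S (c q) (b q))
    (hN : ∀ q < N, ∀ n ∈ Ico (a q) (b q), N ≤ (c q).w n)
    (hd : ∀ q < N, ∀ q' < N, q ≠ q' → ∀ n ∈ Ico (a q) (b q), ∀ n' ∈ Ico (a q') (b q'),
      (c q).w n ≠ (c q').w n') (hl : ∀ q < N, |lam q| ≤ 1)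
    (hj : ∀ q < N, ∀ n ∈ Ico (a q) (b q), j < (c q).w n) {E : Set Γ} (hE : E.OrdConnected) :
    ‖act ((2 : ℚ)⁻¹ • ∑ q ∈ range N, lam q • (c q).seg (a q) (b q))
        (res E (∑ r ∈ range n, x r))‖ ≤ 3 / (S.m (j + 1) : ℝ) * cnt x n E + 1 := by
  obtain ⟨r₀, hr₀⟩ := exists_exceptional hx.mono N
  have hm : (0 : ℝ) < S.m (j + 1) := S.toPar.m_pos _
  have hinj : ∀ q ∈ range N, Set.InjOn (c q).w (Ico (a q) (b q) : Finset ℕ) := fun q hq =>
    (hv q (mem_range.1 hq)).injOn _ fun n hn => (mem_Ico.1 hn).2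
  have hdis : ∀ q ∈ range N, ∀ q' ∈ range N, q ≠ q' → ∀ n ∈ Ico (a q) (b q),
      ∀ n' ∈ Ico (a q') (b q'), (c q).w n ≠ (c q').w n' := fun q hq q' hq' =>
    hd q (mem_range.1 hq) q' (mem_range.1 hq')
  refine norm_act_sum_le' _ x n E _ _ (by positivity) zero_le_one r₀ ?_ ?_
  · intro r _ hr
    refine (norm_act_dop_le N c a b lam hl _).trans ?_
    rcases hr₀ r hr with h | h
    · have h1 : ∑ q ∈ range N, ‖act ((c q).seg (a q) (b q)) (res E (x r))‖ ≤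
          ∑ q ∈ range N, (2 * ∑ n ∈ Ico (a q) (b q), (1 : ℝ) / S.m ((c q).w n) + η r) :=
        sum_le_sum fun q hq =>
          seg_le_R12 (hv q (mem_range.1 hq)) (hx.r1 r) (hx.r2 r) (hx.eta0 r) (a q) hE
      rw [sum_add_distrib, ← mul_sum, sum_const, card_range, nsmul_eq_mul] at h1
      have h2 := S.toPar.sum_sum_inv_m_le (range N) (fun q => Ico (a q) (b q))
        (fun q => (c q).w) hinj hdis (j + 1) (fun q hq n hn => hj q (mem_range.1 hq) n hn)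
      have h3 : (N : ℝ) * η r ≤ 1 / (S.m (j + 1) : ℝ) := by
        refine le_trans ?_ (hx.eta r)
        have : (N : ℝ) ≤ t r := by exact_mod_cast h
        exact mul_le_mul_of_nonneg_right this (hx.eta0 r)
      have h4 : (0 : ℝ) < 1 / (S.m (j + 1) : ℝ) := by positivity
      have e2 : (2 : ℝ) / S.m (j + 1) = 2 * (1 / (S.m (j + 1) : ℝ)) := by ring
      have e3 : (3 : ℝ) / S.m (j + 1) = 3 * (1 / (S.m (j + 1) : ℝ)) := by ring
      rw [e2] at h2
      rw [e3]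
      linarith
    · have h1 : ∑ q ∈ range N, ‖act ((c q).seg (a q) (b q)) (res E (x r))‖ ≤
          ∑ q ∈ range N, ((∑ n ∈ Ico (a q) (b q), (1 : ℝ) / S.m ((c q).w n)) * R114.l1 (x r)) :=
        sum_le_sum fun q hq => seg_le_l1 (hv q (mem_range.1 hq)) (a q) E (x r)
      rw [← sum_mul] at h1
      have h2 := S.toPar.sum_sum_inv_m_le (range N) (fun q => Ico (a q) (b q))
        (fun q => (c q).w) hinj hdis (t (r + 1))
        (fun q hq n hn => h.trans (hN q (mem_range.1 hq) n hn))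
      have h3 := mul_le_mul_of_nonneg_right h2 (l1_nonneg (x r))
      have h4 := hx.l1 r
      have h5 : (0 : ℝ) < 1 / (S.m (j + 1) : ℝ) := by positivity
      have e2 : (2 : ℝ) / S.m (t (r + 1)) * R114.l1 (x r) =
          2 * R114.l1 (x r) / S.m (t (r + 1)) := by ring
      have e3 : (3 : ℝ) / S.m (j + 1) = 3 * (1 / (S.m (j + 1) : ℝ)) := by ring
      rw [e2] at h3
      rw [e3]
      linarith
  · exact (act_le_nrm (KK_dop N c a b lam hv hN hd hl) hE _).trans (hx.hi r₀)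

/-- One improvement step (`KK.none_inv`).  Unit vectors: at most one block is nonzero at `γ`, bound `1`.  Weighted:
`Claim.low` (`1/m w ≤ 1/64`) or `RISeq.high`.  `D`-case: cut each segment at `j` (segments with `b q < a q` are `0`; one may
first replace `a q` by `min (a q) (b q)`); low parts by `Claim.low` and `Par.sum_sum_inv_m_le` with `t = 0`, high parts by
`RISeq.dhigh`. -/
theorem Claim.step (hx : RISeq S j x t η) {a b : ℝ} (ha : 0 ≤ a) (hb : 0 ≤ b)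
    (hc : Claim S x n a b) :
    Claim S x n (a / 2 + 3 / (S.m (j + 1) : ℝ)) (S.n j * (a + b) + 1) := by
  intro h hh E hE
  have hm : (0 : ℝ) < S.m (j + 1) := S.toPar.m_pos _
  have hcnt : (0 : ℝ) ≤ cnt x n E := Nat.cast_nonneg _
  have hnab : (0 : ℝ) ≤ S.n j * (a + b) := by positivity
  have hacnt : 0 ≤ a * cnt x n E := by positivity
  have h3c : (0 : ℝ) ≤ 1 / (S.m (j + 1) : ℝ) * cnt x n E := by positivity
  have e3 : (a / 2 + 3 / (S.m (j + 1) : ℝ)) * cnt x n E =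
      a * cnt x n E / 2 + 3 * (1 / (S.m (j + 1) : ℝ) * cnt x n E) := by ring
  rw [e3]
  rcases KK.none_inv hh with ⟨γ, rfl⟩ | ⟨w, hw⟩ | ⟨N, c, a₀, b₀, lam, hv, hN, hd, hl, rfl⟩
  · have : ∃ r₀, ∀ r, r ≠ r₀ → γ ∉ (x r).support := by
      by_cases hγ : ∃ r, γ ∈ (x r).support
      · obtain ⟨r₀, hr₀⟩ := hγ
        refine ⟨r₀, fun r hr hγ => ?_⟩
        rcases lt_or_gt_of_ne hr with h | h
        · exact lt_irrefl _ (hx.succ r r₀ h γ hγ γ hr₀)
        · exact lt_irrefl _ (hx.succ r₀ r h γ hr₀ γ hγ)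
      · exact ⟨0, fun r _ h => hγ ⟨r, h⟩⟩
    obtain ⟨r₀, hr₀⟩ := this
    have h1 := norm_act_sum_le' (Finsupp.single γ 1) x n E 0 1 le_rfl zero_le_one r₀
      (fun r _ hr => by
        rw [act_single]
        have : γ ∉ (res E (x r)).support := fun h => hr₀ r hr (mem_support_res.1 h).1
        rw [Finsupp.notMem_support_iff.1 this, norm_zero])
      ((act_le_nrm hh hE _).trans (hx.hi r₀))
    linarith
  · rcases le_or_gt w j with h | h
    · have h1 := hc.low hx ha hb h hw hE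
      have h2 : 1 / (S.m w : ℝ) ≤ 1 / 2 := by
        have : (64 : ℝ) ≤ S.m w := by exact_mod_cast S.toPar.m_ge w
        gcongr
        linarith
      have h3 := mul_le_mul_of_nonneg_right h2 (add_nonneg hacnt hnab)
      linarith
    · have h1 := hx.high (n := n) h hw hE
      have e2 : (2 : ℝ) / S.m (j + 1) * cnt x n E =
          2 * (1 / (S.m (j + 1) : ℝ) * cnt x n E) := by ring
      rw [e2] at h1
      linarith
  · have hcut : ∀ q, ∃ a', q < N → min (a₀ q) (b₀ q) ≤ a' ∧ a' ≤ b₀ q ∧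
        (∀ n ∈ Ico (min (a₀ q) (b₀ q)) a', (c q).w n ≤ j) ∧
        ∀ n ∈ Ico a' (b₀ q), j < (c q).w n := by
      intro q
      by_cases hq : q < N
      · obtain ⟨a', h⟩ := (hv q hq).exists_cut (min (a₀ q) (b₀ q)) j (min_le_right _ _)
        exact ⟨a', fun _ => h⟩
      · exact ⟨0, fun h => absurd h hq⟩
    choose a' ha' using hcut
    have hsub1 : ∀ q < N, ∀ n ∈ Ico (min (a₀ q) (b₀ q)) (a' q), n ∈ Ico (a₀ q) (b₀ q) := by
      intro q hq n hn
      have := ha' q hq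
      simp only [mem_Ico] at hn ⊢
      omega
    have hsub2 : ∀ q < N, ∀ n ∈ Ico (a' q) (b₀ q), n ∈ Ico (a₀ q) (b₀ q) := by
      intro q hq n hn
      have := ha' q hq
      simp only [mem_Ico] at hn ⊢
      omega
    have hsplit : (2 : ℚ)⁻¹ • ∑ q ∈ range N, lam q • (c q).seg (a₀ q) (b₀ q) =
        (2 : ℚ)⁻¹ • ∑ q ∈ range N, lam q • (c q).seg (min (a₀ q) (b₀ q)) (a' q) +
        (2 : ℚ)⁻¹ • ∑ q ∈ range N, lam q • (c q).seg (a' q) (b₀ q) := by
      rw [← smul_add, ← sum_add_distrib]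
      congr 1
      refine sum_congr rfl fun q hq => ?_
      have hq' := ha' q (mem_range.1 hq)
      rw [← smul_add, Chn.seg_add _ hq'.1 hq'.2.1]
      rcases le_total (a₀ q) (b₀ q) with h | h
      · rw [min_eq_left h]
      · rw [min_eq_right h, Chn.seg_of_le _ h, Chn.seg_of_le _ le_rfl]
    rw [hsplit, act_add_left]
    refine (norm_add_le _ _).trans ?_
    have hhigh := hx.dhigh (n := n) N c a' b₀ lam hv
      (fun q hq n hn => hN q hq n (hsub2 q hq n hn))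
      (fun q hq q' hq' hne n hn n' hn' =>
        hd q hq q' hq' hne n (hsub2 q hq n hn) n' (hsub2 q' hq' n' hn')) hl
      (fun q hq => (ha' q hq).2.2.2) hE
    have e4 : (3 : ℝ) / S.m (j + 1) * cnt x n E =
        3 * (1 / (S.m (j + 1) : ℝ) * cnt x n E) := by ring
    rw [e4] at hhigh
    have hlow := norm_act_dop_le N c (fun q => min (a₀ q) (b₀ q)) a' lam hl
      (res E (∑ r ∈ range n, x r))
    have h1 : ∑ q ∈ range N, ‖act ((c q).seg (min (a₀ q) (b₀ q)) (a' q))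
        (res E (∑ r ∈ range n, x r))‖ ≤
        ∑ q ∈ range N, (∑ i ∈ Ico (min (a₀ q) (b₀ q)) (a' q), (1 : ℝ) / S.m ((c q).w i)) *
          (a * cnt x n E + S.n j * (a + b)) := by
      refine sum_le_sum fun q hq => ?_
      have hq' := mem_range.1 hq
      refine (norm_act_seg_le _ _ _ _).trans ?_
      rw [sum_mul]
      refine sum_le_sum fun i hi => ?_
      exact hc.low hx ha hb ((ha' q hq').2.2.1 i hi)
        (hv q hq' i (mem_Ico.1 (hsub1 q hq' i hi)).2).2 hE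
    rw [← sum_mul] at h1
    have h2 := S.toPar.sum_sum_inv_m_le (range N) (fun q => Ico (min (a₀ q) (b₀ q)) (a' q))
      (fun q => (c q).w)
      (fun q hq => (hv q (mem_range.1 hq)).injOn _
        fun n hn => (mem_Ico.1 (hsub1 q (mem_range.1 hq) n hn)).2)
      (fun q hq q' hq' hne n hn n' hn' => hd q (mem_range.1 hq) q' (mem_range.1 hq') hne n
        (hsub1 q (mem_range.1 hq) n hn) n' (hsub1 q' (mem_range.1 hq') n' hn')) 0
      (fun _ _ _ _ => Nat.zero_le _)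
    have h3 : (2 : ℝ) / S.m 0 ≤ 1 := by
      have : (64 : ℝ) ≤ S.m 0 := by exact_mod_cast S.toPar.m_ge 0
      rw [div_le_one (by linarith)]
      linarith
    have h4 := mul_le_mul_of_nonneg_right (h2.trans h3) (add_nonneg hacnt hnab)
    linarith

/-- Iterate with `a i = 2^{-i} + 6/m`, `b i = 2 (n j + 2)^i - 2` from `Claim (1 + 6/m) 0` (`norm_act_sum_le`), up to
`i = m = m (j+1)`; `2^{-m} ≤ 1/m`, `hB`, `cnt_le`. -/
theorem RISeq.upper (hx : RISeq S j x t η) :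
    nrm S (∑ r ∈ range (S.n (j + 1)), x r) ≤ 8 * (S.n (j + 1) : ℝ) / S.m (j + 1) := by
  have hm : (0 : ℝ) < S.m (j + 1) := S.toPar.m_pos _
  have hm64 : (64 : ℝ) ≤ S.m (j + 1) := by exact_mod_cast S.toPar.m_ge _
  have h6 : (6 : ℝ) / S.m (j + 1) ≤ 1 := by
    rw [div_le_one hm]
    linarith
  have h60 : (0 : ℝ) ≤ 6 / S.m (j + 1) := by positivity
  have hn0 : (0 : ℝ) ≤ S.n j := Nat.cast_nonneg _
  have key : ∀ i : ℕ, Claim S x (S.n (j + 1)) ((1 / 2) ^ i + 6 / (S.m (j + 1) : ℝ))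
      (2 * ((S.n j : ℝ) + 2) ^ i - 2) := by
    intro i
    induction i with
    | zero =>
      intro h hh E hE
      have h1 := norm_act_sum_le h x (S.n (j + 1)) E ((1 / 2) ^ 0 + 6 / (S.m (j + 1) : ℝ))
        (fun r _ => by
          have := (act_le_nrm hh hE (x r)).trans (hx.hi r)
          rw [pow_zero]
          linarith)
      simpa using h1
    | succ i ih =>
      have hp : (1 : ℝ) ≤ ((S.n j : ℝ) + 2) ^ i := one_le_pow₀ (by linarith)
      have hq : ((1 : ℝ) / 2) ^ i ≤ 1 := pow_le_one₀ (by norm_num) (by norm_num)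
      have hq0 : (0 : ℝ) ≤ ((1 : ℝ) / 2) ^ i := by positivity
      have h1 := Claim.step hx (by positivity) (by linarith) ih
      intro h hh E hE
      refine (h1 h hh E hE).trans ?_
      have e1 : ((1 / 2 : ℝ) ^ i + 6 / (S.m (j + 1) : ℝ)) / 2 + 3 / (S.m (j + 1) : ℝ) =
          (1 / 2) ^ (i + 1) + 6 / (S.m (j + 1) : ℝ) := by ring
      rw [e1]
      have h2 : (S.n j : ℝ) * ((1 / 2 : ℝ) ^ i + 6 / (S.m (j + 1) : ℝ) +
          (2 * ((S.n j : ℝ) + 2) ^ i - 2)) ≤ S.n j * (2 * ((S.n j : ℝ) + 2) ^ i) :=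
        mul_le_mul_of_nonneg_left (by linarith) hn0
      have e2 : ((S.n j : ℝ) + 2) ^ (i + 1) = ((S.n j : ℝ) + 2) ^ i * (S.n j + 2) := pow_succ _ _
      rw [e2]
      nlinarith
  refine nrm_le fun h hh E hE => ?_
  refine (key (S.m (j + 1)) h hh E hE).trans ?_
  have h1 : ((1 : ℝ) / 2) ^ S.m (j + 1) ≤ 1 / (S.m (j + 1) : ℝ) := by
    rw [one_div_pow]
    have : (S.m (j + 1) : ℝ) ≤ 2 ^ S.m (j + 1) := by
      exact_mod_cast (Nat.lt_two_pow_self).le
    gcongr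
  have h2 : (cnt x (S.n (j + 1)) E : ℝ) ≤ S.n (j + 1) := by exact_mod_cast cnt_le x _ E
  have h3 : (S.m (j + 1) : ℝ) * (2 * ((S.n j : ℝ) + 2) ^ S.m (j + 1)) ≤ S.n (j + 1) := by
    exact_mod_cast S.hB j
  have h4 : 2 * ((S.n j : ℝ) + 2) ^ S.m (j + 1) ≤ S.n (j + 1) / (S.m (j + 1) : ℝ) := by
    rw [le_div_iff₀ hm]
    linarith
  have h5 : ((1 / 2 : ℝ) ^ S.m (j + 1) + 6 / (S.m (j + 1) : ℝ)) * cnt x (S.n (j + 1)) E ≤
      (1 / (S.m (j + 1) : ℝ) + 6 / (S.m (j + 1) : ℝ)) * S.n (j + 1) := by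
    gcongr
  have e1 : (1 / (S.m (j + 1) : ℝ) + 6 / (S.m (j + 1) : ℝ)) * S.n (j + 1) =
      7 * (S.n (j + 1) / (S.m (j + 1) : ℝ)) := by ring
  have e2 : 8 * (S.n (j + 1) : ℝ) / S.m (j + 1) = 8 * (S.n (j + 1) / (S.m (j + 1) : ℝ)) := by ring
  rw [e1] at h5
  rw [e2]
  linarith

end Crest.Agent.R114
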