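import Crest.Agent.R114.RIS
import Crest.Agent.R114.StepB

/-! # R114/Pair : exact pairs and special chains. -/

set_option autoImplicit false
open Filter Topology Finset

namespace Crest.Agent.R114

variable {Γ : Type} [LinearOrder Γ] {𝕜 : Type} [RCLike 𝕜]

/-- Exact pairs.  Recipe: `j = j' + 1`.  `Src.exists_seq` with `A = ℕ × (Γ →₀ ℚ) × Set Γ`: given the history choose an even
`t ≥ j`, above the earlier ones, `≥ 44 m j`, with `2 l1 / m t ≤ 1 / m j` for the earlier vectors; `Src.exists_RIS`,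
`exists_act_gt` (`1/3 < nrm`), rotate by `exists_unimod` (`R1.smul`, `R2.smul`, `nrm_smul`) so that
`1/3 ≤ re (act h (res E x))`.  `η r = 44/(t r + 3)²`.  `u = (m j / n j) • ∑_{r < n j} x r` (`RISeq.upper`),
`g = (m j)⁻¹ • ∑_{r < n j} 1 • res (E r ∩ rng (x r)) (h r)` (`KK.wop`, `Succ.succInt`, `Succ.res_rng_sum`,
`Succ.support_subset`). -/
theorem Src.exists_pair (S : Setup Γ) (𝓑 : Src Γ 𝕜) (j : ℕ) (hj : 1 ≤ j) (n₀ : ℕ) :
    ∃ u ∈ 𝓑.B n₀, ∃ g : Γ →₀ ℚ, KK S (some j) g ∧ nrm S u ≤ 8 ∧ (∀ γ ∈ g.support, γ ∈ rng u) ∧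
      1 / 3 ≤ RCLike.re (act g u) := by
  obtain ⟨j', rfl⟩ : ∃ j', j = j' + 1 := ⟨j - 1, by omega⟩
  have hm : (0 : ℝ) < S.m (j' + 1) := S.toPar.m_pos _
  have hn : 0 < S.n (j' + 1) := S.toPar.n_pos _
  have hnR : (0 : ℝ) < S.n (j' + 1) := by exact_mod_cast hn
  obtain ⟨x, a, hxB, hx, hQ⟩ := 𝓑.exists_seq (A := ℕ × (Γ →₀ ℚ) × Set Γ) n₀
    (fun L y => j' + 1 ≤ y.2.1 ∧ 44 * S.m (j' + 1) ≤ y.2.1 ∧
      (∀ z ∈ L, z.2.1 < y.2.1 ∧ 2 * l1 z.1 / (S.m y.2.1 : ℝ) ≤ 1 / (S.m (j' + 1) : ℝ)) ∧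
      nrm S y.1 ≤ 1 ∧ R1 S y.2.1 y.1 ∧ R2 S y.2.1 y.1 (44 / ((y.2.1 : ℝ) + 3) ^ 2) ∧
      KK S none y.2.2.1 ∧ y.2.2.2.OrdConnected ∧
      1 / 3 ≤ RCLike.re (act y.2.2.1 (res y.2.2.2 y.1))) (by
      intro L n
      have hev : ∀ᶠ t : ℕ in atTop, ∀ z ∈ {z | z ∈ L},
          z.2.1 < t ∧ 2 * l1 z.1 / (S.m t : ℝ) ≤ 1 / (S.m (j' + 1) : ℝ) := by
        rw [eventually_all_finite (List.finite_toSet L)]
        intro z _
        refine (eventually_gt_atTop _).and ?_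
        filter_upwards [S.toPar.tendsto_m.eventually_ge_atTop (2 * l1 z.1 * S.m (j' + 1))] with t ht
        rw [div_le_div_iff₀ (S.toPar.m_pos t) hm, one_mul]
        exact ht
      obtain ⟨T, hT⟩ := eventually_atTop.1 hev
      obtain ⟨x, hxB, hlo, hhi, h1, h2⟩ :=
        𝓑.exists_RIS S (2 * (T + (j' + 1) + 44 * S.m (j' + 1))) (even_two_mul _) n
      obtain ⟨h, hh, E, hE, hact⟩ := exists_act_gt (S := S) (x := x) (r := 1 / 3) (by linarith)
      obtain ⟨θ, hθ, hθ'⟩ := exists_unimod (act h (res E x))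
      refine ⟨(θ • x, 2 * (T + (j' + 1) + 44 * S.m (j' + 1)), h, E), Submodule.smul_mem _ _ hxB,
        by dsimp only; omega, by dsimp only; omega, fun z hz => hT _ (by dsimp only; omega) z hz, ?_,
        h1.smul hθ, h2.smul hθ, hh, hE, ?_⟩
      · rw [nrm_smul, hθ, one_mul]; exact hhi
      · dsimp only
        rw [res_smul, act_smul, hθ', RCLike.ofReal_re]
        exact hact.le)
  have hmem : ∀ r, (x r, a r) ∈ (List.range (r + 1)).map fun i => (x i, a i) := fun r =>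
    List.mem_map.2 ⟨r, List.mem_range.2 (Nat.lt_succ_self r), rfl⟩
  have hR : RISeq S j' x (fun r => (a r).1) (fun r => 44 / (((a r).1 : ℝ) + 3) ^ 2) :=
    { succ := hx
      hi := fun r => (hQ r).2.2.2.1
      mono := strictMono_nat_of_lt_succ fun r => ((hQ (r + 1)).2.2.1 _ (hmem r)).1
      t0 := (hQ 0).1
      r1 := fun r => (hQ r).2.2.2.2.1
      r2 := fun r => (hQ r).2.2.2.2.2.1
      eta := fun r => by
        have h44 : (44 : ℝ) * S.m (j' + 1) ≤ (a r).1 := by exact_mod_cast (hQ r).2.1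
        have h0 : (0 : ℝ) ≤ (a r).1 := Nat.cast_nonneg _
        rw [← mul_div_assoc, div_le_div_iff₀ (by positivity) hm]
        nlinarith
      eta0 := fun r => by positivity
      l1 := fun r => ((hQ (r + 1)).2.2.1 _ (hmem r)).2 }
  have hc0 : (0 : ℝ) < (S.m (j' + 1) : ℝ) / S.n (j' + 1) := by positivity
  have hcne : ((((S.m (j' + 1) : ℝ) / S.n (j' + 1) : ℝ)) : 𝕜) ≠ 0 := by
    exact_mod_cast hc0.ne'
  refine ⟨(((S.m (j' + 1) : ℝ) / S.n (j' + 1) : ℝ) : 𝕜) • ∑ r ∈ range (S.n (j' + 1)), x r,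
    Submodule.smul_mem _ _ (Submodule.sum_mem _ fun r _ => hxB r),
    (S.m (j' + 1) : ℚ)⁻¹ • ∑ c ∈ range (S.n (j' + 1)),
      (1 : ℚ) • res ((a c).2.2 ∩ rng (x c)) (a c).2.1, ?_, ?_, ?_, ?_⟩
  · refine KK.wop (j' + 1) (S.n (j' + 1)) (fun c => (a c).2.2 ∩ rng (x c)) (fun c => (a c).2.1)
      (fun _ => 1) le_rfl ⟨fun c _ => ?_, fun c c' hcc' _ α hα β hβ => ?_⟩ (fun _ _ => by simp)
      fun c _ => (hQ c).2.2.2.2.2.2.1
    · exact (hQ c).2.2.2.2.2.2.2.1.inter (rng_ordConnected _)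
    · exact (hx c c' hcc').rng_lt α hα.2 β hβ.2
  · rw [nrm_smul, RCLike.norm_ofReal, abs_of_pos hc0]
    have := mul_le_mul_of_nonneg_left hR.upper hc0.le
    refine this.trans (le_of_eq ?_)
    field_simp
  · intro γ hγ
    have h1 := Finsupp.support_smul hγ
    obtain ⟨c, hc, h2⟩ := Finsupp.mem_support_finsetSum γ h1
    have h3 := (mem_support_res.1 (Finsupp.support_smul h2)).2.2
    obtain ⟨α, hα, β, hβ, h4⟩ := h3
    have hs : ∀ δ ∈ (x c).support, δ ∈ ((((S.m (j' + 1) : ℝ) / S.n (j' + 1) : ℝ) : 𝕜) •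
        ∑ r ∈ range (S.n (j' + 1)), x r).support := by
      intro δ hδ
      have h5 := hx.support_subset _ hc hδ
      rw [Finsupp.mem_support_iff] at h5 ⊢
      rw [Finsupp.smul_apply, smul_eq_mul]
      exact mul_ne_zero hcne h5
    exact ⟨α, hs α hα, β, hs β hβ, h4⟩
  · rw [act_smul_left, act_smul, act_sum_left]
    have e1 : ∀ c ∈ range (S.n (j' + 1)),
        act ((1 : ℚ) • res ((a c).2.2 ∩ rng (x c)) (a c).2.1) (∑ r ∈ range (S.n (j' + 1)), x r) =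
          act (a c).2.1 (res (a c).2.2 (x c)) := by
      intro c hc
      rw [one_smul, act_res_left, ← res_res, hx.res_rng_sum _ hc]
    rw [Finset.sum_congr rfl e1, ← mul_assoc]
    have e2 : ((((S.m (j' + 1) : ℚ)⁻¹ : ℚ) : 𝕜)) *
        ((((S.m (j' + 1) : ℝ) / S.n (j' + 1) : ℝ)) : 𝕜) = (((1 : ℝ) / S.n (j' + 1) : ℝ) : 𝕜) := by
      have hm' : ((S.m (j' + 1) : ℕ) : 𝕜) ≠ 0 := by
        have : S.m (j' + 1) ≠ 0 := by exact_mod_cast hm.ne'
        exact_mod_cast this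
      push_cast
      field_simp
    rw [e2, RCLike.re_ofReal_mul, map_sum]
    have e3 : ∑ c ∈ range (S.n (j' + 1)), (1 / 3 : ℝ) ≤
        ∑ c ∈ range (S.n (j' + 1)), RCLike.re (act (a c).2.1 (res (a c).2.2 (x c))) :=
      Finset.sum_le_sum fun c _ => (hQ c).2.2.2.2.2.2.2.2
    rw [Finset.sum_const, Finset.card_range, nsmul_eq_mul] at e3
    rw [one_div_mul_eq_div, le_div_iff₀ hnR]
    linarith

/-- dependent choice along histories -/
theorem pair_exists_hist {B : Type} (R : List B → B → Prop) (h : ∀ L, ∃ y, R L y) :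
    ∃ f : ℕ → B, ∀ n, R ((List.range n).map f) (f n) := by
  choose nx hnx using h
  let Ls : ℕ → List B := fun n => Nat.rec [] (fun _ L => L ++ [nx L]) n
  have hLs : ∀ n, Ls n = (List.range n).map fun i => nx (Ls i) := by
    intro n
    induction n with
    | zero => rfl
    | succ n ih =>
      rw [List.range_succ, List.map_append, ← ih]
      rfl
  refine ⟨fun n => nx (Ls n), fun n => ?_⟩
  rw [← hLs]
  exact hnx _

/-- Building an infinite special chain whose levels avoid countably many given sequences.  Recipe: recursion on lists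
`L : List ((Γ →₀ ℚ) × A × ℕ × ℕ)` (functional, extra datum, weight, level): with `n = L.length` choose `p` above all earlier
weights, coherent for the union of the earlier supports (`exists_cohOn`, `CohOn.mono`) and `> q i n` for `i ≤ n`;
`w = code p (L.map …)`; then use `h` (`two_le_code`). -/
theorem exists_chain (S : Setup Γ) {A : Type} (q : ℕ → ℕ → ℕ)
    (Q : List ((Γ →₀ ℚ) × A) → ℕ → (Γ →₀ ℚ) × A → Prop)
    (h : ∀ L j, 2 ≤ j → ∃ y, Q L j y) :
    ∃ (c : Chn Γ) (a : ℕ → A), (∀ n, c.At S n) ∧ (∀ i n, i ≤ n → c.p n ≠ q i n) ∧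
      ∀ n, Q ((List.range n).map fun i => (c.g i, a i)) (c.w n) (c.g n, a n) := by
  obtain ⟨f, hf⟩ := pair_exists_hist (B := (Γ →₀ ℚ) × A × ℕ × ℕ)
    (fun L y => y.2.2.1 = code y.2.2.2 (L.map fun z => (z.1.mapDomain (pos S y.2.2.2), z.2.2.1)) ∧
      (∀ z ∈ L, z.2.2.1 ≤ y.2.2.2) ∧ CohOn S y.2.2.2 {α | ∃ z ∈ L, α ∈ z.1.support} ∧
      (∀ i ≤ L.length, y.2.2.2 ≠ q i L.length) ∧
      Q (L.map fun z => (z.1, z.2.1)) y.2.2.1 (y.1, y.2.1)) (by
      intro L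
      have hfin : {α | ∃ z ∈ L, α ∈ z.1.support}.Finite := by
        have := (List.finite_toSet L).biUnion (t := fun z => (z.1.support : Set Γ))
          fun z _ => z.1.support.finite_toSet
        refine this.subset ?_
        rintro α ⟨z, hz, hα⟩
        exact Set.mem_iUnion₂.2 ⟨z, hz, hα⟩
      obtain ⟨p₀, hp₀⟩ := exists_cohOn S hfin
      have hev : ∀ᶠ p : ℕ in atTop, p₀ ≤ p ∧ (∀ z ∈ {z | z ∈ L}, z.2.2.1 ≤ p) ∧
          ∀ i ∈ Set.Iic L.length, q i L.length < p := by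
        refine (eventually_ge_atTop _).and (Eventually.and ?_ ?_)
        · rw [eventually_all_finite (List.finite_toSet L)]
          exact fun z _ => eventually_ge_atTop _
        · rw [eventually_all_finite (Set.finite_Iic _)]
          exact fun i _ => eventually_gt_atTop _
      obtain ⟨p, h1, h2, h3⟩ := hev.exists
      obtain ⟨y, hy⟩ := h (L.map fun z => (z.1, z.2.1))
        (code p (L.map fun z => (z.1.mapDomain (pos S p), z.2.2.1))) (two_le_code _ _)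
      exact ⟨(y.1, y.2, code p (L.map fun z => (z.1.mapDomain (pos S p), z.2.2.1)), p), rfl, h2,
        hp₀.mono h1 subset_rfl, fun i hi => (h3 i hi).ne', hy⟩)
  refine ⟨⟨fun n => (f n).1, fun n => (f n).2.2.1, fun n => (f n).2.2.2⟩, fun n => (f n).2.1,
    fun n => ⟨?_, fun i hi => ?_, ?_⟩, fun i n hi => ?_, fun n => ?_⟩
  · have := (hf n).1
    rw [List.map_map] at this
    exact this
  · exact (hf n).2.1 (f i) (List.mem_map.2 ⟨i, List.mem_range.2 hi, rfl⟩)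
  · refine (hf n).2.2.1.mono le_rfl ?_
    rintro α ⟨i, hi, hα⟩
    exact ⟨f i, List.mem_map.2 ⟨i, List.mem_range.2 hi, rfl⟩, hα⟩
  · have := (hf n).2.2.2.1 i (by simpa using hi)
    simpa using this
  · have := (hf n).2.2.2.2
    rw [List.map_map] at this
    exact this

/-- A special chain running through a block source (`exists_chain` with `A = Γ →₀ 𝕜`, `Src.exists_pair`, `far`). -/
theorem Src.exists_chain (S : Setup Γ) (𝓑 : Src Γ 𝕜) (q : ℕ → ℕ → ℕ) :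
    ∃ (c : Chn Γ) (u : ℕ → Γ →₀ 𝕜), (∀ b, Valid S c b) ∧ (∀ i n, i ≤ n → c.p n ≠ q i n) ∧
      Succ u ∧ ∀ n, u n ∈ 𝓑.B n ∧ nrm S (u n) ≤ 8 ∧ (∀ γ ∈ (c.g n).support, γ ∈ rng (u n)) ∧
        1 / 3 ≤ RCLike.re (act (c.g n) (u n)) := by
  obtain ⟨c, u, hc, hq, hQ⟩ := Crest.Agent.R114.exists_chain S (A := Γ →₀ 𝕜) q
    (fun L j y => y.2 ∈ 𝓑.B L.length ∧ (∀ z ∈ L, z.2 ∈ 𝓑.B 0 → Blt z.2 y.2) ∧
      KK S (some j) y.1 ∧ nrm S y.2 ≤ 8 ∧ (∀ γ ∈ y.1.support, γ ∈ rng y.2) ∧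
      1 / 3 ≤ RCLike.re (act y.1 y.2)) (by
      intro L j hj
      have hev : ∀ᶠ n : ℕ in atTop, L.length ≤ n ∧
          ∀ z ∈ {z | z ∈ L}, z.2 ∈ 𝓑.B 0 → ∀ u ∈ 𝓑.B n, Blt z.2 u := by
        refine (eventually_ge_atTop _).and ?_
        rw [eventually_all_finite (List.finite_toSet L)]
        intro z _
        by_cases hz : z.2 ∈ 𝓑.B 0
        · obtain ⟨n, hn⟩ := 𝓑.far _ hz
          filter_upwards [eventually_ge_atTop n] with n' hn' _ u hu
          exact hn u (𝓑.anti hn' hu)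
        · exact Eventually.of_forall fun _ h => absurd h hz
      obtain ⟨n, h1, h2⟩ := hev.exists
      obtain ⟨u, hu, g, h3, h4, h5, h6⟩ := 𝓑.exists_pair S j (by omega) n
      exact ⟨(g, u), 𝓑.anti h1 hu, fun z hz hz0 => h2 z hz hz0 u hu, h3, h4, h5, h6⟩)
  have hB : ∀ n, u n ∈ 𝓑.B n := fun n => by simpa using (hQ n).1
  refine ⟨c, u, fun b n _ => ⟨hc n, (hQ n).2.2.1⟩, hq, fun i j hij => ?_,
    fun n => ⟨hB n, (hQ n).2.2.2⟩⟩
  exact (hQ j).2.1 (c.g i, u i) (List.mem_map.2 ⟨i, List.mem_range.2 hij, rfl⟩)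
    (𝓑.anti (Nat.zero_le i) (hB i))

/-- The trivial chain (`KK_zero_some`). -/
theorem exists_zero_chain (S : Setup Γ) (q : ℕ → ℕ → ℕ) :
    ∃ c : Chn Γ, (∀ b, Valid S c b) ∧ (∀ i n, i ≤ n → c.p n ≠ q i n) ∧ ∀ n, c.g n = 0 := by
  obtain ⟨c, a, hc, hq, hQ⟩ := exists_chain S (A := Unit) q (fun _ _ y => y.1 = 0)
    fun _ _ _ => ⟨(0, ()), rfl⟩
  refine ⟨c, fun b n _ => ⟨hc n, ?_⟩, hq, hQ⟩
  have : c.g n = 0 := hQ n
  rw [this]
  exact KK_zero_some S _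

end Crest.Agent.R114
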