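import Crest.Agent.R114.ADefs

/-! # R114/Par : the numerical parameters. -/

set_option autoImplicit false
open Filter Topology Finset

namespace Crest.Agent.R114

theorem par_exists_k (d M b : ℕ) : ∃ k : ℕ, 0 < M → b ≤ k ∧
    (4 * (4 * (M : ℝ) * (k : ℝ) ^ d + 1) * ((k : ℝ) ^ d + 1) ^ 2) <
      Real.exp ((k : ℝ) / (2 * (M : ℝ) ^ 2)) := by
  rcases Nat.eq_zero_or_pos M with rfl | hM
  · exact ⟨0, fun h => absurd h (lt_irrefl _)⟩
  have hMR : (0 : ℝ) < M := by exact_mod_cast hM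
  set c : ℝ := 2 * (M : ℝ) ^ 2 with hc
  have hc0 : 0 < c := by positivity
  have h1 : Tendsto (fun k : ℕ => (k : ℝ) / c) atTop atTop :=
    tendsto_natCast_atTop_atTop.atTop_div_const hc0
  have h2 := (Real.tendsto_exp_div_pow_atTop (3 * d)).comp h1
  obtain ⟨k, hk1, hk2, hk3⟩ := ((h2.eventually_gt_atTop (16 * (4 * M + 1) * c ^ (3 * d))).and
    ((eventually_ge_atTop b).and (eventually_ge_atTop 1))).exists
  refine ⟨k, fun _ => ⟨hk2, ?_⟩⟩
  have hkR : (1 : ℝ) ≤ k := by exact_mod_cast hk3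
  simp only [Function.comp] at hk1
  rw [lt_div_iff₀ (by positivity), div_pow, mul_assoc, mul_div_cancel₀ _ (by positivity)] at hk1
  refine lt_of_le_of_lt ?_ hk1
  have h3 : (1 : ℝ) ≤ (k : ℝ) ^ d := one_le_pow₀ hkR
  set y := (k : ℝ) ^ d with hy
  have h4 : (k : ℝ) ^ (3 * d) = y ^ 3 := by rw [hy, ← pow_mul, mul_comm]
  rw [h4]
  have h5 : 4 * (M : ℝ) * y + 1 ≤ (4 * M + 1) * y := by nlinarith
  have h6 : (y + 1) ^ 2 ≤ (2 * y) ^ 2 := pow_le_pow_left₀ (by positivity) (by linarith) 2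
  calc 4 * (4 * (M : ℝ) * y + 1) * (y + 1) ^ 2 ≤ 4 * ((4 * M + 1) * y) * (2 * y) ^ 2 := by
        gcongr
    _ = 16 * (4 * M + 1) * y ^ 3 := by ring

/-- Recipe: `m i = 64 * ((i+1)!)^2`.  For fixed `d, M` and `b` there is `k ≥ b` with
`4 (4 M k^d + 1)(k^d + 1)^2 < exp (k / (2 M^2))` (`tendsto_exp_div_pow_atTop`, or `Real.pow_div_factorial_le_exp`);
choose `k j` recursively (`k (j+1) ≥ n j`, `≥ 12 m (j+2)`, `≥ m (j+1) * (2 (n j + 2)^(m (j+1)))`; note `k ≤ k^d`). -/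
theorem exists_par : Nonempty Par := by
  choose κ hκ using par_exists_k
  let m : ℕ → ℕ := fun i => 64 * ((i + 1).factorial) ^ 2
  have hm : ∀ i, 0 < m i := fun i => by
    have := Nat.factorial_pos (i + 1)
    positivity
  let k : ℕ → ℕ := fun j => Nat.rec (κ (m 0 + 2) (m 1) (12 * m 1))
    (fun j kj => κ (m (j + 1) + 2) (m (j + 2))
      (kj ^ (m j + 2) + 12 * m (j + 2) + m (j + 1) * (2 * (kj ^ (m j + 2) + 2) ^ m (j + 1)))) j
  have hk0 : k 0 = κ (m 0 + 2) (m 1) (12 * m 1) := rfl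
  have hks : ∀ j, k (j + 1) = κ (m (j + 1) + 2) (m (j + 2)) (k j ^ (m j + 2) + 12 * m (j + 2) +
      m (j + 1) * (2 * (k j ^ (m j + 2) + 2) ^ m (j + 1))) := fun j => rfl
  have hge : ∀ j, k j ^ (m j + 2) + 12 * m (j + 2) +
      m (j + 1) * (2 * (k j ^ (m j + 2) + 2) ^ m (j + 1)) ≤ k (j + 1) := fun j => by
    rw [hks]; exact (hκ _ _ _ (hm _)).1
  refine ⟨⟨m, k, fun j => k j ^ (m j + 2), fun _ => rfl, by simp [m], fun i => ?_, fun j => ?_,
    fun j => ?_, fun j => ?_, fun j => ?_⟩⟩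
  · simp only [m]
    rw [Nat.factorial_succ (i + 1)]
    exact le_of_eq (by ring)
  · have := hge j
    omega
  · cases j with
    | zero => rw [hk0]; exact (hκ _ _ _ (hm _)).1
    | succ j =>
      have := hge j
      change 12 * m (j + 2) ≤ _
      omega
  · have h1 := hge j
    have h2 : k (j + 1) ≤ k (j + 1) ^ (m (j + 1) + 2) := Nat.le_self_pow (by omega) _
    omega
  · cases j with
    | zero =>
      have := (hκ (m 0 + 2) (m 1) (12 * m 1) (hm _)).2
      rw [← hk0] at this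
      exact_mod_cast this
    | succ j =>
      have := (hκ (m (j + 1) + 2) (m (j + 2)) (k j ^ (m j + 2) + 12 * m (j + 2) +
        m (j + 1) * (2 * (k j ^ (m j + 2) + 2) ^ m (j + 1))) (hm _)).2
      rw [← hks] at this
      exact_mod_cast this

namespace Par
variable (P : Par)

theorem two_mul_m_le (i : ℕ) : 2 * P.m i ≤ P.m (i + 1) := by
  refine le_trans (Nat.mul_le_mul_right _ ?_) (P.msucc i)
  nlinarith [Nat.zero_le i, Nat.zero_le (i * i)]

theorem m_mono : Monotone P.m := by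
  refine monotone_nat_of_le_succ fun i => ?_
  have := P.two_mul_m_le i
  omega

theorem m_ge (i : ℕ) : 64 ≤ P.m i := by
  exact P.m0.trans (P.m_mono (Nat.zero_le i))

theorem m_pos (i : ℕ) : (0 : ℝ) < P.m i := by
  have := P.m_ge i
  exact_mod_cast (by omega : 0 < P.m i)

theorem le_m (i : ℕ) : i ≤ P.m i := by
  induction i with
  | zero => exact Nat.zero_le _
  | succ i ih =>
    have := P.two_mul_m_le i
    have := P.m_ge i
    omega

theorem m_two (i : ℕ) (hi : 2 ≤ i) : 2304 ≤ P.m i := by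
  have h0 := P.msucc 0
  have h1 := P.msucc 1
  have h2 := P.m0
  have h3 := P.m_mono hi
  norm_num at h0 h1
  omega

theorem k_ge (j : ℕ) : 2 ≤ P.k j := by
  have := P.k12 j
  have := P.m_ge (j + 1)
  omega

theorem k_le_n (j : ℕ) : P.k j ≤ P.n j := by
  rw [P.n_eq]
  exact Nat.le_self_pow (by omega) _

theorem n_mono : Monotone P.n := by
  exact monotone_nat_of_le_succ fun j => (P.kn j).trans (P.k_le_n _)

theorem n_pos (j : ℕ) : 0 < P.n j := by
  have := P.k_ge j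
  have := P.k_le_n j
  omega

/-- `n j / m j → ∞` -/
theorem mul_m_le_n (j : ℕ) : j * P.m j ≤ P.n j := by
  have h1 := P.k12 j
  have h2 : P.m j ≤ P.m (j + 1) := P.m_mono (Nat.le_succ j)
  have h3 := P.le_m j
  have h4 := P.k_ge j
  rw [P.n_eq]
  calc j * P.m j ≤ P.k j * P.k j := Nat.mul_le_mul (by omega) (by omega)
    _ = P.k j ^ 2 := by ring
    _ ≤ P.k j ^ (P.m j + 2) := Nat.pow_le_pow_right (by omega) (by omega)

/-- geometric tails -/
theorem sum_inv_m_le (T : Finset ℕ) (t : ℕ) (hT : ∀ i ∈ T, t ≤ i) :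
    ∑ i ∈ T, (1 : ℝ) / P.m i ≤ 2 / P.m t := by
  have key : ∀ N : ℕ, ∑ i ∈ Ico t (t + N), (1 : ℝ) / P.m i ≤ 2 / P.m t - 2 / P.m (t + N) := by
    intro N
    induction N with
    | zero => simp
    | succ N ih =>
      rw [← add_assoc, Finset.sum_Ico_succ_top (by omega)]
      have h1 : (2 : ℝ) * P.m (t + N) ≤ P.m (t + N + 1) := by
        exact_mod_cast P.two_mul_m_le (t + N)
      have h2 := P.m_pos (t + N)
      have h3 : (2 : ℝ) / P.m (t + N + 1) ≤ 1 / P.m (t + N) := by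
        rw [div_le_div_iff₀ (P.m_pos _) h2]
        linarith
      have h4 : (2 : ℝ) / P.m (t + N) = 2 * (1 / P.m (t + N)) := by ring
      linarith
  have hsub : T ⊆ Ico t (t + (T.sup id + 1)) := fun i hi => by
    have := Finset.le_sup (f := id) hi
    simp only [id] at this
    exact Finset.mem_Ico.2 ⟨hT i hi, by omega⟩
  refine (Finset.sum_le_sum_of_subset_of_nonneg hsub fun i _ _ => by positivity).trans
    ((key _).trans ?_)
  have : (0 : ℝ) ≤ 2 / P.m (t + (T.sup id + 1)) := by positivity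
  linarith

/-- geometric tails along an injective family of weights -/
theorem sum_inv_m_le' {ι : Type*} (s : Finset ι) (w : ι → ℕ) (hw : Set.InjOn w s) (t : ℕ)
    (hT : ∀ i ∈ s, t ≤ w i) : ∑ i ∈ s, (1 : ℝ) / P.m (w i) ≤ 2 / P.m t := by
  rw [← Finset.sum_image (f := fun i => (1 : ℝ) / P.m i) hw]
  refine P.sum_inv_m_le _ t fun i hi => ?_
  obtain ⟨a, ha, rfl⟩ := Finset.mem_image.1 hi
  exact hT a ha

/-- the double-sum version used for families of segments with pairwise disjoint weights -/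
theorem sum_sum_inv_m_le {ι : Type*} (Z : Finset ι) (s : ι → Finset ℕ) (w : ι → ℕ → ℕ)
    (h1 : ∀ q ∈ Z, Set.InjOn (w q) (s q))
    (h2 : ∀ q ∈ Z, ∀ q' ∈ Z, q ≠ q' → ∀ n ∈ s q, ∀ n' ∈ s q', w q n ≠ w q' n') (t : ℕ)
    (hT : ∀ q ∈ Z, ∀ n ∈ s q, t ≤ w q n) :
    ∑ q ∈ Z, ∑ n ∈ s q, (1 : ℝ) / P.m (w q n) ≤ 2 / P.m t := by
  rw [Finset.sum_sigma' Z s fun q n => (1 : ℝ) / P.m (w q n)]
  refine P.sum_inv_m_le' (Z.sigma s) (fun x => w x.1 x.2) ?_ t fun x hx => ?_
  · rintro ⟨q, n⟩ hx ⟨q', n'⟩ hx' h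
    simp only [Finset.coe_sigma, Set.mem_sigma_iff, Finset.mem_coe] at hx hx'
    by_cases hq : q = q'
    · subst hq
      have := h1 q hx.1 hx.2 hx'.2 h
      subst this
      rfl
    · exact absurd h (h2 q hx.1 q' hx'.1 hq n hx.2 n' hx'.2)
  · rw [Finset.mem_sigma] at hx
    exact hT _ hx.1 _ hx.2

theorem tendsto_m : Tendsto (fun i => (P.m i : ℝ)) atTop atTop := by
  exact tendsto_atTop_mono (fun i => by exact_mod_cast P.le_m i) tendsto_natCast_atTop_atTop

end Par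

end Crest.Agent.R114
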