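import Crest.Agent.R114.Blocks

/-! # R114/Pattern : special chains act on a system through few patterns. -/

set_option autoImplicit false
open Filter Topology Finset

namespace Crest.Agent.R114

variable {Γ : Type} [LinearOrder Γ] {𝕜 : Type} [RCLike 𝕜] {S : Setup Γ}

/-- a window is a segment (cut twice with `Valid.exists_cut`) -/
theorem win_eq_seg {c : Chn Γ} {b : ℕ} (hv : Valid S c b) {j : ℕ → ℕ} (hj : StrictMono j)
    (a l : ℕ) : ∃ a' b', b' ≤ b ∧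
      (Ico a b).filter (fun n => j l < c.w n ∧ c.w n ≤ j (l + 1)) = Ico a' b' ∧
      win c j a b l = c.seg a' b' := by
  suffices h : ∃ a' b', b' ≤ b ∧
      (Ico a b).filter (fun n => j l < c.w n ∧ c.w n ≤ j (l + 1)) = Ico a' b' by
    obtain ⟨a', b', h1, h2⟩ := h
    exact ⟨a', b', h1, h2, by rw [win, h2, Chn.seg]⟩
  rcases le_or_gt a b with hab | hab
  · obtain ⟨a', h1, h2, h3, h4⟩ := hv.exists_cut a (j l) hab
    obtain ⟨b', h5, h6, h7, h8⟩ := hv.exists_cut a' (j (l + 1)) h2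
    refine ⟨a', b', h6, ?_⟩
    ext n
    simp only [mem_filter, mem_Ico] at h3 h4 h7 h8 ⊢
    constructor
    · rintro ⟨⟨hn1, hn2⟩, hn3, hn4⟩
      have e1 : a' ≤ n := not_lt.1 fun h => absurd (h3 n ⟨hn1, h⟩) (not_le.2 hn3)
      exact ⟨e1, not_le.1 fun h => absurd (h8 n ⟨h, hn2⟩) (not_lt.2 hn4)⟩
    · rintro ⟨hn1, hn2⟩
      exact ⟨⟨h1.trans hn1, hn2.trans_le h6⟩, h4 n ⟨hn1, hn2.trans_le h6⟩, h7 n ⟨hn1, hn2⟩⟩
  · exact ⟨0, 0, b.zero_le, by simp [Ico_eq_empty_of_le hab.le]⟩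

theorem win_le {c : Chn Γ} {b : ℕ} (hv : Valid S c b) {j : ℕ → ℕ} (hj : StrictMono j) (a l : ℕ)
    {E : Set Γ} (hE : E.OrdConnected) (x : Γ →₀ 𝕜) :
    ‖act (win c j a b l) (res E x)‖ ≤ 2 * nrm S x := by
  obtain ⟨a', b', h1, -, h2⟩ := win_eq_seg hv hj a l
  rw [h2]
  exact seg_le (hv.mono h1) a' hE x

/-- `w` is the entry weight into window `l` of a chain acting by more than `δ` on `v l` -/
def Entry (S : Setup Γ) (v : ℕ → Γ →₀ 𝕜) (j : ℕ → ℕ) (δ : ℝ) (l w : ℕ) : Prop :=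
  ∃ (c : Chn Γ) (b n₀ : ℕ), Valid S c b ∧ n₀ < b ∧ w = c.w n₀ ∧ (∀ i < n₀, c.w i ≤ j l) ∧
    j l < c.w n₀ ∧ δ < ‖act (win c j 0 b l) (v l)‖

/-- Few entry weights.  Recipe: if `T.card ≥ 4M` take a subset `Z` of size exactly `4M`, choose witnesses; the windows are
segments (`win_eq_seg`) with weights `> j l ≥ j 0 ≥ 4M`; two of them sharing a weight have the same position `n` and the
same weights up to `n` (`Chn.At.eq_of_w_eq`), hence the same entry index (first index with weight `> j l`) and entry weight;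
`sum_seg_le` gives `4M · (1/M) < 4 · nrm (v l) ≤ 4`. -/
theorem card_entry_le {t : ℕ} {v : ℕ → Γ →₀ 𝕜} {j : ℕ → ℕ} (hs : Sys S t v j) (l : ℕ)
    (T : Finset ℕ) (hT : ∀ w ∈ T, Entry S v j (1 / (S.m (t + 2) : ℝ)) l w) :
    T.card ≤ 4 * S.m (t + 2) := by
  by_contra hlt
  have hM : 0 < S.m (t + 2) := Nat.cast_pos.1 (S.toPar.m_pos (t + 2))
  obtain ⟨Z, -, hZ⟩ := exists_subset_card_eq (s := T.attach) (n := 4 * S.m (t + 2))
    (by rw [card_attach]; omega)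
  choose c b n₀ hv hn hw hi hl hδ using hT
  choose a' b' h1 h2 h3 using fun q : {w // w ∈ T} => win_eq_seg (hv q.1 q.2) hs.mono 0 l
  have hmem : ∀ q : {w // w ∈ T}, ∀ n ∈ Ico (a' q) (b' q),
      n < b q.1 q.2 ∧ j l < (c q.1 q.2).w n := fun q n hn => by
    rw [← h2, mem_filter, mem_Ico] at hn
    exact ⟨hn.1.2, hn.2.1⟩
  have key := sum_seg_le Z (fun q => c q.1 q.2) a' b' (fun q _ => (hv q.1 q.2).mono (h1 q))
    (fun q _ n hn => by
      have e1 := (hmem q n hn).2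
      have e2 := hs.mono.monotone l.zero_le
      have e3 := hs.j0
      omega)
    (fun q _ q' _ hne n hn n' hn' he => by
      obtain ⟨e1, e2⟩ := hmem q n hn
      obtain ⟨e3, e4⟩ := hmem q' n' hn'
      obtain ⟨rfl, -, -, e5⟩ := (hv q.1 q.2 n e1).1.eq_of_w_eq (hv q'.1 q'.2 n' e3).1 he
      have e6 : ∀ i ≤ n, (c q.1 q.2).w i = (c q'.1 q'.2).w i := fun i hi =>
        hi.eq_or_lt.elim (fun h => h ▸ he) (e5 i)
      have e7 : n₀ q.1 q.2 ≤ n := not_lt.1 fun h => absurd (hi q.1 q.2 n h) (not_le.2 e2)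
      have e8 : n₀ q'.1 q'.2 ≤ n := not_lt.1 fun h => absurd (hi q'.1 q'.2 n h) (not_le.2 e4)
      have e9 : n₀ q.1 q.2 = n₀ q'.1 q'.2 := by
        refine le_antisymm (not_lt.1 fun h => ?_) (not_lt.1 fun h => ?_)
        · exact absurd (hi q.1 q.2 _ h) (not_le.2 (e6 _ e8 ▸ hl q'.1 q'.2))
        · exact absurd (hi q'.1 q'.2 _ h) (not_le.2 (e6 _ e7 ▸ hl q.1 q.2))
      refine hne (Subtype.ext ?_)
      rw [hw q.1 q.2, hw q'.1 q'.2, e6 _ e7, e9])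
    Set.ordConnected_univ (v l)
  have hne : Z.Nonempty := card_pos.1 (by omega)
  have h4 := sum_lt_sum_of_nonempty hne (f := fun _ => 1 / (S.m (t + 2) : ℝ))
    (g := fun q => ‖act ((c q.1 q.2).seg (a' q) (b' q)) (res Set.univ (v l))‖) fun q _ => by
      simpa only [res_univ, ← h3] using hδ q.1 q.2
  have hM' : (0 : ℝ) < S.m (t + 2) := Nat.cast_pos.2 hM
  rw [sum_const, hZ, nsmul_eq_mul] at h4
  have h5 : ((4 * S.m (t + 2) : ℕ) : ℝ) * (1 / (S.m (t + 2) : ℝ)) = 4 := by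
    push_cast
    field_simp
  linarith [hs.hi l]

/-- Decoding.  Recipe: `D w l = ∑` over the entries `(ḡ, w')` of the decoded list `L` with `j l < w' ≤ j (l+1)` of
`∑ α ∈ supp (v l), ḡ (pos p α) * v l α`, where `w = code p L` (`if h : ∃ pL, w = code pL.1 pL.2 then … choose h`, `code_inj`).
For `l < l'` the window `l` of `[0, b)` lies in `[0, n₀)` (as `j (l+1) ≤ j l' ≤ p n₀ < w n₀`).  `A = ⋃_{l<l'} supp (v l)` and
`G = ⋃_{i<n₀} supp (g i)` are `p n₀`-coherent.  If `A ∩ G = ∅`, `l₁ = 0`.  Otherwise `c₀ = max (A ∩ G) ∈ supp (v l₁)`,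
`l₁ < l'`; `determine` below `c₀`, and points of `A` above `c₀` are not in `G`. -/
theorem exists_decode {t : ℕ} {v : ℕ → Γ →₀ 𝕜} {j : ℕ → ℕ} (hs : Sys S t v j) :
    ∃ D : ℕ → ℕ → 𝕜, ∀ (c : Chn Γ) (b n₀ l' : ℕ), Valid S c b → n₀ < b → j l' ≤ c.p n₀ →
      ∃ l₁, (∀ l < l₁, act (win c j 0 b l) (v l) = D (c.w n₀) l) ∧
        ∀ l, l₁ < l → l < l' → act (win c j 0 b l) (v l) = 0 := by
  classical
  have hinj : Function.Injective fun pL : ℕ × List ((ℕ →₀ ℚ) × ℕ) => code pL.1 pL.2 :=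
    fun x y h => Prod.ext (code_inj h).1 (code_inj h).2
  obtain ⟨dec, hdec⟩ : ∃ dec : ℕ → ℕ × List ((ℕ →₀ ℚ) × ℕ), ∀ p L, dec (code p L) = (p, L) :=
    ⟨_, fun p L => Function.leftInverse_invFun hinj (p, L)⟩
  refine ⟨fun w l => ((dec w).2.map fun e => if j l < e.2 ∧ e.2 ≤ j (l + 1) then
    ∑ α ∈ (v l).support, ((e.1 (pos S (dec w).1 α) : ℚ) : 𝕜) * v l α else 0).sum,
    fun c b n₀ l' hv hn hp => ?_⟩
  obtain ⟨hcode, -, hG⟩ := (hv n₀ hn).1
  have hA := (hs.coh l').mono hp subset_rfl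
  have hwin : ∀ l < l', act (win c j 0 b l) (v l) = ∑ i ∈ range n₀,
      if j l < c.w i ∧ c.w i ≤ j (l + 1) then act (c.g i) (v l) else 0 := fun l hl => by
    rw [← sum_filter, ← act_sum_left, win]
    congr 2
    ext i
    simp only [mem_filter, mem_Ico, mem_range, Nat.zero_le, true_and]
    refine and_congr_left fun hi => ⟨fun hb => not_le.1 fun h => ?_, fun h => h.trans hn⟩
    have e1 := hv.w_le h hb
    have e2 : j (l + 1) ≤ j l' := hs.mono.monotone hl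
    have e3 := lt_code (c.p n₀) (c.hist S n₀)
    omega
  have hzero : ∀ l < l', (∀ α ∈ (v l).support, ¬ ∃ i < n₀, α ∈ (c.g i).support) →
      act (win c j 0 b l) (v l) = 0 := fun l hl h => by
    rw [hwin l hl]
    refine sum_eq_zero fun i hi => ?_
    rw [act_eq_zero fun γ h1 h2 => h γ h2 ⟨i, mem_range.1 hi, h1⟩, ite_self]
  by_cases hne : ({α | ∃ l < l', α ∈ (v l).support} ∩
      {α | ∃ i < n₀, α ∈ (c.g i).support} : Set Γ).Nonempty
  · have hfin : ({α | ∃ l < l', α ∈ (v l).support} : Set Γ).Finite :=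
      ((range l').biUnion fun l => (v l).support).finite_toSet.subset fun α ⟨l, h1, h2⟩ =>
        mem_coe.2 (mem_biUnion.2 ⟨l, mem_range.2 h1, h2⟩)
    obtain ⟨c₀, ⟨⟨l₁, hl₁, hc₁⟩, hc₂⟩, hmax⟩ :=
      Set.exists_max_image _ id (hfin.inter_of_left _) hne
    refine ⟨l₁, fun l hl => ?_, fun l h1 h2 => hzero l h2 fun α hα hα' => ?_⟩
    · rw [hwin l (hl.trans hl₁)]
      simp only [hcode, hdec, Chn.hist, List.map_map]
      refine sum_congr rfl fun i hi => ?_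
      simp only [Function.comp_apply]
      congr 1
      rw [act_eq_sum' _ _ _ subset_rfl]
      refine sum_congr rfl fun α hα => ?_
      rw [← determine hA hG (c.g i) (fun γ hγ => ⟨i, mem_range.1 hi, hγ⟩) ⟨l₁, hl₁, hc₁⟩ hc₂
        ⟨l, hl.trans hl₁, hα⟩ (hs.succ l l₁ hl α hα c₀ hc₁).le]
    · exact absurd (hmax α ⟨⟨l, h2, hα⟩, hα'⟩) (not_le.2 (hs.succ l₁ l h1 c₀ hc₁ α hα))
  · exact ⟨0, fun l hl => absurd hl l.not_lt_zero, fun l _ h2 => hzero l h2 fun α hα hα' =>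
      hne ⟨α, ⟨l, h2, hα⟩, hα'⟩⟩

/-- The pattern lemma.  Recipe: `𝒟 = {0} ∪` the truncations (`if ‖D w l‖ ≤ 2 then D w l else 0`) of `D w` for the entry
weights `w ∈ Ioc (j l) (j (l+1))`, `l < K`.  Let `β l = act (win c j 0 b l) (v l)`, `Large = {l < K | δ < ‖β l‖}`.  If
`#Large ≤ 1` take `D = 0`, `l₂ = 0`, `X = Large`.  Otherwise `l* > l**` the two largest elements; `n₀` the first index
with weight `> j l*` (an entry weight, `≤ j (l*+1)`); window `l**` contains some `n' < n₀`, so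
`p n₀ ≥ w n' > j l**`; `exists_decode` with `l' = l**`; `l₂ = l₁`, `X = {l₁, l**, l*}`; `win_le` for the truncation. -/
theorem exists_patterns {t : ℕ} {v : ℕ → Γ →₀ 𝕜} {j : ℕ → ℕ} (hs : Sys S t v j) (K : ℕ) :
    ∃ 𝒟 : Finset (ℕ → 𝕜), 𝒟.card ≤ 4 * S.m (t + 2) * K + 1 ∧ (∀ D ∈ 𝒟, ∀ l, ‖D l‖ ≤ 2) ∧
      ∀ (c : Chn Γ) (b : ℕ), Valid S c b → ∃ D ∈ 𝒟, ∃ (l₂ : ℕ) (X : Finset ℕ), X.card ≤ 3 ∧
        (∀ l < l₂, act (win c j 0 b l) (v l) = D l) ∧
        ∀ l, l₂ ≤ l → l < K → l ∉ X → ‖act (win c j 0 b l) (v l)‖ ≤ 1 / (S.m (t + 2) : ℝ) := by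
  classical
  obtain ⟨D, hD⟩ := exists_decode hs
  have hδ : (0 : ℝ) ≤ 1 / (S.m (t + 2) : ℝ) := by positivity
  refine ⟨insert 0 (((range K).biUnion fun l => (Ioc (j l) (j (l + 1))).filter
    (Entry S v j (1 / (S.m (t + 2) : ℝ)) l)).image fun w l => if ‖D w l‖ ≤ 2 then D w l else 0),
    ?_, fun D' hD' l => ?_, fun c b hv => ?_⟩
  · refine (card_insert_le _ _).trans (Nat.succ_le_succ (card_image_le.trans
      (card_biUnion_le.trans ?_)))
    refine (sum_le_card_nsmul _ _ (4 * S.m (t + 2)) fun l _ =>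
      card_entry_le hs l _ fun w hw => (mem_filter.1 hw).2).trans ?_
    rw [card_range, smul_eq_mul, mul_comm]
  · rcases mem_insert.1 hD' with rfl | hD'
    · simp
    · obtain ⟨w, -, rfl⟩ := mem_image.1 hD'
      simp only
      split_ifs with h
      · exact h
      · simp
  have hex : ∀ l, 1 / (S.m (t + 2) : ℝ) < ‖act (win c j 0 b l) (v l)‖ →
      ∃ n < b, j l < c.w n ∧ c.w n ≤ j (l + 1) := fun l hl => by
    by_contra hno
    have : win c j 0 b l = 0 := sum_eq_zero fun n hn => by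
      rw [mem_filter, mem_Ico] at hn
      exact absurd ⟨n, hn.1.2, hn.2⟩ hno
    rw [this, act_zero_left, norm_zero] at hl
    exact absurd hδ (not_le.2 hl)
  obtain ⟨Lg, hLg⟩ : ∃ Lg : Finset ℕ, ∀ l, l ∈ Lg ↔
      l < K ∧ 1 / (S.m (t + 2) : ℝ) < ‖act (win c j 0 b l) (v l)‖ :=
    ⟨(range K).filter fun l => 1 / (S.m (t + 2) : ℝ) < ‖act (win c j 0 b l) (v l)‖,
      fun l => by rw [mem_filter, mem_range]⟩
  rcases le_or_gt Lg.card 1 with hc | hc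
  · exact ⟨0, mem_insert_self _ _, 0, Lg, by omega, fun l hl => absurd hl l.not_lt_zero,
      fun l _ h1 h2 => not_lt.1 fun h => h2 ((hLg l).2 ⟨h1, h⟩)⟩
  obtain ⟨l₃, h3, h3'⟩ := exists_max_image Lg id (card_pos.1 (by omega))
  obtain ⟨l₂, h2, h2'⟩ := exists_max_image (Lg.erase l₃) id
    (card_pos.1 (by rw [card_erase_of_mem h3]; omega))
  obtain ⟨h2a, h2b⟩ := mem_erase.1 h2
  have h23 : l₂ < l₃ := lt_of_le_of_ne (h3' l₂ h2b) h2a
  obtain ⟨n, hn1, hn2, hn3⟩ := hex l₃ ((hLg l₃).1 h3).2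
  obtain ⟨n', hn1', hn2', hn3'⟩ := hex l₂ ((hLg l₂).1 h2b).2
  have hP : ∃ n, j l₃ < c.w n := ⟨n, hn2⟩
  have e1 : Nat.find hP ≤ n := Nat.find_min' hP hn2
  have e2 := Nat.find_spec hP
  have e3 : ∀ i < Nat.find hP, c.w i ≤ j l₃ := fun i hi => not_lt.1 (Nat.find_min hP hi)
  generalize Nat.find hP = n₀ at e1 e2 e3
  have e4 : n₀ < b := e1.trans_lt hn1
  have e5 : n' < n₀ := not_le.1 fun h => by
    have e6 := hv.w_le h hn1'
    have e7 : j (l₂ + 1) ≤ j l₃ := hs.mono.monotone h23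
    omega
  obtain ⟨l₁, hl₁, hl₁'⟩ := hD c b n₀ l₂ hv e4 (hn2'.le.trans ((hv n₀ e4).1.2.1 n' e5))
  refine ⟨_, mem_insert_of_mem (mem_image_of_mem _ (mem_biUnion.2 ⟨l₃,
    mem_range.2 ((hLg l₃).1 h3).1, mem_filter.2 ⟨mem_Ioc.2 ⟨e2, (hv.w_le e1 hn1).trans hn3⟩,
      c, b, n₀, hv, e4, rfl, e3, e2, ((hLg l₃).1 h3).2⟩⟩)), l₁, {l₁, l₂, l₃}, card_le_three,
    fun l hl => ?_, fun l h1 h2 hX => ?_⟩
  · have e6 := win_le hv hs.mono 0 l Set.ordConnected_univ (v l)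
    rw [res_univ] at e6
    rw [← hl₁ l hl, if_pos (by linarith [hs.hi l])]
  · simp only [mem_insert, mem_singleton, not_or] at hX
    rcases lt_or_ge l l₂ with h | h
    · rw [hl₁' l (lt_of_le_of_ne h1 (Ne.symm hX.1)) h, norm_zero]
      exact hδ
    · exact not_lt.1 fun h' => hX.2.1 (le_antisymm
        (h2' l (mem_erase.2 ⟨hX.2.2, (hLg l).2 ⟨h2, h'⟩⟩)) h)

end Crest.Agent.R114
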