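import Crest.Agent.R114.BDefs

/-! # R114/RVM : consequences of real-valued measurability of the continuum. -/

set_option autoImplicit false
open Filter Topology Finset MeasureTheory
open scoped ENNReal Cardinal

namespace Crest.Agent.R114

/-- Recipe: `Measure.ofMeasurable` (empty set: apply additivity to `ι = PEmpty`/`Empty`; countable: `ι = ℕ`,
`Cardinal.aleph0_lt_continuum`).  Small unions of null sets: well-order `ι` (`WellOrderingRel`), disjointify
`A' i = A i \ ⋃_{j<i} A j`, same union, each `A' i` null by monotonicity. -/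
theorem exists_isRVM (hc : Crest.AnalysisR.ContinuumRVM) : ∃ μ : Measure Om, IsRVM μ := by
  obtain ⟨m, h1, h0, hadd⟩ := hc
  have hemp : m ∅ = 0 := by
    have := hadd Empty (fun _ => ∅) (by simpa using Cardinal.continuum_pos) (fun i => i.elim)
    simpa using this
  let μ : Measure Om := Measure.ofMeasurable (fun s _ => m s) hemp fun f _ hd =>
    hadd ℕ f (by simpa using Cardinal.aleph0_lt_continuum) hd
  have hμ : ∀ s : Set Om, μ s = m s := fun s => Measure.ofMeasurable_apply s trivial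
  refine ⟨μ, ⟨by rw [hμ]; exact h1⟩, fun t => by rw [hμ]; exact h0 t, fun ι A hι hA => ?_⟩
  let r : ι → ι → Prop := WellOrderingRel
  let A' : ι → Set Om := fun i => {x | x ∈ A i ∧ ∀ j, r j i → x ∉ A j}
  have e : ⋃ i, A i = ⋃ i, A' i := by
    refine Set.Subset.antisymm (fun x hx => ?_) (Set.iUnion_mono fun i x hx => hx.1)
    have hw : WellFounded r := WellOrderingRel.isWellOrder.wf
    have hne : {i | x ∈ A i}.Nonempty := Set.mem_iUnion.1 hx
    exact Set.mem_iUnion.2 ⟨hw.min _ hne, hw.min_mem _ hne, fun j hj hx' => hw.not_lt_min _ hx' hj⟩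
  rw [e, hμ]
  refine (hadd ι A' hι ?_).trans ?_
  swap
  · rw [ENNReal.tsum_eq_zero]
    intro i
    exact (hμ _).symm.trans (measure_mono_null (fun x hx => hx.1) (hA i))
  · intro i j hij
    refine Set.disjoint_left.2 fun x hi hj => ?_
    rcases trichotomous_of r i j with h | h | h
    · exact hj.2 i h hi.1
    · exact hij h
    · exact hi.2 j h hj.1

theorem rvm_cdf_band (ν : Measure ℝ) [IsProbabilityMeasure ν] [NullSingletonClass ν] (a b : ℝ) :
    ν {s | a ≤ ProbabilityTheory.cdf ν s ∧ ProbabilityTheory.cdf ν s ≤ b} ≤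
      ENNReal.ofReal (b - a) := by
  have hm : MeasurableSet {s | a ≤ ProbabilityTheory.cdf ν s ∧ ProbabilityTheory.cdf ν s ≤ b} :=
    (ProbabilityTheory.monotone_cdf ν).measurable measurableSet_Icc
  rw [hm.measure_eq_iSup_isCompact]
  refine iSup_le fun K => iSup_le fun hK => iSup_le fun hc => ?_
  rcases K.eq_empty_or_nonempty with rfl | hne
  · simp
  have h1 := hK (hc.sInf_mem hne)
  have h2 := hK (hc.sSup_mem hne)
  calc ν K ≤ ν (Set.Icc (sInf K) (sSup K)) :=
        measure_mono fun x hx => ⟨csInf_le hc.bddBelow hx, le_csSup hc.bddAbove hx⟩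
    _ = ν (Set.Ioc (sInf K) (sSup K)) := (measure_congr Ioc_ae_eq_Icc).symm
    _ = ENNReal.ofReal (ProbabilityTheory.cdf ν (sSup K) - ProbabilityTheory.cdf ν (sInf K)) := by
        conv_lhs => rw [← ProbabilityTheory.measure_cdf ν]
        exact StieltjesFunction.measure_Ioc _ _ _
    _ ≤ _ := ENNReal.ofReal_le_ofReal (sub_le_sub h2.2 h1.1)

/-- Uniform random variables.  Recipe: view `Om` as `ℝ`; `F t = (μ {s | s ≤ t}).toReal` is monotone, continuous
(no atoms; `tendsto_measure_iUnion/iInter`, or pass to the Borel restriction `μ.trim`/`Measure.map id` on `ℝ` and use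
`ProbabilityTheory.cdf`), with limits `0` and `1`; by the intermediate value theorem there are
`t₁ ≤ … ≤ t_{n-1}` with `F t_i = i/n`; `ξ s = #{i | t_i < s}`. Any other proof is fine. -/
theorem IsRVM.unif {μ : Measure Om} (hμ : IsRVM μ) (n : ℕ) (hn : 0 < n) :
    ∃ ξ : Om → Fin n, ∀ i, μ (ξ ⁻¹' {i}) ≤ (n : ℝ≥0∞)⁻¹ := by
  have := hμ.prob
  let e : Om → ℝ := fun t => t
  have he : Measurable e := measurable_from_top
  let ν : Measure ℝ := μ.map e
  have : IsProbabilityMeasure ν := Measure.isProbabilityMeasure_map he.aemeasurable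
  have : NullSingletonClass ν := ⟨fun x => by
    rw [Measure.map_apply he (measurableSet_singleton x)]
    exact hμ.atom x⟩
  have hn' : (0 : ℝ) < n := by exact_mod_cast hn
  refine ⟨fun t => ⟨min ⌊n * ProbabilityTheory.cdf ν (e t)⌋₊ (n - 1), by omega⟩, fun i => ?_⟩
  have h1 := rvm_cdf_band ν (i / n) ((i + 1) / n)
  have hm : MeasurableSet {s | (i : ℝ) / n ≤ ProbabilityTheory.cdf ν s ∧
      ProbabilityTheory.cdf ν s ≤ (i + 1) / n} :=
    (ProbabilityTheory.monotone_cdf ν).measurable measurableSet_Icc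
  rw [Measure.map_apply he hm, ← sub_div, add_sub_cancel_left, one_div, ENNReal.ofReal_inv_of_pos hn',
    ENNReal.ofReal_natCast] at h1
  refine le_trans (measure_mono fun t ht => ?_) h1
  have h2 : min ⌊n * ProbabilityTheory.cdf ν (e t)⌋₊ (n - 1) = i := congrArg Fin.val ht
  have h3 := ProbabilityTheory.cdf_nonneg ν (e t)
  have h4 := ProbabilityTheory.cdf_le_one ν (e t)
  have h5 := Nat.floor_le (mul_nonneg hn'.le h3)
  have h6 := Nat.lt_floor_add_one (n * ProbabilityTheory.cdf ν (e t))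
  constructor
  · rw [div_le_iff₀ hn', mul_comm]
    refine le_trans ?_ h5
    exact_mod_cast h2 ▸ min_le_left _ _
  · rw [le_div_iff₀ hn', mul_comm]
    rcases min_choice ⌊n * ProbabilityTheory.cdf ν (e t)⌋₊ (n - 1) with h | h
    · rw [h] at h2
      rw [← h2]
      exact h6.le
    · have h7 : ((i : ℕ) : ℝ) + 1 = n := by exact_mod_cast (by omega : (i : ℕ) + 1 = n)
      rw [h7]
      exact mul_le_of_le_one_right hn'.le h4

/-- Covering lemma.  Recipe: `ξ k : Om → Fin (n k)` from `unif`; for each `z`,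
`∫⁻ ω, ∑' k, ofReal (a z k (ξ k ω)) ≤ ∑' k, ofReal ((∑ i, a z k i) / n k) < ∞` (`lintegral_tsum`, every function on `Om`
is measurable), so the set of `ω` where the series diverges is null (`ae_lt_top`); the union over `z` is null
by `small`; pick `ω` outside. -/
theorem IsRVM.cov {μ : Measure Om} (hμ : IsRVM μ) (ι : Type) (hι : #ι < 𝔠) (n : ℕ → ℕ)
    (hn : ∀ k, 0 < n k) (a : ι → (k : ℕ) → Fin (n k) → ℝ) (ha0 : ∀ z k i, 0 ≤ a z k i)
    (ha : ∀ z, Summable fun k => (∑ i, a z k i) / (n k : ℝ)) :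
    ∃ ξ : (k : ℕ) → Fin (n k), ∀ z, Summable fun k => a z k (ξ k) := by
  have := hμ.prob
  choose ξ hξ using fun k => hμ.unif (n k) (hn k)
  have h1 : ∀ z k, ∫⁻ ω, ENNReal.ofReal (a z k (ξ k ω)) ∂μ ≤
      ENNReal.ofReal ((∑ i, a z k i) / (n k : ℝ)) := fun z k => by
    have hk : (0 : ℝ) < n k := by exact_mod_cast hn k
    rw [← lintegral_map (f := fun i => ENNReal.ofReal (a z k i)) (measurable_of_countable _)
      measurable_from_top, lintegral_fintype, div_eq_mul_inv,
      ENNReal.ofReal_mul (Finset.sum_nonneg fun i _ => ha0 z k i),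
      ENNReal.ofReal_sum_of_nonneg (fun i _ => ha0 z k i), Finset.sum_mul,
      ENNReal.ofReal_inv_of_pos hk, ENNReal.ofReal_natCast]
    refine Finset.sum_le_sum fun i _ => ?_
    rw [Measure.map_apply measurable_from_top (measurableSet_singleton i)]
    gcongr
    exact hξ k i
  have h2 : ∀ z, μ {ω | ¬ ∑' k, ENNReal.ofReal (a z k (ξ k ω)) < ∞} = 0 := fun z => by
    refine ae_iff.1 (ae_lt_top measurable_from_top (ne_top_of_le_ne_top ?_
      ((lintegral_tsum fun k => measurable_from_top.aemeasurable).trans_le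
        (ENNReal.tsum_le_tsum (h1 z)))))
    rw [← ENNReal.ofReal_tsum_of_nonneg (fun k => div_nonneg
      (Finset.sum_nonneg fun i _ => ha0 z k i) (Nat.cast_nonneg _)) (ha z)]
    exact ENNReal.ofReal_ne_top
  have h3 := hμ.small ι _ hι h2
  obtain ⟨ω, hω⟩ := (measure_eq_zero_iff_ae_notMem.1 h3).exists
  refine ⟨fun k => ξ k ω, fun z => ?_⟩
  have h4 : ∑' k, ENNReal.ofReal (a z k (ξ k ω)) < ∞ :=
    not_not.1 fun h => hω (Set.mem_iUnion.2 ⟨z, h⟩)
  simpa only [ENNReal.toReal_ofReal (ha0 z _ _)] using ENNReal.summable_toReal h4.ne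

/-- Exhaustion by small sets.  Recipe: a well-order `r` on `Om` of type `ord 𝔠` (`Cardinal.ord_eq`,
`Cardinal.card_typein_lt`: initial segments have size `< 𝔠`), an injection `j : β → Om`,
`I t = {z | r (j z) t}`; for fixed `z`, `{t | ¬ r (j z) t} ⊆ {t | r t (j z)} ∪ {j z}` is a union of `< 𝔠` singletons. -/
theorem IsRVM.exhaust {μ : Measure Om} (hμ : IsRVM μ) (β : Type) (hβ : #β ≤ 𝔠) :
    ∃ I : Om → Set β, (∀ t, #(I t) < 𝔠) ∧ ∀ z, ∀ᵐ t ∂μ, z ∈ I t := by
  have hO : #Om = 𝔠 := Cardinal.mk_real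
  obtain ⟨r, wo, hr⟩ := Cardinal.exists_ord_eq Om
  obtain ⟨j⟩ : Nonempty (β ↪ Om) := (Cardinal.le_def _ _).1 (hO ▸ hβ)
  have hseg : ∀ t, #{s | r s t} < 𝔠 := fun t => by
    have := Cardinal.card_typein_lt t hr
    rwa [hO, Ordinal.card_typein] at this
  refine ⟨fun t => {z | r (j z) t}, fun t => ?_, fun z => ?_⟩
  · exact (Cardinal.mk_preimage_of_injective j {s | r s t} j.injective).trans_lt (hseg t)
  · have h1 := hμ.small {s | r s (j z)} (fun s => {s.1}) (hseg _) fun s => hμ.atom s.1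
    refine measure_mono_null (fun t ht => ?_) (measure_union_null h1 (hμ.atom (j z)))
    rcases trichotomous_of r t (j z) with h | h | h
    · exact Or.inl (Set.mem_iUnion.2 ⟨⟨t, h⟩, rfl⟩)
    · exact Or.inr h
    · exact absurd h ht

end Crest.Agent.R114
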