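import Mathlib

/-! # R114/Ros1 : the combinatorial core of Rosenthal's `ℓ₁` theorem. -/

set_option autoImplicit false
open Filter Topology

namespace Crest.Agent.R114

/-- A decreasing chain of infinite sets together with a diagonal sequence. -/
theorem ros1_chain (Q : ℕ → ℕ → Set ℕ → Prop) (M : Set ℕ) (hM : M.Infinite)
    (h : ∀ i j L, L ⊆ M → L.Infinite → ∃ L' ⊆ L, L'.Infinite ∧ Q i j L') :
    ∃ (n : ℕ → ℕ) (Ls : ℕ → Set ℕ), StrictMono n ∧ (∀ i, n i ∈ M) ∧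
      (∀ i, Ls i ⊆ M ∧ (Ls i).Infinite ∧ Q i (n i) (Ls i)) ∧ ∀ i i', i < i' → n i' ∈ Ls i := by
  have step : ∀ (i : ℕ) (L : {L : Set ℕ // L ⊆ M ∧ L.Infinite}),
      ∃ (j : ℕ) (L' : {L : Set ℕ // L ⊆ M ∧ L.Infinite}), j ∈ L.1 ∧ L'.1 ⊆ L.1 ∧
        (∀ m ∈ L'.1, j < m) ∧ Q i j L'.1 := by
    rintro i ⟨L, hL, hLi⟩
    obtain ⟨j, hj⟩ := hLi.nonempty
    obtain ⟨L', h1, h2, h3⟩ := h i j (L \ Set.Iic j) (Set.sdiff_subset.trans hL)
      (hLi.sdiff (Set.finite_Iic j))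
    exact ⟨j, ⟨L', h1.trans (Set.sdiff_subset.trans hL), h2⟩, hj, h1.trans Set.sdiff_subset,
      fun m hm => not_le.1 (h1 hm).2, h3⟩
  choose j nx h1 h2 h3 h4 using step
  let st : ℕ → {L : Set ℕ // L ⊆ M ∧ L.Infinite} :=
    fun i => Nat.rec ⟨M, le_rfl, hM⟩ (fun i L => nx i L) i
  have hanti : Antitone fun i => (st i).1 := antitone_nat_of_succ_le fun i => h2 i (st i)
  refine ⟨fun i => j i (st i), fun i => (st (i + 1)).1, strictMono_nat_of_lt_succ fun i =>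
    h3 i (st i) _ (h1 (i + 1) (st (i + 1))), fun i => (st i).2.1 (h1 i (st i)),
    fun i => ⟨(st (i + 1)).2.1, (st (i + 1)).2.2, h4 i (st i)⟩,
    fun i i' hi => hanti hi (h1 i' (st i'))⟩

theorem ros1_diff {n : ℕ → ℕ} {Ls : ℕ → Set ℕ} (h : ∀ i i', i < i' → n i' ∈ Ls i) (i : ℕ) :
    (Set.range n \ Ls i).Finite := by
  refine ((Set.finite_Iic i).image n).subset ?_
  rintro _ ⟨⟨i', rfl⟩, hi⟩
  exact ⟨i', not_lt.1 fun h' => hi (h i i' h'), rfl⟩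

/-- Diagonal lemma for countably many dense, hereditary properties of infinite sets of naturals.
Recipe: `L 0 ⊇ L 1 ⊇ …` infinite with `P i (L i)`, `L 0 ⊆ M`; pick `n i ∈ L i` strictly increasing. -/
theorem exists_diag (P : ℕ → Set ℕ → Prop) (M : Set ℕ) (hM : M.Infinite)
    (hher : ∀ i L L', P i L → L'.Infinite → (L' \ L).Finite → P i L')
    (hdense : ∀ i L, L ⊆ M → L.Infinite → ∃ L' ⊆ L, L'.Infinite ∧ P i L') :
    ∃ L ⊆ M, L.Infinite ∧ ∀ i, P i L := by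
  obtain ⟨n, Ls, h1, h2, h3, h4⟩ := ros1_chain (fun i _ L => P i L) M hM
    fun i _ L hL hLi => hdense i L hL hLi
  have hi := Set.infinite_range_of_injective h1.injective
  exact ⟨Set.range n, by rintro _ ⟨i, rfl⟩; exact h2 i, hi,
    fun i => hher i _ _ (h3 i).2.2 hi (ros1_diff h4 i)⟩

variable {S : Type*}

/-- `T` is wild on `L`: no infinite subset of `L` makes the pairs `(A n, B n)` converge on `T`. -/
def Wild (A B : ℕ → Set S) (T : Set S) (L : Set ℕ) : Prop :=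
  ∀ L' ⊆ L, L'.Infinite → ∃ s ∈ T, {n ∈ L' | s ∈ A n}.Infinite ∧ {n ∈ L' | s ∈ B n}.Infinite

/-- `T` is tame on `L`: the pairs converge on `T` along `L`. -/
def Tame (A B : ℕ → Set S) (T : Set S) (L : Set ℕ) : Prop :=
  ∀ s ∈ T, {n ∈ L | s ∈ A n}.Finite ∨ {n ∈ L | s ∈ B n}.Finite

theorem Wild.mono {A B : ℕ → Set S} {T : Set S} {L L' : Set ℕ} (h : Wild A B T L) (hL : L' ⊆ L) :
    Wild A B T L' := fun L'' h1 h2 => h L'' (h1.trans hL) h2

theorem Tame.mono {A B : ℕ → Set S} {T : Set S} {L L' : Set ℕ} (h : Tame A B T L) (hL : L' ⊆ L) :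
    Tame A B T L' := fun s hs =>
  (h s hs).imp (fun h => h.subset fun _ hn => ⟨hL hn.1, hn.2⟩)
    (fun h => h.subset fun _ hn => ⟨hL hn.1, hn.2⟩)

theorem ros1_decide (A B : ℕ → Set S) (T : Set S) (L : Set ℕ) (hL : L.Infinite) :
    ∃ L' ⊆ L, L'.Infinite ∧ (Wild A B T L' ∨ Tame A B T L') := by
  by_cases h : Wild A B T L
  · exact ⟨L, le_rfl, hL, Or.inl h⟩
  · simp only [Wild, not_forall] at h
    obtain ⟨L', h1, h2, h3⟩ := h
    refine ⟨L', h1, h2, Or.inr fun s hs => ?_⟩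
    by_contra hc
    rw [not_or] at hc
    exact h3 ⟨s, hs, hc.1, hc.2⟩

theorem ros1_decide_fin (A B : ℕ → Set S) {𝒰 : Set (Set S)} (h𝒰 : 𝒰.Finite) (L : Set ℕ)
    (hL : L.Infinite) : ∃ L' ⊆ L, L'.Infinite ∧ ∀ T ∈ 𝒰, Wild A B T L' ∨ Tame A B T L' := by
  induction 𝒰, h𝒰 using Set.Finite.induction_on with
  | empty => exact ⟨L, le_rfl, hL, by simp⟩
  | @insert T 𝒰 _ _ ih =>
    obtain ⟨L₁, h1, h2, h3⟩ := ih
    obtain ⟨L₂, h4, h5, h6⟩ := ros1_decide A B T L₁ h2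
    refine ⟨L₂, h4.trans h1, h5, ?_⟩
    rintro U (rfl | hU)
    · exact h6
    · exact (h3 U hU).imp (·.mono h4) (·.mono h4)

/-- a wild set cannot have infinitely many tame traces along a chain -/
theorem ros1_fin_tame {A B C : ℕ → Set S} (hC : C = A ∨ C = B) {T : Set S} {L : Set ℕ}
    (hw : Wild A B T L) {n : ℕ → ℕ} {Ls : ℕ → Set ℕ} (h1 : StrictMono n) (h2 : ∀ i, n i ∈ L)
    (h4 : ∀ i i', i < i' → n i' ∈ Ls i) : {i | Tame A B (T ∩ C (n i)) (Ls i)}.Finite := by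
  by_contra hI
  obtain ⟨s, hs, hA, hB⟩ := hw (n '' {i | Tame A B (T ∩ C (n i)) (Ls i)})
    (by rintro _ ⟨i, -, rfl⟩; exact h2 i) (Set.Infinite.image h1.injective.injOn hI)
  obtain ⟨_, ⟨i, hi, rfl⟩, hsi⟩ : ∃ m, m ∈ n '' {i | Tame A B (T ∩ C (n i)) (Ls i)} ∧ s ∈ C m := by
    rcases hC with rfl | rfl
    · exact hA.nonempty
    · exact hB.nonempty
  have key : ∀ D : ℕ → Set S, {m ∈ Ls i | s ∈ D m}.Finite →
      {m ∈ n '' {i | Tame A B (T ∩ C (n i)) (Ls i)} | s ∈ D m}.Finite := by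
    intro D hD
    refine (hD.union (ros1_diff h4 i)).subset ?_
    rintro _ ⟨⟨i', -, rfl⟩, hm⟩
    by_cases h : n i' ∈ Ls i
    · exact Or.inl ⟨h, hm⟩
    · exact Or.inr ⟨⟨i', rfl⟩, h⟩
  rcases hi s ⟨hs, hsi⟩ with h | h
  · exact hA (key A h)
  · exact hB (key B h)

/-- Splitting step.  Recipe: both `Wild` and `Tame` pass to infinite almost-subsets, and any `T` is decided (wild or
tame) on some infinite subset of any infinite set.  Build `n 0 < n 1 < …` and `L ⊇ L 0 ⊇ L 1 ⊇ …`, `n (i+1) ∈ L i`,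
`n 0 ∈ L`, with all `T ∩ A (n i)`, `T ∩ B (n i)` (`T ∈ 𝒯`) decided on `L i`.  Colour `i` by the set of pairs `(T, side)`
decided wild (finitely many colours), take an infinite monochromatic set `I` of indices, `L'' = n '' I`.  If the colour of
`(T, A)` is tame: `T` wild on `L''` gives `s ∈ T` in infinitely many `A n` and `B n`, `n ∈ L''`; take `i ∈ I` with
`s ∈ A (n i)`; `L'' \ L i` is finite, contradicting tameness of `T ∩ A (n i)` on `L i`.  So everything is wild;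
`j = n i₀` for `i₀ ∈ I`, `L' = L i₀ ∩ Ioi j`. -/
theorem wild_split (A B : ℕ → Set S) (𝒯 : Set (Set S)) (h𝒯 : 𝒯.Finite) (L : Set ℕ)
    (hL : L.Infinite) (hw : ∀ T ∈ 𝒯, Wild A B T L) :
    ∃ j ∈ L, ∃ L' ⊆ L, L'.Infinite ∧ (∀ n ∈ L', j < n) ∧
      ∀ T ∈ 𝒯, Wild A B (T ∩ A j) L' ∧ Wild A B (T ∩ B j) L' := by
  obtain ⟨n, Ls, h1, h2, h3, h4⟩ := ros1_chain (fun _ j L' =>
    ∀ U ∈ (fun T => T ∩ A j) '' 𝒯 ∪ (fun T => T ∩ B j) '' 𝒯, Wild A B U L' ∨ Tame A B U L') L hL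
    fun _ j L' _ hL' => ros1_decide_fin A B ((h𝒯.image _).union (h𝒯.image _)) L' hL'
  have hfin : (⋃ T ∈ 𝒯, ({i | Tame A B (T ∩ A (n i)) (Ls i)} ∪
      {i | Tame A B (T ∩ B (n i)) (Ls i)})).Finite :=
    h𝒯.biUnion fun T hT => (ros1_fin_tame (Or.inl rfl) (hw T hT) h1 h2 h4).union
      (ros1_fin_tame (Or.inr rfl) (hw T hT) h1 h2 h4)
  obtain ⟨i, hi⟩ := hfin.exists_notMem
  simp only [Set.mem_iUnion, Set.mem_union, Set.mem_ofPred_eq, not_exists, not_or] at hi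
  refine ⟨n i, h2 i, Ls i \ Set.Iic (n i), Set.sdiff_subset.trans (h3 i).1,
    (h3 i).2.1.sdiff (Set.finite_Iic _), fun m hm => not_le.1 hm.2, fun T hT => ⟨?_, ?_⟩⟩
  · exact (((h3 i).2.2 _ (Or.inl ⟨T, hT, rfl⟩)).resolve_right (hi T hT).1).mono Set.sdiff_subset
  · exact (((h3 i).2.2 _ (Or.inr ⟨T, hT, rfl⟩)).resolve_right (hi T hT).2).mono Set.sdiff_subset

/-- Boolean independent subsequence.  Recipe: iterate `wild_split` on the state `(𝒯, L)` starting from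
`({univ}, M)`, `𝒯' = {T ∩ A j, T ∩ B j}`; wild sets on infinite `L` are nonempty. -/
theorem indep_of_wild (A B : ℕ → Set S) (M : Set ℕ) (hM : M.Infinite)
    (hw : Wild A B Set.univ M) :
    ∃ φ : ℕ → ℕ, StrictMono φ ∧ ∀ (N : ℕ) (b : ℕ → Bool), ∃ s : S,
      ∀ n < N, s ∈ (if b n then A (φ n) else B (φ n)) := by
  let St := {p : Set (Set S) × Set ℕ // p.1.Finite ∧ p.2.Infinite ∧ ∀ T ∈ p.1, Wild A B T p.2}
  have step : ∀ p : St, ∃ (j : ℕ) (q : St), j ∈ p.1.2 ∧ (∀ m ∈ q.1.2, j < m) ∧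
      ∀ T ∈ p.1.1, T ∩ A j ∈ q.1.1 ∧ T ∩ B j ∈ q.1.1 := by
    rintro ⟨⟨𝒯, L⟩, h1, h2, h3⟩
    obtain ⟨j, hj, L', -, h5, h6, h7⟩ := wild_split A B 𝒯 h1 L h2 h3
    refine ⟨j, ⟨((fun T => T ∩ A j) '' 𝒯 ∪ (fun T => T ∩ B j) '' 𝒯, L'),
      (h1.image _).union (h1.image _), h5, ?_⟩, hj, h6,
      fun T hT => ⟨Or.inl ⟨T, hT, rfl⟩, Or.inr ⟨T, hT, rfl⟩⟩⟩
    rintro _ (⟨T, hT, rfl⟩ | ⟨T, hT, rfl⟩)
    · exact (h7 T hT).1
    · exact (h7 T hT).2
  choose j nx h1 h2 h3 using step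
  let st : ℕ → St := fun i => Nat.rec ⟨({Set.univ}, M), Set.finite_singleton _, hM,
    by rintro _ rfl; exact hw⟩ (fun _ p => nx p) i
  refine ⟨fun i => j (st i), strictMono_nat_of_lt_succ fun i => h2 (st i) _ (h1 (st (i + 1))),
    fun N b => ?_⟩
  have key : ∃ T ∈ (st N).1.1, ∀ s ∈ T, ∀ n < N,
      s ∈ (if b n then A (j (st n)) else B (j (st n))) := by
    induction N with
    | zero => exact ⟨Set.univ, rfl, fun _ _ n hn => absurd hn (Nat.not_lt_zero n)⟩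
    | succ N ih =>
      obtain ⟨T, hT, h⟩ := ih
      refine ⟨T ∩ (if b N then A (j (st N)) else B (j (st N))), ?_, fun s hs n hn => ?_⟩
      · split_ifs
        · exact (h3 (st N) T hT).1
        · exact (h3 (st N) T hT).2
      · rcases Nat.lt_succ_iff_lt_or_eq.1 hn with hn | rfl
        · exact h s hs.1 n hn
        · exact hs.2
  obtain ⟨T, hT, h⟩ := key
  obtain ⟨s, hs, -⟩ := (st N).2.2.2 T hT _ le_rfl (st N).2.2.1
  exact ⟨s, h s hs⟩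

end Crest.Agent.R114
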