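import Crest.Agent.R114.Adj
import Crest.Agent.R114.Ros1

/-! # R114/Ros2 : Rosenthal's `ℓ₁` theorem in a dual space (real or complex). -/

set_option autoImplicit false
open Filter Topology Finset

namespace Crest.Agent.R114

variable {𝕜 : Type} [RCLike 𝕜] {X : Type*} [NormedAddCommGroup X] [NormedSpace 𝕜 X]

/-- Independent disc pairs give `ℓ₁`.  Recipe: given `s, c`, take `F ⊆ s` from `exists_quarter`, `N` above `s`,
`x` with values near `c₁` on `F` and near `c₂` off `F`, `x'` with values near `c₂` everywhere;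
`2 ‖∑ c k • u k‖ ≥ ‖∑ c k (u k x - u k x')‖ ≥ ‖c₁ - c₂‖/4 ∑ ‖c k‖ - 2 r ∑ ‖c k‖ ≥ r/2 ∑ ‖c k‖`. -/
theorem hasL1_of_indep (u : ℕ → StrongDual 𝕜 X) (hu : ∀ n, ‖u n‖ ≤ 1) (c₁ c₂ : 𝕜) (r : ℝ)
    (hr : 0 < r) (hc : 10 * r ≤ ‖c₁ - c₂‖)
    (h : ∀ (N : ℕ) (b : ℕ → Bool), ∃ x : X, ‖x‖ ≤ 1 ∧
      ∀ n < N, ‖u n x - (if b n then c₁ else c₂)‖ ≤ r) : HasL1 𝕜 X := by
  classical
  refine ⟨u, r / 4, by positivity, hu, fun s c => ?_⟩
  obtain ⟨F, hF, h4⟩ := exists_quarter s c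
  obtain ⟨x, hx, h1⟩ := h (s.sup id + 1) fun n => decide (n ∈ F)
  obtain ⟨x', hx', h2⟩ := h (s.sup id + 1) fun _ => false
  have hN : ∀ k ∈ s, k < s.sup id + 1 := fun k hk => Nat.lt_succ_of_le (le_sup (f := id) hk)
  have e : (∑ k ∈ F, c k) * (c₁ - c₂) = (∑ k ∈ s, c k • u k) x - (∑ k ∈ s, c k • u k) x' -
      ∑ k ∈ s, c k * ((u k x - if k ∈ F then c₁ else c₂) - (u k x' - c₂)) := by
    simp only [_root_.sum_apply, smul_apply, smul_eq_mul]
    rw [← sum_sub_distrib, ← sum_sub_distrib, sum_mul, ← inter_eq_right.mpr hF, ← sum_ite_mem,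
      inter_eq_right.mpr hF]
    refine sum_congr rfl fun k _ => ?_
    split_ifs <;> ring
  have b1 := (∑ k ∈ s, c k • u k).unit_le_opNorm x hx
  have b2 := (∑ k ∈ s, c k • u k).unit_le_opNorm x' hx'
  have b3 : ‖∑ k ∈ s, c k * ((u k x - if k ∈ F then c₁ else c₂) - (u k x' - c₂))‖ ≤
      (∑ k ∈ s, ‖c k‖) * (2 * r) := by
    rw [sum_mul]
    refine norm_sum_le_of_le _ fun k hk => ?_
    rw [norm_mul]
    refine mul_le_mul_of_nonneg_left ((norm_sub_le _ _).trans ?_) (norm_nonneg _)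
    have a1 := h1 k (hN k hk)
    have a2 := h2 k (hN k hk)
    simp only [decide_eq_true_eq, Bool.false_eq_true, if_false] at a1 a2
    linarith
  have b4 : ‖∑ k ∈ F, c k‖ * ‖c₁ - c₂‖ ≤
      2 * ‖∑ k ∈ s, c k • u k‖ + (∑ k ∈ s, ‖c k‖) * (2 * r) := by
    rw [← norm_mul, e]
    refine (norm_sub_le _ _).trans (add_le_add ((norm_sub_le _ _).trans ?_) b3)
    linarith
  have b5 := mul_le_mul_of_nonneg_left hc (norm_nonneg (∑ k ∈ F, c k))
  have b6 := mul_le_mul_of_nonneg_left h4 hr.le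
  linarith

/-- Rosenthal–Dor.  Recipe: `S = {x // ‖x‖ ≤ 1}`; enumerate the triples `(c₁, c₂, r)` with `c₁, c₂` in a countable dense
set, `r` positive rational (e.g. `r = 1/(k+1)`); `A n = {x | ‖u n x - c₁‖ ≤ r}`, `B n` likewise.  If for a triple with
`10 r ≤ ‖c₁ - c₂‖` and an infinite `M` the set `univ` is wild: `indep_of_wild`, `hasL1_of_indep`.  Otherwise
`exists_diag` (`P i L` = the `i`-th triple is not admissible or `univ` is tame on `L`) gives `L`; `φ = Nat.nth (· ∈ L)`;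
for `‖x‖ ≤ 1` the bounded sequence `u (φ n) x` has a unique cluster point (two distinct ones contradict tameness), so it
converges (`IsCompact.tendsto_nhds_of_unique_mapClusterPt`); scale for general `x`; the limit functional from
`exists_ultralim` with `hyperfilter ℕ` (uniqueness of limits), or directly. -/
theorem rosenthal (u : ℕ → StrongDual 𝕜 X) (hu : ∀ n, ‖u n‖ ≤ 1) :
    (∃ φ : ℕ → ℕ, StrictMono φ ∧ ∃ f : StrongDual 𝕜 X,
      ∀ x, Tendsto (fun n => u (φ n) x) atTop (𝓝 (f x))) ∨ HasL1 𝕜 X := by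
  classical
  by_cases hL : HasL1 𝕜 X
  · exact Or.inr hL
  left
  obtain ⟨d, hd⟩ := TopologicalSpace.exists_dense_seq 𝕜
  obtain ⟨e, he⟩ := exists_surjective_nat (ℕ × ℕ)
  let A : 𝕜 → ℝ → ℕ → Set {x : X // ‖x‖ ≤ 1} := fun c r n => {x | ‖u n x - c‖ ≤ r}
  obtain ⟨L, -, hLi, hP⟩ := exists_diag (fun i L => d (e i).1 = d (e i).2 ∨
      Tame (A (d (e i).1) (‖d (e i).1 - d (e i).2‖ / 10))
        (A (d (e i).2) (‖d (e i).1 - d (e i).2‖ / 10)) Set.univ L) Set.univ Set.infinite_univ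
    (fun i L L' h _ hf => h.imp_right fun h s hs => (h s hs).imp
      (fun a => (a.union hf).subset fun n hn => by
        by_cases c : n ∈ L
        · exact Or.inl ⟨c, hn.2⟩
        · exact Or.inr ⟨hn.1, c⟩)
      (fun a => (a.union hf).subset fun n hn => by
        by_cases c : n ∈ L
        · exact Or.inl ⟨c, hn.2⟩
        · exact Or.inr ⟨hn.1, c⟩))
    (fun i L _ hLi => by
      by_cases hc : d (e i).1 = d (e i).2
      · exact ⟨L, subset_rfl, hLi, Or.inl hc⟩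
      by_contra hcon
      have hw : Wild (A (d (e i).1) (‖d (e i).1 - d (e i).2‖ / 10))
          (A (d (e i).2) (‖d (e i).1 - d (e i).2‖ / 10)) Set.univ L := fun L' h1 h2 => by
        by_contra h3
        refine hcon ⟨L', h1, h2, Or.inr fun s hs => ?_⟩
        by_contra h4
        rw [not_or] at h4
        exact h3 ⟨s, hs, h4⟩
      obtain ⟨φ, -, hφ⟩ := indep_of_wild _ _ L hLi hw
      refine hL (hasL1_of_indep (fun n => u (φ n)) (fun n => hu _) (d (e i).1) (d (e i).2)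
        (‖d (e i).1 - d (e i).2‖ / 10) (by have := norm_sub_pos_iff.mpr hc; positivity)
        (by linarith) fun N b => ?_)
      obtain ⟨s, hs⟩ := hφ N b
      refine ⟨s.1, s.2, fun n hn => ?_⟩
      have := hs n hn
      split_ifs at this ⊢ <;> exact this)
  have hφ : StrictMono (Nat.nth (· ∈ L)) := Nat.nth_strictMono hLi
  have hφL : ∀ n, Nat.nth (· ∈ L) n ∈ L := Nat.nth_mem_of_infinite hLi
  generalize Nat.nth (· ∈ L) = φ at hφ hφL
  obtain ⟨f, -, hf⟩ := exists_ultralim (fun n => u (φ n)) 1 (fun n => hu _) (hyperfilter ℕ)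
  have hinf : ∀ (x : {x : X // ‖x‖ ≤ 1}) (p c : 𝕜) (r : ℝ),
      MapClusterPt p atTop (fun n => u (φ n) x) → ‖p - c‖ < r →
      {n ∈ L | x ∈ A c r n}.Infinite := by
    intro x p c r hp hc
    have h1 := mapClusterPt_iff_frequently.mp hp (Metric.closedBall c r)
      (Metric.closedBall_mem_nhds_of_mem (mem_ball_iff_norm.mpr hc))
    rw [Nat.frequently_atTop_iff_infinite] at h1
    refine (h1.image hφ.injective.injOn).mono ?_
    rintro _ ⟨n, hn, rfl⟩
    exact ⟨hφL n, mem_closedBall_iff_norm.mp hn⟩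
  have key : ∀ x : X, ‖x‖ ≤ 1 → Tendsto (fun n => u (φ n) x) atTop (𝓝 (f x)) := by
    intro x hx
    refine (isCompact_closedBall (0 : 𝕜) 1).tendsto_nhds_of_unique_mapClusterPt
      (Eventually.of_forall fun n => mem_closedBall_zero_iff.mpr
        (((u (φ n)).unit_le_opNorm x hx).trans (hu _))) fun p _ hp => ?_
    have hq : MapClusterPt (f x) atTop fun n => u (φ n) x :=
      mapClusterPt_iff_ultrafilter.mpr ⟨hyperfilter ℕ, Nat.hyperfilter_le_atTop, hf x⟩
    by_contra hne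
    have hδ : 0 < ‖p - f x‖ / 100 := by have := norm_sub_pos_iff.mpr hne; positivity
    obtain ⟨a, ha⟩ := hd.exists_dist_lt p hδ
    obtain ⟨b, hb⟩ := hd.exists_dist_lt (f x) hδ
    obtain ⟨i, hi⟩ := he (a, b)
    rw [dist_eq_norm] at ha hb
    have h1 : ‖p - f x‖ ≤ ‖p - d a‖ + ‖d a - d b‖ + ‖f x - d b‖ := by
      rw [norm_sub_rev (f x)]
      exact (norm_sub_le_norm_sub_add_norm_sub p (d b) (f x)).trans
        (add_le_add_left (norm_sub_le_norm_sub_add_norm_sub _ _ _) _)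
    have h2 := hP i
    simp only [hi] at h2
    rcases h2 with h2 | h2
    · rw [h2, sub_self, norm_zero] at h1
      rw [h2] at ha
      linarith
    · rcases h2 ⟨x, hx⟩ trivial with h3 | h3
      · exact hinf ⟨x, hx⟩ p _ _ hp (by linarith) h3
      · exact hinf ⟨x, hx⟩ (f x) _ _ hq (by linarith) h3
  refine ⟨φ, hφ, f, fun x => ?_⟩
  have h0 : 0 < ‖x‖ + 1 := by positivity
  have h1 : ((‖x‖ + 1 : ℝ) : 𝕜) ≠ 0 := RCLike.ofReal_ne_zero.mpr h0.ne'
  have h2 := (key (((‖x‖ + 1 : ℝ) : 𝕜)⁻¹ • x) (by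
    rw [norm_smul, norm_inv, RCLike.norm_ofReal, abs_of_pos h0, inv_mul_le_iff₀ h0]
    linarith)).const_mul ((‖x‖ + 1 : ℝ) : 𝕜)
  simpa only [map_smul, smul_eq_mul, mul_inv_cancel_left₀ h1] using h2

end Crest.Agent.R114
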