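import Crest.Agent.R114.DR
import Crest.Agent.R114.RVM
import Crest.Agent.R114.Ros2
import Crest.Agent.R114.L1c
import Crest.Agent.R114.Fub

/-! # R114/Phi : functionals killing small sets; the theorem for S0153. -/

set_option autoImplicit false
open Filter Topology Finset MeasureTheory
open scoped Cardinal

namespace Crest.Agent.R114

variable {𝕜 : Type} [RCLike 𝕜] {X : Type*} [NormedAddCommGroup X] [NormedSpace 𝕜 X]

theorem dr_sub {E : Type*} [NormedAddCommGroup E] [NormedSpace 𝕜 E] (Y : Submodule 𝕜 E)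
    (hY : ¬ FiniteDimensional 𝕜 Y) (n : ℕ) :
    ∃ h : Fin n → Y, (∀ i, 1 / 3 ≤ ‖(h i : E)‖) ∧
      ∀ ψ : StrongDual 𝕜 E, ∑ i, ‖ψ (h i)‖ ^ 2 ≤ ‖ψ‖ ^ 2 := by
  obtain ⟨h, h1, h2⟩ := dvoretzky_rogers (𝕜 := 𝕜) (E := ↥Y) hY n
  refine ⟨h, h1, fun ψ => (h2 (ψ.comp Y.subtypeL)).trans
    (pow_le_pow_left₀ (norm_nonneg _) ?_ 2)⟩
  exact ContinuousLinearMap.opNorm_le_bound _ (norm_nonneg _) fun y => ψ.le_opNorm y

/-- Recipe: `Y = span (range g)`; for each `k`, `dvoretzky_rogers` in `↥Y` with `n k = 4^k` (evaluation at `x` is a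
functional on `Y` of norm `≤ ‖x‖`).  Index type `ι = ↥J`, `J = {z ∈ I | ∃ x, z = fun n => g n x}` (size `< 𝔠`), choose
a representative `x z`; `a z k i = 2^k ‖h k i (x z)‖²` has averages `≤ ‖x z‖²/2^k`; `IsRVM.cov`; members of `Y` take the
same value at `x` and `x z` when `g n x = g n (x z)` for all `n` (`Submodule.span_induction`);
`‖h‖ ≤ (2^k ‖h‖² + 2^{-k})/2`. -/
theorem exists_summable_seq {μ : Measure Om} (hμ : IsRVM μ) (g : ℕ → StrongDual 𝕜 X)
    (hg : ¬ FiniteDimensional 𝕜 (Submodule.span 𝕜 (Set.range g))) (I : Set (ℕ → 𝕜))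
    (hI : #I < 𝔠) :
    ∃ h : ℕ → StrongDual 𝕜 X, (∀ k, h k ∈ Submodule.span 𝕜 (Set.range g)) ∧
      (∀ k, 1 / 3 ≤ ‖h k‖) ∧ ∀ x : X, (fun n => g n x) ∈ I → Summable fun k => ‖h k x‖ := by
  set Y := Submodule.span 𝕜 (Set.range g) with hY
  choose H hH1 hH2 using fun k : ℕ => dr_sub Y hg (4 ^ k)
  have hev : ∀ (k : ℕ) (x : X), ∑ i, ‖(H k i : StrongDual 𝕜 X) x‖ ^ 2 ≤ ‖x‖ ^ 2 := fun k x =>
    (hH2 k (NormedSpace.inclusionInDoubleDual 𝕜 X x)).trans
      (pow_le_pow_left₀ (norm_nonneg _) (NormedSpace.double_dual_bound 𝕜 X x) 2)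
  let J : Set (ℕ → 𝕜) := {z ∈ I | ∃ x : X, z = fun n => g n x}
  have hJ : #J < 𝔠 := (Cardinal.mk_le_mk_of_subset fun z hz => hz.1).trans_lt hI
  choose xx hxx using fun z : J => z.2.2
  obtain ⟨ξ, hξ⟩ := hμ.cov J hJ (fun k => 4 ^ k) (fun k => by positivity)
    (fun z k i => 2 ^ k * ‖(H k i : StrongDual 𝕜 X) (xx z)‖ ^ 2) (fun z k i => by positivity)
    (fun z => by
      refine Summable.of_nonneg_of_le (fun k => by positivity) (fun k => ?_)
        ((summable_geometric_two).mul_left (‖xx z‖ ^ 2))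
      rw [← mul_sum, div_le_iff₀ (by positivity)]
      have h1 := hev k (xx z)
      have h2 : ((4 ^ k : ℕ) : ℝ) = 2 ^ k * 2 ^ k := by
        rw [← mul_pow]; norm_num
      have h3 : (1 / 2 : ℝ) ^ k * 2 ^ k = 1 := by rw [← mul_pow]; norm_num
      calc _ ≤ 2 ^ k * ‖xx z‖ ^ 2 := by gcongr
        _ = ‖xx z‖ ^ 2 * ((1 / 2 : ℝ) ^ k * 2 ^ k) * 2 ^ k := by rw [h3]; ring
        _ = _ := by rw [h2]; ring)
  refine ⟨fun k => H k (ξ k), fun k => (H k (ξ k)).2, fun k => hH1 k (ξ k), fun x hx => ?_⟩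
  let z : J := ⟨fun n => g n x, hx, x, rfl⟩
  have hz : ∀ y ∈ Y, y x = y (xx z) := by
    intro y hy
    induction hy using Submodule.span_induction with
    | mem y hy => obtain ⟨n, rfl⟩ := hy; exact congrFun (hxx z) n
    | zero => simp
    | add a b _ _ ha hb => simp [ha, hb]
    | smul c a _ ha => simp [ha]
  refine Summable.of_nonneg_of_le (fun k => norm_nonneg _) (fun k => ?_)
    ((hξ z).add summable_geometric_two)
  rw [hz _ (H k (ξ k)).2]
  set a := ‖(H k (ξ k) : StrongDual 𝕜 X) (xx z)‖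
  have h3 : (1 / 2 : ℝ) ^ k * 2 ^ k = 1 := by rw [← mul_pow]; norm_num
  have h4 : (0 : ℝ) < 2 ^ k := by positivity
  have h5 : (0 : ℝ) < (1 / 2) ^ k := by positivity
  have h6 : 0 ≤ a := norm_nonneg _
  by_cases h7 : a ≤ (1 / 2) ^ k
  · have : 0 ≤ 2 ^ k * a ^ 2 := by positivity
    linarith
  · have h8 : 1 ≤ a * 2 ^ k := by rw [← h3]; gcongr; linarith
    nlinarith

/-- Recipe: `S` from `exists_norming_set g`; apply `exists_summable_seq` to `I ∪ (T '' S)` (size `< 𝔠`: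
`Cardinal.add_lt_of_lt`, countable image); `exists_JRseq` (the span of `h` lies in the span of `g`);
`blocks_of_not_SQ` gives blocks `u n` in the span of `g`, `‖u n‖ ≤ 1`, `‖u n x₀‖ ≥ ε`, and `u n x → 0` when `T x ∈ I`
(`‖u n x‖ ≤ B ∑_{k ≥ N n} ‖h (φ k) x‖`, `tendsto_sum_nat_add`/`summable_iff_vanishing_norm`); `rosenthal`: the `ℓ₁` case contradicts
`SQ_of_hasL1`; otherwise normalize the limit. -/
theorem exists_phi [CompleteSpace X] {μ : Measure Om} (hμ : IsRVM μ) (hX : ¬ SQ 𝕜 X)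
    (g : ℕ → StrongDual 𝕜 X) (hg : ¬ FiniteDimensional 𝕜 (Submodule.span 𝕜 (Set.range g)))
    (I : Set (ℕ → 𝕜)) (hI : #I < 𝔠) :
    ∃ f : StrongDual 𝕜 X, ‖f‖ = 1 ∧ SeqLim g f ∧ ∀ x : X, (fun n => g n x) ∈ I → f x = 0 := by
  obtain ⟨S, hS0, hS1, hS2⟩ := exists_norming_set g
  have hI' : #(I ∪ (fun x : X => fun n => g n x) '' S : Set (ℕ → 𝕜)) < 𝔠 := by
    refine (Cardinal.mk_union_le _ _).trans_lt (Cardinal.add_lt_of_lt Cardinal.aleph0_le_continuum hI ?_)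
    exact ((hS0.image _).le_aleph0).trans_lt Cardinal.aleph0_lt_continuum
  obtain ⟨h, h1, h2, h3⟩ := exists_summable_seq hμ g hg _ hI'
  have hle : Submodule.span 𝕜 (Set.range h) ≤ Submodule.span 𝕜 (Set.range g) :=
    Submodule.span_le.mpr (by rintro _ ⟨k, rfl⟩; exact h1 k)
  obtain ⟨φ, hφ, hJ⟩ := exists_JRseq h (1 / 3) (by norm_num) h2 S hS1
    (fun y hy => hS2 y (hle hy)) fun s hs =>
      tendsto_zero_iff_norm_tendsto_zero.mpr (h3 s (Or.inr ⟨s, hs, rfl⟩)).tendsto_atTop_zero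
  obtain ⟨x₀, ε, B, N, c, hε, hN, hc, hb⟩ := blocks_of_not_SQ hX _ hJ
  set u : ℕ → StrongDual 𝕜 X := fun n => ∑ k ∈ Ico (N n) (N (n + 1)), c k • h (φ k) with hu
  have hu1 : ∀ n, u n ∈ Submodule.span 𝕜 (Set.range g) := fun n =>
    Submodule.sum_mem _ fun k _ => Submodule.smul_mem _ _ (h1 _)
  have hB : 0 ≤ B := (norm_nonneg _).trans (hc 0)
  have hu0 : ∀ x : X, (fun n => g n x) ∈ I → Tendsto (fun n => u n x) atTop (𝓝 0) := by
    intro x hx
    have hs : Summable fun k => ‖h (φ k) x‖ := (h3 x (Or.inl hx)).comp_injective hφ.injective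
    have ht := (tendsto_sum_nat_add fun k => ‖h (φ k) x‖).comp hN.tendsto_atTop
    have ht' := ht.const_mul B
    rw [mul_zero] at ht'
    refine squeeze_zero_norm (fun n => ?_) ht'
    simp only [hu, _root_.sum_apply, smul_apply, Function.comp]
    refine (norm_sum_le _ _).trans ?_
    rw [sum_Ico_eq_sum_range]
    calc _ ≤ ∑ k ∈ range (N (n + 1) - N n), B * ‖h (φ (k + N n)) x‖ := sum_le_sum fun k _ => by
          rw [norm_smul, add_comm]; gcongr; exact hc _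
      _ = B * ∑ k ∈ range (N (n + 1) - N n), ‖h (φ (k + N n)) x‖ := by rw [mul_sum]
      _ ≤ _ := mul_le_mul_of_nonneg_left (Summable.sum_le_tsum _ (fun _ _ => norm_nonneg _)
          ((summable_nat_add_iff (f := fun k => ‖h (φ k) x‖) (N n)).mpr hs)) hB
  rcases rosenthal u (fun n => (hb n).1) with ⟨θ, hθ, f, hf⟩ | hl
  · have hf0 : f ≠ 0 := by
      intro e
      have := ge_of_tendsto' (hf x₀).norm fun n => (hb (θ n)).2
      rw [e] at this
      simp at this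
      linarith
    have hn : ‖f‖ ≠ 0 := norm_ne_zero_iff.mpr hf0
    refine ⟨((‖f‖⁻¹ : ℝ) : 𝕜) • f, ?_, ⟨fun n => ((‖f‖⁻¹ : ℝ) : 𝕜) • u (θ n),
      fun n => Submodule.smul_mem _ _ (hu1 _), fun x => by
        simpa only [smul_apply] using (hf x).const_smul ((‖f‖⁻¹ : ℝ) : 𝕜)⟩, fun x hx => ?_⟩
    · rw [norm_smul, RCLike.norm_ofReal, abs_inv, abs_norm, inv_mul_cancel₀ hn]
    · have := tendsto_nhds_unique (hf x) ((hu0 x hx).comp hθ.tendsto_atTop)
      simp [this]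
  · exact absurd (SQ_of_hasL1 hl) hX

theorem card_seq_le : #(ℕ → 𝕜) ≤ 𝔠 := by
  have h1 : #𝕜 ≤ 𝔠 := by
    have : Function.Injective fun z : 𝕜 => (RCLike.re z, RCLike.im z) := fun a b h =>
      RCLike.ext (congrArg Prod.fst h) (congrArg Prod.snd h)
    simpa [Cardinal.mk_real] using Cardinal.mk_le_of_injective this
  rw [← Cardinal.power_def, Cardinal.mk_nat, ← Cardinal.continuum_power_aleph0]
  exact Cardinal.power_le_power_right h1

theorem SQ_of_rvm (hc : Crest.AnalysisR.ContinuumRVM) [CompleteSpace X]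
    (hX : ¬ FiniteDimensional 𝕜 X) : SQ 𝕜 X := by
  by_contra hS
  obtain ⟨μ, hμ⟩ := exists_isRVM hc
  have := hμ.prob
  obtain ⟨g, hg⟩ := exists_seq_dual hX
  obtain ⟨I, hI, hI'⟩ := hμ.exhaust (ℕ → 𝕜) card_seq_le
  choose φ h1 h2 h3 using fun t => exists_phi hμ hS g hg (I t) (hI t)
  obtain ⟨t, ht⟩ := exists_suppUnc μ g φ h2
    (fun x => (hI' (fun n => g n x)).mono fun t ht => h3 t x ht)
  rcases SQ_or_hasL1_of_suppUnc _ (fun k => h1 (t k)) ht with h | h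
  · exact hS h
  · exact hS (SQ_of_hasL1 h)

end Crest.Agent.R114
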