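import Crest.Agent.R114.Pattern
import Crest.Agent.R114.Hoeff
import Crest.Agent.R114.AV

/-! # R114/RIS : random signs give vectors on which high segments are small. -/

set_option autoImplicit false
open Filter Topology Finset

namespace Crest.Agent.R114

variable {Γ : Type} [LinearOrder Γ] {𝕜 : Type} [RCLike 𝕜] {S : Setup Γ}

/-- `Src.exists_seq` with `A = ℕ`; given the history choose `j` above the earlier ones, `≥ 4 m (t+2)`, coherent for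
the earlier supports (`exists_cohOn`), with `m j` large (`Par.tendsto_m`), then `Src.exists_R1`. -/
theorem Src.exists_sys (S : Setup Γ) (𝓑 : Src Γ 𝕜) (t n₀ : ℕ) :
    ∃ (v : ℕ → Γ →₀ 𝕜) (j : ℕ → ℕ), (∀ l, v l ∈ 𝓑.B n₀) ∧ Sys S t v j := by
  have hδ : (0 : ℝ) < 1 / (S.m (t + 2) : ℝ) := one_div_pos.2 (S.toPar.m_pos _)
  obtain ⟨v, j, hB, hS, hQ⟩ := 𝓑.exists_seq (A := ℕ) n₀
    (fun L y => 1 / 2 ≤ nrm S y.1 ∧ nrm S y.1 ≤ 1 ∧ R1 S y.2 y.1 ∧ 4 * S.m (t + 2) ≤ y.2 ∧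
      CohOn S y.2 {α | ∃ z ∈ L, α ∈ z.1.support} ∧
      ∀ z ∈ L, z.2 < y.2 ∧ 2 * l1 z.1 / (S.m y.2 : ℝ) ≤ 1 / (S.m (t + 2) : ℝ)) fun L n => by
      have hfin : {α | ∃ z ∈ L, α ∈ z.1.support}.Finite :=
        (L.finite_toSet.biUnion fun z _ => z.1.support.finite_toSet).subset
          fun α ⟨z, hz, h⟩ => Set.mem_biUnion hz h
      obtain ⟨p, hp⟩ := exists_cohOn S hfin
      have e1 : ∀ᶠ i in atTop, ∀ z ∈ {z | z ∈ L},
          z.2 < i ∧ 2 * l1 z.1 / (S.m i : ℝ) ≤ 1 / (S.m (t + 2) : ℝ) :=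
        (eventually_all_finite L.finite_toSet).2 fun z _ => (eventually_gt_atTop _).and
          ((S.toPar.tendsto_m.const_div_atTop _).eventually_le_const hδ)
      obtain ⟨i, h1, h2, h3⟩ :=
        (e1.and ((eventually_ge_atTop p).and (eventually_ge_atTop (4 * S.m (t + 2))))).exists
      obtain ⟨y, hy, a1, a2, a3⟩ := 𝓑.exists_R1 S i n
      exact ⟨(y, i), hy, a1, a2, a3, h3, hp.mono h2 subset_rfl, h1⟩
  have hm : ∀ {l r : ℕ}, l < r → (v l, j l) ∈ (List.range r).map fun i => (v i, j i) :=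
    fun h => List.mem_map.2 ⟨_, List.mem_range.2 h, rfl⟩
  exact ⟨v, j, hB, hS, fun l => (hQ l).1, fun l => (hQ l).2.1, fun l => (hQ l).2.2.1,
    fun l r h => ((hQ r).2.2.2.2.2 _ (hm h)).1, (hQ 0).2.2.2.1,
    fun l => (hQ l).2.2.2.2.1.mono le_rfl fun α ⟨l', hl', h⟩ => ⟨_, hm hl', h⟩,
    fun l => ((hQ (l + 1)).2.2.2.2.2 _ (hm l.lt_succ_self)).2⟩

/-- Outside its window a segment acts on `v l` by at most `5 δ`: weights `≤ j l` give `∑ 2/m w ≤ 4δ` (`r1`,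
`Par.sum_inv_m_le'`), weights `> j (l+1)` give `≤ 2 l1 / m (j (l+1)) ≤ δ` (`KK.act_le_l1`). -/
theorem seg_sub_win {t : ℕ} {v : ℕ → Γ →₀ 𝕜} {j : ℕ → ℕ} (hs : Sys S t v j) {c : Chn Γ}
    {a b : ℕ} (hv : Valid S c b) (hw : ∀ n ∈ Ico a b, t + 2 ≤ c.w n) (l : ℕ) {E : Set Γ}
    (hE : E.OrdConnected) :
    ‖act (c.seg a b) (res E (v l)) - act (win c j a b l) (res E (v l))‖ ≤
      5 * (1 / (S.m (t + 2) : ℝ)) := by
  rw [Chn.seg, win, act_sum_left, act_sum_left,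
    ← sum_filter_add_sum_filter_not (Ico a b) (fun n => j l < c.w n ∧ c.w n ≤ j (l + 1)),
    add_sub_cancel_left]
  have hpos : ∀ i, (0 : ℝ) ≤ 1 / (S.m i : ℝ) := fun i => by positivity
  have hl := l1_nonneg (v l)
  have h1 : ∀ n ∈ (Ico a b).filter (fun n => ¬(j l < c.w n ∧ c.w n ≤ j (l + 1))),
      ‖act (c.g n) (res E (v l))‖ ≤ 2 * (1 / (S.m (c.w n) : ℝ)) +
        l1 (v l) * if j (l + 1) ≤ c.w n then 1 / (S.m (c.w n) : ℝ) else 0 := fun n hn => by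
    obtain ⟨hn, hn'⟩ := mem_filter.1 hn
    have hk := (hv n (mem_Ico.1 hn).2).2
    have := hpos (c.w n)
    by_cases h : c.w n ≤ j l
    · refine (hs.r1 l _ h _ hk E hE).trans ?_
      rw [mul_one_div]
      exact le_add_of_nonneg_right (mul_nonneg hl (by split_ifs; exacts [this, le_rfl]))
    · rw [if_pos (by omega)]
      linarith [hk.act_le_l1 E (v l)]
  refine ((norm_sum_le _ _).trans (sum_le_sum h1)).trans
    ((sum_le_sum_of_subset_of_nonneg (filter_subset _ _) fun n _ _ =>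
      add_nonneg (mul_nonneg zero_le_two (hpos _))
        (mul_nonneg hl (by split_ifs; exacts [hpos _, le_rfl]))).trans ?_)
  rw [sum_add_distrib, ← mul_sum, ← mul_sum, ← sum_filter]
  have h2 := S.toPar.sum_inv_m_le' (Ico a b) c.w (hv.injOn _ fun n hn => (mem_Ico.1 hn).2) _ hw
  have h3 := S.toPar.sum_inv_m_le' ((Ico a b).filter fun n => j (l + 1) ≤ c.w n) c.w
    (hv.injOn _ fun n hn => (mem_Ico.1 (mem_filter.1 hn).1).2) _ fun n hn => (mem_filter.1 hn).2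
  have h4 := mul_le_mul_of_nonneg_left h3 hl
  have h5 := hs.l1 l
  rw [mul_comm 2, mul_div_assoc] at h5
  rw [← mul_one_div 2] at h2
  linarith

/-- Up to three exceptional blocks, the window parts form an interval of full windows.  Recipe: if `b ≤ a` or `E` meets no
`supp (v l)`, `l ∈ Ico a₀ b₀`, take `a₁ = b₁ = a₀`, `X = ∅`.  Else `l⁻`, `l⁺` = first and last such `l`; strictly between them
`res E (v l) = v l` (`OrdConnected`, `Succ`); `l_a` = least `l` with `w a ≤ j l`: for `l ≥ l_a`, `win c j a b l = win c j 0 b l`,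
for `l + 1 < l_a` it is `0`.  `X = {l⁻, l⁺, l_a - 1}`, `a₁ = max (l⁻+1) l_a`, `b₁ = l⁺` (or the empty interval). -/
theorem exists_interval {t : ℕ} {v : ℕ → Γ →₀ 𝕜} {j : ℕ → ℕ} (hs : Sys S t v j) {c : Chn Γ}
    {b : ℕ} (hv : Valid S c b) (a : ℕ) {E : Set Γ} (hE : E.OrdConnected) (a₀ b₀ : ℕ)
    (h₀ : a₀ ≤ b₀) :
    ∃ (a₁ b₁ : ℕ) (X : Finset ℕ), a₀ ≤ a₁ ∧ a₁ ≤ b₁ ∧ b₁ ≤ b₀ ∧ X.card ≤ 3 ∧
      (∀ l ∈ Ico a₁ b₁, act (win c j a b l) (res E (v l)) = act (win c j 0 b l) (v l)) ∧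
      ∀ l ∈ Ico a₀ b₀, l ∉ Ico a₁ b₁ → l ∉ X → act (win c j a b l) (res E (v l)) = 0 := by
  classical
  by_cases hab : b ≤ a
  · refine ⟨a₀, a₀, ∅, le_rfl, le_rfl, h₀, by simp, by simp, fun l _ _ _ => ?_⟩
    rw [win, Ico_eq_empty_of_le hab, filter_empty, sum_empty, act_zero_left]
  set T := (Ico a₀ b₀).filter fun l => ∃ α ∈ (v l).support, α ∈ E with hT
  have hz : ∀ l ∈ Ico a₀ b₀, l ∉ T → act (win c j a b l) (res E (v l)) = 0 := fun l hl hl' => by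
    rw [res_eq_zero fun γ hγ hγ' => hl' (mem_filter.2 ⟨hl, γ, hγ, hγ'⟩), act_zero]
  rcases T.eq_empty_or_nonempty with he | hne
  · exact ⟨a₀, a₀, ∅, le_rfl, le_rfl, h₀, by simp, by simp, fun l hl _ _ => hz l hl (by simp [he])⟩
  obtain ⟨l₁, m₁, h₁⟩ := T.exists_min_image id hne
  obtain ⟨l₂, m₂, h₂⟩ := T.exists_max_image id hne
  obtain ⟨i₁, α, hα, hαE⟩ := mem_filter.1 m₁
  obtain ⟨i₂, β, hβ, hβE⟩ := mem_filter.1 m₂
  rw [mem_Ico] at i₁ i₂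
  have hex : ∃ l, c.w a ≤ j l := ⟨_, hs.mono.id_le _⟩
  refine ⟨min (max (l₁ + 1) (Nat.find hex)) l₂, l₂, {l₁, l₂, Nat.find hex - 1}, by omega, by omega,
    by omega, card_le_three, fun l hl => ?_, fun l hl hl' hX => ?_⟩
  · rw [mem_Ico] at hl
    rw [res_eq_self fun γ hγ => hE.out hαE hβE
      ⟨(hs.succ _ _ (by omega) α hα γ hγ).le, (hs.succ _ _ (by omega) γ hγ β hβ).le⟩, win, win]
    congr 2
    ext n
    simp only [mem_filter, mem_Ico, zero_le, true_and]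
    refine ⟨fun h => ⟨h.1.2, h.2⟩, fun h => ⟨⟨?_, h.1⟩, h.2⟩⟩
    by_contra hn
    have e1 := hv.w_lt (not_le.1 hn) (not_le.1 hab)
    have e2 := Nat.find_spec hex
    have e3 := hs.mono.monotone (show Nat.find hex ≤ l by omega)
    omega
  · by_cases hlT : l ∈ T
    · have e1 := h₁ l hlT
      have e2 := h₂ l hlT
      simp only [id, mem_Ico, mem_insert, mem_singleton] at e1 e2 hl' hX
      have e3 := Nat.find_min hex (show l + 1 < Nat.find hex by omega)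
      rw [win, filter_eq_empty_iff.2 fun n hn h => ?_, sum_empty, act_zero_left]
      have := hv.w_le (mem_Ico.1 hn).1 (mem_Ico.1 hn).2
      omega
    · exact hz l hl hlT

theorem RIS_sum_le (s X : Finset ℕ) (hX : X.card ≤ 3) (f : ℕ → 𝕜) {η : ℝ} (hη : 0 ≤ η)
    (h2 : ∀ l ∈ s, ‖f l‖ ≤ 2) (h : ∀ l ∈ s, l ∉ X → ‖f l‖ ≤ η) :
    ‖∑ l ∈ s, f l‖ ≤ η * s.card + 6 := by
  refine (norm_sum_le _ _).trans ?_
  rw [← sum_filter_add_sum_filter_not s (· ∉ X)]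
  refine add_le_add ((sum_le_card_nsmul _ _ η fun l hl =>
    h l (mem_filter.1 hl).1 (mem_filter.1 hl).2).trans ?_)
    ((sum_le_card_nsmul _ _ 2 fun l hl => h2 l (mem_filter.1 hl).1).trans ?_)
  · rw [nsmul_eq_mul, mul_comm]
    exact mul_le_mul_of_nonneg_left (by exact_mod_cast card_filter_le _ _) hη
  · have : ((s.filter fun l => ¬l ∉ X).card : ℝ) ≤ 3 := by
      exact_mod_cast (card_le_card fun l hl => not_not.1 (mem_filter.1 hl).2).trans hX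
    rw [nsmul_eq_mul]
    linarith

/-- Good signs.  Recipe: `K = n (t+1)`, `k = k (t+1)`, `δ = 1/m (t+2)`; `exists_patterns`, `exists_signs_small'`
(`hH (t+1)`).  With `I = Ico a₀ b₀`: `5δ|I|` (`seg_sub_win`) `+ 6` (`exists_interval`, `win_le`) `+ 2δ(|I| + k)` (the part
of `Ico a₁ b₁` below `l₂`, an interval) `+ δ|I| + 6` (the rest) `≤ 10 δ |I| + 12 ≤ 11 δ |I|` since `|I| ≥ k ≥ 12/δ` (`k12`). -/
theorem exists_good_signs {t : ℕ} {v : ℕ → Γ →₀ 𝕜} {j : ℕ → ℕ} (hs : Sys S t v j) :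
    ∃ ε : ℕ → ℝ, (∀ l, ε l = 1 ∨ ε l = -1) ∧ ∀ a₀ b₀, a₀ + S.k (t + 1) ≤ b₀ →
      b₀ ≤ S.n (t + 1) → ∀ (c : Chn Γ) (a b : ℕ), Valid S c b →
      (∀ n ∈ Ico a b, t + 2 ≤ c.w n) → ∀ E : Set Γ, E.OrdConnected →
      ‖act (c.seg a b) (res E (∑ l ∈ Ico a₀ b₀, (ε l : 𝕜) • v l))‖ ≤
        11 * (1 / (S.m (t + 2) : ℝ)) * ((b₀ : ℝ) - a₀) := by
  have hM := S.toPar.m_pos (t + 2)
  set δ : ℝ := 1 / (S.m (t + 2) : ℝ) with hδ
  have hδ0 : 0 < δ := one_div_pos.2 hM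
  obtain ⟨𝒟, hc, hb, hD⟩ := exists_patterns hs (S.n (t + 1))
  obtain ⟨ε, hε, hsm⟩ := exists_signs_small' (S.n (t + 1)) (S.k (t + 1)) δ hδ0 𝒟 hb (by
    have h1 := S.hH (t + 1)
    have h2 : (𝒟.card : ℝ) ≤ 4 * (S.m (t + 2) : ℝ) * S.n (t + 1) + 1 := by exact_mod_cast hc
    rw [show δ ^ 2 * (S.k (t + 1) : ℝ) / 2 = S.k (t + 1) / (2 * (S.m (t + 1 + 1) : ℝ) ^ 2) by
      rw [hδ]; field_simp]
    exact lt_of_le_of_lt (by gcongr) h1)
  refine ⟨ε, hε, fun a₀ b₀ hk hn c a b hv hw E hE => ?_⟩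
  have hε1 : ∀ l (z : 𝕜), ‖(ε l : 𝕜) * z‖ = ‖z‖ := fun l z => by
    rcases hε l with h | h <;> simp [h]
  have h2 : ∀ a l (E : Set Γ), E.OrdConnected → ‖act (win c j a b l) (res E (v l))‖ ≤ 2 :=
    fun a l E hE => (win_le hv hs.mono a l hE _).trans (by linarith [hs.hi l])
  obtain ⟨a₁, b₁, X, i₁, i₂, i₃, hX, hin, hout⟩ := exists_interval hs hv a hE a₀ b₀ (by omega)
  obtain ⟨D, hD𝒟, l₂, X', hX', hlo, hhi⟩ := hD c b hv
  obtain ⟨r, r₁, r₂, r₃, r₄⟩ : ∃ r, a₁ ≤ r ∧ r ≤ b₁ ∧ (∀ l ∈ Ico a₁ r, l < l₂) ∧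
      ∀ l ∈ Ico r b₁, l₂ ≤ l :=
    ⟨max a₁ (min l₂ b₁), by omega, by omega, fun l hl => by rw [mem_Ico] at hl; omega,
      fun l hl => by rw [mem_Ico] at hl; omega⟩
  have hsub : Ico a₁ b₁ ⊆ Ico a₀ b₀ := Ico_subset_Ico i₁ i₃
  have e : act (c.seg a b) (res E (∑ l ∈ Ico a₀ b₀, (ε l : 𝕜) • v l)) =
      ∑ l ∈ Ico a₀ b₀, (ε l : 𝕜) *
          (act (c.seg a b) (res E (v l)) - act (win c j a b l) (res E (v l))) +
        (∑ l ∈ Ico a₀ b₀ \ Ico a₁ b₁, (ε l : 𝕜) * act (win c j a b l) (res E (v l)) +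
          (∑ l ∈ Ico a₁ r, (ε l : 𝕜) * D l +
            ∑ l ∈ Ico r b₁, (ε l : 𝕜) * act (win c j 0 b l) (v l))) := by
    rw [← sum_congr rfl fun l hl => congrArg ((ε l : 𝕜) * ·) (hlo l (r₃ l hl)),
      sum_Ico_consecutive _ r₁ r₂,
      ← sum_congr rfl fun l hl => congrArg ((ε l : 𝕜) * ·) (hin l hl), sum_sdiff hsub,
      ← sum_add_distrib, res_sum, act_sum]
    refine sum_congr rfl fun l _ => ?_
    rw [res_smul, act_smul]
    ring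
  have cI : ((Ico a₀ b₀).card : ℝ) = (b₀ : ℝ) - a₀ := by
    rw [Nat.card_Ico, Nat.cast_sub (by omega)]
  have n1 := (norm_sum_le _ _).trans (sum_le_card_nsmul (Ico a₀ b₀) _ _ fun l _ =>
    (hε1 l _).trans_le (seg_sub_win hs hv hw l hE))
  rw [nsmul_eq_mul, cI] at n1
  have n2 := RIS_sum_le (Ico a₀ b₀ \ Ico a₁ b₁) X hX
    (fun l => (ε l : 𝕜) * act (win c j a b l) (res E (v l))) le_rfl
    (fun l _ => (hε1 l _).trans_le (h2 a l E hE)) fun l hl hl' => by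
      rw [hout l (mem_sdiff.1 hl).1 (mem_sdiff.1 hl).2 hl', mul_zero, norm_zero]
  have n3 := hsm D hD𝒟 a₁ r r₁ (by omega)
  have n4 := RIS_sum_le (Ico r b₁) X' hX' (fun l => (ε l : 𝕜) * act (win c j 0 b l) (v l)) hδ0.le
    (fun l _ => (hε1 l _).trans_le (by simpa only [res_univ] using h2 0 l _ Set.ordConnected_univ))
    fun l hl hl' => (hε1 l _).trans_le (hhi l (r₄ l hl) (by rw [mem_Ico] at hl; omega) hl')
  rw [Nat.card_Ico, Nat.cast_sub r₂] at n4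
  have c1 : (a₀ : ℝ) ≤ a₁ := by exact_mod_cast i₁
  have c2 : (a₁ : ℝ) ≤ r := by exact_mod_cast r₁
  have c3 : (r : ℝ) ≤ b₁ := by exact_mod_cast r₂
  have c4 : (b₁ : ℝ) ≤ b₀ := by exact_mod_cast i₃
  have c5 : (a₀ : ℝ) + S.k (t + 1) ≤ b₀ := by exact_mod_cast hk
  have c6 : 12 ≤ δ * S.k (t + 1) := by
    rw [hδ, one_div_mul_eq_div, le_div_iff₀ hM]
    exact_mod_cast S.k12 (t + 1)
  rw [e]
  refine ((norm_add_le _ _).trans (add_le_add n1 ((norm_add_le _ _).trans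
    (add_le_add n2 ((norm_add_le _ _).trans (add_le_add n3 n4)))))).trans ?_
  nlinarith

/-- Far-out RIS vectors.  Recipe: `exists_sys`, `exists_good_signs`, `av` for `ε l • v l`; chain weights are even, so
`> t` means `≥ t + 2`; `c |I| ≤ 4 m (t+1)` and `(t+3)² m (t+1) ≤ m (t+2)`. -/
theorem Src.exists_RIS (S : Setup Γ) (𝓑 : Src Γ 𝕜) (t : ℕ) (ht : Even t) (n₀ : ℕ) :
    ∃ x ∈ 𝓑.B n₀, 1 / 2 ≤ nrm S x ∧ nrm S x ≤ 1 ∧ R1 S t x ∧
      R2 S t x (44 / ((t : ℝ) + 3) ^ 2) := by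
  obtain ⟨v, j, hB, hs⟩ := 𝓑.exists_sys S t n₀
  obtain ⟨ε, hε, hg⟩ := exists_good_signs hs
  have hn : ∀ l, nrm S ((ε l : 𝕜) • v l) = nrm S (v l) := fun l => by
    rw [nrm_smul]
    rcases hε l with h | h <;> simp [h]
  obtain ⟨a₀, b₀, c₀, h1, h2, h3, h4, h5, h6, h7⟩ := av S t (hs.succ.smul fun l => (ε l : 𝕜))
    (fun l => (hn l).symm ▸ hs.lo l) fun l => (hn l).symm ▸ hs.hi l
  refine ⟨_, Submodule.smul_mem _ _ (Submodule.sum_mem _ fun l _ => Submodule.smul_mem _ _ (hB l)),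
    h5, h6, h7, fun c a b hv hw E hE => ?_⟩
  have key := hg a₀ b₀ h1 h2 c a b hv (fun n hn => by
    have e1 := hw n hn
    obtain ⟨x, hx⟩ := (hv n (mem_Ico.1 hn).2).1.even
    obtain ⟨y, hy⟩ := ht
    omega) E hE
  rw [res_smul, act_smul, norm_mul, RCLike.norm_ofReal, abs_of_pos h3]
  have hM := S.toPar.m_pos (t + 2)
  have e1 : ((t : ℝ) + 3) ^ 2 * S.m (t + 1) ≤ S.m (t + 2) := by exact_mod_cast S.msucc (t + 1)
  calc _ ≤ c₀ * (11 * (1 / (S.m (t + 2) : ℝ)) * ((b₀ : ℝ) - a₀)) :=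
        mul_le_mul_of_nonneg_left key h3.le
    _ = 11 * (c₀ * ((b₀ : ℝ) - a₀)) / S.m (t + 2) := by ring
    _ ≤ 11 * (4 * S.m (t + 1)) / S.m (t + 2) := by gcongr
    _ ≤ _ := by
      rw [div_le_div_iff₀ hM (by positivity)]
      linarith

end Crest.Agent.R114
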