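import Crest.Agent.R114.Space
import Crest.Agent.R114.Blocks

/-! # R114/Reduce : from an infinite-dimensional subspace of `W` to a block source. -/

set_option autoImplicit false
open Filter Topology Finset

namespace Crest.Agent.R114

variable {Γ : Type} [LinearOrder Γ] {𝕜 : Type} [RCLike 𝕜] {S : Setup Γ}
  {W : Type} [NormedAddCommGroup W] [NormedSpace 𝕜 W]

/-- finite-codimensional subspaces of infinite-dimensional ones are infinite-dimensional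
(the map `N → (s → 𝕜)` has finite-dimensional range; rank–nullity / `Module.Finite` of kernel and range). -/
theorem not_finiteDimensional_inf_ker (N : Submodule 𝕜 W) (hN : ¬ FiniteDimensional 𝕜 N)
    (s : Finset (StrongDual 𝕜 W)) :
    ∃ N' : Submodule 𝕜 W, N' ≤ N ∧ ¬ FiniteDimensional 𝕜 N' ∧ ∀ φ ∈ s, ∀ w ∈ N', φ w = 0 := by
  let T : W →ₗ[𝕜] (s → 𝕜) := LinearMap.pi fun φ : s => (φ.1 : W →ₗ[𝕜] 𝕜)
  refine ⟨N ⊓ LinearMap.ker T, inf_le_left, fun h => hN ?_,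
    fun φ hφ w hw => congrFun (LinearMap.mem_ker.1 hw.2) ⟨φ, hφ⟩⟩
  exact Module.Finite.iff_fg.2 (Submodule.fg_of_fg_map_of_fg_inf_ker T
    (Module.Finite.iff_fg.1 inferInstance) (Module.Finite.iff_fg.1 h))

/-- the minimal `lam` (`WellFounded.min` on the set of `lam` admitting `N₁, C`; it contains `η`) -/
theorem exists_min_lam [WellFoundedLT Γ] (M : Mdl S 𝕜 W) (N : Submodule 𝕜 W)
    (hN : ¬ FiniteDimensional 𝕜 N) (η : Γ) (hη : ∀ w ∈ N, M.P (Set.Iio η) w = w) :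
    ∃ (lam : Γ) (N₁ : Submodule 𝕜 W) (C : ℝ), lam ≤ η ∧ N₁ ≤ N ∧ ¬ FiniteDimensional 𝕜 N₁ ∧
      0 < C ∧ (∀ w ∈ N₁, ‖w‖ ≤ C * ‖M.P (Set.Iio lam) w‖) ∧
      ∀ ζ < lam, ∀ N₂ ≤ N, ¬ FiniteDimensional 𝕜 N₂ → ∀ C' : ℝ, 0 < C' →
        ∃ w ∈ N₂, C' * ‖M.P (Set.Iio ζ) w‖ < ‖w‖ := by
  obtain ⟨lam, ⟨N₁, C, h⟩, hmin⟩ := wellFounded_lt.has_min
    {lam : Γ | ∃ (N₁ : Submodule 𝕜 W) (C : ℝ), N₁ ≤ N ∧ ¬ FiniteDimensional 𝕜 N₁ ∧ 0 < C ∧
      ∀ w ∈ N₁, ‖w‖ ≤ C * ‖M.P (Set.Iio lam) w‖}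
    ⟨η, N, 1, le_rfl, hN, one_pos, fun w hw => by rw [hη w hw, one_mul]⟩
  refine ⟨lam, N₁, C, not_lt.1 (hmin η ⟨N, 1, le_rfl, hN, one_pos,
    fun w hw => by rw [hη w hw, one_mul]⟩), h.1, h.2.1, h.2.2.1, h.2.2.2,
    fun ζ hζ N₂ h1 h2 C' hC' => ?_⟩
  by_contra hc
  push Not at hc
  exact hmin ζ ⟨N₂, C', h1, h2, hC', hc⟩ hζ

/-- One more block.  Recipe: if `A = ∅` take any nonzero `y` in `N₁ ∩ ⋂ ker`, scaled to `‖P (Iio lam) y‖ = 1`, and
`exists_approx` in `Iio lam`.  Otherwise `ζ = max A`, add `ev ζ` to the functionals, take `w` with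
`C' ‖P (Iio ζ) w‖ < ‖w‖ ≤ C ‖P (Iio lam) w‖`, scale; `P (Iio lam) = P (Iio ζ) + P {ζ} + P (Ioo ζ lam)` (`P_union`,
`P_singleton`); `exists_approx` in `Ioo ζ lam`. -/
theorem exists_next_block (M : Mdl S 𝕜 W) (N N₁ : Submodule 𝕜 W) (lam : Γ) (C : ℝ)
    (h1 : N₁ ≤ N) (h2 : ¬ FiniteDimensional 𝕜 N₁) (hC : 0 < C)
    (h3 : ∀ w ∈ N₁, ‖w‖ ≤ C * ‖M.P (Set.Iio lam) w‖)
    (h4 : ∀ ζ < lam, ∀ N₂ ≤ N, ¬ FiniteDimensional 𝕜 N₂ → ∀ C' : ℝ, 0 < C' →
      ∃ w ∈ N₂, C' * ‖M.P (Set.Iio ζ) w‖ < ‖w‖)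
    (A : Finset Γ) (hA : ∀ α ∈ A, α < lam) (s : Finset (StrongDual 𝕜 W)) (ε : ℝ) (hε : 0 < ε) :
    ∃ y ∈ N₁, ∃ x : Γ →₀ 𝕜, (∀ φ ∈ s, φ y = 0) ∧ ‖M.P (Set.Iio lam) y‖ = 1 ∧
      (∀ γ ∈ x.support, γ < lam ∧ ∀ α ∈ A, α < γ) ∧ ‖M.P (Set.Iio lam) y - M.emb x‖ ≤ ε := by
  classical
  have key : ∃ w ∈ N₁, ∃ E : Set Γ, w ≠ 0 ∧ (∀ φ ∈ s, φ w = 0) ∧ E.OrdConnected ∧
      (∀ γ ∈ E, γ < lam ∧ ∀ α ∈ A, α < γ) ∧
      ‖M.P (Set.Iio lam) w - M.P E w‖ ≤ ε / 2 * ‖M.P (Set.Iio lam) w‖ := by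
    rcases A.eq_empty_or_nonempty with rfl | hne
    · obtain ⟨N', a, b, c⟩ := not_finiteDimensional_inf_ker N₁ h2 s
      obtain ⟨w, hw, hw0⟩ := N'.exists_mem_ne_zero_of_ne_bot (by
        rintro rfl
        exact b inferInstance)
      exact ⟨w, a hw, Set.Iio lam, hw0, fun φ hφ => c φ hφ w hw, Set.ordConnected_Iio,
        fun γ hγ => ⟨hγ, by simp⟩, by rw [sub_self, norm_zero]; positivity⟩
    · have hζ := hA _ (A.max'_mem hne)
      obtain ⟨N', a, b, c⟩ := not_finiteDimensional_inf_ker N₁ h2 (insert (M.ev (A.max' hne)) s)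
      obtain ⟨w, hw, hw0⟩ := h4 _ hζ N' (a.trans h1) b (2 * C / ε) (by positivity)
      refine ⟨w, a hw, Set.Ioo (A.max' hne) lam, ?_, fun φ hφ => c φ (mem_insert_of_mem hφ) w hw,
        Set.ordConnected_Ioo, fun γ hγ => ⟨hγ.2, fun α hα => (A.le_max' α hα).trans_lt hγ.1⟩, ?_⟩
      · exact norm_pos_iff.1 (lt_of_le_of_lt (by positivity) hw0)
      · have e1 := M.P_union (E := Set.Iio (A.max' hne)) (E' := {A.max' hne}) Set.ordConnected_Iio
          Set.ordConnected_singleton (by rw [Set.Iio_union_right]; exact Set.ordConnected_Iic)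
          (by simp) w
        have e2 := M.P_union (E := Set.Iic (A.max' hne)) (E' := Set.Ioo (A.max' hne) lam)
          Set.ordConnected_Iic Set.ordConnected_Ioo
          (by rw [Set.Iic_union_Ioo_eq_Iio hζ]; exact Set.ordConnected_Iio)
          (Set.disjoint_left.2 fun γ a b => absurd b.1 (not_lt.2 a)) w
        rw [Set.Iio_union_right, M.P_singleton, c _ (mem_insert_self _ _) w hw, zero_smul,
          add_zero] at e1
        rw [Set.Iic_union_Ioo_eq_Iio hζ, e1] at e2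
        have h5 := hw0.trans_le (h3 w (a hw))
        rw [div_mul_eq_mul_div, div_lt_iff₀ hε] at h5
        rw [← sub_eq_iff_eq_add] at e2
        rw [e2]
        refine le_of_mul_le_mul_left ?_ hC
        linarith
  obtain ⟨w, hw, E, hw0, hs, hE, hEA, hd⟩ := key
  have hp : 0 < ‖M.P (Set.Iio lam) w‖ :=
    (mul_pos_iff_of_pos_left hC).1 ((norm_pos_iff.2 hw0).trans_le (h3 w hw))
  have hn : ‖((‖M.P (Set.Iio lam) w‖ : ℝ) : 𝕜)⁻¹‖ = ‖M.P (Set.Iio lam) w‖⁻¹ := by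
    rw [norm_inv, RCLike.norm_ofReal, abs_of_pos hp]
  obtain ⟨x, hx, hxa⟩ := M.exists_approx hE (((‖M.P (Set.Iio lam) w‖ : ℝ) : 𝕜)⁻¹ • w)
    (half_pos hε)
  refine ⟨_, N₁.smul_mem ((‖M.P (Set.Iio lam) w‖ : ℝ) : 𝕜)⁻¹ hw, x,
    fun φ hφ => by rw [map_smul, hs φ hφ, smul_zero],
    by rw [map_smul, norm_smul, hn, inv_mul_cancel₀ hp.ne'], fun γ hγ => hEA γ (hx γ hγ), ?_⟩
  refine (norm_sub_le_norm_sub_add_norm_sub _
    (M.P E (((‖M.P (Set.Iio lam) w‖ : ℝ) : 𝕜)⁻¹ • w)) _).trans ?_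
  rw [map_smul, map_smul (M.P E), ← smul_sub, norm_smul, hn]
  rw [map_smul] at hxa
  rw [← inv_mul_le_iff₀' hp, mul_comm] at hd
  linarith

/-- Recipe: choose `(y i, x i)` recursively by `exists_next_block` with `A` = union of the earlier supports,
`s = {f 0, …, f (i-1)}`, `ε_i = min ε 1 / 2^{i+2}`; `nrm (x i) ≥ 1/2`, `Succ x`.  `B n = span {x i | n ≤ i}`.  For
`u = ∑ a i • x i` (`Finsupp.mem_span_image_iff_linearCombination` / `Submodule.mem_span_image_iff_exists_fun`)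
`‖a i‖ ≤ 2 nrm u` (`Succ.smul`, `Succ.nrm_le_sum`), `y = ∑ a i • y i`; the constant is `C (1 + ε)`. -/
theorem reduce [WellFoundedLT Γ] (M : Mdl S 𝕜 W) (N : Submodule 𝕜 W)
    (hN : ¬ FiniteDimensional 𝕜 N) (η : Γ) (hη : ∀ w ∈ N, M.P (Set.Iio η) w = w)
    (f : ℕ → StrongDual 𝕜 W) (ε : ℝ) (hε : 0 < ε) :
    ∃ (𝓑 : Src Γ 𝕜) (lam : Γ) (C : ℝ), lam ≤ η ∧ 0 ≤ C ∧ ∀ n, ∀ u ∈ 𝓑.B n,
      (∀ γ ∈ u.support, γ < lam) ∧ ∃ y ∈ N, ‖y‖ ≤ C * nrm S u ∧
        ‖M.P (Set.Iio lam) y - M.emb u‖ ≤ ε * nrm S u ∧ ∀ i < n, f i y = 0 := by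
  classical
  obtain ⟨lam, N₁, C, hlam, h1, h2, hC, h3, h4⟩ := exists_min_lam M N hN η hη
  have hε' : 0 < min ε 1 := lt_min hε one_pos
  choose Y hY X hs hn hX hd using fun (A : {A : Finset Γ // ∀ α ∈ A, α < lam}) (n : ℕ) =>
    exists_next_block M N N₁ lam C h1 h2 hC h3 h4 A.1 A.2 ((range n).image f)
      (min ε 1 / 4 * (1 / 2) ^ n) (by positivity)
  let A : ℕ → {A : Finset Γ // ∀ α ∈ A, α < lam} := fun n => Nat.rec ⟨∅, by simp⟩
    (fun n A => ⟨A.1 ∪ (X A n).support, fun α hα =>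
      (mem_union.1 hα).elim (A.2 α) fun h => (hX A n α h).1⟩) n
  have hA : Monotone fun n => (A n).1 := monotone_nat_of_le_succ fun n => subset_union_left
  have hsucc : Succ fun n => X (A n) n := fun i j hij α hα β hβ =>
    (hX _ j β hβ).2 α (hA (Nat.succ_le_of_lt hij) (subset_union_right hα))
  replace hY := fun n => hY (A n) n
  replace hs := fun n => hs (A n) n
  replace hn := fun n => hn (A n) n
  replace hX := fun n γ hγ => (hX (A n) n γ hγ).1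
  replace hd := fun n => hd (A n) n
  generalize hx : (fun n => X (A n) n) = x at hsucc
  generalize hy : (fun n => Y (A n) n) = y
  simp only [fun n => congrFun hx n, fun n => congrFun hy n] at hY hs hn hX hd
  clear hx hy hA A
  have hlo : ∀ n, 1 / 2 ≤ nrm S (x n) := fun n => by
    have a := norm_sub_norm_le (M.P (Set.Iio lam) (y n)) (M.emb (x n))
    have b : (1 / 2 : ℝ) ^ n ≤ 1 := pow_le_one₀ (by norm_num) (by norm_num)
    have c := min_le_right ε 1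
    have d := hd n
    rw [hn, M.norm_emb] at a
    nlinarith
  have hrep : ∀ n, ∀ u ∈ Submodule.span 𝕜 (x '' Set.Ici n), ∃ (t : Finset ℕ) (a : ℕ → 𝕜),
      (∀ i ∈ t, n ≤ i) ∧ ∑ i ∈ t, a i • x i = u := fun n u hu => by
    obtain ⟨t, ht, c, hc⟩ := (Submodule.mem_span_image_iff_exists_fun 𝕜).1 hu
    refine ⟨t, fun i => if h : i ∈ t then c ⟨i, h⟩ else 0, fun i hi => ht hi, ?_⟩
    rw [← hc, ← sum_coe_sort]
    exact sum_congr rfl fun i _ => by simp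
  have hsup : ∀ (t : Finset ℕ) (a : ℕ → 𝕜), ∀ γ ∈ (∑ i ∈ t, a i • x i).support,
      ∃ i ∈ t, γ ∈ (x i).support := fun t a γ hγ => by
    obtain ⟨i, hi, h⟩ := mem_biUnion.1 (Finsupp.support_finsetSum hγ)
    exact ⟨i, hi, Finsupp.support_smul h⟩
  refine ⟨⟨fun n => Submodule.span 𝕜 (x '' Set.Ici n),
    fun m n h => Submodule.span_mono (Set.image_mono (Set.Ici_subset_Ici.2 h)),
    fun n => ⟨x n, Submodule.subset_span ⟨n, Set.self_mem_Ici, rfl⟩, fun h => ?_⟩, fun v hv => ?_⟩,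
    lam, C * (1 + ε), hlam, by positivity, fun n u hu => ?_⟩
  · have := hlo n
    rw [h, nrm_zero] at this
    linarith
  · obtain ⟨t, a, -, rfl⟩ := hrep 0 v hv
    refine ⟨t.sup id + 1, fun u hu α hα β hβ => ?_⟩
    obtain ⟨t', a', ht', rfl⟩ := hrep _ u hu
    obtain ⟨i, hi, h⟩ := hsup t a α hα
    obtain ⟨j, hj, h'⟩ := hsup t' a' β hβ
    exact hsucc i j ((Nat.lt_succ_of_le (le_sup (f := id) hi)).trans_le (ht' j hj)) α h β h'
  · obtain ⟨t, a, ht, rfl⟩ := hrep n u hu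
    have h0 := nrm_nonneg S (∑ i ∈ t, a i • x i)
    have ha : ∀ i ∈ t, ‖a i‖ ≤ 2 * nrm S (∑ i ∈ t, a i • x i) := fun i hi => by
      have b := (hsucc.smul a).nrm_le_sum (S := S) t hi
      rw [nrm_smul] at b
      nlinarith [hlo i, norm_nonneg (a i)]
    have hy : ∑ i ∈ t, a i • y i ∈ N₁ := N₁.sum_mem fun i _ => N₁.smul_mem _ (hY i)
    have hb : ‖M.P (Set.Iio lam) (∑ i ∈ t, a i • y i) - M.emb (∑ i ∈ t, a i • x i)‖ ≤
        ε * nrm S (∑ i ∈ t, a i • x i) := by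
      generalize nrm S (∑ i ∈ t, a i • x i) = r at *
      rw [map_sum, map_sum, ← sum_sub_distrib]
      calc _ ≤ ∑ i ∈ t, 2 * r * (min ε 1 / 4 * (1 / 2) ^ i) :=
            norm_sum_le_of_le _ fun i hi => by
              rw [map_smul, map_smul, ← smul_sub, norm_smul]
              exact mul_le_mul (ha i hi) (hd i) (norm_nonneg _) (by positivity)
        _ = 2 * r * (min ε 1 / 4 * ∑ i ∈ t, (1 / 2) ^ i) := by rw [mul_sum, mul_sum]
        _ ≤ 2 * r * (ε / 4 * 2) := by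
            gcongr
            · exact min_le_left _ _
            · exact (summable_geometric_two.sum_le_tsum t fun i _ => by positivity).trans_eq
                tsum_geometric_two
        _ = ε * r := by ring
    refine ⟨fun γ hγ => ?_, _, h1 hy, (h3 _ hy).trans ?_, hb, fun i hi => ?_⟩
    · obtain ⟨i, -, h⟩ := hsup t a γ hγ
      exact hX i γ h
    · have := norm_sub_norm_le (M.P (Set.Iio lam) (∑ i ∈ t, a i • y i))
        (M.emb (∑ i ∈ t, a i • x i))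
      rw [M.norm_emb] at this
      rw [mul_assoc]
      exact mul_le_mul_of_nonneg_left (by linarith) hC.le
    · rw [map_sum]
      exact sum_eq_zero fun j hj => by
        rw [map_smul, hs j _ (mem_image_of_mem f (mem_range.2 (hi.trans_le (ht j hj)))), smul_zero]

end Crest.Agent.R114
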