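import Crest.Agent.R114.Basic2

/-! # R114/Space : projections and functionals on the completion `W`. -/

set_option autoImplicit false
open Filter Topology Finset

namespace Crest.Agent.R114

variable {Γ : Type} [LinearOrder Γ] {𝕜 : Type} [RCLike 𝕜] {S : Setup Γ}

variable {W : Type} [NormedAddCommGroup W] [NormedSpace 𝕜 W]

namespace Mdl
variable (M : Mdl S 𝕜 W)

/-- functionals agreeing on the dense subspace agree -/
theorem ext_dual {φ ψ : StrongDual 𝕜 W} (h : ∀ x, φ (M.emb x) = ψ (M.emb x)) : φ = ψ := by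
  ext w
  exact M.dense.induction_on (p := fun w => φ w = ψ w) w
    (isClosed_eq φ.continuous ψ.continuous) h

/-- bounds on the dense subspace extend -/
theorem norm_dual_le (φ : StrongDual 𝕜 W) {C : ℝ} (hC : 0 ≤ C)
    (h : ∀ x, ‖φ (M.emb x)‖ ≤ C * nrm S x) : ‖φ‖ ≤ C := by
  refine φ.opNorm_le_bound hC fun w => ?_
  refine M.dense.induction_on (p := fun w => ‖φ w‖ ≤ C * ‖w‖) w
    (isClosed_le (by fun_prop) (by fun_prop)) fun x => ?_
  rw [M.norm_emb]; exact h x

/-- Extension of bounded functionals (`LinearMap.extendOfNorm`, or Hahn–Banach `exists_extension_norm_eq` on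
`range emb`, `emb` being injective). -/
theorem exists_ext (φ : (Γ →₀ 𝕜) →ₗ[𝕜] 𝕜) {C : ℝ} (hC : 0 ≤ C)
    (h : ∀ x, ‖φ x‖ ≤ C * nrm S x) :
    ∃ Φ : StrongDual 𝕜 W, (∀ x, Φ (M.emb x) = φ x) ∧ ‖Φ‖ ≤ C := by
  have h' : ∀ x, ‖φ x‖ ≤ C * ‖M.emb x‖ := fun x => by rw [M.norm_emb]; exact h x
  exact ⟨φ.extendOfNorm M.emb, fun x => LinearMap.extendOfNorm_eq M.dense ⟨C, h'⟩ x,
    LinearMap.opNorm_extendOfNorm_le M.dense hC h'⟩

theorem norm_P_le {E : Set Γ} (hE : E.OrdConnected) (w : W) : ‖M.P E w‖ ≤ ‖w‖ := by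
  refine M.dense.induction_on (p := fun w => ‖M.P E w‖ ≤ ‖w‖) w
    (isClosed_le (by fun_prop) (by fun_prop)) fun x => ?_
  rw [M.P_emb E hE, M.norm_emb, M.norm_emb]
  exact nrm_res_le S hE x

theorem P_P {E E' : Set Γ} (hE : E.OrdConnected) (hE' : E'.OrdConnected) (w : W) :
    M.P E (M.P E' w) = M.P (E ∩ E') w := by
  refine M.dense.induction_on (p := fun w => M.P E (M.P E' w) = M.P (E ∩ E') w) w
    (isClosed_eq (by fun_prop) (by fun_prop)) fun x => ?_
  rw [M.P_emb E' hE', M.P_emb E hE, M.P_emb _ (hE.inter hE'), res_res]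

theorem P_univ (w : W) : M.P Set.univ w = w := by
  refine M.dense.induction_on (p := fun w => M.P Set.univ w = w) w
    (isClosed_eq (by fun_prop) (by fun_prop)) fun x => ?_
  rw [M.P_emb _ Set.ordConnected_univ, res_univ]

theorem P_empty (w : W) : M.P ∅ w = 0 := by
  refine M.dense.induction_on (p := fun w => M.P ∅ w = 0) w
    (isClosed_eq (by fun_prop) (by fun_prop)) fun x => ?_
  rw [M.P_emb _ Set.ordConnected_empty, res_eq_zero (fun γ _ => Set.notMem_empty γ), map_zero]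

theorem P_union {E E' : Set Γ} (hE : E.OrdConnected) (hE' : E'.OrdConnected)
    (hU : (E ∪ E').OrdConnected) (hd : Disjoint E E') (w : W) :
    M.P (E ∪ E') w = M.P E w + M.P E' w := by
  refine M.dense.induction_on (p := fun w => M.P (E ∪ E') w = M.P E w + M.P E' w) w
    (isClosed_eq (by fun_prop) (by fun_prop)) fun x => ?_
  rw [M.P_emb _ hU, M.P_emb _ hE, M.P_emb _ hE', res_union hd, map_add]

theorem P_singleton (γ : Γ) (w : W) :
    M.P {γ} w = M.ev γ w • M.emb (Finsupp.single γ 1) := by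
  refine M.dense.induction_on
    (p := fun w => M.P {γ} w = M.ev γ w • M.emb (Finsupp.single γ 1)) w
    (isClosed_eq (by fun_prop) (by fun_prop)) fun x => ?_
  rw [M.P_emb _ Set.ordConnected_singleton, M.ev_emb, ← map_smul]
  congr 1
  ext δ
  by_cases hδ : δ = γ
  · subst hδ
    rw [res_apply_mem x (Set.mem_singleton δ)]
    simp
  · rw [res_apply_not_mem x (by simpa using hδ)]
    simp [hδ]

theorem ev_P_mem {E : Set Γ} (hE : E.OrdConnected) {γ : Γ} (h : γ ∈ E) (w : W) :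
    M.ev γ (M.P E w) = M.ev γ w := by
  refine M.dense.induction_on (p := fun w => M.ev γ (M.P E w) = M.ev γ w) w
    (isClosed_eq (by fun_prop) (by fun_prop)) fun x => ?_
  rw [M.P_emb _ hE, M.ev_emb, M.ev_emb, res_apply_mem x h]

theorem ev_P_not_mem {E : Set Γ} (hE : E.OrdConnected) {γ : Γ} (h : γ ∉ E) (w : W) :
    M.ev γ (M.P E w) = 0 := by
  refine M.dense.induction_on (p := fun w => M.ev γ (M.P E w) = 0) w
    (isClosed_eq (by fun_prop) (by fun_prop)) fun x => ?_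
  rw [M.P_emb _ hE, M.ev_emb, res_apply_not_mem x h]

theorem actW_emb (h : Γ →₀ ℚ) (x : Γ →₀ 𝕜) : M.actW h (M.emb x) = act h x := by
  rw [act_eq_sum h x h.support subset_rfl, Mdl.actW, _root_.sum_apply]
  refine Finset.sum_congr rfl fun γ _ => ?_
  rw [_root_.smul_apply, M.ev_emb, smul_eq_mul]

theorem norm_actW_res_le {h : Γ →₀ ℚ} (hh : KK S none h) {E : Set Γ} (hE : E.OrdConnected) :
    ‖M.actW (res E h)‖ ≤ 1 := by
  refine M.norm_dual_le _ zero_le_one fun x => ?_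
  rw [M.actW_emb, act_res_left, one_mul]
  exact act_le_nrm hh hE x

theorem actW_P {h : Γ →₀ ℚ} {E : Set Γ} (hE : E.OrdConnected) (hs : ∀ γ ∈ h.support, γ ∈ E)
    (w : W) : M.actW h (M.P E w) = M.actW h w := by
  refine M.dense.induction_on (p := fun w => M.actW h (M.P E w) = M.actW h w) w
    (isClosed_eq (by fun_prop) (by fun_prop)) fun x => ?_
  rw [M.P_emb _ hE, M.actW_emb, M.actW_emb, ← act_res_left, res_eq_self hs]

/-- the lower estimate in `W` (`sum_nrm_res_le` and `DenseRange.induction_on`) -/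
theorem sum_norm_P_le (j d : ℕ) (hd : d ≤ S.n j) (E : ℕ → Set Γ) (hE : SuccInt E d) (w : W) :
    ∑ c ∈ range d, ‖M.P (E c) w‖ ≤ 2 * S.m j * ‖w‖ := by
  refine M.dense.induction_on
    (p := fun w => ∑ c ∈ range d, ‖M.P (E c) w‖ ≤ 2 * S.m j * ‖w‖) w
    (isClosed_le (by fun_prop) (by fun_prop)) fun x => ?_
  rw [M.norm_emb]
  refine le_trans (le_of_eq ?_) (sum_nrm_res_le S j d hd E hE x)
  refine Finset.sum_congr rfl fun c hc => ?_
  rw [M.P_emb _ (hE.1 c (Finset.mem_range.1 hc)), M.norm_emb]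

/-- approximation inside an interval (`x = res E x'` with `emb x'` close to `w`) -/
theorem exists_approx {E : Set Γ} (hE : E.OrdConnected) (w : W) {ε : ℝ} (hε : 0 < ε) :
    ∃ x : Γ →₀ 𝕜, (∀ γ ∈ x.support, γ ∈ E) ∧ ‖M.P E w - M.emb x‖ < ε := by
  obtain ⟨x, hx⟩ := M.dense.exists_dist_lt w hε
  refine ⟨res E x, fun γ hγ => (mem_support_res.1 hγ).2, ?_⟩
  rw [← M.P_emb _ hE, ← map_sub]
  refine lt_of_le_of_lt (M.norm_P_le hE _) ?_
  rwa [dist_eq_norm] at hx

/-- countable support: `w = lim emb (x n)`, `A = ⋃ supp (x n)` -/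
theorem exists_countable_support (w : W) : ∃ A : Set Γ, A.Countable ∧
    ∀ E : Set Γ, E.OrdConnected → A ⊆ E → M.P E w = w := by
  have hx : ∀ n : ℕ, ∃ x : Γ →₀ 𝕜, dist w (M.emb x) < 1 / ((n : ℝ) + 1) := fun n =>
    M.dense.exists_dist_lt w (by positivity)
  choose x hx using hx
  refine ⟨⋃ n, ((x n).support : Set Γ),
    Set.countable_iUnion fun n => (x n).support.countable_toSet, fun E hE hA => ?_⟩
  have key : ∀ n : ℕ, ‖M.P E w - w‖ ≤ 2 * (1 / ((n : ℝ) + 1)) := by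
    intro n
    have h1 : M.P E (M.emb (x n)) = M.emb (x n) := by
      rw [M.P_emb _ hE, res_eq_self]
      intro γ hγ
      exact hA (Set.mem_iUnion.2 ⟨n, hγ⟩)
    have h2 : M.P E w - w = M.P E (w - M.emb (x n)) - (w - M.emb (x n)) := by
      rw [map_sub, h1]; abel
    have h3 := hx n
    rw [dist_eq_norm] at h3
    have h4 := M.norm_P_le hE (w - M.emb (x n))
    have h5 := norm_sub_le (M.P E (w - M.emb (x n))) (w - M.emb (x n))
    rw [h2]; linarith
  have hlim : Tendsto (fun n : ℕ => 2 * (1 / ((n : ℝ) + 1))) atTop (𝓝 (2 * 0)) :=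
    tendsto_one_div_add_atTop_nhds_zero_nat.const_mul 2
  have h0 : ‖M.P E w - w‖ ≤ 2 * 0 := ge_of_tendsto' hlim key
  rw [mul_zero] at h0
  exact sub_eq_zero.1 (norm_le_zero_iff.1 h0)

end Mdl

end Crest.Agent.R114
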