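import Crest.Agent.R114.Space

/-! # R114/Tail : estimates for the tail functionals. -/

set_option autoImplicit false
open Filter Topology Finset

namespace Crest.Agent.R114

variable {Γ : Type} [LinearOrder Γ] {𝕜 : Type} [RCLike 𝕜] {S : Setup Γ}
  {W : Type} [NormedAddCommGroup W] [NormedSpace 𝕜 W] {M : Mdl S 𝕜 W}
  {f : Γ → Dat Γ 𝕜 W}

theorem Adm.mono {Z : Finset Γ} {K K' : ℕ} (h : Adm f Z K) (hK : K ≤ K') : Adm f Z K' := by
  refine ⟨fun ζ hζ n hn => h.1 ζ hζ n (hK.trans hn), fun ζ hζ ζ' hζ' hne n n' hn hn' => ?_⟩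
  exact h.2 ζ hζ ζ' hζ' hne n n' (hK.trans hn) (hK.trans hn')

theorem Adm.congr' {f' : Γ → Dat Γ 𝕜 W} {Z : Finset Γ} {K : ℕ} (h : Adm f Z K)
    (hf : ∀ ζ ∈ Z, f ζ = f' ζ) : Adm f' Z K := by
  refine ⟨fun ζ hζ n hn => ?_, fun ζ hζ ζ' hζ' hne n n' hn hn' => ?_⟩
  · rw [← hf ζ hζ]; exact h.1 ζ hζ n hn
  · rw [← hf ζ hζ, ← hf ζ' hζ']; exact h.2 ζ hζ ζ' hζ' hne n n' hn hn'

theorem corr_congr {f' : Γ → Dat Γ 𝕜 W} {g : Γ →₀ ℚ} {K : ℕ}
    (hf : ∀ ζ ∈ g.support, f ζ = f' ζ) : corr f g K = corr f' g K := by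
  unfold corr
  exact sum_congr rfl fun ζ hζ => by rw [hf ζ hζ]

/-- the invariants at `η` only look at `f` below `η` -/
theorem Inv.congr {f' : Γ → Dat Γ 𝕜 W} {η : Γ} {d : Dat Γ 𝕜 W} (hf : ∀ ζ < η, f ζ = f' ζ)
    (h : Inv M f η d) : Inv M f' η d := by
  have hG : ∀ n, GG M f' d.c d.κ n = GG M f d.c d.κ n := fun n => by
    unfold GG
    rw [corr_congr (f := f) (f' := f') (fun ζ hζ => hf ζ (h.pre.supp n ζ hζ))]
  refine ⟨⟨h.pre.valid, h.pre.supp, h.pre.ptfin, fun ζ hζ => ?_, fun n => ?_⟩, fun k x => ?_⟩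
  · rw [← hf ζ hζ]; exact h.pre.sep ζ hζ
  · exact (h.pre.adm n).congr' (fun ζ hζ => hf ζ (h.pre.supp n ζ hζ))
  · simp only [hG]; exact h.spec k x

theorem Done.congr {f' : Γ → Dat Γ 𝕜 W} {η : Γ} {d : Dat Γ 𝕜 W} {N : Submodule 𝕜 W}
    (hf : ∀ ζ < η, f ζ = f' ζ) (h : Done M f η d N) : Done M f' η d N := by
  obtain ⟨u, C, h1, h2, h3, h4⟩ := h
  refine ⟨u, C, h1, h2, fun ζ hζ => ?_, h4⟩
  have : xx M f' ζ = xx M f ζ := by unfold xx; rw [hf ζ hζ]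
  rw [this]; exact h3 ζ hζ

/-- Admissible tails exist: for `ζ < ζ'` in `Z`, `sep` at `ζ'` and `Chn.At.eq_of_w_eq` separate the weights from some index
on; `Valid.le_w` for the cardinality condition. -/
theorem exists_adm {L : Set Γ} (hf : ∀ ζ ∈ L, Inv M f ζ (f ζ)) (Z : Finset Γ)
    (hZ : ∀ ζ ∈ Z, ζ ∈ L) : ∃ K, Adm f Z K := by
  have h1 : ∀ᶠ K in atTop, ∀ ζ ∈ Z, ∀ ζ' ∈ Z, ζ < ζ' → ∀ n, K ≤ n →
      (f ζ').c.p n ≠ (f ζ).c.p n := by
    rw [eventually_all_finset]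
    intro ζ _
    rw [eventually_all_finset]
    intro ζ' hζ'
    by_cases hlt : ζ < ζ'
    · have := (hf ζ' (hZ ζ' hζ')).pre.sep ζ hlt
      obtain ⟨K, hK⟩ := eventually_atTop.1 this
      filter_upwards [eventually_ge_atTop K] with K' hK' _ n hn
      exact hK n (hK'.trans hn)
    · exact Eventually.of_forall fun _ h => absurd h hlt
  obtain ⟨K, hK1, hK2⟩ := (h1.and (eventually_ge_atTop Z.card)).exists
  have hAt : ∀ ζ ∈ Z, ∀ n, (f ζ).c.At S n := fun ζ hζ n =>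
    ((hf ζ (hZ ζ hζ)).pre.valid (n + 1) n (Nat.lt_succ_self n)).1
  refine ⟨K, fun ζ hζ n hn => ?_, fun ζ hζ ζ' hζ' hne n n' hn hn' hw => ?_⟩
  · exact hK2.trans (hn.trans
      (((hf ζ (hZ ζ hζ)).pre.valid (n + 1)).le_w (Nat.lt_succ_self n)))
  · obtain ⟨rfl, hp, -⟩ := (hAt ζ hζ n).eq_of_w_eq (hAt ζ' hζ' n') hw
    rcases lt_or_gt_of_ne hne with hlt | hlt
    · exact hK1 ζ hζ ζ' hζ' hlt n hn hp.symm
    · exact hK1 ζ' hζ' ζ hζ hlt n hn hp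

theorem norm_corr_le (g : Γ →₀ ℚ) (K : ℕ) {r : ℝ} (hr : ∀ γ, |((g γ : ℚ) : ℝ)| ≤ r) (w : W) :
    ‖corr f g K w‖ ≤ r * ∑ ζ ∈ g.support, ‖(f ζ).T K w‖ := by
  unfold corr
  rw [ContinuousLinearMap.sum_apply, mul_sum]
  refine (norm_sum_le _ _).trans (sum_le_sum fun ζ _ => ?_)
  rw [ContinuousLinearMap.smul_apply, norm_smul]
  refine mul_le_mul_of_nonneg_right ?_ (norm_nonneg _)
  have : ‖((g ζ : ℚ) : 𝕜)‖ = |((g ζ : ℚ) : ℝ)| := by
    rw [← RCLike.ofReal_ratCast, RCLike.norm_ofReal]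
  rw [this]; exact hr ζ

theorem sum_GG_eq (c : Chn Γ) (κ : ℕ → ℕ) (K b : ℕ) (x : Γ →₀ 𝕜) :
    ∑ n ∈ range b, GG M f c κ (n + K) (M.emb x) =
      act (c.seg K (K + b)) (res Set.univ x) +
        ∑ n ∈ Ico K (K + b), corr f (c.g n) (κ n) (M.emb x) := by
  rw [res_univ, Chn.seg, act_sum_left, ← sum_add_distrib, sum_Ico_eq_sum_range,
    Nat.add_sub_cancel_left]
  refine sum_congr rfl fun n _ => ?_
  rw [GG, ContinuousLinearMap.add_apply, M.actW_emb, add_comm n K]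

theorem two_div_m_zero_le (S : Setup Γ) : (2 : ℝ) / S.m 0 ≤ 1 / 32 := by
  have h : (64 : ℝ) ≤ S.m 0 := by exact_mod_cast S.m0
  rw [div_le_div_iff₀ (by linarith) (by norm_num)]
  linarith

theorem tail_step (Z : Finset Γ) (hf : ∀ ζ ∈ Z, Inv M f ζ (f ζ)) {K : ℕ} (hK : Adm f Z K)
    (x : Γ →₀ 𝕜)
    (ih : ∀ ζ ∈ Z, ∀ n, ∑ ξ ∈ ((f ζ).c.g n).support, ‖(f ξ).T ((f ζ).κ n) (M.emb x)‖ ≤
      8 * nrm S x) :
    ∑ ζ ∈ Z, ‖(f ζ).T K (M.emb x)‖ ≤ 8 * nrm S x := by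
  have hN := nrm_nonneg S x
  have ht : Tendsto (fun b => ∑ ζ ∈ Z, ‖∑ n ∈ range b,
      GG M f (f ζ).c (f ζ).κ (n + K) (M.emb x)‖) atTop
      (𝓝 (∑ ζ ∈ Z, ‖(f ζ).T K (M.emb x)‖)) :=
    tendsto_finset_sum _ fun ζ hζ => ((hf ζ hζ).spec K x).tendsto_sum_nat.norm
  refine le_of_tendsto' ht fun b => ?_
  have h1 : ∑ ζ ∈ Z, ‖act ((f ζ).c.seg K (K + b)) (res Set.univ x)‖ ≤ 4 * nrm S x :=
    sum_seg_le Z (fun ζ => (f ζ).c) (fun _ => K) (fun _ => K + b)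
      (fun ζ hζ => (hf ζ hζ).pre.valid _) (fun ζ hζ n hn => hK.1 ζ hζ n (mem_Ico.1 hn).1)
      (fun ζ hζ ζ' hζ' hne n hn n' hn' =>
        hK.2 ζ hζ ζ' hζ' hne n n' (mem_Ico.1 hn).1 (mem_Ico.1 hn').1) Set.ordConnected_univ x
  have h2 : ∑ ζ ∈ Z, ∑ n ∈ Ico K (K + b), (1 : ℝ) / S.m ((f ζ).c.w n) ≤ 2 / S.m 0 :=
    S.toPar.sum_sum_inv_m_le Z (fun _ => Ico K (K + b)) (fun ζ n => (f ζ).c.w n)
      (fun ζ hζ => ((hf ζ hζ).pre.valid (K + b)).injOn _ fun n hn => (mem_Ico.1 hn).2)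
      (fun ζ hζ ζ' hζ' hne n hn n' hn' =>
        hK.2 ζ hζ ζ' hζ' hne n n' (mem_Ico.1 hn).1 (mem_Ico.1 hn').1) 0
      (fun _ _ _ _ => Nat.zero_le _)
  have h3 : ∀ ζ ∈ Z, ∀ n, ‖corr f ((f ζ).c.g n) ((f ζ).κ n) (M.emb x)‖ ≤
      1 / (S.m ((f ζ).c.w n) : ℝ) * (8 * nrm S x) := by
    intro ζ hζ n
    have hk := ((hf ζ hζ).pre.valid (n + 1) n (Nat.lt_succ_self n)).2
    refine (norm_corr_le _ _ (fun γ => (hk.abs_le γ).2 _ rfl) _).trans ?_
    exact mul_le_mul_of_nonneg_left (ih ζ hζ n) (by positivity)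
  calc ∑ ζ ∈ Z, ‖∑ n ∈ range b, GG M f (f ζ).c (f ζ).κ (n + K) (M.emb x)‖
      ≤ ∑ ζ ∈ Z, (‖act ((f ζ).c.seg K (K + b)) (res Set.univ x)‖ +
          ∑ n ∈ Ico K (K + b), 1 / (S.m ((f ζ).c.w n) : ℝ) * (8 * nrm S x)) := by
        refine sum_le_sum fun ζ hζ => ?_
        rw [sum_GG_eq]
        refine (norm_add_le _ _).trans (add_le_add le_rfl ?_)
        exact (norm_sum_le _ _).trans (sum_le_sum fun n _ => h3 ζ hζ n)
    _ = ∑ ζ ∈ Z, ‖act ((f ζ).c.seg K (K + b)) (res Set.univ x)‖ +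
          (∑ ζ ∈ Z, ∑ n ∈ Ico K (K + b), 1 / (S.m ((f ζ).c.w n) : ℝ)) * (8 * nrm S x) := by
        rw [sum_add_distrib, sum_mul]
        simp only [sum_mul]
    _ ≤ 4 * nrm S x + 1 / 32 * (8 * nrm S x) :=
        add_le_add h1 (mul_le_mul_of_nonneg_right (h2.trans (two_div_m_zero_le S)) (by positivity))
    _ ≤ 8 * nrm S x := by linarith

/-- The tail lemma.  Recipe: first for `w = emb x` (then `DenseRange.induction_on`).  Strong induction on `η`: for all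
`Z ⊆ L ∩ Iic η` and admissible `K`.  For each `b`, `∑_{n<b} GG (n+K) (emb x) = act (seg K (K+b)) x + ∑ corr`; `sum_seg_le` bounds
the first parts by `4 nrm x`; `‖corr f g K' (emb x)‖ ≤ (1/m w) 8 nrm x` by `KK.abs_le` and the induction hypothesis for
`supp g ⊆ Iio ζ` (empty, or bounded by its maximum `< ζ`); `Par.sum_sum_inv_m_le` with `t = 0`; let `b → ∞`
(`HasSum.tendsto_sum_nat`, `le_of_tendsto'`). -/
theorem tail_le [WellFoundedLT Γ] {L : Set Γ} (hL : IsLowerSet L) (hf : ∀ ζ ∈ L, Inv M f ζ (f ζ))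
    (Z : Finset Γ) (hZ : ∀ ζ ∈ Z, ζ ∈ L) {K : ℕ} (hK : Adm f Z K) (w : W) :
    ∑ ζ ∈ Z, ‖(f ζ).T K w‖ ≤ 8 * ‖w‖ := by
  have hQ : ∀ (x : Γ →₀ 𝕜) (η : Γ), ∀ Z : Finset Γ, (∀ ζ ∈ Z, ζ ∈ L ∧ ζ < η) → ∀ K, Adm f Z K →
      ∑ ζ ∈ Z, ‖(f ζ).T K (M.emb x)‖ ≤ 8 * nrm S x := by
    intro x η
    induction η using WellFoundedLT.induction with
    | ind η ih =>
      intro Z hZ K hK
      refine tail_step Z (fun ζ hζ => hf ζ (hZ ζ hζ).1) hK x fun ζ hζ n => ?_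
      have hp := (hf ζ (hZ ζ hζ).1).pre
      exact ih ζ (hZ ζ hζ).2 _ (fun ξ hξ => ⟨hL (hp.supp n ξ hξ).le (hZ ζ hζ).1, hp.supp n ξ hξ⟩)
        _ (hp.adm n)
  refine M.dense.induction_on (p := fun w => ∑ ζ ∈ Z, ‖(f ζ).T K w‖ ≤ 8 * ‖w‖) w ?_ fun x => ?_
  · exact isClosed_le (by fun_prop) (by fun_prop)
  · rw [M.norm_emb]
    refine tail_step Z (fun ζ hζ => hf ζ (hZ ζ hζ)) hK x fun ζ hζ n => ?_
    have hp := (hf ζ (hZ ζ hζ)).pre
    exact hQ x ζ _ (fun ξ hξ => ⟨hL (hp.supp n ξ hξ).le (hZ ζ hζ), hp.supp n ξ hξ⟩) _ (hp.adm n)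

theorem corr_le [WellFoundedLT Γ] {L : Set Γ} (hL : IsLowerSet L) (hf : ∀ ζ ∈ L, Inv M f ζ (f ζ))
    (g : Γ →₀ ℚ) (hg : ∀ ζ ∈ g.support, ζ ∈ L) {K : ℕ} (hK : Adm f g.support K) {r : ℝ}
    (hr0 : 0 ≤ r) (hr : ∀ γ, |((g γ : ℚ) : ℝ)| ≤ r) (w : W) :
    ‖corr f g K w‖ ≤ r * (8 * ‖w‖) := by
  exact (norm_corr_le g K hr w).trans
    (mul_le_mul_of_nonneg_left (tail_le hL hf _ hg hK w) hr0)

/-- Existence of the tail functionals.  Recipe: `n ↦ act (g (n+k)) x` has finite support (`ptfin`), the corrections are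
bounded by `8 nrm x / m (w n)` (`corr_le`), summable (`summable_of_sum_range_le`, `Par.sum_inv_m_le'`); `x ↦ ∑' n, …` is
linear; partial sums are bounded by `2 nrm x + nrm x` (`seg_le`); `Mdl.exists_ext`. -/
theorem exists_T [WellFoundedLT Γ] {η : Γ} (hf : ∀ ζ < η, Inv M f ζ (f ζ)) {c : Chn Γ}
    {κ : ℕ → ℕ} (h : Pre S f η c κ) :
    ∃ T : ℕ → StrongDual 𝕜 W, (∀ k, ‖T k‖ ≤ 3) ∧ Inv M f η ⟨c, κ, T⟩ := by
  have hc : ∀ n (x : Γ →₀ 𝕜), ‖corr f (c.g n) (κ n) (M.emb x)‖ ≤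
      1 / (S.m (c.w n) : ℝ) * (8 * nrm S x) := by
    intro n x
    have hk := (h.valid (n + 1) n (Nat.lt_succ_self n)).2
    rw [← M.norm_emb]
    exact corr_le (L := Set.Iio η) (isLowerSet_Iio η) hf _ (h.supp n) (h.adm n) (by positivity)
      (fun γ => (hk.abs_le γ).2 _ rfl) _
  have hm : ∀ a b, ∑ n ∈ Ico a b, (1 : ℝ) / S.m (c.w n) ≤ 1 / 32 := fun a b =>
    (S.toPar.sum_inv_m_le' (Ico a b) c.w ((h.valid b).injOn _ fun n hn => (mem_Ico.1 hn).2) 0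
      (fun _ _ => Nat.zero_le _)).trans (two_div_m_zero_le S)
  have hsum : ∀ (k : ℕ) (x : Γ →₀ 𝕜), Summable fun n => GG M f c κ (n + k) (M.emb x) := by
    intro k x
    rw [summable_nat_add_iff (f := fun n => GG M f c κ n (M.emb x)) k]
    simp only [GG, ContinuousLinearMap.add_apply, M.actW_emb]
    refine Summable.add ?_ ?_
    · refine summable_of_finite_support ?_
      refine (x.support.finite_toSet.biUnion fun γ _ => h.ptfin γ).subset fun n hn => ?_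
      by_contra hcon
      refine hn (act_eq_zero fun γ hγ hx => hcon ?_)
      exact Set.mem_biUnion hx hγ
    · refine Summable.of_norm_bounded (g := fun n => 1 / (S.m (c.w n) : ℝ) * (8 * nrm S x))
        (Summable.mul_right _ ?_) fun n => hc n x
      refine summable_of_sum_range_le (c := 1 / 32) (fun n => by positivity) fun b => ?_
      rw [range_eq_Ico]; exact hm 0 b
  have hex : ∀ k, ∃ Φ : StrongDual 𝕜 W,
      (∀ x, Φ (M.emb x) = ∑' n, GG M f c κ (n + k) (M.emb x)) ∧ ‖Φ‖ ≤ 3 := by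
    intro k
    let φ : (Γ →₀ 𝕜) →ₗ[𝕜] 𝕜 :=
      { toFun := fun x => ∑' n, GG M f c κ (n + k) (M.emb x)
        map_add' := fun x y => by
          simp only [map_add]
          exact (hsum k x).tsum_add (hsum k y)
        map_smul' := fun a x => by
          simp only [map_smul, smul_eq_mul, RingHom.id_apply]
          exact tsum_mul_left }
    refine M.exists_ext φ (by norm_num) fun x => ?_
    have hN := nrm_nonneg S x
    refine le_of_tendsto' (hsum k x).hasSum.tendsto_sum_nat.norm fun b => ?_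
    rw [sum_GG_eq]
    have h1 := seg_le (h.valid (k + b)) k Set.ordConnected_univ x
    have h2 : ‖∑ n ∈ Ico k (k + b), corr f (c.g n) (κ n) (M.emb x)‖ ≤ 1 / 32 * (8 * nrm S x) := by
      refine (norm_sum_le _ _).trans ((sum_le_sum fun n _ => hc n x).trans ?_)
      rw [← sum_mul]
      exact mul_le_mul_of_nonneg_right (hm _ _) (by positivity)
    refine (norm_add_le _ _).trans ?_
    linarith
  choose T hT hT3 using hex
  refine ⟨T, hT3, h, fun k x => ?_⟩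
  show HasSum (fun n => GG M f c κ (n + k) (M.emb x)) (T k (M.emb x))
  rw [hT]
  exact (hsum k x).hasSum

/-- tails vanish pointwise (`tendsto_sum_nat_add`) -/
theorem Inv.tendsto_T {η : Γ} {d : Dat Γ 𝕜 W} (h : Inv M f η d) (x : Γ →₀ 𝕜) :
    Tendsto (fun k => d.T k (M.emb x)) atTop (𝓝 0) := by
  have : (fun k => d.T k (M.emb x)) = fun k => ∑' n, GG M f d.c d.κ (n + k) (M.emb x) :=
    funext fun k => (h.spec k x).tsum_eq.symm
  rw [this]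
  exact tendsto_sum_nat_add (fun n => GG M f d.c d.κ n (M.emb x))

/-- (`hasSum_nat_add_iff`, uniqueness of sums, `Mdl.ext_dual`) -/
theorem Inv.T_succ {η : Γ} {d : Dat Γ 𝕜 W} (h : Inv M f η d) (k : ℕ) :
    d.T k = GG M f d.c d.κ k + d.T (k + 1) := by
  refine M.ext_dual fun x => ?_
  have h1 := h.spec (k + 1) x
  have h2 : HasSum (fun n => GG M f d.c d.κ (n + 1 + k) (M.emb x)) (d.T (k + 1) (M.emb x)) := by
    simpa only [add_assoc, add_comm 1 k] using h1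
  have h3 := (hasSum_nat_add_iff (f := fun n => GG M f d.c d.κ (n + k) (M.emb x)) 1).1 h2
  rw [(h.spec k x).unique h3]
  simp [add_comm]

/-- Supports, relative version: termwise equality of the series on `emb x` and `emb (res (Iio lam) x)`. -/
theorem Inv.T_P_of {η lam : Γ} {d : Dat Γ 𝕜 W} (h : Inv M f η d)
    (hs : ∀ n, ∀ γ ∈ (d.c.g n).support, γ < lam)
    (ih : ∀ ζ < lam, ζ < η → ∀ k w, (f ζ).T k (M.P (Set.Iio ζ) w) = (f ζ).T k w) (k : ℕ) (w : W) :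
    d.T k (M.P (Set.Iio lam) w) = d.T k w := by
  have hG : ∀ n w, GG M f d.c d.κ n (M.P (Set.Iio lam) w) = GG M f d.c d.κ n w := by
    intro n w
    simp only [GG, ContinuousLinearMap.add_apply, corr, ContinuousLinearMap.sum_apply,
      ContinuousLinearMap.smul_apply]
    rw [M.actW_P Set.ordConnected_Iio (hs n)]
    congr 1
    refine sum_congr rfl fun ξ hξ => ?_
    have h1 := hs n ξ hξ
    have h2 := h.pre.supp n ξ hξ
    rw [← ih ξ h1 h2 _ (M.P _ w), M.P_P Set.ordConnected_Iio Set.ordConnected_Iio,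
      Set.inter_eq_left.2 (Set.Iio_subset_Iio h1.le), ih ξ h1 h2]
  refine M.dense.induction_on (p := fun w => d.T k (M.P (Set.Iio lam) w) = d.T k w) w ?_
    fun x => ?_
  · exact isClosed_eq (by fun_prop) (by fun_prop)
  · have h1 := h.spec k (res (Set.Iio lam) x)
    rw [← M.P_emb _ Set.ordConnected_Iio] at h1
    simp only [hG] at h1
    exact h1.unique (h.spec k x)

/-- `T_ζ` is supported below `ζ` (strong induction with `Inv.T_P_of`, then `P_P`) -/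
theorem T_P [WellFoundedLT Γ] {L : Set Γ} (hL : IsLowerSet L) (hf : ∀ ζ ∈ L, Inv M f ζ (f ζ))
    {ζ : Γ} (hζ : ζ ∈ L) {E : Set Γ} (hE : E.OrdConnected) (hζE : Set.Iio ζ ⊆ E) (k : ℕ) (w : W) :
    (f ζ).T k (M.P E w) = (f ζ).T k w := by
  have hQ : ∀ ζ ∈ L, ∀ k w, (f ζ).T k (M.P (Set.Iio ζ) w) = (f ζ).T k w := by
    intro ζ
    induction ζ using WellFoundedLT.induction with
    | ind ζ ih =>
      intro hζ k w
      exact (hf ζ hζ).T_P_of (hf ζ hζ).pre.supp (fun ξ hξ _ => ih ξ hξ (hL hξ.le hζ)) k w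
  rw [← hQ ζ hζ k (M.P E w), M.P_P Set.ordConnected_Iio hE, Set.inter_eq_left.2 hζE, hQ ζ hζ]

/-- all `e_ζ* + T_ζ^{(k)}` lie in the span of the generators (strong induction on `ζ`, induction on `k` with `T_succ`;
`GG … n = ∑_{ξ ∈ supp} g ξ • (ev ξ + T_ξ (κ n))`). -/
theorem mem_XX [WellFoundedLT Γ] {L : Set Γ} (hL : IsLowerSet L)
    (hf : ∀ ζ ∈ L, Inv M f ζ (f ζ)) {ζ : Γ} (hζ : ζ ∈ L) (k : ℕ) :
    M.ev ζ + (f ζ).T k ∈ XX M f L := by
  induction ζ using WellFoundedLT.induction generalizing k with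
  | ind ζ ih =>
    have hG : ∀ n, GG M f (f ζ).c (f ζ).κ n ∈ XX M f L := by
      intro n
      unfold GG Mdl.actW corr
      rw [← sum_add_distrib]
      refine Submodule.sum_mem _ fun ξ hξ => ?_
      have h1 := (hf ζ hζ).pre.supp n ξ hξ
      have h2 := Submodule.smul_mem (XX M f L) (((f ζ).c.g n ξ : ℚ) : 𝕜)
        (ih ξ h1 (hL h1.le hζ) ((f ζ).κ n))
      convert h2 using 1
      ext w
      simp [mul_add]
    induction k with
    | zero => exact Submodule.subset_span ⟨ζ, hζ, rfl⟩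
    | succ k ihk =>
      have : M.ev ζ + (f ζ).T (k + 1) = (M.ev ζ + (f ζ).T k) - GG M f (f ζ).c (f ζ).κ k := by
        rw [(hf ζ hζ).T_succ k]; abel
      rw [this]
      exact Submodule.sub_mem _ ihk (hG k)

end Crest.Agent.R114
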