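import Crest.Agent.R114.Pair
import Crest.Agent.R114.Reduce
import Crest.Agent.R114.Tail

/-! # R114/Stage : one step of the recursion. -/

set_option autoImplicit false
open Filter Topology Finset

namespace Crest.Agent.R114

variable {Γ : Type} [LinearOrder Γ] [WellFoundedLT Γ] {𝕜 : Type} [RCLike 𝕜] {S : Setup Γ}
  {W : Type} [NormedAddCommGroup W] [NormedSpace 𝕜 W] {M : Mdl S 𝕜 W}
  {f : Γ → Dat Γ 𝕜 W}

/-- The trivial step.  Recipe: `e : ℕ → Γ` with `Iio η ⊆ range e` (`(hc.insert η).exists_eq_range`), `q i = (f (e i)).c.p`,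
`exists_zero_chain`, `κ = 0`, `exists_T`. -/
theorem stage_trivial {η : Γ} (hc : (Set.Iio η).Countable) (hf : ∀ ζ < η, Inv M f ζ (f ζ)) :
    ∃ d, Inv M f η d := by
  obtain ⟨e, he⟩ := (hc.insert η).exists_eq_range (Set.insert_nonempty _ _)
  obtain ⟨c, hv, hq, hg⟩ := exists_zero_chain S fun i => (f (e i)).c.p
  have hpre : Pre S f η c fun _ => 0 :=
    { valid := hv
      supp := fun n γ hγ => by simp [hg n] at hγ
      ptfin := fun γ => by simp [hg]
      sep := fun ζ hζ => by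
        obtain ⟨i, rfl⟩ : ζ ∈ Set.range e := he ▸ Set.mem_insert_of_mem η hζ
        filter_upwards [eventually_ge_atTop i] with n hn using hq i n hn
      adm := fun n => by simp [hg n, Adm] }
  obtain ⟨T, -, hT⟩ := exists_T hf hpre
  exact ⟨_, hT⟩

/-- The lower bound on the chain's own vectors: `T 0 (emb (u k)) = ∑' n, (act (g n) (u k) + corr …)`, the first terms vanish
for `n ≠ k` (`Blt.rng_lt`, `act_eq_zero`), the corrections sum to at most `64 · 2 / m 2 ≤ 1/18` (`corr_le`, `KK.abs_le`,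
`Par.sum_inv_m_le'` with `t = 2`, `Par.m_two`). -/
theorem re_T_ge {η : Γ} (hf : ∀ ζ < η, Inv M f ζ (f ζ)) {d : Dat Γ 𝕜 W} (hd : Inv M f η d)
    {u : ℕ → Γ →₀ 𝕜} (hu : Succ u) (h1 : ∀ n, nrm S (u n) ≤ 8)
    (h2 : ∀ n, ∀ γ ∈ (d.c.g n).support, γ ∈ rng (u n))
    (h3 : ∀ n, 1 / 3 ≤ RCLike.re (act (d.c.g n) (u n))) (k : ℕ) :
    5 / 18 ≤ RCLike.re (d.T 0 (M.emb (u k))) := by
  have hs : HasSum (fun n => GG M f d.c d.κ n (M.emb (u k))) (d.T 0 (M.emb (u k))) := by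
    simpa only [Nat.add_zero] using hd.spec 0 (u k)
  have ht : Tendsto (fun b => RCLike.re (∑ n ∈ range b, GG M f d.c d.κ n (M.emb (u k)))) atTop
      (𝓝 (RCLike.re (d.T 0 (M.emb (u k))))) :=
    (RCLike.continuous_re.tendsto _).comp hs.tendsto_sum_nat
  refine ge_of_tendsto ht ?_
  filter_upwards [eventually_gt_atTop k] with b hb
  have hcorr : ∀ n, ‖corr f (d.c.g n) (d.κ n) (M.emb (u k))‖ ≤ 64 * (1 / (S.m (d.c.w n) : ℝ)) := by
    intro n
    have hK := (hd.pre.valid (n + 1) n (Nat.lt_succ_self n)).2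
    have hm := S.toPar.m_pos (d.c.w n)
    have := corr_le (M := M) (isLowerSet_Iio η) hf (d.c.g n) (hd.pre.supp n) (hd.pre.adm n)
      (r := 1 / (S.m (d.c.w n) : ℝ)) (by positivity) (fun γ => (hK.abs_le γ).2 _ rfl) (M.emb (u k))
    rw [M.norm_emb] at this
    refine this.trans ?_
    rw [mul_comm]
    exact mul_le_mul_of_nonneg_right (by linarith [h1 k]) (by positivity)
  have hsum : ∑ n ∈ range b, (1 : ℝ) / (S.m (d.c.w n) : ℝ) ≤ 2 / S.m 2 :=
    S.toPar.sum_inv_m_le' (range b) d.c.w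
      ((hd.pre.valid b).injOn _ fun n hn => mem_range.1 hn) 2
      fun n hn => (hd.pre.valid b n (mem_range.1 hn)).1.two_le
  have hm2 : (2304 : ℝ) ≤ S.m 2 := by exact_mod_cast S.toPar.m_two 2 le_rfl
  have hm3 : (2 : ℝ) / S.m 2 ≤ 2 / 2304 := by gcongr
  have hact : ∑ n ∈ range b, act (d.c.g n) (u k) = act (d.c.g k) (u k) := by
    refine sum_eq_single_of_mem k (mem_range.2 hb) fun n _ hn => act_eq_zero fun γ hγ hγ' => ?_
    rcases lt_or_gt_of_ne hn with h | h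
    · exact lt_irrefl _ ((hu n k h).rng_lt γ (h2 n γ hγ) γ (mem_rng hγ'))
    · exact lt_irrefl _ ((hu k n h).rng_lt γ (mem_rng hγ') γ (h2 n γ hγ))
  have hsplit : ∑ n ∈ range b, GG M f d.c d.κ n (M.emb (u k)) =
      act (d.c.g k) (u k) + ∑ n ∈ range b, corr f (d.c.g n) (d.κ n) (M.emb (u k)) := by
    rw [← hact, ← sum_add_distrib]
    exact sum_congr rfl fun n _ => by
      rw [GG, ContinuousLinearMap.add_apply, M.actW_emb]
  have hb1 : ‖∑ n ∈ range b, corr f (d.c.g n) (d.κ n) (M.emb (u k))‖ ≤ 1 / 18 := by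
    refine (norm_sum_le_of_le _ fun n _ => hcorr n).trans ?_
    rw [← mul_sum]
    linarith
  have hb2 := (abs_le.1 ((RCLike.abs_re_le_norm _).trans hb1)).1
  rw [hsplit, map_add]
  linarith [h3 k]

/-- The main step.  Recipe: `e`, `q` as before; `reduce` with `f i = xx M f (e i)`, `ε = 1/240`; `Src.exists_chain`;
supports lie in `rng (u n) ⊆ Iio lam ⊆ Iio η`, point-finite by `Blt.rng_lt`; `κ n` from `exists_adm` (`L = Iio η`);
`exists_T`; the vectors are the `y k ∈ N` attached to `u k ∈ B k`; `ev η (y k) = 0` (`ev_P_not_mem`),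
`T 0 (y k) = T 0 (P (Iio lam) (y k))` (`Inv.T_P_of`, `T_P`), `5/18 - 3 · 8/240 ≥ 1/8`. -/
theorem stage_main {η : Γ} (hc : (Set.Iio η).Countable) (hf : ∀ ζ < η, Inv M f ζ (f ζ))
    (N : Submodule 𝕜 W) (hN : ¬ FiniteDimensional 𝕜 N) (hη : ∀ w ∈ N, M.P (Set.Iio η) w = w) :
    ∃ d, Inv M f η d ∧ Done M f η d N := by
  obtain ⟨e, he⟩ := (hc.insert η).exists_eq_range (Set.insert_nonempty _ _)
  have hee : ∀ ζ < η, ∃ i, e i = ζ := fun ζ hζ =>
    (he ▸ Set.mem_insert_of_mem η hζ : ζ ∈ Set.range e)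
  obtain ⟨𝓑, lam, C, hlam, hC, hB⟩ :=
    reduce M N hN η hη (fun i => xx M f (e i)) (1 / 240) (by norm_num)
  obtain ⟨c, u, hv, hq, hu, hcu⟩ := 𝓑.exists_chain S fun i => (f (e i)).c.p
  have hsl : ∀ n, ∀ γ ∈ (c.g n).support, γ < lam := fun n γ hγ => by
    obtain ⟨-, -, β, hβ, -, h⟩ := (hcu n).2.2.1 γ hγ
    exact h.trans_lt ((hB n _ (hcu n).1).1 β hβ)
  have hsη : ∀ n, ∀ γ ∈ (c.g n).support, γ < η := fun n γ hγ => (hsl n γ hγ).trans_le hlam
  choose κ hκ using fun n => exists_adm (M := M) (L := Set.Iio η) hf (c.g n).support (hsη n)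
  have hpre : Pre S f η c κ :=
    { valid := hv
      supp := hsη
      ptfin := fun γ => by
        refine Set.Subsingleton.finite fun n hn n' hn' => ?_
        by_contra hne
        rcases lt_or_gt_of_ne hne with h | h
        · exact lt_irrefl _ ((hu n n' h).rng_lt γ ((hcu n).2.2.1 γ hn) γ ((hcu n').2.2.1 γ hn'))
        · exact lt_irrefl _ ((hu n' n h).rng_lt γ ((hcu n').2.2.1 γ hn') γ ((hcu n).2.2.1 γ hn))
      sep := fun ζ hζ => by
        obtain ⟨i, rfl⟩ := hee ζ hζ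
        filter_upwards [eventually_ge_atTop i] with n hn using hq i n hn
      adm := hκ }
  obtain ⟨T, hT3, hT⟩ := exists_T hf hpre
  choose y hyN hy1 hy2 hy3 using fun k => (hB k _ (hcu k).1).2
  refine ⟨_, hT, y, C * 8, hyN,
    fun k => (hy1 k).trans (mul_le_mul_of_nonneg_left (hcu k).2.1 hC), fun ζ hζ => ?_,
    fun k => ?_⟩
  · obtain ⟨i, rfl⟩ := hee ζ hζ
    filter_upwards [eventually_gt_atTop i] with k hk using hy3 k i hk
  · have e1 : M.ev η (y k) = 0 := by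
      rw [← hη _ (hyN k)]
      exact M.ev_P_not_mem Set.ordConnected_Iio (lt_irrefl η) _
    have e2 : T 0 (M.P (Set.Iio lam) (y k)) = T 0 (y k) :=
      hT.T_P_of hsl (fun ζ _ hζ k w => T_P (isLowerSet_Iio η) hf hζ Set.ordConnected_Iio
        subset_rfl k w) 0 (y k)
    have e3 : 5 / 18 ≤ RCLike.re (T 0 (M.emb (u k))) :=
      re_T_ge hf hT hu (fun n => (hcu n).2.1) (fun n => (hcu n).2.2.1)
        (fun n => (hcu n).2.2.2) k
    have e4 : ‖T 0 (M.P (Set.Iio lam) (y k)) - T 0 (M.emb (u k))‖ ≤ 3 * (1 / 240 * 8) := by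
      rw [← map_sub]
      refine ((T 0).le_opNorm _).trans (mul_le_mul (hT3 0) ((hy2 k).trans ?_) (norm_nonneg _)
        (by norm_num))
      linarith [(hcu k).2.1]
    have e5 := RCLike.re_le_norm (T 0 (M.emb (u k)))
    have e6 := norm_sub_norm_le (T 0 (M.emb (u k))) (T 0 (M.P (Set.Iio lam) (y k)))
    rw [norm_sub_rev] at e6
    show 1 / 8 ≤ ‖(M.ev η + T 0) (y k)‖
    rw [ContinuousLinearMap.add_apply, e1, zero_add, ← e2]
    linarith

end Crest.Agent.R114
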